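import Mathlib

/-! The uncentered maximal function and weak gradients. -/

namespace Vale.Agent.Lib.P137

open MeasureTheory Metric
open scoped ENNReal

/-- The uncentered Hardy-Littlewood maximal function over open Euclidean balls on `ℝ^d`: the
supremum, over all open balls containing the point `x`, of the mean value of `|f|` over the ball. -/
noncomputable def uncenteredMax {d : ℕ} (f : EuclideanSpace ℝ (Fin d) → ℝ)
    (x : EuclideanSpace ℝ (Fin d)) : ℝ≥0∞ :=
  ⨆ (c : EuclideanSpace ℝ (Fin d)) (r : ℝ) (_ : 0 < r) (_ : x ∈ ball c r),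
    (∫⁻ y in ball c r, ENNReal.ofReal |f y|) / volume (ball c r)

/-- `G` is a weak gradient of `f` on `ℝ^d`: for every smooth compactly supported test function `φ`
and every vector `w`, the integral of `f` times the directional derivative of `φ` along `w` equals
minus the integral of the component of `G` along `w` times `φ`. -/
def IsWeakGradient {d : ℕ} (f : EuclideanSpace ℝ (Fin d) → ℝ)
    (G : EuclideanSpace ℝ (Fin d) → EuclideanSpace ℝ (Fin d)) : Prop :=
  ∀ φ : EuclideanSpace ℝ (Fin d) → ℝ, ContDiff ℝ ((⊤ : ℕ∞) : WithTop ℕ∞) φ → HasCompactSupport φ →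
    ∀ w : EuclideanSpace ℝ (Fin d),
      ∫ x, f x * fderiv ℝ φ x w = - ∫ x, inner ℝ (G x) w * φ x

end Vale.Agent.Lib.P137
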