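import Vale.Agent.Lib.P137.KeyFinal
import Vale.Agent.Lib.P137.Defs


/-! The abstract setting: a Lipschitz function `f` and a Lipschitz majorant `u` which dominates all
averages over balls, with optimal balls at the points where it is strictly above `f`. -/

namespace Vale.Agent.Lib.P137

open MeasureTheory Set Filter Topology Metric Module
open scoped ENNReal NNReal RealInnerProductSpace Pointwise

set_option linter.unusedSectionVars false
set_option linter.unusedVariables false

variable {E : Type*} [NormedAddCommGroup E] [InnerProductSpace ℝ E] [FiniteDimensional ℝ E]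
  [MeasurableSpace E] [BorelSpace E] {μ : Measure E} [μ.IsAddHaarMeasure]

/-- The abstract pair. -/
structure SuperPair (μ : Measure E) (f u : E → ℝ) (Lf Lu : ℝ≥0) : Prop where
  lipf : LipschitzWith Lf f
  lipu : LipschitzWith Lu u
  le : ∀ x, f x ≤ u x
  avg : AvgPair μ f u
  opt : ∀ x, f x < u x → ∃ (c : E) (r : ℝ), 0 < r ∧ x ∈ closedBall c r ∧
    ∫ y in ball c r, f y ∂μ = u x * (μ (ball c r)).toReal

/-- The gradient vector field. -/
noncomputable def gradField (u : E → ℝ) (x : E) : E :=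
  (InnerProductSpace.toDual ℝ E).symm (fderiv ℝ u x)

lemma inner_gradField (u : E → ℝ) (x w : E) : ⟪gradField u x, w⟫ = fderiv ℝ u x w := by
  simp [gradField, InnerProductSpace.toDual_symm_apply]

lemma norm_gradField (u : E → ℝ) (x : E) : ‖gradField u x‖ = ‖fderiv ℝ u x‖ := by
  simp [gradField]

lemma measurable_gradField (u : E → ℝ) : Measurable (gradField u) := by
  have h1 : Measurable (fderiv ℝ u) := measurable_fderiv ℝ u
  have h2 : Continuous (InnerProductSpace.toDual ℝ E).symm :=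
    (InnerProductSpace.toDual ℝ E).symm.continuous
  exact h2.measurable.comp h1

/-- The unit normal field. -/
noncomputable def normalField (u : E → ℝ) (x : E) : E := ‖gradField u x‖⁻¹ • gradField u x

lemma measurable_normalField (u : E → ℝ) : Measurable (normalField u) := by
  have h1 := measurable_gradField u
  exact (h1.norm.inv).smul h1

lemma norm_normalField {u : E → ℝ} {x : E} (h : fderiv ℝ u x ≠ 0) : ‖normalField u x‖ = 1 := by
  have h1 : ‖gradField u x‖ ≠ 0 := by
    rw [norm_gradField]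
    exact norm_ne_zero_iff.2 h
  rw [normalField, norm_smul, norm_inv, norm_norm, inv_mul_cancel₀ h1]

lemma fderiv_apply_eq {u : E → ℝ} {x : E} (h : fderiv ℝ u x ≠ 0) (w : E) :
    fderiv ℝ u x w = ‖fderiv ℝ u x‖ * ⟪normalField u x, w⟫ := by
  have h1 : ‖gradField u x‖ ≠ 0 := by
    rw [norm_gradField]
    exact norm_ne_zero_iff.2 h
  rw [normalField, inner_smul_left, inner_gradField, norm_gradField]
  simp only [conj_trivial]
  rw [norm_gradField] at h1
  field_simp

/-- The points where the maximal function is differentiable, above `f`, with nonzero gradient. -/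
def Dplus (f u : E → ℝ) : Set E := {x | DifferentiableAt ℝ u x ∧ f x < u x ∧ fderiv ℝ u x ≠ 0}

lemma measurableSet_Dplus {f u : E → ℝ} (hf : Continuous f) (hu : Continuous u) :
    MeasurableSet (Dplus f u) := by
  have h1 : MeasurableSet {x | DifferentiableAt ℝ u x} := measurableSet_of_differentiableAt ℝ u
  have h2 : MeasurableSet {x | f x < u x} := (isOpen_lt hf hu).measurableSet
  have h3 : MeasurableSet {x | fderiv ℝ u x ≠ 0} :=
    ((measurable_fderiv ℝ u) (measurableSet_singleton (0 : E →L[ℝ] ℝ))).compl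
  exact h1.inter (h2.inter h3)

variable {f u : E → ℝ} {Lf Lu : ℝ≥0}

/-- `u` is at least its value at an optimal point on the closed optimal ball. -/
lemma SuperPair.le_on_closedBall (h : SuperPair μ f u Lf Lu) {x c : E} {r : ℝ} (hr : 0 < r)
    (hopt : ∫ y in ball c r, f y ∂μ = u x * (μ (ball c r)).toReal) {p : E}
    (hp : p ∈ closedBall c r) : u x ≤ u p := by
  have h1 := h.avg.avg_le c r hr p hp
  rw [hopt] at h1
  have hpos : 0 < (μ (ball c r)).toReal := by
    rw [measure_ball_toReal μ _ hr]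
    have := volOne_pos μ
    positivity
  exact le_of_mul_le_mul_right h1 hpos

/-- Any optimal ball at a point of `Dplus` is tangent at `x` with center on the normal. -/
lemma SuperPair.optimal_center (h : SuperPair μ f u Lf Lu) {x c : E} {r : ℝ} (hx : x ∈ Dplus f u)
    (hr : 0 < r) (hxc : x ∈ closedBall c r)
    (hopt : ∫ y in ball c r, f y ∂μ = u x * (μ (ball c r)).toReal) :
    c = x + r • normalField u x := by
  obtain ⟨hd, -, h0⟩ := hx
  set ν := normalField u x with hν
  have hνn : ‖ν‖ = 1 := norm_normalField h0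
  have hmin : IsLocalMinOn u (closedBall c r) x :=
    Filter.eventually_of_mem self_mem_nhdsWithin (fun p hp => h.le_on_closedBall hr hopt hp)
  have hder : HasFDerivWithinAt u (fderiv ℝ u x) (closedBall c r) x :=
    hd.hasFDerivAt.hasFDerivWithinAt
  have hy : c - r • ν ∈ closedBall c r := by
    rw [mem_closedBall, dist_eq_norm]
    have : c - r • ν - c = -(r • ν) := by abel
    rw [this, norm_neg, norm_smul, hνn, Real.norm_eq_abs, abs_of_pos hr, mul_one]
  have hseg : segment ℝ x (c - r • ν) ⊆ closedBall c r :=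
    (convex_closedBall c r).segment_subset hxc hy
  have htan := sub_mem_posTangentConeAt_of_segment_subset hseg
  have h1 := hmin.hasFDerivWithinAt_nonneg hder htan
  rw [fderiv_apply_eq h0, ← hν] at h1
  have hg : 0 < ‖fderiv ℝ u x‖ := norm_pos_iff.2 h0
  have h2 : 0 ≤ ⟪ν, c - r • ν - x⟫ := nonneg_of_mul_nonneg_right h1 hg
  set v := c - x with hv
  have e1 : c - r • ν - x = v - r • ν := by rw [hv]; abel
  rw [e1, inner_sub_right, inner_smul_right, real_inner_self_eq_norm_sq, hνn] at h2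
  have h3 : ‖v‖ ≤ r := by
    have := hxc
    rw [mem_closedBall, dist_eq_norm, norm_sub_rev] at this
    exact this
  have h4 : ‖v - r • ν‖ ^ 2 ≤ 0 := by
    rw [@norm_sub_sq_real, inner_smul_right, norm_smul, hνn, Real.norm_eq_abs, abs_of_pos hr,
      real_inner_comm ν v]
    have h5 : ‖v‖ ^ 2 ≤ r ^ 2 := pow_le_pow_left₀ (norm_nonneg _) h3 2
    nlinarith
  have h5 : ‖v - r • ν‖ = 0 := by
    have h6 : 0 ≤ ‖v - r • ν‖ ^ 2 := by positivity
    have h7 : ‖v - r • ν‖ ^ 2 = 0 := le_antisymm h4 h6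
    exact pow_eq_zero_iff (by norm_num) |>.1 h7
  have h6 : v = r • ν := sub_eq_zero.1 (norm_eq_zero.1 h5)
  rw [hv] at h6
  rw [← h6]
  abel

/-- The ray good pairs form a measurable set. -/
lemma measurableSet_rayGood (hf : Continuous f) (hu : Continuous u) :
    MeasurableSet {p : E × E | RayGood f u p.1 p.2} := by
  classical
  -- closed pieces with bounded parameter
  let C : ℕ → Set (E × E) := fun m => {p | ∃ τ ∈ Icc (0 : ℝ) m,
    (∀ ξ ∈ Icc (0 : ℝ) 1, u p.1 ≤ u (p.1 + (ξ * τ) • p.2)) ∧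
      (u p.1 - f p.1) / 4 ≤ |f (p.1 + τ • p.2) - f p.1|}
  have hC : ∀ m, IsClosed (C m) := by
    intro m
    have : CompactSpace (Icc (0 : ℝ) m) := isCompact_iff_compactSpace.1 isCompact_Icc
    let S : Set ((Icc (0 : ℝ) m) × (E × E)) := {q |
      (∀ ξ ∈ Icc (0 : ℝ) 1, u q.2.1 ≤ u (q.2.1 + (ξ * (q.1 : ℝ)) • q.2.2)) ∧
      (u q.2.1 - f q.2.1) / 4 ≤ |f (q.2.1 + (q.1 : ℝ) • q.2.2) - f q.2.1|}
    have hS1 : IsClosed {q : (Icc (0 : ℝ) m) × (E × E) |
        ∀ ξ ∈ Icc (0 : ℝ) 1, u q.2.1 ≤ u (q.2.1 + (ξ * (q.1 : ℝ)) • q.2.2)} := by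
      have : {q : (Icc (0 : ℝ) m) × (E × E) |
          ∀ ξ ∈ Icc (0 : ℝ) 1, u q.2.1 ≤ u (q.2.1 + (ξ * (q.1 : ℝ)) • q.2.2)} =
          ⋂ ξ ∈ Icc (0 : ℝ) 1, {q : (Icc (0 : ℝ) m) × (E × E) |
            u q.2.1 ≤ u (q.2.1 + (ξ * (q.1 : ℝ)) • q.2.2)} := by
        ext q; simp only [mem_ofPred_eq, mem_iInter]
      rw [this]
      refine isClosed_biInter fun ξ _ => ?_
      apply isClosed_le
      · exact hu.comp (continuous_snd.fst)
      · apply hu.comp
        exact continuous_snd.fst.add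
          ((continuous_const.mul (continuous_subtype_val.comp continuous_fst)).smul continuous_snd.snd)
    have hS2 : IsClosed {q : (Icc (0 : ℝ) m) × (E × E) |
        (u q.2.1 - f q.2.1) / 4 ≤ |f (q.2.1 + (q.1 : ℝ) • q.2.2) - f q.2.1|} := by
      apply isClosed_le
      · exact ((hu.comp continuous_snd.fst).sub (hf.comp continuous_snd.fst)).div_const 4
      · apply Continuous.abs
        apply Continuous.sub
        · apply hf.comp
          exact continuous_snd.fst.add
            ((continuous_subtype_val.comp continuous_fst).smul continuous_snd.snd)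
        · exact hf.comp continuous_snd.fst
    have hS : IsClosed S := hS1.inter hS2
    have himg : C m = Prod.snd '' S := by
      ext p
      constructor
      · rintro ⟨τ, hτ, h1, h2⟩
        exact ⟨(⟨τ, hτ⟩, p), ⟨h1, h2⟩, rfl⟩
      · rintro ⟨⟨τ, p'⟩, ⟨h1, h2⟩, rfl⟩
        exact ⟨τ, τ.2, h1, h2⟩
    rw [himg]
    exact isClosedMap_snd_of_compactSpace _ hS
  have heq : {p : E × E | RayGood f u p.1 p.2} = ⋃ m, C m := by
    ext p
    simp only [mem_ofPred_eq, mem_iUnion]
    constructor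
    · rintro ⟨τ, h0, h1, h2⟩
      obtain ⟨m, hm⟩ := exists_nat_ge τ
      refine ⟨m, τ, ⟨h0, hm⟩, ?_, h2⟩
      intro ξ hξ
      apply h1
      exact ⟨mul_nonneg hξ.1 h0, by nlinarith [hξ.2]⟩
    · rintro ⟨m, τ, hτ, h1, h2⟩
      refine ⟨τ, hτ.1, ?_, h2⟩
      intro σ hσ
      rcases (hτ.1).lt_or_eq with h | h
      · have := h1 (σ / τ) ⟨by have := hσ.1; positivity, by
          rw [div_le_one h]; exact hσ.2⟩
        rwa [div_mul_cancel₀ _ h.ne'] at this
      · have hσ0 : σ = 0 := by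
          have := hσ.2
          rw [← h] at this
          exact le_antisymm this hσ.1
        subst hσ0
        simp
  rw [heq]
  exact MeasurableSet.iUnion (fun m => (hC m).measurableSet)

end Vale.Agent.Lib.P137



/-! The weighted estimate on the set of points with many ray good directions. -/

namespace Vale.Agent.Lib.P137

open MeasureTheory Set Filter Topology Metric Module
open scoped ENNReal NNReal RealInnerProductSpace Pointwise

set_option linter.unusedSectionVars false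
set_option linter.unusedVariables false

variable {E : Type*} [NormedAddCommGroup E] [InnerProductSpace ℝ E] [FiniteDimensional ℝ E]
  [MeasurableSpace E] [BorelSpace E] {μ : Measure E} [μ.IsAddHaarMeasure]

variable {f u : E → ℝ} {Lf Lu : ℝ≥0}

lemma mem_half_ball_iff {n w : E} (hn : ‖n‖ = 1) :
    w ∈ ball ((1 / 2 : ℝ) • n) (1 / 2) ↔ ‖w‖ ^ 2 < ⟪w, n⟫ := by
  have h := mem_ball_iff_inner (x := (0 : E)) (n := n) (z := w) (r := 1 / 2) hn (by norm_num)
  simp only [zero_add, sub_zero] at h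
  rw [h]
  norm_num

/-- The joint set of the weighted estimate. -/
def jointY (f u : E → ℝ) : Set (E × E) :=
  {p | p.1 ∈ Dplus f u ∧ RayGood f u p.1 p.2 ∧ p.2 ∈ ball ((1 / 2 : ℝ) • normalField u p.1) (1 / 2)}

lemma measurableSet_jointY (hf : Continuous f) (hu : Continuous u) :
    MeasurableSet (jointY f u : Set (E × E)) := by
  apply MeasurableSet.inter
  · exact measurable_fst (measurableSet_Dplus hf hu)
  apply MeasurableSet.inter
  · exact measurableSet_rayGood hf hu
  · have h1 : Measurable (fun p : E × E => dist p.2 ((1 / 2 : ℝ) • normalField u p.1)) := by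
      apply Measurable.dist measurable_snd
      exact ((measurable_normalField u).comp measurable_fst).const_smul _
    exact h1 measurableSet_Iio

/-- The directional derivative, written in a jointly measurable way. -/
noncomputable def dirD (u : E → ℝ) (x w : E) : ℝ := ‖fderiv ℝ u x‖ * ⟪normalField u x, w⟫

lemma measurable_dirD (u : E → ℝ) : Measurable (fun p : E × E => dirD u p.1 p.2) := by
  apply Measurable.mul
  · exact ((measurable_fderiv ℝ u).norm).comp measurable_fst
  · exact ((measurable_normalField u).comp measurable_fst).inner measurable_snd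

lemma lipschitz_line {g : E → ℝ} {L : ℝ≥0} (hg : LipschitzWith L g) (x w : E) :
    LipschitzWith (L * ‖w‖₊) (fun t : ℝ => g (x + t • w)) := by
  apply LipschitzWith.of_dist_le_mul
  intro a b
  have h1 := hg.dist_le_mul (x + a • w) (x + b • w)
  have h2 : dist (x + a • w) (x + b • w) = dist a b * ‖w‖ := by
    rw [dist_add_left, dist_eq_norm, ← sub_smul, norm_smul, Real.dist_eq, Real.norm_eq_abs]
  rw [h2] at h1
  push_cast
  calc dist (g (x + a • w)) (g (x + b • w)) ≤ (L : ℝ) * (dist a b * ‖w‖) := h1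
    _ = (L : ℝ) * ‖w‖ * dist a b := by ring

/-- The estimate along one line. -/
lemma line_Y (h : SuperPair μ f u Lf Lu) (w x₀ : E) :
    ∫⁻ t : ℝ, ({x | (x, w) ∈ jointY f u}).indicator (fun x => ENNReal.ofReal (dirD u x w)) (x₀ + t • w) ≤
      ∫⁻ t : ℝ, 5 * btilde f w (x₀ + t • w) := by
  classical
  have hfc := h.lipf.continuous
  have huc := h.lipu.continuous
  have hJ := measurableSet_jointY hfc huc
  let U : ℝ → ℝ := fun t => u (x₀ + t • w)
  let F : ℝ → ℝ := fun t => f (x₀ + t • w)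
  let U' : ℝ → ℝ := fun t => dirD u (x₀ + t • w) w
  let Y : Set ℝ := {t | (x₀ + t • w, w) ∈ jointY f u}
  have hY : MeasurableSet Y := by
    have : Measurable (fun t : ℝ => ((x₀ + t • w, w) : E × E)) := by fun_prop
    exact this hJ
  have hline : HasDerivAt (fun t : ℝ => x₀ + t • w) w = fun t => HasDerivAt (fun t : ℝ => x₀ + t • w) w t := rfl
  have hpath : ∀ t : ℝ, HasDerivAt (fun t : ℝ => x₀ + t • w) w t := by
    intro t
    simpa using ((hasDerivAt_id t).smul_const w).const_add x₀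
  have hUd : ∀ t ∈ Y, HasDerivAt U (U' t) t := by
    intro t ht
    obtain ⟨⟨hd, -, h0⟩, -, -⟩ := ht
    have h1 := hd.hasFDerivAt.comp_hasDerivAt t (hpath t)
    have h2 : fderiv ℝ u (x₀ + t • w) w = U' t := fderiv_apply_eq h0 w
    rw [h2] at h1
    exact h1
  have hUpos : ∀ t ∈ Y, 0 < U' t := by
    intro t ht
    obtain ⟨⟨hd, -, h0⟩, -, hb⟩ := ht
    have hn := norm_normalField h0
    have h1 := (mem_half_ball_iff hn).1 hb
    have h2 : 0 < ‖fderiv ℝ u (x₀ + t • w)‖ := norm_pos_iff.2 h0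
    have h3 : 0 < ⟪normalField u (x₀ + t • w), w⟫ := by
      rw [real_inner_comm]
      have : 0 ≤ ‖w‖ ^ 2 := by positivity
      simp only at h1
      linarith
    exact mul_pos h2 h3
  have hlt : ∀ t ∈ Y, F t < U t := fun t ht => ht.1.2.1
  have hray : ∀ t ∈ Y, ∃ τ, 0 ≤ τ ∧ (∀ σ ∈ Icc 0 τ, U t ≤ U (t + σ)) ∧
      (U t - F t) / 4 ≤ |F (t + τ) - F t| := by
    intro t ht
    obtain ⟨τ, h0, h1, h2⟩ := ht.2.1
    have e : ∀ σ : ℝ, x₀ + (t + σ) • w = x₀ + t • w + σ • w := by
      intro σ; rw [add_smul, add_assoc]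
    refine ⟨τ, h0, ?_, ?_⟩
    · intro σ hσ
      simp only [U]
      rw [e]
      exact h1 σ hσ
    · simp only [U, F]
      rw [e]
      exact h2
  have hLine := line_lemma (lipschitz_line h.lipu x₀ w) (lipschitz_line h.lipf x₀ w) hY hUd hUpos hlt hray
  have e1 : (fun t : ℝ => ({x | (x, w) ∈ jointY f u}).indicator (fun x => ENNReal.ofReal (dirD u x w)) (x₀ + t • w)) =
      Y.indicator (fun t => ENNReal.ofReal (U' t)) := by
    ext t
    by_cases ht : t ∈ Y
    · rw [indicator_of_mem ht, indicator_of_mem (show x₀ + t • w ∈ {x | (x, w) ∈ jointY f u} from ht)]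
    · rw [indicator_of_notMem ht, indicator_of_notMem (show x₀ + t • w ∉ {x | (x, w) ∈ jointY f u} from ht)]
  rw [e1, lintegral_indicator hY, lintegral_const_mul]
  · exact hLine.trans (mul_le_mul' le_rfl (lintegral_line_deriv_le h.lipf w x₀))
  · exact (measurable_btilde f w).comp (by fun_prop)

/-- The integrated estimate in a fixed direction. -/
lemma lintegral_Y_zero (h : SuperPair μ f u Lf Lu) :
    ∫⁻ x, ({x | (x, (0 : E)) ∈ jointY f u}).indicator (fun x => ENNReal.ofReal (dirD u x 0)) x ∂μ = 0 := by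
  have : ∀ x, (x, (0 : E)) ∉ jointY f u := by
    rintro x ⟨⟨-, -, h0⟩, -, hb⟩
    have := (mem_half_ball_iff (norm_normalField h0)).1 hb
    simp at this
  have h2 : ∀ x, ({x | (x, (0 : E)) ∈ jointY f u}).indicator (fun x => ENNReal.ofReal (dirD u x 0)) x = 0 := by
    intro x
    apply indicator_of_notMem
    exact this x
  rw [lintegral_congr h2, lintegral_zero]

lemma lintegral_Y_ne (h : SuperPair μ f u Lf Lu) {w : E} (hw : w ≠ 0) :
    ∫⁻ x, ({x | (x, w) ∈ jointY f u}).indicator (fun x => ENNReal.ofReal (dirD u x w)) x ∂μ ≤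
      ∫⁻ x, 5 * btilde f w x ∂μ := by
  have hfc := h.lipf.continuous
  have huc := h.lipu.continuous
  have hJ := measurableSet_jointY hfc huc
  have hsec : MeasurableSet {x | (x, w) ∈ jointY f u} := by
    have : Measurable (fun x : E => ((x, w) : E × E)) := measurable_id.prodMk measurable_const
    exact this hJ
  have hdm : Measurable (fun x : E => dirD u x w) := by
    have h1 : Measurable (fun x : E => ((x, w) : E × E)) := measurable_id.prodMk measurable_const
    have h2 := (measurable_dirD u).comp h1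
    exact h2
  have ha : Measurable (({x | (x, w) ∈ jointY f u}).indicator (fun x => ENNReal.ofReal (dirD u x w))) :=
    hdm.ennreal_ofReal.indicator hsec
  have hb : Measurable (fun x => 5 * btilde f w x) := (measurable_btilde f w).const_mul 5
  exact lintegral_le_of_lines μ hw ha hb (fun x => line_Y h w x)

/-- The integrated estimate in a fixed direction. -/
lemma lintegral_Y_le (h : SuperPair μ f u Lf Lu) (w : E) :
    ∫⁻ x, ({x | (x, w) ∈ jointY f u}).indicator (fun x => ENNReal.ofReal (dirD u x w)) x ∂μ ≤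
      5 * (‖w‖ₑ * ∫⁻ y, ‖fderiv ℝ f y‖ₑ ∂μ) := by
  by_cases hw : w = 0
  · subst hw
    rw [lintegral_Y_zero h]
    exact zero_le
  refine (lintegral_Y_ne h hw).trans ?_
  rw [lintegral_const_mul _ (measurable_btilde f w)]
  exact mul_le_mul' le_rfl (lintegral_btilde_le μ h.lipf w)

/-- The measure of the ray good directions at a point, among directions into the tangent ball. -/
noncomputable def rayMeas (μ : Measure E) (f u : E → ℝ) (x : E) : ℝ≥0∞ :=
  μ {w | w ∈ ball ((1 / 2 : ℝ) • normalField u x) (1 / 2) ∧ RayGood f u x w}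

/-- The weighted estimate. -/
theorem thmA (h : SuperPair μ f u Lf Lu) :
    ∫⁻ x in Dplus f u, ENNReal.ofReal ‖fderiv ℝ u x‖ * rayMeas μ f u x ∂μ ≤
      5 * (∫⁻ y, ‖fderiv ℝ f y‖ₑ ∂μ) * ∫⁻ w in ball (0 : E) 1, ENNReal.ofReal ‖w‖⁻¹ ∂μ := by
  classical
  have hfc := h.lipf.continuous
  have huc := h.lipu.continuous
  have hJ := measurableSet_jointY hfc huc
  set I := ∫⁻ y, ‖fderiv ℝ f y‖ₑ ∂μ with hI
  let J : E × E → ℝ≥0∞ := (jointY f u).indicator (fun p => ENNReal.ofReal (dirD u p.1 p.2))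
  have hJm : Measurable J := (measurable_dirD u).ennreal_ofReal.indicator hJ
  let wt : E → ℝ≥0∞ := fun w => ENNReal.ofReal (‖w‖⁻¹ ^ 2)
  have hwt : Measurable wt := by
    apply Measurable.ennreal_ofReal
    exact (measurable_norm.inv).pow_const 2
  have hsec : ∀ w, ∀ x, J (x, w) = ({x | (x, w) ∈ jointY f u}).indicator (fun x => ENNReal.ofReal (dirD u x w)) x := by
    intro w x
    by_cases hm : (x, w) ∈ jointY f u
    · simp only [J]
      rw [indicator_of_mem hm, indicator_of_mem (show x ∈ {x | (x, w) ∈ jointY f u} from hm)]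
    · simp only [J]
      rw [indicator_of_notMem hm, indicator_of_notMem (show x ∉ {x | (x, w) ∈ jointY f u} from hm)]
  -- the pointwise bound
  have hpt : ∀ x ∈ Dplus f u, ENNReal.ofReal ‖fderiv ℝ u x‖ * rayMeas μ f u x ≤
      ∫⁻ w in ball (0 : E) 1, wt w * J (x, w) ∂μ := by
    intro x hx
    have hn := norm_normalField hx.2.2
    set Sx : Set E := {w | w ∈ ball ((1 / 2 : ℝ) • normalField u x) (1 / 2) ∧ RayGood f u x w} with hSx
    have hSm : MeasurableSet Sx := by
      have h1 : Measurable (fun w : E => ((x, w) : E × E)) := by fun_prop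
      exact (measurableSet_ball.inter (h1 (measurableSet_rayGood hfc huc)))
    have hSsub : Sx ⊆ ball 0 1 := by
      rintro w ⟨hw, -⟩
      rw [mem_ball_zero_iff]
      have hw' : ‖w - (1 / 2 : ℝ) • normalField u x‖ < 1 / 2 := by
        have : dist w ((1 / 2 : ℝ) • normalField u x) < 1 / 2 := hw
        rwa [dist_eq_norm] at this
      have e1 : w = (w - (1 / 2 : ℝ) • normalField u x) + (1 / 2 : ℝ) • normalField u x := by abel
      calc ‖w‖ = ‖(w - (1 / 2 : ℝ) • normalField u x) + (1 / 2 : ℝ) • normalField u x‖ := by rw [← e1]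
        _ ≤ ‖w - (1 / 2 : ℝ) • normalField u x‖ + ‖(1 / 2 : ℝ) • normalField u x‖ := norm_add_le _ _
        _ < 1 := by
            rw [norm_smul, hn]
            norm_num
            linarith
    calc ENNReal.ofReal ‖fderiv ℝ u x‖ * rayMeas μ f u x
        = ∫⁻ _ in Sx, ENNReal.ofReal ‖fderiv ℝ u x‖ ∂μ := by
          rw [setLIntegral_const]; rfl
      _ ≤ ∫⁻ w in Sx, wt w * J (x, w) ∂μ := by
          apply setLIntegral_mono' hSm
          rintro w ⟨hw, hR⟩
          have hmem : (x, w) ∈ jointY f u := ⟨hx, hR, hw⟩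
          simp only [J, wt]
          rw [indicator_of_mem hmem, ← ENNReal.ofReal_mul (by positivity)]
          apply ENNReal.ofReal_le_ofReal
          have h1 := (mem_half_ball_iff hn).1 hw
          have hw0 : w ≠ 0 := by
            intro h0
            rw [h0] at h1
            simp at h1
          have hwpos : 0 < ‖w‖ := norm_pos_iff.2 hw0
          have hg : 0 ≤ ‖fderiv ℝ u x‖ := norm_nonneg _
          simp only [dirD]
          rw [real_inner_comm]
          have h2 : ‖fderiv ℝ u x‖ * ‖w‖ ^ 2 ≤ ‖fderiv ℝ u x‖ * ⟪w, normalField u x⟫ :=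
            mul_le_mul_of_nonneg_left h1.le hg
          have h3 : ‖w‖⁻¹ ^ 2 * (‖fderiv ℝ u x‖ * ‖w‖ ^ 2) = ‖fderiv ℝ u x‖ := by
            field_simp
          calc ‖fderiv ℝ u x‖ = ‖w‖⁻¹ ^ 2 * (‖fderiv ℝ u x‖ * ‖w‖ ^ 2) := h3.symm
            _ ≤ _ := mul_le_mul_of_nonneg_left h2 (by positivity)
      _ ≤ _ := lintegral_mono_set hSsub
  have hmj : Measurable (fun p : E × E => wt p.2 * J (p.1, p.2)) :=
    (hwt.comp measurable_snd).mul hJm
  calc ∫⁻ x in Dplus f u, ENNReal.ofReal ‖fderiv ℝ u x‖ * rayMeas μ f u x ∂μ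
      ≤ ∫⁻ x in Dplus f u, (∫⁻ w in ball (0 : E) 1, wt w * J (x, w) ∂μ) ∂μ :=
        setLIntegral_mono' (measurableSet_Dplus hfc huc) hpt
    _ ≤ ∫⁻ x, (∫⁻ w in ball (0 : E) 1, wt w * J (x, w) ∂μ) ∂μ := setLIntegral_le_lintegral _ _
    _ = ∫⁻ w in ball (0 : E) 1, (∫⁻ x, wt w * J (x, w) ∂μ) ∂μ :=
        lintegral_lintegral_swap hmj.aemeasurable
    _ ≤ ∫⁻ w in ball (0 : E) 1, 5 * I * ENNReal.ofReal ‖w‖⁻¹ ∂μ := by
        apply lintegral_mono
        intro w
        beta_reduce
        have hmx : Measurable (fun x => J (x, w)) := hJm.comp (by fun_prop)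
        rw [lintegral_const_mul _ hmx]
        have h1 : ∫⁻ x, J (x, w) ∂μ ≤ 5 * (‖w‖ₑ * I) := by
          simp_rw [hsec w]
          exact lintegral_Y_le h w
        calc wt w * ∫⁻ x, J (x, w) ∂μ ≤ wt w * (5 * (‖w‖ₑ * I)) := mul_le_mul' le_rfl h1
          _ = 5 * I * (wt w * ‖w‖ₑ) := by ring
          _ ≤ 5 * I * ENNReal.ofReal ‖w‖⁻¹ := by
              refine mul_le_mul' le_rfl (le_of_eq ?_)
              simp only [wt]
              rw [← ofReal_norm, ← ENNReal.ofReal_mul (by positivity)]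
              congr 1
              by_cases hw : w = 0
              · simp [hw]
              · have : ‖w‖ ≠ 0 := norm_ne_zero_iff.2 hw
                field_simp
    _ = 5 * I * ∫⁻ w in ball (0 : E) 1, ENNReal.ofReal ‖w‖⁻¹ ∂μ := by
        rw [lintegral_const_mul]
        exact measurable_norm.inv.ennreal_ofReal

end Vale.Agent.Lib.P137



/-! Mollification of a function with a weak gradient. -/

namespace Vale.Agent.Lib.P137

open MeasureTheory Set Filter Topology Metric Module ContinuousLinearMap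
open scoped ENNReal NNReal RealInnerProductSpace Pointwise Convolution

set_option linter.unusedSectionVars false
set_option linter.unusedVariables false

variable {E : Type*} [NormedAddCommGroup E] [InnerProductSpace ℝ E] [FiniteDimensional ℝ E]
  [MeasurableSpace E] [BorelSpace E] {μ : Measure E} [μ.IsAddHaarMeasure]

variable {F : Type*} [NormedAddCommGroup F] [NormedSpace ℝ F] [CompleteSpace F]

/-- `G` is a weak gradient of `f`. -/
def IsWeakGrad (μ : Measure E) (f : E → ℝ) (G : E → E) : Prop :=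
  ∀ φ : E → ℝ, ContDiff ℝ ((⊤ : ℕ∞) : WithTop ℕ∞) φ → HasCompactSupport φ → ∀ w : E,
    ∫ x, f x * fderiv ℝ φ x w ∂μ = - ∫ x, ⟪G x, w⟫ * φ x ∂μ

/-- The `L¹` bound for convolution with a normed bump. -/
lemma conv_lintegral_le (φ : ContDiffBump (0 : E)) {h : E → F} (hh : Integrable h μ) :
    ∫⁻ x, ‖(φ.normed μ ⋆[lsmul ℝ ℝ, μ] h) x‖ₑ ∂μ ≤ ∫⁻ x, ‖h x‖ₑ ∂μ := by
  set ρ := φ.normed μ with hρ
  have hρm : Measurable ρ := φ.continuous_normed.measurable
  have hpt : ∀ x, ‖(ρ ⋆[lsmul ℝ ℝ, μ] h) x‖ₑ ≤ ∫⁻ t, ENNReal.ofReal (ρ t) * ‖h (x - t)‖ₑ ∂μ := by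
    intro x
    refine (enorm_integral_le_lintegral_enorm _).trans (le_of_eq ?_)
    apply lintegral_congr
    intro t
    simp only [lsmul_apply]
    rw [enorm_smul, Real.enorm_eq_ofReal (φ.nonneg_normed t)]
  have hjoint : AEMeasurable (fun p : E × E => ENNReal.ofReal (ρ p.2) * ‖h (p.1 - p.2)‖ₑ) (μ.prod μ) := by
    have h1 : AEMeasurable (fun p : E × E => ENNReal.ofReal (ρ p.2)) (μ.prod μ) :=
      (hρm.comp measurable_snd).ennreal_ofReal.aemeasurable
    have h2 : AEMeasurable (fun p : E × E => ‖h (p.1 - p.2)‖ₑ) (μ.prod μ) :=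
      hh.aestronglyMeasurable.enorm.comp_quasiMeasurePreserving
        (quasiMeasurePreserving_sub_of_right_invariant μ μ)
    exact h1.mul h2
  have h1 : ∫⁻ t, ENNReal.ofReal (ρ t) ∂μ = 1 := by
    rw [← ofReal_integral_eq_lintegral_ofReal φ.integrable_normed
      (ae_of_all _ φ.nonneg_normed), φ.integral_normed]
    simp
  calc ∫⁻ x, ‖(ρ ⋆[lsmul ℝ ℝ, μ] h) x‖ₑ ∂μ
      ≤ ∫⁻ x, ∫⁻ t, ENNReal.ofReal (ρ t) * ‖h (x - t)‖ₑ ∂μ ∂μ := lintegral_mono hpt
    _ = ∫⁻ t, ∫⁻ x, ENNReal.ofReal (ρ t) * ‖h (x - t)‖ₑ ∂μ ∂μ := lintegral_lintegral_swap hjoint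
    _ = ∫⁻ t, ENNReal.ofReal (ρ t) * ∫⁻ x, ‖h x‖ₑ ∂μ ∂μ := by
        apply lintegral_congr
        intro t
        rw [lintegral_const_mul' _ _ ENNReal.ofReal_ne_top]
        congr 1
        exact lintegral_sub_right_eq_self (fun x => ‖h x‖ₑ) t
    _ = ∫⁻ x, ‖h x‖ₑ ∂μ := by
        rw [lintegral_mul_const' _ _ (hh.2.ne), h1, one_mul]

lemma conv_exists (φ : ContDiffBump (0 : E)) {h : E → F} (hh : Integrable h μ) (x : E) :
    Integrable (fun t => (lsmul ℝ ℝ) (φ.normed μ t) (h (x - t))) μ :=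
  (φ.hasCompactSupport_normed.convolutionExists_left (lsmul ℝ ℝ) φ.continuous_normed hh.locallyIntegrable) x

lemma conv_sub (φ : ContDiffBump (0 : E)) {h₁ h₂ : E → F} (hh₁ : Integrable h₁ μ) (hh₂ : Integrable h₂ μ)
    (x : E) :
    (φ.normed μ ⋆[lsmul ℝ ℝ, μ] h₁) x - (φ.normed μ ⋆[lsmul ℝ ℝ, μ] h₂) x =
      (φ.normed μ ⋆[lsmul ℝ ℝ, μ] (fun y => h₁ y - h₂ y)) x := by
  simp only [convolution]
  rw [← integral_sub (conv_exists φ hh₁ x) (conv_exists φ hh₂ x)]
  apply integral_congr_ae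
  filter_upwards with t
  simp only [lsmul_apply, smul_sub]

/-- Mollification converges in `L¹`. -/
lemma exists_bump_close {h : E → F} (hh : Integrable h μ) {ε : ℝ} (hε : 0 < ε) :
    ∃ δ₀ : ℝ, 0 < δ₀ ∧ ∀ φ : ContDiffBump (0 : E), φ.rOut < δ₀ →
      ∫⁻ x, ‖(φ.normed μ ⋆[lsmul ℝ ℝ, μ] h) x - h x‖ₑ ∂μ ≤ ENNReal.ofReal ε := by
  obtain ⟨k, hkc, hkl, hkcont, hkint⟩ := hh.exists_hasCompactSupport_lintegral_sub_le (μ := μ)
    (ε := ENNReal.ofReal (ε / 3)) (by simpa using (by positivity : 0 < ε / 3))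
  have hku : UniformContinuous k := hkc.uniformContinuous_of_continuous hkcont
  set K₁ := cthickening 1 (tsupport k) with hK₁
  have hK₁c : IsCompact K₁ := hkc.isCompact.cthickening
  have hmK : μ K₁ < ⊤ := hK₁c.measure_lt_top
  set m := (μ K₁).toReal with hm
  have hmE : μ K₁ = ENNReal.ofReal m := (ENNReal.ofReal_toReal hmK.ne).symm
  have hm0 : 0 ≤ m := ENNReal.toReal_nonneg
  set ε' := (ε / 3) / (m + 1) with hε'
  have hε'pos : 0 < ε' := by positivity
  obtain ⟨δ₁, hδ₁, hu⟩ := Metric.uniformContinuous_iff.1 hku ε' hε'pos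
  refine ⟨min δ₁ 1, lt_min hδ₁ one_pos, ?_⟩
  intro φ hφ
  have hφ1 : φ.rOut < δ₁ := hφ.trans_le (min_le_left _ _)
  have hφ2 : φ.rOut < 1 := hφ.trans_le (min_le_right _ _)
  -- the compactly supported piece
  have hclose : ∀ x, ‖(φ.normed μ ⋆[lsmul ℝ ℝ, μ] k) x - k x‖ₑ ≤ K₁.indicator (fun _ => ENNReal.ofReal ε') x := by
    intro x
    by_cases hx : x ∈ K₁
    · rw [indicator_of_mem hx, ← edist_eq_enorm_sub, edist_dist]
      apply ENNReal.ofReal_le_ofReal
      apply ContDiffBump.dist_normed_convolution_le hkint.aestronglyMeasurable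
      intro y hy
      have : dist y x < δ₁ := (mem_ball.1 hy).trans hφ1
      exact (hu this).le
    · rw [indicator_of_notMem hx]
      have hk0 : ∀ y ∈ ball x φ.rOut, k y = 0 := by
        intro y hy
        apply image_eq_zero_of_notMem_tsupport
        intro hyt
        apply hx
        apply mem_cthickening_of_dist_le x y 1 _ hyt
        rw [mem_ball, dist_comm] at hy
        linarith
      have hkx : k x = 0 := hk0 x (mem_ball_self φ.rOut_pos)
      have h2 := ContDiffBump.normed_convolution_eq_right (μ := μ) (φ := φ) (g := k) (x₀ := x)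
        (fun y hy => by rw [hk0 y hy, hkx])
      rw [h2, sub_self]
      simp
  have hk_part : ∫⁻ x, ‖(φ.normed μ ⋆[lsmul ℝ ℝ, μ] k) x - k x‖ₑ ∂μ ≤ ENNReal.ofReal (ε / 3) := by
    calc _ ≤ ∫⁻ x, K₁.indicator (fun _ => ENNReal.ofReal ε') x ∂μ := lintegral_mono hclose
      _ = ENNReal.ofReal ε' * μ K₁ := by
          rw [lintegral_indicator_const hK₁c.measurableSet]
      _ = ENNReal.ofReal (ε' * m) := by rw [hmE, ENNReal.ofReal_mul hε'pos.le]
      _ ≤ ENNReal.ofReal (ε / 3) := by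
          apply ENNReal.ofReal_le_ofReal
          rw [hε', div_mul_eq_mul_div, div_le_iff₀ (by positivity)]
          have : 0 < ε / 3 := by positivity
          nlinarith
  -- the difference
  have hdiff := conv_lintegral_le (μ := μ) φ (h := fun y => h y - k y) (hh.sub hkint)
  have hsplit : ∀ x, ‖(φ.normed μ ⋆[lsmul ℝ ℝ, μ] h) x - h x‖ₑ ≤
      ‖(φ.normed μ ⋆[lsmul ℝ ℝ, μ] (fun y => h y - k y)) x‖ₑ +
      ‖(φ.normed μ ⋆[lsmul ℝ ℝ, μ] k) x - k x‖ₑ + ‖h x - k x‖ₑ := by
    intro x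
    rw [← conv_sub φ hh hkint x]
    have e : (φ.normed μ ⋆[lsmul ℝ ℝ, μ] h) x - h x =
        ((φ.normed μ ⋆[lsmul ℝ ℝ, μ] h) x - (φ.normed μ ⋆[lsmul ℝ ℝ, μ] k) x) +
        ((φ.normed μ ⋆[lsmul ℝ ℝ, μ] k) x - k x) - (h x - k x) := by abel
    rw [e]
    exact (enorm_sub_le).trans (add_le_add (enorm_add_le _ _) le_rfl)
  have hm1 : AEMeasurable (fun x => ‖(φ.normed μ ⋆[lsmul ℝ ℝ, μ] (fun y => h y - k y)) x‖ₑ) μ :=
    ((φ.integrable_normed.integrable_convolution (lsmul ℝ ℝ) (hh.sub hkint)).aestronglyMeasurable).enorm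
  have hm2 : AEMeasurable (fun x => ‖(φ.normed μ ⋆[lsmul ℝ ℝ, μ] k) x - k x‖ₑ) μ :=
    (((φ.integrable_normed.integrable_convolution (lsmul ℝ ℝ) hkint).sub hkint).aestronglyMeasurable).enorm
  calc ∫⁻ x, ‖(φ.normed μ ⋆[lsmul ℝ ℝ, μ] h) x - h x‖ₑ ∂μ
      ≤ ∫⁻ x, (‖(φ.normed μ ⋆[lsmul ℝ ℝ, μ] (fun y => h y - k y)) x‖ₑ +
        ‖(φ.normed μ ⋆[lsmul ℝ ℝ, μ] k) x - k x‖ₑ + ‖h x - k x‖ₑ) ∂μ := lintegral_mono hsplit
    _ = ∫⁻ x, ‖(φ.normed μ ⋆[lsmul ℝ ℝ, μ] (fun y => h y - k y)) x‖ₑ ∂μ +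
        ∫⁻ x, ‖(φ.normed μ ⋆[lsmul ℝ ℝ, μ] k) x - k x‖ₑ ∂μ + ∫⁻ x, ‖h x - k x‖ₑ ∂μ := by
        have hm3 : AEMeasurable (fun x => ‖h x - k x‖ₑ) μ := (hh.sub hkint).aestronglyMeasurable.enorm
        rw [lintegral_add_right' _ hm3, lintegral_add_left' hm1]
    _ ≤ ENNReal.ofReal (ε / 3) + ENNReal.ofReal (ε / 3) + ENNReal.ofReal (ε / 3) :=
        add_le_add (add_le_add (hdiff.trans hkl) hk_part) hkl
    _ = ENNReal.ofReal ε := by
        rw [← ENNReal.ofReal_add (by positivity) (by positivity),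
          ← ENNReal.ofReal_add (by positivity) (by positivity)]
        congr 1
        ring

/-- The derivative of a mollification as an integral. -/
lemma fderiv_conv_apply {f : E → ℝ} (hf : Integrable f μ) (φ : ContDiffBump (0 : E)) (x₀ w : E) :
    HasFDerivAt (φ.normed μ ⋆[lsmul ℝ ℝ, μ] f)
      ((fderiv ℝ (φ.normed μ) ⋆[(lsmul ℝ ℝ).precompL E, μ] f) x₀) x₀ ∧
    ((fderiv ℝ (φ.normed μ) ⋆[(lsmul ℝ ℝ).precompL E, μ] f) x₀) w =
      ∫ t, fderiv ℝ (φ.normed μ) t w * f (x₀ - t) ∂μ := by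
  have hρs : ContDiff ℝ ((⊤ : ℕ∞) : WithTop ℕ∞) (φ.normed μ) := φ.contDiff_normed
  have hρ1 : ContDiff ℝ 1 (φ.normed μ) := hρs.of_le (by simp)
  refine ⟨φ.hasCompactSupport_normed.hasFDerivAt_convolution_left (lsmul ℝ ℝ) hρ1
    hf.locallyIntegrable x₀, ?_⟩
  have hfd : HasCompactSupport (fderiv ℝ (φ.normed μ)) := φ.hasCompactSupport_normed.fderiv ℝ
  have hcd : Continuous (fderiv ℝ (φ.normed μ)) := hρs.continuous_fderiv (by simp)
  have hex := (hfd.convolutionExists_left ((lsmul ℝ ℝ).precompL E) hcd hf.locallyIntegrable) x₀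
  have h := ContinuousLinearMap.integral_apply hex w
  exact h

/-- The derivative of the reflected bump. -/
lemma fderiv_reflect {ρ : E → ℝ} (hρ : Differentiable ℝ ρ) (x₀ y w : E) :
    fderiv ℝ (fun y => ρ (x₀ - y)) y w = - fderiv ℝ ρ (x₀ - y) w := by
  have h3 : HasFDerivAt (fun y : E => x₀ - y) (-(ContinuousLinearMap.id ℝ E)) y :=
    (hasFDerivAt_id y).const_sub x₀
  have h2 : HasFDerivAt (fun y => ρ (x₀ - y)) ((fderiv ℝ ρ (x₀ - y)).comp (-(ContinuousLinearMap.id ℝ E))) y :=
    ((hρ (x₀ - y)).hasFDerivAt).comp y h3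
  rw [h2.fderiv]
  simp

/-- The gradient of the mollification of a function with a weak gradient. -/
lemma gradField_conv {f : E → ℝ} {G : E → E} (hf : Integrable f μ) (hG : Integrable G μ)
    (hw : IsWeakGrad μ f G) (φ : ContDiffBump (0 : E)) (x₀ : E) :
    DifferentiableAt ℝ (φ.normed μ ⋆[lsmul ℝ ℝ, μ] f) x₀ ∧
    gradField (φ.normed μ ⋆[lsmul ℝ ℝ, μ] f) x₀ = (φ.normed μ ⋆[lsmul ℝ ℝ, μ] G) x₀ := by
  have hd0 := (fderiv_conv_apply hf φ x₀ 0).1
  refine ⟨hd0.differentiableAt, ?_⟩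
  apply ext_inner_right ℝ
  intro w
  obtain ⟨hd, h1⟩ := fderiv_conv_apply hf φ x₀ w
  rw [inner_gradField, hd.fderiv, h1]
  have hρs : ContDiff ℝ ((⊤ : ℕ∞) : WithTop ℕ∞) (φ.normed μ) := φ.contDiff_normed
  -- the test function
  let ψ : E → ℝ := fun y => φ.normed μ (x₀ - y)
  have hψs : ContDiff ℝ ((⊤ : ℕ∞) : WithTop ℕ∞) ψ := hρs.comp (contDiff_const.sub contDiff_id)
  have hψc : HasCompactSupport ψ := φ.hasCompactSupport_normed.comp_homeomorph (Homeomorph.subLeft x₀)
  have hψd : ∀ y, fderiv ℝ ψ y w = - fderiv ℝ (φ.normed μ) (x₀ - y) w :=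
    fun y => fderiv_reflect (hρs.differentiable (by simp)) x₀ y w
  have h4 := hw ψ hψs hψc w
  have e1 : ∫ t, fderiv ℝ (φ.normed μ) t w * f (x₀ - t) ∂μ =
      ∫ y, fderiv ℝ (φ.normed μ) (x₀ - y) w * f y ∂μ := by
    have := integral_sub_left_eq_self (fun t => fderiv ℝ (φ.normed μ) t w * f (x₀ - t)) μ x₀
    rw [← this]
    apply integral_congr_ae
    filter_upwards with y
    simp
  have e2 : ∫ y, fderiv ℝ (φ.normed μ) (x₀ - y) w * f y ∂μ = - ∫ y, f y * fderiv ℝ ψ y w ∂μ := by
    rw [← integral_neg]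
    apply integral_congr_ae
    filter_upwards with y
    rw [hψd]
    ring
  rw [e1, e2, h4, neg_neg]
  -- the right side
  have hexG := conv_exists (μ := μ) φ hG x₀
  simp only [convolution]
  rw [real_inner_comm, ← integral_inner hexG w]
  have e3 := integral_sub_left_eq_self (fun t => ⟪w, lsmul ℝ ℝ (φ.normed μ t) (G (x₀ - t))⟫) μ x₀
  rw [← e3]
  apply integral_congr_ae
  filter_upwards with y
  simp only [lsmul_apply, sub_sub_cancel, inner_smul_right]
  rw [real_inner_comm]
  ring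

/-- Lipschitz approximation in the Sobolev norm. -/
theorem exists_lipschitz_approx {f : E → ℝ} {G : E → E} (hf : Integrable f μ) (hG : Integrable G μ)
    (hw : IsWeakGrad μ f G) {ε : ℝ} (hε : 0 < ε) :
    ∃ (g : E → ℝ) (L : ℝ≥0), LipschitzWith L g ∧ Integrable g μ ∧ Differentiable ℝ g ∧
      ∫⁻ x, ‖g x - f x‖ₑ ∂μ ≤ ENNReal.ofReal ε ∧
      ∫⁻ x, ‖gradField g x - G x‖ₑ ∂μ ≤ ENNReal.ofReal ε := by
  obtain ⟨δ₁, hδ₁, h1⟩ := exists_bump_close hf hε
  obtain ⟨δ₂, hδ₂, h2⟩ := exists_bump_close hG hε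
  set δ := min δ₁ δ₂ / 2 with hδ
  have hδpos : 0 < δ := by
    have := lt_min hδ₁ hδ₂
    positivity
  let φ : ContDiffBump (0 : E) := ⟨δ / 2, δ, by positivity, by linarith⟩
  have hφ : φ.rOut = δ := rfl
  have hlt : δ < min δ₁ δ₂ := by
    have := lt_min hδ₁ hδ₂
    rw [hδ]
    linarith
  set g := φ.normed μ ⋆[lsmul ℝ ℝ, μ] f with hg
  have hgrad := gradField_conv hf hG hw φ
  have hdiff : Differentiable ℝ g := fun x => (hgrad x).1
  obtain ⟨C, hC⟩ := (φ.continuous_normed (μ := μ)).bounded_above_of_compact_support φ.hasCompactSupport_normed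
  have hC0 : 0 ≤ C := (norm_nonneg _).trans (hC 0)
  set I := ∫ x, ‖G x‖ ∂μ with hI
  have hI0 : 0 ≤ I := integral_nonneg (fun x => norm_nonneg _)
  have hbd : ∀ x, ‖fderiv ℝ g x‖ ≤ C * I := by
    intro x
    rw [← norm_gradField, (hgrad x).2]
    simp only [convolution]
    have h3 : ‖∫ t, lsmul ℝ ℝ (φ.normed μ t) (G (x - t)) ∂μ‖ ≤ ∫ t, C * ‖G (x - t)‖ ∂μ := by
      apply norm_integral_le_of_norm_le
      · exact (hG.norm.comp_sub_left x).const_mul C
      · filter_upwards with t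
        simp only [lsmul_apply, norm_smul]
        exact mul_le_mul_of_nonneg_right (hC t) (norm_nonneg _)
    refine h3.trans (le_of_eq ?_)
    rw [integral_const_mul]
    congr 1
    exact integral_sub_left_eq_self (fun y => ‖G y‖) μ x
  have hlip : LipschitzWith (Real.toNNReal (C * I)) g := by
    apply lipschitzWith_of_nnnorm_fderiv_le hdiff
    intro x
    rw [← NNReal.coe_le_coe, coe_nnnorm, Real.coe_toNNReal _ (by positivity)]
    exact hbd x
  refine ⟨g, _, hlip, φ.integrable_normed.integrable_convolution (lsmul ℝ ℝ) hf, hdiff, ?_, ?_⟩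
  · exact h1 φ (by rw [hφ]; exact hlt.trans_le (min_le_left _ _))
  · have h3 := h2 φ (by rw [hφ]; exact hlt.trans_le (min_le_right _ _))
    refine le_trans (le_of_eq ?_) h3
    apply lintegral_congr
    intro x
    rw [(hgrad x).2]

end Vale.Agent.Lib.P137



/-! The slice estimate: on a small set where the function is monotone in many directions, the
integral of the gradient is controlled by the oscillation. -/

namespace Vale.Agent.Lib.P137

open MeasureTheory Set Filter Topology Metric Module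
open scoped ENNReal NNReal RealInnerProductSpace Pointwise

set_option linter.unusedSectionVars false
set_option linter.unusedVariables false

variable {E : Type*} [NormedAddCommGroup E] [InnerProductSpace ℝ E] [FiniteDimensional ℝ E]
  [MeasurableSpace E] [BorelSpace E] {μ : Measure E} [μ.IsAddHaarMeasure]

variable {f u : E → ℝ} {Lf Lu : ℝ≥0}

/-- Integrability of the inverse norm on the unit ball. -/
lemma lintegral_inv_norm_lt_top (hd : 2 ≤ finrank ℝ E) :
    ∫⁻ w in ball (0 : E) 1, ENNReal.ofReal ‖w‖⁻¹ ∂μ < ∞ := by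
  have h : IntegrableOn (fun w : E => ‖w‖⁻¹) (ball 0 1) μ := by
    apply integrableOn_ball_of_norm_le_rpow (C := 1) (α := 1) (by omega)
    · have : (2 : ℝ) ≤ finrank ℝ E := by exact_mod_cast hd
      linarith
    · filter_upwards with x
      simp [Real.rpow_neg_one]
    · exact (measurable_norm.inv).aestronglyMeasurable
  exact h.lintegral_lt_top

/-- The joint set of the slice estimate. -/
def sliceJoint (Z : Set E) (u : E → ℝ) : Set (E × E) :=
  {p | p.1 ∈ Z ∧ p.2 ∈ ball ((1 / 2 : ℝ) • normalField u p.1) (1 / 16)}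

lemma measurableSet_sliceJoint {Z : Set E} (hZ : MeasurableSet Z) :
    MeasurableSet (sliceJoint Z u) := by
  apply MeasurableSet.inter (measurable_fst hZ)
  have h1 : Measurable (fun p : E × E => dist p.2 ((1 / 2 : ℝ) • normalField u p.1)) := by
    apply Measurable.dist measurable_snd
    exact ((measurable_normalField u).comp measurable_fst).const_smul _
  exact h1 measurableSet_Iio

/-- A small lemma on the size of `w` and its component along the normal. -/
lemma slice_dir_bounds {n w : E} (hn : ‖n‖ = 1) (hw : w ∈ ball ((1 / 2 : ℝ) • n) (1 / 16)) :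
    7 / 16 ≤ ⟪n, w⟫ ∧ ‖w‖ ≤ 9 / 16 := by
  have h1 : ‖w - (1 / 2 : ℝ) • n‖ < 1 / 16 := by
    have : dist w ((1 / 2 : ℝ) • n) < 1 / 16 := hw
    rwa [dist_eq_norm] at this
  have e : ⟪n, w⟫ = ⟪n, w - (1 / 2 : ℝ) • n⟫ + 1 / 2 := by
    rw [inner_sub_right, inner_smul_right, real_inner_self_eq_norm_sq, hn]
    ring
  have h2 : |⟪n, w - (1 / 2 : ℝ) • n⟫| ≤ ‖n‖ * ‖w - (1 / 2 : ℝ) • n‖ := abs_real_inner_le_norm _ _
  rw [hn, one_mul] at h2
  have h3 := (abs_le.1 h2).1
  constructor
  · rw [e]; linarith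
  · have e2 : w = (w - (1 / 2 : ℝ) • n) + (1 / 2 : ℝ) • n := by abel
    calc ‖w‖ = ‖(w - (1 / 2 : ℝ) • n) + (1 / 2 : ℝ) • n‖ := by rw [← e2]
      _ ≤ ‖w - (1 / 2 : ℝ) • n‖ + ‖(1 / 2 : ℝ) • n‖ := norm_add_le _ _
      _ ≤ 9 / 16 := by
          rw [norm_smul, hn]
          norm_num
          linarith

/-- The hypotheses of the slice estimate. -/
structure SliceHyp (u : E → ℝ) (Z : Set E) (x₀ : E) (ρ Δ : ℝ) : Prop where
  meas : MeasurableSet Z
  sub : Z ⊆ ball x₀ ρ
  diff : ∀ x ∈ Z, DifferentiableAt ℝ u x ∧ fderiv ℝ u x ≠ 0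
  osc : ∀ x₁ ∈ Z, ∀ x₂ ∈ Z, |u x₁ - u x₂| ≤ Δ
  mono : ∀ x₁ ∈ Z, ∀ x₂ ∈ Z, ∀ t : ℝ, 0 < t → ∀ w ∈ ball ((1 / 2 : ℝ) • normalField u x₁) (1 / 16),
    x₂ = x₁ + t • w → u x₁ ≤ u x₂

lemma slice_line {Z : Set E} {x₀ : E} {ρ Δ : ℝ} (hρ : 0 < ρ) (hΔ : 0 ≤ Δ)
    (hS : SliceHyp u Z x₀ ρ Δ) {w : E} (hw : w ≠ 0) (x : E) :
    ∫⁻ t : ℝ, ({x | (x, w) ∈ sliceJoint Z u}).indicator (fun x => ENNReal.ofReal (dirD u x w))
        (x + t • w) ≤
      ∫⁻ t : ℝ, (ball x₀ (2 * ρ)).indicator (fun _ => ENNReal.ofReal (Δ * ‖w‖ / ρ)) (x + t • w) := by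
  classical
  have hwn : 0 < ‖w‖ := norm_pos_iff.2 hw
  have hJ := measurableSet_sliceJoint (u := u) hS.meas
  let U : ℝ → ℝ := fun t => u (x + t • w)
  let U' : ℝ → ℝ := fun t => dirD u (x + t • w) w
  let T : Set ℝ := {t | (x + t • w, w) ∈ sliceJoint Z u}
  have hT : MeasurableSet T := by
    have : Measurable (fun t : ℝ => ((x + t • w, w) : E × E)) := by fun_prop
    exact this hJ
  have e1 : (fun t : ℝ => ({x | (x, w) ∈ sliceJoint Z u}).indicator
      (fun x => ENNReal.ofReal (dirD u x w)) (x + t • w)) =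
      T.indicator (fun t => ENNReal.ofReal (U' t)) := by
    ext t
    by_cases ht : t ∈ T
    · rw [indicator_of_mem ht, indicator_of_mem (show x + t • w ∈ {x | (x, w) ∈ sliceJoint Z u} from ht)]
    · rw [indicator_of_notMem ht,
        indicator_of_notMem (show x + t • w ∉ {x | (x, w) ∈ sliceJoint Z u} from ht)]
  rw [e1, lintegral_indicator hT]
  by_cases hne : T.Nonempty
  swap
  · rw [not_nonempty_iff_eq_empty.1 hne]
    simp
  obtain ⟨t₀, ht₀⟩ := hne
  have hpath : ∀ t : ℝ, HasDerivAt (fun t : ℝ => x + t • w) w t := by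
    intro t
    simpa using ((hasDerivAt_id t).smul_const w).const_add x
  have hUd : ∀ t ∈ T, HasDerivWithinAt U (U' t) T t := by
    intro t ht
    obtain ⟨hd, h0⟩ := hS.diff _ ht.1
    have h1 := hd.hasFDerivAt.comp_hasDerivAt t (hpath t)
    have h2 : fderiv ℝ u (x + t • w) w = U' t := fderiv_apply_eq h0 w
    rw [h2] at h1
    exact h1.hasDerivWithinAt
  have hUm : MonotoneOn U T := by
    intro a ha b hb hab
    rcases hab.lt_or_eq with h | h
    · apply hS.mono _ ha.1 _ hb.1 (b - a) (sub_pos.2 h) w ha.2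
      rw [sub_smul, add_assoc, add_sub_cancel]
    · rw [h]
  rw [lintegral_deriv_eq_volume_image_of_monotoneOn hT hUd hUm]
  have himg : U '' T ⊆ Icc (U t₀ - Δ) (U t₀ + Δ) := by
    rintro _ ⟨t, ht, rfl⟩
    have := hS.osc _ ht.1 _ ht₀.1
    have h2 := abs_le.1 this
    constructor
    · show u (x + t₀ • w) - Δ ≤ u (x + t • w)
      linarith [h2.2]
    · show u (x + t • w) ≤ u (x + t₀ • w) + Δ
      linarith [h2.1]
  have h1 : volume (U '' T) ≤ ENNReal.ofReal (2 * Δ) := by
    refine (measure_mono himg).trans ?_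
    rw [Real.volume_Icc]
    apply ENNReal.ofReal_le_ofReal
    linarith
  refine h1.trans ?_
  -- the lower bound of the right side
  let c : ℝ≥0∞ := ENNReal.ofReal (Δ * ‖w‖ / ρ)
  let I : Set ℝ := Ioo (t₀ - ρ / ‖w‖) (t₀ + ρ / ‖w‖)
  have h2 : I.indicator (fun _ => c) ≤ fun t : ℝ =>
      (ball x₀ (2 * ρ)).indicator (fun _ => c) (x + t • w) := by
    intro t
    by_cases ht : t ∈ I
    · have hm : x + t • w ∈ ball x₀ (2 * ρ) := by
        rw [mem_ball, dist_eq_norm]
        have hmem : x + t₀ • w ∈ ball x₀ ρ := hS.sub ht₀.1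
        rw [mem_ball, dist_eq_norm] at hmem
        have e : x + t • w - x₀ = (x + t₀ • w - x₀) + (t - t₀) • w := by
          rw [sub_smul]; abel
        rw [e]
        have hle : ‖(t - t₀) • w‖ < ρ := by
          rw [norm_smul, Real.norm_eq_abs]
          have : |t - t₀| < ρ / ‖w‖ := by
            rw [abs_lt]
            constructor
            · linarith [ht.1]
            · linarith [ht.2]
          rwa [lt_div_iff₀ hwn] at this
        calc _ ≤ ‖x + t₀ • w - x₀‖ + ‖(t - t₀) • w‖ := norm_add_le _ _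
          _ < 2 * ρ := by linarith
      rw [indicator_of_mem ht]
      simp only
      rw [indicator_of_mem hm]
    · rw [indicator_of_notMem ht]
      exact zero_le
  have h3 : ∫⁻ t, I.indicator (fun _ => c) t = c * ENNReal.ofReal (2 * (ρ / ‖w‖)) := by
    rw [lintegral_indicator measurableSet_Ioo, setLIntegral_const, Real.volume_Ioo]
    congr 2
    ring
  calc ENNReal.ofReal (2 * Δ) = c * ENNReal.ofReal (2 * (ρ / ‖w‖)) := by
        simp only [c]
        rw [← ENNReal.ofReal_mul (by positivity)]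
        congr 1
        field_simp
    _ = ∫⁻ t, I.indicator (fun _ => c) t := h3.symm
    _ ≤ _ := lintegral_mono h2

lemma slice_dir {Z : Set E} {x₀ : E} {ρ Δ : ℝ} (hρ : 0 < ρ) (hΔ : 0 ≤ Δ)
    (hS : SliceHyp u Z x₀ ρ Δ) {w : E} (hw : w ≠ 0) :
    ∫⁻ x, ({x | (x, w) ∈ sliceJoint Z u}).indicator (fun x => ENNReal.ofReal (dirD u x w)) x ∂μ ≤
      ENNReal.ofReal (Δ * ‖w‖ / ρ * ((2 * ρ) ^ finrank ℝ E * volOne μ)) := by
  have hJ := measurableSet_sliceJoint (u := u) hS.meas
  have hsec : MeasurableSet {x | (x, w) ∈ sliceJoint Z u} := by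
    have : Measurable (fun x : E => ((x, w) : E × E)) := measurable_id.prodMk measurable_const
    exact this hJ
  have hdm : Measurable (fun x : E => dirD u x w) := by
    have h1 : Measurable (fun x : E => ((x, w) : E × E)) := measurable_id.prodMk measurable_const
    have h2 := (measurable_dirD u).comp h1
    exact h2
  have ha : Measurable (({x | (x, w) ∈ sliceJoint Z u}).indicator
      (fun x => ENNReal.ofReal (dirD u x w))) := hdm.ennreal_ofReal.indicator hsec
  have hb : Measurable ((ball x₀ (2 * ρ)).indicator (fun _ : E => ENNReal.ofReal (Δ * ‖w‖ / ρ))) :=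
    measurable_const.indicator measurableSet_ball
  have h1 := lintegral_le_of_lines μ hw ha hb (fun x => slice_line hρ hΔ hS hw x)
  refine h1.trans ?_
  rw [lintegral_indicator measurableSet_ball, setLIntegral_const, measure_ball_eq μ _ (by positivity),
    ← ENNReal.ofReal_mul (by positivity)]

/-- The constant of the slice estimate. -/
noncomputable def sliceC (d : ℕ) : ℝ := 16 / 7 * 32 ^ d

lemma sliceC_pos (d : ℕ) : 0 < sliceC d := by unfold sliceC; positivity

/-- The slice estimate. -/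
theorem slice_bound (hd : 1 ≤ finrank ℝ E) {Z : Set E} {x₀ : E} {ρ Δ : ℝ} (hρ : 0 < ρ) (hΔ : 0 ≤ Δ)
    (hS : SliceHyp u Z x₀ ρ Δ) :
    ∫⁻ x in Z, ENNReal.ofReal ‖fderiv ℝ u x‖ ∂μ ≤
      ENNReal.ofReal (sliceC (finrank ℝ E) * Δ * ρ ^ (finrank ℝ E - 1) * volOne μ) := by
  classical
  set d := finrank ℝ E with hdd
  have hV := volOne_pos μ
  have hJ := measurableSet_sliceJoint (u := u) hS.meas
  let J : E × E → ℝ≥0∞ := (sliceJoint Z u).indicator (fun p => ENNReal.ofReal (dirD u p.1 p.2))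
  have hJm : Measurable J := (measurable_dirD u).ennreal_ofReal.indicator hJ
  have hsec : ∀ w x, J (x, w) =
      ({x | (x, w) ∈ sliceJoint Z u}).indicator (fun x => ENNReal.ofReal (dirD u x w)) x := by
    intro w x
    by_cases hm : (x, w) ∈ sliceJoint Z u
    · simp only [J]
      rw [indicator_of_mem hm, indicator_of_mem (show x ∈ {x | (x, w) ∈ sliceJoint Z u} from hm)]
    · simp only [J]
      rw [indicator_of_notMem hm, indicator_of_notMem (show x ∉ {x | (x, w) ∈ sliceJoint Z u} from hm)]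
  -- the pointwise lower bound
  have hpt : ∀ x ∈ Z, ENNReal.ofReal ((1 / 16 : ℝ) ^ d * volOne μ) * ENNReal.ofReal ‖fderiv ℝ u x‖ ≤
      ENNReal.ofReal (16 / 7) * ∫⁻ w in ball (0 : E) 1, J (x, w) ∂μ := by
    intro x hx
    obtain ⟨hdx, h0⟩ := hS.diff x hx
    have hn := norm_normalField h0
    set Bx := ball ((1 / 2 : ℝ) • normalField u x) (1 / 16) with hBx
    have hBsub : Bx ⊆ ball (0 : E) 1 := by
      intro w hw
      rw [mem_ball_zero_iff]
      have := (slice_dir_bounds hn hw).2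
      linarith
    have hmeasB : μ Bx = ENNReal.ofReal ((1 / 16 : ℝ) ^ d * volOne μ) := measure_ball_eq μ _ (by norm_num)
    calc ENNReal.ofReal ((1 / 16 : ℝ) ^ d * volOne μ) * ENNReal.ofReal ‖fderiv ℝ u x‖
        = ∫⁻ _ in Bx, ENNReal.ofReal ‖fderiv ℝ u x‖ ∂μ := by
          rw [setLIntegral_const, hmeasB, mul_comm]
      _ ≤ ∫⁻ w in Bx, ENNReal.ofReal (16 / 7) * J (x, w) ∂μ := by
          apply setLIntegral_mono' measurableSet_ball
          intro w hw
          have hmem : (x, w) ∈ sliceJoint Z u := ⟨hx, hw⟩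
          simp only [J]
          rw [indicator_of_mem hmem, ← ENNReal.ofReal_mul (by norm_num)]
          apply ENNReal.ofReal_le_ofReal
          simp only [dirD]
          have h1 := (slice_dir_bounds hn hw).1
          have hg : 0 ≤ ‖fderiv ℝ u x‖ := norm_nonneg _
          nlinarith
      _ ≤ ∫⁻ w in ball (0 : E) 1, ENNReal.ofReal (16 / 7) * J (x, w) ∂μ := lintegral_mono_set hBsub
      _ = ENNReal.ofReal (16 / 7) * ∫⁻ w in ball (0 : E) 1, J (x, w) ∂μ := by
          rw [lintegral_const_mul]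
          have : Measurable (fun w : E => ((x, w) : E × E)) := measurable_const.prodMk measurable_id
          exact hJm.comp this
  -- the direction by direction bound
  have hdir : ∀ w ∈ ball (0 : E) 1, ∫⁻ x, J (x, w) ∂μ ≤
      ENNReal.ofReal (Δ * 2 ^ d * ρ ^ (d - 1) * volOne μ) := by
    intro w hw
    simp_rw [hsec w]
    by_cases hw0 : w = 0
    · have h1 : ∀ x, ({x | (x, w) ∈ sliceJoint Z u}).indicator
          (fun x => ENNReal.ofReal (dirD u x w)) x = 0 := by
        intro x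
        apply indicator_of_notMem
        rintro ⟨hx, hb⟩
        have := (slice_dir_bounds (norm_normalField (hS.diff _ hx).2) hb).1
        rw [hw0, inner_zero_right] at this
        norm_num at this
      rw [lintegral_congr h1, lintegral_zero]
      exact zero_le
    · refine (slice_dir hρ hΔ hS hw0).trans (ENNReal.ofReal_le_ofReal ?_)
      rw [mem_ball_zero_iff] at hw
      have e : (2 * ρ) ^ d = 2 ^ d * (ρ * ρ ^ (d - 1)) := by
        rw [mul_pow]
        congr 1
        rw [← pow_succ']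
        congr 1
        omega
      rw [e]
      have h2 : Δ * ‖w‖ / ρ * (2 ^ d * (ρ * ρ ^ (d - 1)) * volOne μ) =
          (Δ * 2 ^ d * ρ ^ (d - 1) * volOne μ) * ‖w‖ := by
        field_simp
      rw [h2]
      have h3 : 0 ≤ Δ * 2 ^ d * ρ ^ (d - 1) * volOne μ := by positivity
      nlinarith [norm_nonneg w]
  have hmj : Measurable (fun p : E × E => J (p.1, p.2)) := hJm
  have hmain : ENNReal.ofReal ((1 / 16 : ℝ) ^ d * volOne μ) * ∫⁻ x in Z, ENNReal.ofReal ‖fderiv ℝ u x‖ ∂μ ≤
      ENNReal.ofReal (16 / 7 * (Δ * 2 ^ d * ρ ^ (d - 1) * volOne μ * volOne μ)) := by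
    calc ENNReal.ofReal ((1 / 16 : ℝ) ^ d * volOne μ) * ∫⁻ x in Z, ENNReal.ofReal ‖fderiv ℝ u x‖ ∂μ
        = ∫⁻ x in Z, ENNReal.ofReal ((1 / 16 : ℝ) ^ d * volOne μ) * ENNReal.ofReal ‖fderiv ℝ u x‖ ∂μ := by
          rw [lintegral_const_mul]
          exact ((measurable_fderiv ℝ u).norm).ennreal_ofReal
      _ ≤ ∫⁻ x in Z, ENNReal.ofReal (16 / 7) * ∫⁻ w in ball (0 : E) 1, J (x, w) ∂μ ∂μ :=
          setLIntegral_mono' hS.meas hpt
      _ ≤ ∫⁻ x, ENNReal.ofReal (16 / 7) * ∫⁻ w in ball (0 : E) 1, J (x, w) ∂μ ∂μ :=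
          setLIntegral_le_lintegral _ _
      _ = ENNReal.ofReal (16 / 7) * ∫⁻ x, ∫⁻ w in ball (0 : E) 1, J (x, w) ∂μ ∂μ := by
          rw [lintegral_const_mul]
          exact hmj.lintegral_prod_right'
      _ = ENNReal.ofReal (16 / 7) * ∫⁻ w in ball (0 : E) 1, ∫⁻ x, J (x, w) ∂μ ∂μ := by
          rw [lintegral_lintegral_swap hmj.aemeasurable]
      _ ≤ ENNReal.ofReal (16 / 7) * ∫⁻ w in ball (0 : E) 1,
            ENNReal.ofReal (Δ * 2 ^ d * ρ ^ (d - 1) * volOne μ) ∂μ := by
          exact mul_le_mul' le_rfl (setLIntegral_mono' measurableSet_ball hdir)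
      _ = _ := by
          rw [setLIntegral_const, ← ofReal_volOne μ, ← ENNReal.ofReal_mul (by positivity),
            ← ENNReal.ofReal_mul (by positivity)]
  have h5 := le_ofReal_div (by positivity) hmain
  refine h5.trans (le_of_eq ?_)
  congr 1
  unfold sliceC
  have e2 : (32 : ℝ) ^ d = 16 ^ d * 2 ^ d := by rw [← mul_pow]; norm_num
  rw [e2, one_div, inv_pow]
  have hV' : volOne μ ≠ 0 := hV.ne'
  field_simp

end Vale.Agent.Lib.P137



/-! Scaling, and continuity of ball integrals. -/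

namespace Vale.Agent.Lib.P137

open MeasureTheory Set Filter Topology Metric Module
open scoped ENNReal NNReal RealInnerProductSpace Pointwise

set_option linter.unusedSectionVars false
set_option linter.unusedVariables false

variable {E : Type*} [NormedAddCommGroup E] [InnerProductSpace ℝ E] [FiniteDimensional ℝ E]
  [MeasurableSpace E] [BorelSpace E] {μ : Measure E} [μ.IsAddHaarMeasure]

variable {f u : E → ℝ} {Lf Lu : ℝ≥0}

/-- The integral over the unit ball of a translated and dilated function. -/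
noncomputable def ballInt (μ : Measure E) (f : E → ℝ) (c : E) (r : ℝ) : ℝ :=
  ∫ v in ball (0 : E) 1, f (c + r • v) ∂μ

lemma continuous_ballInt [Nontrivial E] (hf : Continuous f) :
    Continuous (fun p : E × ℝ => ballInt μ f p.1 p.2) := by
  have h0 : (ball (0 : E) 1 : Set E) =ᵐ[μ] closedBall (0 : E) 1 := by
    apply ae_eq_of_subset_of_measure_ge ball_subset_closedBall
    · rw [Measure.addHaar_closedBall_eq_addHaar_ball]
    · exact measurableSet_ball.nullMeasurableSet
    · exact (isCompact_closedBall (0 : E) 1).measure_lt_top.ne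
  have h1 : (fun p : E × ℝ => ballInt μ f p.1 p.2) =
      fun p : E × ℝ => ∫ v in closedBall (0 : E) 1, f (p.1 + p.2 • v) ∂μ := by
    ext p
    exact setIntegral_congr_set h0
  rw [h1]
  have hc : Continuous (Function.uncurry (fun (p : E × ℝ) (v : E) => f (p.1 + p.2 • v))) := by
    apply hf.comp
    exact (continuous_fst.fst).add (continuous_fst.snd.smul continuous_snd)
  exact continuous_parametric_integral_of_continuous hc (isCompact_closedBall (0 : E) 1)

lemma integral_ball_eq (f : E → ℝ) (c : E) {r : ℝ} (hr : 0 < r) :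
    ∫ y in ball c r, f y ∂μ = r ^ finrank ℝ E * ballInt μ f c r := by
  have h1 := Measure.setIntegral_comp_smul_of_pos μ (fun y => f (c + y)) (ball (0 : E) 1) hr
  have h2 : r • ball (0 : E) 1 = ball (0 : E) r := smul_unitBall_of_pos hr
  rw [h2] at h1
  have h3 := (measurePreserving_add_left μ c).setIntegral_preimage_emb
    (measurableEmbedding_addLeft c) f (ball c r)
  have h4 : (fun x => c + x) ⁻¹' ball c r = ball (0 : E) r := by
    ext y
    simp
  rw [h4] at h3
  unfold ballInt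
  rw [h1, h3, smul_eq_mul, mul_inv_cancel_left₀ (by positivity)]

/-- The integral of a dilated function over a ball. -/
lemma setIntegral_comp_smul_ball (f : E → ℝ) {R : ℝ} (hR : 0 < R) (c : E) (r : ℝ) :
    ∫ y in ball c r, f (R • y) ∂μ = (R ^ finrank ℝ E)⁻¹ * ∫ y in ball (R • c) (R * r), f y ∂μ := by
  have h1 := Measure.setIntegral_comp_smul_of_pos μ f (ball c r) hR
  rw [_root_.smul_ball hR.ne', Real.norm_eq_abs, abs_of_pos hR, smul_eq_mul] at h1
  exact h1

/-- The dilation invariance of the averaging property. -/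
lemma avgPair_scale (hA : AvgPair μ f u) {R : ℝ} (hR : 0 < R) :
    AvgPair μ (fun y => f (R • y)) (fun y => u (R • y)) := by
  refine ⟨hA.cont.comp (continuous_const.smul continuous_id), ?_⟩
  intro c r hr p hp
  rw [setIntegral_comp_smul_ball f hR c r]
  have hp' : R • p ∈ closedBall (R • c) (R * r) := by
    rw [mem_closedBall, dist_eq_norm, ← smul_sub, norm_smul, Real.norm_eq_abs, abs_of_pos hR]
    rw [mem_closedBall, dist_eq_norm] at hp
    exact mul_le_mul_of_nonneg_left hp hR.le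
  have h1 := hA.avg_le (R • c) (R * r) (by positivity) (R • p) hp'
  rw [measure_ball_toReal μ _ (by positivity)] at h1
  rw [measure_ball_toReal μ _ hr]
  have h2 : (R ^ finrank ℝ E)⁻¹ * (u (R • p) * ((R * r) ^ finrank ℝ E * volOne μ)) =
      u (R • p) * (r ^ finrank ℝ E * volOne μ) := by
    rw [mul_pow]
    field_simp
  rw [← h2]
  exact mul_le_mul_of_nonneg_left h1 (by positivity)

lemma shortDirs_scale (f : E → ℝ) {R : ℝ} (hR : 0 < R) (ρ : ℝ) (y : E) (s : ℝ) :
    shortDirs (fun y => f (R • y)) ρ y s = shortDirs f (R * ρ) (R • y) s := by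
  ext w
  simp only [shortDirs, mem_ofPred_eq]
  constructor
  · rintro ⟨τ₁, τ₂, h1, h2, h3, h4, h5⟩
    refine ⟨R * τ₁, R * τ₂, by positivity, ?_, by positivity, ?_, ?_⟩
    · rw [mul_assoc]; exact mul_lt_mul_of_pos_left h2 hR
    · rw [mul_assoc]; exact mul_lt_mul_of_pos_left h4 hR
    · have e1 : R • y + (R * τ₁) • w = R • (y + τ₁ • w) := by rw [smul_add, smul_smul]
      have e2 : R • y - (R * τ₂) • w = R • (y - τ₂ • w) := by rw [smul_sub, smul_smul]
      rw [e1, e2]
      exact h5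
  · rintro ⟨τ₁, τ₂, h1, h2, h3, h4, h5⟩
    have hR' : R ≠ 0 := hR.ne'
    refine ⟨R⁻¹ * τ₁, R⁻¹ * τ₂, by positivity, ?_, by positivity, ?_, ?_⟩
    · rw [mul_assoc, inv_mul_lt_iff₀ hR]; exact h2
    · rw [mul_assoc, inv_mul_lt_iff₀ hR]; exact h4
    · have e1 : R • (y + (R⁻¹ * τ₁) • w) = R • y + τ₁ • w := by
        rw [smul_add, smul_smul, mul_inv_cancel_left₀ hR']
      have e2 : R • (y - (R⁻¹ * τ₂) • w) = R • y - τ₂ • w := by
        rw [smul_sub, smul_smul, mul_inv_cancel_left₀ hR']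
      rw [e1, e2]
      exact h5

lemma lintegral_comp_smul_ball {G : E → ℝ≥0∞} (hG : Measurable G) {R : ℝ} (hR : 0 < R) (c : E) (r : ℝ) :
    ∫⁻ y in ball c r, G (R • y) ∂μ =
      ENNReal.ofReal (R ^ finrank ℝ E)⁻¹ * ∫⁻ z in ball (R • c) (R * r), G z ∂μ := by
  have hmap := Measure.map_addHaar_smul μ hR.ne'
  have hsm : Measurable (fun y : E => R • y) := measurable_const_smul R
  have h1 : ∫⁻ z, (ball (R • c) (R * r)).indicator G z ∂(Measure.map (fun y : E => R • y) μ) =
      ∫⁻ y, (ball (R • c) (R * r)).indicator G (R • y) ∂μ :=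
    lintegral_map (hG.indicator measurableSet_ball) hsm
  rw [hmap, lintegral_smul_measure, lintegral_indicator measurableSet_ball] at h1
  rw [abs_of_nonneg (by positivity)] at h1
  simp only [smul_eq_mul] at h1
  rw [h1, ← lintegral_indicator measurableSet_ball]
  apply lintegral_congr
  intro y
  by_cases hy : y ∈ ball c r
  · have hy' : R • y ∈ ball (R • c) (R * r) := by
      rw [mem_ball, dist_eq_norm, ← smul_sub, norm_smul, Real.norm_eq_abs, abs_of_pos hR]
      rw [mem_ball, dist_eq_norm] at hy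
      exact mul_lt_mul_of_pos_left hy hR
    rw [indicator_of_mem hy, indicator_of_mem hy']
  · have hy' : R • y ∉ ball (R • c) (R * r) := by
      intro h
      apply hy
      rw [mem_ball, dist_eq_norm, ← smul_sub, norm_smul, Real.norm_eq_abs, abs_of_pos hR] at h
      rw [mem_ball, dist_eq_norm]
      exact lt_of_mul_lt_mul_left h hR.le
    rw [indicator_of_notMem hy, indicator_of_notMem hy']

/-- Joint measurability of the mass of short directions. -/
lemma measurable_shortMass (hf : Continuous f) (ρ : ℝ) :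
    Measurable (fun q : E × ℝ => μ (shortDirs f ρ q.1 q.2 ∩ ball 0 1)) := by
  let S : Set ((E × ℝ) × E) := {r | r.2 ∈ shortDirs f ρ r.1.1 r.1.2 ∧ r.2 ∈ ball (0 : E) 1}
  have hS : MeasurableSet S := by
    apply MeasurableSet.inter
    · have h1 : Measurable (fun r : (E × ℝ) × E => ((r.1.1, r.1.2, r.2) : E × ℝ × E)) := by fun_prop
      exact h1 (isOpen_shortDirs hf ρ).measurableSet
    · exact measurable_snd measurableSet_ball
  exact measurable_measure_prodMk_left hS

/-- The scaling of the short chord mass. -/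
lemma Mprime_scale (hf : Continuous f) {R : ℝ} (hR : 0 < R) (ρ₁ ρ₂ : ℝ) (x₀ : E) :
    Mprime μ (fun y => f (R • y)) ρ₁ ρ₂ x₀ = ENNReal.ofReal (R ^ finrank ℝ E)⁻¹ *
      ∫⁻ s : ℝ, ∫⁻ z in ball (R • x₀) (R * ρ₁), μ (shortDirs f (R * ρ₂) z s ∩ ball 0 1) ∂μ := by
  unfold Mprime
  have hG : ∀ s : ℝ, Measurable (fun z : E => μ (shortDirs f (R * ρ₂) z s ∩ ball 0 1)) := by
    intro s
    have h1 : Measurable (fun z : E => ((z, s) : E × ℝ)) := measurable_id.prodMk measurable_const
    exact (measurable_shortMass hf _).comp h1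
  have h1 : ∀ s : ℝ, ∫⁻ y in ball x₀ ρ₁, μ (shortDirs (fun y => f (R • y)) ρ₂ y s ∩ ball 0 1) ∂μ =
      ENNReal.ofReal (R ^ finrank ℝ E)⁻¹ *
        ∫⁻ z in ball (R • x₀) (R * ρ₁), μ (shortDirs f (R * ρ₂) z s ∩ ball 0 1) ∂μ := by
    intro s
    simp_rw [shortDirs_scale f hR]
    exact lintegral_comp_smul_ball (hG s) hR x₀ ρ₁
  simp_rw [h1]
  rw [lintegral_const_mul]
  have h2 : Measurable (fun r : ℝ × E => (ball (R • x₀) (R * ρ₁)).indicator
      (fun z => μ (shortDirs f (R * ρ₂) z r.1 ∩ ball 0 1)) r.2) := by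
    let T : Set (ℝ × E) := {r | r.2 ∈ ball (R • x₀) (R * ρ₁)}
    have hT : MeasurableSet T := measurable_snd measurableSet_ball
    have h3 : Measurable (fun r : ℝ × E => μ (shortDirs f (R * ρ₂) r.2 r.1 ∩ ball 0 1)) := by
      have h4 : Measurable (fun r : ℝ × E => ((r.2, r.1) : E × ℝ)) := by fun_prop
      exact (measurable_shortMass hf _).comp h4
    have h5 := h3.indicator hT
    have h6 : (fun r : ℝ × E => (ball (R • x₀) (R * ρ₁)).indicator
        (fun z => μ (shortDirs f (R * ρ₂) z r.1 ∩ ball 0 1)) r.2) =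
        T.indicator (fun r : ℝ × E => μ (shortDirs f (R * ρ₂) r.2 r.1 ∩ ball 0 1)) := by
      ext r
      by_cases hm : r.2 ∈ ball (R • x₀) (R * ρ₁)
      · rw [indicator_of_mem hm, indicator_of_mem (show r ∈ T from hm)]
      · rw [indicator_of_notMem hm, indicator_of_notMem (show r ∉ T from hm)]
    rw [h6]
    exact h5
  have h6 := Measurable.lintegral_prod_right' (ν := μ) h2
  have h7 : (fun s : ℝ => ∫⁻ z in ball (R • x₀) (R * ρ₁), μ (shortDirs f (R * ρ₂) z s ∩ ball 0 1) ∂μ) =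
      fun s : ℝ => ∫⁻ z, (ball (R • x₀) (R * ρ₁)).indicator
        (fun z => μ (shortDirs f (R * ρ₂) z s ∩ ball 0 1)) z ∂μ := by
    ext s
    rw [lintegral_indicator measurableSet_ball]
  rw [h7]
  exact h6

/-- Goodness of a point under dilation. -/
lemma goodPoint_scale {a₁ : ℝ} {x n : E} {r R : ℝ} (hR : 0 < R) (hn : ‖n‖ = 1) (h1 : R ≤ r)
    (h2 : r ≤ 2 * R)
    (hopt : ∫ y in ball (x + r • n) r, f y ∂μ = u x * (μ (ball (x + r • n) r)).toReal)
    (hlt : f x < u x)
    (hsmall : μ {w | w ∈ ball ((1 / 2 : ℝ) • n) (1 / 2) ∧ RayGood f u x w} ≤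
      ENNReal.ofReal (a₁ * volOne μ)) :
    GoodPoint μ a₁ (fun y => f (R • y)) (fun y => u (R • y)) (R⁻¹ • x) n (r / R) := by
  have hR' : R ≠ 0 := hR.ne'
  have e0 : R • (R⁻¹ • x) = x := smul_inv_smul₀ hR' x
  have hrpos : 0 < r := by linarith
  refine ⟨hn, ?_, ?_, ?_, ?_, ?_⟩
  · rwa [one_le_div hR]
  · rw [div_le_iff₀ hR]; linarith
  · rw [setIntegral_comp_smul_ball f hR, e0, measure_ball_toReal μ _ (by positivity)]
    have e1 : R • (R⁻¹ • x + (r / R) • n) = x + r • n := by
      rw [smul_add, e0, smul_smul, mul_div_cancel₀ _ hR']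
    have e2 : R * (r / R) = r := mul_div_cancel₀ _ hR'
    rw [e1, e2, hopt, measure_ball_toReal μ _ hrpos]
    rw [div_pow]
    have : R ^ finrank ℝ E ≠ 0 := by positivity
    field_simp
  · rw [e0]; exact hlt
  · refine le_trans (measure_mono ?_) hsmall
    rintro w ⟨hw, τ, h0, h3, h4⟩
    refine ⟨hw, ?_⟩
    beta_reduce at h3 h4
    rw [e0] at h3 h4
    have e3 : ∀ σ : ℝ, R • (R⁻¹ • x + σ • w) = x + σ • (R • w) := by
      intro σ
      rw [smul_add, e0, smul_smul, smul_smul, mul_comm]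
    have hg : RayGood f u x (R • w) := by
      refine ⟨τ, h0, ?_, ?_⟩
      · intro σ hσ
        rw [← e3]
        exact h3 σ hσ
      · rw [← e3]
        exact h4
    have := hg.smul (inv_pos.2 hR)
    rwa [smul_smul, inv_mul_cancel₀ hR', one_smul] at this

/-- Averaging over balls of fixed radius. -/
lemma lintegral_ball_avg {H : E → ℝ≥0∞} (hH : Measurable H) {a : ℝ} (ha : 0 < a) :
    ∫⁻ x₀, ∫⁻ z in ball x₀ a, H z ∂μ ∂μ = ENNReal.ofReal (a ^ finrank ℝ E * volOne μ) * ∫⁻ z, H z ∂μ := by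
  classical
  let S : Set (E × E) := {p | p.2 ∈ ball p.1 a}
  have hS : MeasurableSet S := by
    apply IsOpen.measurableSet
    exact isOpen_lt (continuous_snd.dist continuous_fst) continuous_const
  let J : E × E → ℝ≥0∞ := S.indicator (fun p => H p.2)
  have hJ : Measurable J := (hH.comp measurable_snd).indicator hS
  have h1 : ∀ x₀, ∫⁻ z in ball x₀ a, H z ∂μ = ∫⁻ z, J (x₀, z) ∂μ := by
    intro x₀
    rw [← lintegral_indicator measurableSet_ball]
    apply lintegral_congr
    intro z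
    by_cases hz : z ∈ ball x₀ a
    · rw [indicator_of_mem hz]
      simp only [J]
      rw [indicator_of_mem (show (x₀, z) ∈ S from hz)]
    · rw [indicator_of_notMem hz]
      simp only [J]
      rw [indicator_of_notMem (show (x₀, z) ∉ S from hz)]
  simp_rw [h1]
  have hJ' : Measurable (fun p : E × E => J (p.1, p.2)) := hJ
  rw [lintegral_lintegral_swap hJ'.aemeasurable, ← lintegral_const_mul _ hH]
  apply lintegral_congr
  intro z
  have h2 : ∀ x₀, J (x₀, z) = (ball z a).indicator (fun _ => H z) x₀ := by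
    intro x₀
    by_cases hz : x₀ ∈ ball z a
    · rw [indicator_of_mem hz]
      have : (x₀, z) ∈ S := by
        show z ∈ ball x₀ a
        rw [mem_ball] at hz ⊢
        rwa [dist_comm]
      simp only [J]
      rw [indicator_of_mem this]
    · rw [indicator_of_notMem hz]
      have : (x₀, z) ∉ S := by
        intro h
        apply hz
        have h' : z ∈ ball x₀ a := h
        rw [mem_ball] at h' ⊢
        rwa [dist_comm]
      simp only [J]
      rw [indicator_of_notMem this]
  simp_rw [h2]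
  rw [lintegral_indicator measurableSet_ball, setLIntegral_const, measure_ball_eq μ _ ha, mul_comm]

end Vale.Agent.Lib.P137



/-! The estimate on the set of points with few ray good directions, scale by scale. -/

namespace Vale.Agent.Lib.P137

open MeasureTheory Set Filter Topology Metric Module
open scoped ENNReal NNReal RealInnerProductSpace Pointwise

set_option linter.unusedSectionVars false
set_option linter.unusedVariables false

variable {E : Type*} [NormedAddCommGroup E] [InnerProductSpace ℝ E] [FiniteDimensional ℝ E]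
  [MeasurableSpace E] [BorelSpace E] {μ : Measure E} [μ.IsAddHaarMeasure]

variable {f u : E → ℝ} {Lf Lu : ℝ≥0}

lemma measurable_rayMeas (hf : Continuous f) (hu : Continuous u) : Measurable (rayMeas μ f u) := by
  let S : Set (E × E) := {p | p.2 ∈ ball ((1 / 2 : ℝ) • normalField u p.1) (1 / 2) ∧ RayGood f u p.1 p.2}
  have hS : MeasurableSet S := by
    apply MeasurableSet.inter
    · have h1 : Measurable (fun p : E × E => dist p.2 ((1 / 2 : ℝ) • normalField u p.1)) := by
        apply Measurable.dist measurable_snd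
        exact ((measurable_normalField u).comp measurable_fst).const_smul _
      exact h1 measurableSet_Iio
    · exact measurableSet_rayGood hf hu
  exact measurable_measure_prodMk_left hS

/-- Points of `Dplus` with few ray good directions. -/
def D2 (μ : Measure E) (f u : E → ℝ) : Set E :=
  {x | x ∈ Dplus f u ∧ rayMeas μ f u x ≤ ENNReal.ofReal (aOne (finrank ℝ E) * volOne μ)}

lemma measurableSet_D2 (hf : Continuous f) (hu : Continuous u) : MeasurableSet (D2 μ f u) := by
  apply (measurableSet_Dplus hf hu).inter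
  exact (measurable_rayMeas hf hu) measurableSet_Iic

/-- Points with an optimal ball with center on the normal line at scale `R`. -/
def contact (μ : Measure E) (f u : E → ℝ) (R : ℝ) : Set E :=
  {x | ∃ r ∈ Icc R (2 * R), ∫ y in ball (x + r • normalField u x) r, f y ∂μ =
    u x * (μ (ball (x + r • normalField u x) r)).toReal}

lemma measurableSet_contact [Nontrivial E] (hf : Continuous f) (hu : Continuous u) {R : ℝ} (hR : 0 < R) :
    MeasurableSet (contact μ f u R) := by
  let C : Set (E × E) := {p | ∃ r ∈ Icc R (2 * R), ballInt μ f (p.1 + r • p.2) r = u p.1 * volOne μ}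
  have hC : IsClosed C := by
    have : CompactSpace (Icc R (2 * R)) := isCompact_iff_compactSpace.1 isCompact_Icc
    let S : Set ((Icc R (2 * R)) × (E × E)) :=
      {q | ballInt μ f (q.2.1 + (q.1 : ℝ) • q.2.2) q.1 = u q.2.1 * volOne μ}
    have hS : IsClosed S := by
      apply isClosed_eq
      · have h1 : Continuous (fun q : (Icc R (2 * R)) × (E × E) =>
            (((q.2.1 + (q.1 : ℝ) • q.2.2), (q.1 : ℝ)) : E × ℝ)) :=
          (continuous_snd.fst.add ((continuous_subtype_val.comp continuous_fst).smul continuous_snd.snd)).prodMk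
            (continuous_subtype_val.comp continuous_fst)
        exact (continuous_ballInt hf).comp h1
      · exact (hu.comp continuous_snd.fst).mul continuous_const
    have himg : C = Prod.snd '' S := by
      ext p
      constructor
      · rintro ⟨r, hr, h⟩
        exact ⟨(⟨r, hr⟩, p), h, rfl⟩
      · rintro ⟨⟨r, p'⟩, h, rfl⟩
        exact ⟨r, r.2, h⟩
    rw [himg]
    exact isClosedMap_snd_of_compactSpace _ hS
  have heq : contact μ f u R = (fun x => ((x, normalField u x) : E × E)) ⁻¹' C := by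
    ext x
    simp only [contact, mem_ofPred_eq, C, mem_preimage]
    have hV := volOne_pos μ
    constructor
    · rintro ⟨r, hr, h⟩
      refine ⟨r, hr, ?_⟩
      have hrpos : 0 < r := lt_of_lt_of_le hR hr.1
      rw [integral_ball_eq f _ hrpos, measure_ball_toReal μ _ hrpos] at h
      have h0 : r ^ finrank ℝ E ≠ 0 := by positivity
      have : r ^ finrank ℝ E * ballInt μ f (x + r • normalField u x) r =
          r ^ finrank ℝ E * (u x * volOne μ) := by rw [h]; ring
      exact mul_left_cancel₀ h0 this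
    · rintro ⟨r, hr, h⟩
      refine ⟨r, hr, ?_⟩
      have hrpos : 0 < r := lt_of_lt_of_le hR hr.1
      rw [integral_ball_eq f _ hrpos, measure_ball_toReal μ _ hrpos, h]
      ring
  rw [heq]
  exact ((measurable_id.prodMk (measurable_normalField u))) hC.measurableSet

/-- The set of points at scale `R`. -/
def Dscale (μ : Measure E) (f u : E → ℝ) (R : ℝ) : Set E := D2 μ f u ∩ contact μ f u R

lemma measurableSet_Dscale [Nontrivial E] (hf : Continuous f) (hu : Continuous u) {R : ℝ} (hR : 0 < R) :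
    MeasurableSet (Dscale μ f u R) :=
  (measurableSet_D2 hf hu).inter (measurableSet_contact hf hu hR)

/-- The small constant in the scale of the slices. -/
noncomputable def epsK (d : ℕ) : ℝ := min (1 / 10 ^ 6) (1 / (16 * d))

lemma epsK_pos {d : ℕ} (hd : 1 ≤ d) : 0 < epsK d := by
  have : (0 : ℝ) < d := by exact_mod_cast hd
  exact lt_min (by norm_num) (by positivity)

lemma epsK_le (d : ℕ) : epsK d ≤ 1 / 10 ^ 6 := min_le_left _ _

lemma epsK_mul_le {d : ℕ} (hd : 1 ≤ d) : epsK d * d ≤ 1 / 16 := by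
  have h0 : (0 : ℝ) < d := by exact_mod_cast hd
  have h1 : epsK d ≤ 1 / (16 * d) := min_le_right _ _
  calc epsK d * d ≤ 1 / (16 * d) * d := mul_le_mul_of_nonneg_right h1 h0.le
    _ = 1 / 16 := by field_simp

/-- Oscillation on a small slice. -/
lemma scale_osc (h : SuperPair μ f u Lf Lu) (hd : 1 ≤ finrank ℝ E) {R : ℝ} (hR : 0 < R)
    {x₀ x₁ x₂ : E} (h1 : x₁ ∈ Dscale μ f u R) (h2 : x₂ ∈ Dscale μ f u R)
    (hx1 : x₁ ∈ ball x₀ (epsK (finrank ℝ E) * R / 2)) (hx2 : x₂ ∈ ball x₀ (epsK (finrank ℝ E) * R / 2)) :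
    ENNReal.ofReal (Kkey (finrank ℝ E) * |u x₁ - u x₂| * volOne μ ^ 2) ≤
      ENNReal.ofReal (R ^ finrank ℝ E)⁻¹ *
        ∫⁻ s : ℝ, ∫⁻ z in ball x₀ (R * 451), μ (shortDirs f (R * 60000) z s ∩ ball 0 1) ∂μ := by
  have hε := epsK_pos hd
  have hR' : R ≠ 0 := hR.ne'
  set d := finrank ℝ E with hdd
  obtain ⟨⟨hD1, hs1⟩, r₁, hr₁, hopt₁⟩ := h1
  obtain ⟨⟨hD2, hs2⟩, r₂, hr₂, hopt₂⟩ := h2
  have hA := avgPair_scale h.avg hR
  have hG1 := goodPoint_scale (a₁ := aOne d) hR (norm_normalField hD1.2.2) hr₁.1 hr₁.2 hopt₁ hD1.2.1 hs1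
  have hG2 := goodPoint_scale (a₁ := aOne d) hR (norm_normalField hD2.2.2) hr₂.1 hr₂.2 hopt₂ hD2.2.1 hs2
  have hb1 : ‖R⁻¹ • x₁ - R⁻¹ • x₀‖ < epsK d / 2 := by
    rw [← smul_sub, norm_smul, norm_inv, Real.norm_eq_abs, abs_of_pos hR, inv_mul_lt_iff₀ hR]
    rw [mem_ball, dist_eq_norm] at hx1
    calc ‖x₁ - x₀‖ < epsK d * R / 2 := hx1
      _ = R * (epsK d / 2) := by ring
  have hb2 : ‖R⁻¹ • x₂ - R⁻¹ • x₀‖ < epsK d / 2 := by
    rw [← smul_sub, norm_smul, norm_inv, Real.norm_eq_abs, abs_of_pos hR, inv_mul_lt_iff₀ hR]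
    rw [mem_ball, dist_eq_norm] at hx2
    calc ‖x₂ - x₀‖ < epsK d * R / 2 := hx2
      _ = R * (epsK d / 2) := by ring
  have hεle := epsK_le d
  have hxx : ‖R⁻¹ • x₁ - R⁻¹ • x₂‖ < epsK d := by
    have e : R⁻¹ • x₁ - R⁻¹ • x₂ = (R⁻¹ • x₁ - R⁻¹ • x₀) - (R⁻¹ • x₂ - R⁻¹ • x₀) := by abel
    rw [e]
    calc _ ≤ ‖R⁻¹ • x₁ - R⁻¹ • x₀‖ + ‖R⁻¹ • x₂ - R⁻¹ • x₀‖ := norm_sub_le _ _
      _ < epsK d := by linarith
  have hsub : ∀ x : E, ‖R⁻¹ • x - R⁻¹ • x₀‖ < epsK d / 2 → ball (R⁻¹ • x) 450 ⊆ ball (R⁻¹ • x₀) 451 := by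
    intro x hx
    apply ball_subset_ball'
    rw [dist_eq_norm]
    have : epsK d / 2 ≤ 1 := by
      have : (1 / 10 ^ 6 : ℝ) ≤ 1 := by norm_num
      linarith
    linarith
  have hkey := key_lemma hd hA hG1 hG2 hε hεle (epsK_mul_le hd) hxx (hsub x₁ hb1) (hsub x₂ hb2)
  rw [Mprime_scale h.avg.cont hR] at hkey
  rw [smul_inv_smul₀ hR', smul_inv_smul₀ hR', smul_inv_smul₀ hR'] at hkey
  exact hkey

/-- Monotonicity on a small slice. -/
lemma scale_mono (h : SuperPair μ f u Lf Lu) {R : ℝ} (hR : 0 < R) {x₁ x₂ w : E} {t : ℝ}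
    (h1 : x₁ ∈ Dscale μ f u R) (ht : 0 < t) (hw : w ∈ ball ((1 / 2 : ℝ) • normalField u x₁) (1 / 16))
    (he : x₂ = x₁ + t • w) (hdist : ‖x₂ - x₁‖ < R) : u x₁ ≤ u x₂ := by
  obtain ⟨⟨hD1, hs1⟩, r, hr, hopt⟩ := h1
  have hrpos : 0 < r := lt_of_lt_of_le hR hr.1
  have hn := norm_normalField hD1.2.2
  apply h.le_on_closedBall hrpos hopt
  rw [mem_closedBall_iff_inner hn hrpos]
  obtain ⟨h2, h3⟩ := slice_dir_bounds hn hw
  have e : x₂ - x₁ = t • w := by rw [he]; abel
  rw [e] at hdist ⊢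
  rw [norm_smul, Real.norm_eq_abs, abs_of_pos ht] at hdist
  rw [norm_smul, Real.norm_eq_abs, abs_of_pos ht, inner_smul_left, real_inner_comm]
  simp only [conj_trivial]
  have hw0 : 0 ≤ ‖w‖ := norm_nonneg w
  have h4 : t * ‖w‖ * ‖w‖ ≤ R * (9 / 16) := by
    apply mul_le_mul hdist.le h3 hw0 hR.le
  have h5 : R ≤ r := hr.1
  have h6 : t * ‖w‖ * ‖w‖ ≤ 2 * r * ⟪normalField u x₁, w⟫ := by
    have h7 : r * (7 / 16) ≤ r * ⟪normalField u x₁, w⟫ := mul_le_mul_of_nonneg_left h2 hrpos.le
    nlinarith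
  calc (t * ‖w‖) ^ 2 = t * (t * ‖w‖ * ‖w‖) := by ring
    _ ≤ t * (2 * r * ⟪normalField u x₁, w⟫) := mul_le_mul_of_nonneg_left h6 ht.le
    _ = 2 * r * (t * ⟪normalField u x₁, w⟫) := by ring

/-- Turning a product inequality into a bound. -/
lemma le_ofReal_div_mul {A M : ℝ≥0∞} {κ B : ℝ} (hκ : 0 < κ)
    (h : ENNReal.ofReal κ * A ≤ ENNReal.ofReal B * M) :
    A ≤ ENNReal.ofReal (B / κ) * M := by
  by_cases hB : 0 ≤ B
  · have h1 : A = ENNReal.ofReal κ⁻¹ * (ENNReal.ofReal κ * A) := by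
      rw [← mul_assoc, ← ENNReal.ofReal_mul (by positivity), inv_mul_cancel₀ hκ.ne']
      simp
    rw [h1, div_eq_inv_mul, ENNReal.ofReal_mul (by positivity), mul_assoc]
    gcongr
  · push Not at hB
    rw [ENNReal.ofReal_of_nonpos hB.le, zero_mul] at h
    have h2 : A = 0 := by
      have h3 : ENNReal.ofReal κ ≠ 0 := by simpa using hκ
      have h4 : ENNReal.ofReal κ * A = 0 := le_antisymm h zero_le
      exact (mul_eq_zero.1 h4).resolve_left h3
    rw [h2]
    exact zero_le

/-- The constant in the scale estimate. -/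
noncomputable def scaleC (d : ℕ) (V : ℝ) : ℝ :=
  2 * sliceC d * 451 ^ d / (Kkey d * epsK d * V)

lemma scaleC_pos {d : ℕ} (hd : 1 ≤ d) {V : ℝ} (hV : 0 < V) : 0 < scaleC d V := by
  unfold scaleC
  have := Kkey_pos d
  have := epsK_pos hd
  have := sliceC_pos d
  positivity

/-- The estimate at one scale. -/
theorem scale_bound [Nontrivial E] (h : SuperPair μ f u Lf Lu) (hd : 1 ≤ finrank ℝ E) {R : ℝ} (hR : 0 < R) :
    ∫⁻ x in Dscale μ f u R, ENNReal.ofReal ‖fderiv ℝ u x‖ ∂μ ≤
      ENNReal.ofReal (scaleC (finrank ℝ E) (volOne μ) * R⁻¹) *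
        ∫⁻ s : ℝ, ∫⁻ z, μ (shortDirs f (R * 60000) z s ∩ ball 0 1) ∂μ := by
  classical
  have hfc := h.lipf.continuous
  have huc := h.lipu.continuous
  set d := finrank ℝ E with hdd
  have hV := volOne_pos μ
  have hε := epsK_pos hd
  have hK := Kkey_pos d
  have hSl := sliceC_pos d
  set V₀ := volOne μ with hV₀
  set ρ := epsK d * R / 2 with hρdef
  have hρ : 0 < ρ := by positivity
  have hDm : MeasurableSet (Dscale μ f u R) := measurableSet_Dscale hfc huc hR
  let G : E × ℝ → ℝ≥0∞ := fun q => μ (shortDirs f (R * 60000) q.1 q.2 ∩ ball 0 1)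
  have hG : Measurable G := measurable_shortMass hfc _
  set a := R * 451 with ha
  have hapos : 0 < a := by positivity
  let Φ : E → ℝ≥0∞ := fun x₀ => ∫⁻ s : ℝ, ∫⁻ z in ball x₀ a, G (z, s) ∂μ
  let g : E → ℝ≥0∞ := fun x => ENNReal.ofReal ‖fderiv ℝ u x‖
  have hgm : Measurable g := ((measurable_fderiv ℝ u).norm).ennreal_ofReal
  let c₁ : ℝ := sliceC d * ρ ^ (d - 1) * V₀ * (R ^ d)⁻¹ / (Kkey d * V₀ ^ 2)
  have hc₁ : 0 < c₁ := by positivity
  -- the bound on one slice
  have hZ : ∀ x₀, ∫⁻ x in Dscale μ f u R ∩ ball x₀ ρ, g x ∂μ ≤ ENNReal.ofReal c₁ * Φ x₀ := by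
    intro x₀
    by_cases hΦ : Φ x₀ = ∞
    · rw [hΦ, ENNReal.mul_top (by simpa using hc₁)]
      exact le_top
    set Δ := (R ^ d)⁻¹ * (Φ x₀).toReal / (Kkey d * V₀ ^ 2) with hΔ
    have hΔ0 : 0 ≤ Δ := by positivity
    have hSH : SliceHyp u (Dscale μ f u R ∩ ball x₀ ρ) x₀ ρ Δ := by
      refine ⟨hDm.inter measurableSet_ball, inter_subset_right, ?_, ?_, ?_⟩
      · rintro x ⟨hx, -⟩
        exact ⟨hx.1.1.1, hx.1.1.2.2⟩
      · rintro x₁ ⟨h1, h1'⟩ x₂ ⟨h2, h2'⟩
        have h3 := scale_osc h hd hR h1 h2 h1' h2'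
        have h4 : ENNReal.ofReal (R ^ d)⁻¹ * Φ x₀ = ENNReal.ofReal ((R ^ d)⁻¹ * (Φ x₀).toReal) := by
          rw [ENNReal.ofReal_mul (by positivity), ENNReal.ofReal_toReal hΦ]
        rw [h4, ENNReal.ofReal_le_ofReal_iff (by positivity)] at h3
        rw [hΔ, le_div_iff₀ (by positivity)]
        linarith
      · rintro x₁ ⟨h1, h1'⟩ x₂ ⟨h2, h2'⟩ t ht w hw he
        apply scale_mono h hR h1 ht hw he
        rw [mem_ball, dist_eq_norm] at h1' h2'
        have e : x₂ - x₁ = (x₂ - x₀) - (x₁ - x₀) := by abel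
        rw [e]
        have hε2 : epsK d ≤ 1 := (epsK_le d).trans (by norm_num)
        calc _ ≤ ‖x₂ - x₀‖ + ‖x₁ - x₀‖ := norm_sub_le _ _
          _ < ρ + ρ := add_lt_add h2' h1'
          _ = epsK d * R := by rw [hρdef]; ring
          _ ≤ 1 * R := mul_le_mul_of_nonneg_right hε2 hR.le
          _ = R := one_mul R
    have hb := slice_bound (μ := μ) hd hρ hΔ0 hSH
    refine hb.trans (le_of_eq ?_)
    have e : sliceC d * Δ * ρ ^ (d - 1) * V₀ = c₁ * (Φ x₀).toReal := by
      simp only [c₁, hΔ]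
      field_simp
    rw [e, ENNReal.ofReal_mul hc₁.le, ENNReal.ofReal_toReal hΦ]
  -- integrate over the center
  have hL : ∫⁻ x₀, ∫⁻ x in Dscale μ f u R ∩ ball x₀ ρ, g x ∂μ ∂μ =
      ENNReal.ofReal (ρ ^ d * V₀) * ∫⁻ x in Dscale μ f u R, g x ∂μ := by
    have h1 : ∀ x₀, ∫⁻ x in Dscale μ f u R ∩ ball x₀ ρ, g x ∂μ =
        ∫⁻ x in ball x₀ ρ, (Dscale μ f u R).indicator g x ∂μ := by
      intro x₀
      rw [setLIntegral_indicator hDm]
    simp_rw [h1]
    rw [lintegral_ball_avg (hgm.indicator hDm) hρ, lintegral_indicator hDm]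
  have hR2 : ∫⁻ x₀, Φ x₀ ∂μ = ENNReal.ofReal (a ^ d * V₀) * ∫⁻ s : ℝ, ∫⁻ z, G (z, s) ∂μ := by
    have hjoint : Measurable (fun p : E × ℝ => ∫⁻ z in ball p.1 a, G (z, p.2) ∂μ) := by
      let S : Set ((E × ℝ) × E) := {r | r.2 ∈ ball r.1.1 a}
      have hS : MeasurableSet S := by
        apply IsOpen.measurableSet
        exact isOpen_lt (continuous_snd.dist continuous_fst.fst) continuous_const
      let J : (E × ℝ) × E → ℝ≥0∞ := S.indicator (fun r => G (r.2, r.1.2))
      have hJ : Measurable J := (hG.comp (by fun_prop)).indicator hS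
      have h1 := Measurable.lintegral_prod_right' (ν := μ) hJ
      have h2 : (fun p : E × ℝ => ∫⁻ z in ball p.1 a, G (z, p.2) ∂μ) = fun p => ∫⁻ z, J (p, z) ∂μ := by
        ext p
        rw [← lintegral_indicator measurableSet_ball]
        apply lintegral_congr
        intro z
        by_cases hz : z ∈ ball p.1 a
        · rw [indicator_of_mem hz]
          simp only [J]
          rw [indicator_of_mem (show (p, z) ∈ S from hz)]
        · rw [indicator_of_notMem hz]
          simp only [J]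
          rw [indicator_of_notMem (show (p, z) ∉ S from hz)]
      rw [h2]
      exact h1
    have h3 : ∫⁻ x₀, Φ x₀ ∂μ = ∫⁻ s : ℝ, ∫⁻ x₀, ∫⁻ z in ball x₀ a, G (z, s) ∂μ ∂μ := by
      simp only [Φ]
      exact lintegral_lintegral_swap hjoint.aemeasurable
    rw [h3]
    have h4 : ∀ s : ℝ, ∫⁻ x₀, ∫⁻ z in ball x₀ a, G (z, s) ∂μ ∂μ =
        ENNReal.ofReal (a ^ d * V₀) * ∫⁻ z, G (z, s) ∂μ := by
      intro s
      have h5 : Measurable (fun z : E => G (z, s)) :=
        hG.comp (measurable_id.prodMk measurable_const)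
      exact lintegral_ball_avg h5 hapos
    simp_rw [h4]
    rw [lintegral_const_mul]
    have h6 : Measurable (fun r : ℝ × E => G (r.2, r.1)) := hG.comp (by fun_prop)
    exact h6.lintegral_prod_right'
  have hmain : ENNReal.ofReal (ρ ^ d * V₀) * ∫⁻ x in Dscale μ f u R, g x ∂μ ≤
      ENNReal.ofReal (c₁ * (a ^ d * V₀)) * ∫⁻ s : ℝ, ∫⁻ z, G (z, s) ∂μ := by
    rw [← hL, ENNReal.ofReal_mul hc₁.le, mul_assoc, ← hR2, ← lintegral_const_mul' _ _ ENNReal.ofReal_ne_top]
    exact lintegral_mono hZ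
  have hfinal := le_ofReal_div_mul (by positivity) hmain
  refine hfinal.trans (le_of_eq ?_)
  congr 2
  simp only [c₁, scaleC, hρdef, ha]
  obtain ⟨m, hm⟩ : ∃ m, d = m + 1 := ⟨d - 1, by omega⟩
  have hdm : d - 1 = m := by omega
  rw [hdm, mul_pow]
  have e1 : (epsK d * R / 2) ^ d = (epsK d * R / 2) ^ m * (epsK d * R / 2) := by rw [hm, pow_succ]
  rw [e1]
  have hP : 0 < (epsK d * R / 2) ^ m := by positivity
  have hQ : 0 < R ^ d := by positivity
  generalize (epsK d * R / 2) ^ m = P at hP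
  generalize R ^ d = Q at hQ
  generalize (451 : ℝ) ^ d = B
  field_simp

/-- The estimate on the set of points with few ray good directions. -/
theorem D2_bound [Nontrivial E] (h : SuperPair μ f u Lf Lu) (hd : 1 ≤ finrank ℝ E) :
    ∫⁻ x in D2 μ f u, ENNReal.ofReal ‖fderiv ℝ u x‖ ∂μ ≤
      ENNReal.ofReal (scaleC (finrank ℝ E) (volOne μ)) *
        (ENNReal.ofReal (8 * 60000) * μ (ball 0 1) * ∫⁻ y, ‖fderiv ℝ f y‖ₑ ∂μ) := by
  have hV := volOne_pos μ
  have hC := (scaleC_pos hd hV).le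
  have hcov : D2 μ f u ⊆ ⋃ k : ℤ, Dscale μ f u ((2 : ℝ) ^ k) := by
    intro x hx
    obtain ⟨c, r, hr, hxc, hopt⟩ := h.opt x hx.1.2.1
    have hc := h.optimal_center hx.1 hr hxc hopt
    subst hc
    obtain ⟨k, hk⟩ := exists_mem_Ico_zpow (x := r) (y := 2) hr (by norm_num)
    refine mem_iUnion.2 ⟨k, hx, r, ⟨hk.1, ?_⟩, hopt⟩
    have := hk.2
    rw [zpow_add_one₀ (by norm_num)] at this
    linarith
  calc ∫⁻ x in D2 μ f u, ENNReal.ofReal ‖fderiv ℝ u x‖ ∂μ
      ≤ ∫⁻ x in ⋃ k : ℤ, Dscale μ f u ((2 : ℝ) ^ k), ENNReal.ofReal ‖fderiv ℝ u x‖ ∂μ :=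
        lintegral_mono_set hcov
    _ ≤ ∑' k : ℤ, ∫⁻ x in Dscale μ f u ((2 : ℝ) ^ k), ENNReal.ofReal ‖fderiv ℝ u x‖ ∂μ :=
        lintegral_iUnion_le _ _
    _ ≤ ∑' k : ℤ, ENNReal.ofReal (scaleC (finrank ℝ E) (volOne μ)) * (ENNReal.ofReal ((2 : ℝ) ^ (-k)) *
        ∫⁻ s : ℝ, ∫⁻ z, μ (shortDirs f (60000 * (2 : ℝ) ^ k) z s ∩ ball 0 1) ∂μ) := by
        apply ENNReal.tsum_le_tsum
        intro k
        have h1 := scale_bound h hd (R := (2 : ℝ) ^ k) (by positivity)
        rw [mul_comm ((2 : ℝ) ^ k) 60000, ENNReal.ofReal_mul hC, mul_assoc, ← zpow_neg] at h1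
        exact h1
    _ = ENNReal.ofReal (scaleC (finrank ℝ E) (volOne μ)) * ∑' k : ℤ, ENNReal.ofReal ((2 : ℝ) ^ (-k)) *
        ∫⁻ s : ℝ, ∫⁻ z, μ (shortDirs f (60000 * (2 : ℝ) ^ k) z s ∩ ball 0 1) ∂μ :=
        ENNReal.tsum_mul_left
    _ ≤ _ := mul_le_mul' le_rfl (capacity_E μ h.lipf (by norm_num))

end Vale.Agent.Lib.P137



/-! The abstract gradient bound for a pair `(f, u)`. -/

namespace Vale.Agent.Lib.P137

open MeasureTheory Set Filter Topology Metric Module
open scoped ENNReal NNReal RealInnerProductSpace Pointwise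

set_option linter.unusedSectionVars false
set_option linter.unusedVariables false

variable {E : Type*} [NormedAddCommGroup E] [InnerProductSpace ℝ E] [FiniteDimensional ℝ E]
  [MeasurableSpace E] [BorelSpace E] {μ : Measure E} [μ.IsAddHaarMeasure]

variable {f u : E → ℝ} {Lf Lu : ℝ≥0}

/-- The final constant. -/
noncomputable def absConst (μ : Measure E) : ℝ≥0∞ :=
  ENNReal.ofReal (aOne (finrank ℝ E) * volOne μ)⁻¹ *
      (5 * ∫⁻ w in ball (0 : E) 1, ENNReal.ofReal ‖w‖⁻¹ ∂μ) +
    ENNReal.ofReal (scaleC (finrank ℝ E) (volOne μ)) *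
      (ENNReal.ofReal (8 * 60000) * μ (ball 0 1)) + 1

lemma absConst_ne_top (hd : 2 ≤ finrank ℝ E) : absConst μ ≠ ∞ := by
  unfold absConst
  have h1 := (lintegral_inv_norm_lt_top (μ := μ) hd).ne
  have h2 : μ (ball (0 : E) 1) ≠ ∞ := ball_one_ne_top μ
  simp only [ne_eq, ENNReal.add_eq_top, not_or, ENNReal.one_ne_top, not_false_eq_true, and_true]
  refine ⟨ENNReal.mul_ne_top ENNReal.ofReal_ne_top (ENNReal.mul_ne_top (by norm_num) h1), ?_⟩
  exact ENNReal.mul_ne_top ENNReal.ofReal_ne_top (ENNReal.mul_ne_top ENNReal.ofReal_ne_top h2)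

/-- At a contact point the derivatives agree. -/
lemma fderiv_eq_of_contact (h : ∀ y, f y ≤ u y) {x : E} (hfd : DifferentiableAt ℝ f x)
    (hud : DifferentiableAt ℝ u x) (hc : u x ≤ f x) : fderiv ℝ u x = fderiv ℝ f x := by
  have hmin : IsLocalMin (fun y => u y - f y) x := by
    apply Filter.Eventually.of_forall
    intro y
    have := h y
    simp only
    linarith
  have h0 := hmin.fderiv_eq_zero
  rw [fderiv_fun_sub hud hfd] at h0
  exact sub_eq_zero.1 h0

/-- The abstract gradient bound. -/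
theorem superPair_bound (h : SuperPair μ f u Lf Lu) (hd : 2 ≤ finrank ℝ E) :
    ∫⁻ x, ‖fderiv ℝ u x‖ₑ ∂μ ≤ absConst μ * ∫⁻ y, ‖fderiv ℝ f y‖ₑ ∂μ := by
  classical
  have : Nontrivial E := Module.nontrivial_of_finrank_pos (R := ℝ) (by omega)
  have hd1 : 1 ≤ finrank ℝ E := by omega
  have hfc := h.lipf.continuous
  have huc := h.lipu.continuous
  have hV := volOne_pos μ
  have ha := aOne_pos (finrank ℝ E)
  set I := ∫⁻ y, ‖fderiv ℝ f y‖ₑ ∂μ with hI
  set g : E → ℝ≥0∞ := fun x => ENNReal.ofReal ‖fderiv ℝ u x‖ with hg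
  have hgm : Measurable g := ((measurable_fderiv ℝ u).norm).ennreal_ofReal
  have hDp := measurableSet_Dplus hfc huc
  have hD2 := measurableSet_D2 (μ := μ) hfc huc
  -- the pointwise bound
  have hae : ∀ᵐ x ∂μ, ‖fderiv ℝ u x‖ₑ ≤ (Dplus f u).indicator g x + ‖fderiv ℝ f x‖ₑ := by
    filter_upwards [h.lipu.ae_differentiableAt (μ := μ), h.lipf.ae_differentiableAt (μ := μ)] with x hu hf
    by_cases hx : x ∈ Dplus f u
    · rw [indicator_of_mem hx]
      refine le_trans (le_of_eq ?_) le_self_add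
      exact (ofReal_norm _).symm
    · rw [indicator_of_notMem hx, zero_add]
      by_cases h1 : f x < u x
      · have h2 : fderiv ℝ u x = 0 := by
          by_contra h0
          exact hx ⟨hu, h1, h0⟩
        have h3 : ‖(0 : E →L[ℝ] ℝ)‖ₑ = 0 := by
          rw [enorm_eq_nnnorm, nnnorm_zero]
          rfl
        rw [h2, h3]
        exact zero_le
      · have h2 := fderiv_eq_of_contact h.le hf hu (not_lt.1 h1)
        rw [h2]
  -- the part with many ray good directions
  have hmany : ∫⁻ x in Dplus f u \ D2 μ f u, g x ∂μ ≤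
      ENNReal.ofReal (aOne (finrank ℝ E) * volOne μ)⁻¹ *
        (5 * I * ∫⁻ w in ball (0 : E) 1, ENNReal.ofReal ‖w‖⁻¹ ∂μ) := by
    have hA := thmA h
    have h1 : ENNReal.ofReal (aOne (finrank ℝ E) * volOne μ) * ∫⁻ x in Dplus f u \ D2 μ f u, g x ∂μ ≤
        5 * I * ∫⁻ w in ball (0 : E) 1, ENNReal.ofReal ‖w‖⁻¹ ∂μ := by
      refine le_trans ?_ hA
      rw [← lintegral_const_mul _ hgm]
      calc ∫⁻ x in Dplus f u \ D2 μ f u, ENNReal.ofReal (aOne (finrank ℝ E) * volOne μ) * g x ∂μ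
          ≤ ∫⁻ x in Dplus f u \ D2 μ f u, g x * rayMeas μ f u x ∂μ := by
            apply setLIntegral_mono' (hDp.diff hD2)
            rintro x ⟨hx1, hx2⟩
            rw [mul_comm]
            apply mul_le_mul' le_rfl
            by_contra hc
            exact hx2 ⟨hx1, (not_le.1 hc).le⟩
        _ ≤ ∫⁻ x in Dplus f u, g x * rayMeas μ f u x ∂μ := lintegral_mono_set sdiff_subset
    have hκ : 0 < aOne (finrank ℝ E) * volOne μ := by positivity
    have h2 : ENNReal.ofReal (aOne (finrank ℝ E) * volOne μ)⁻¹ *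
        ENNReal.ofReal (aOne (finrank ℝ E) * volOne μ) = 1 := by
      rw [← ENNReal.ofReal_mul (by positivity), inv_mul_cancel₀ hκ.ne']
      simp
    calc ∫⁻ x in Dplus f u \ D2 μ f u, g x ∂μ
        = ENNReal.ofReal (aOne (finrank ℝ E) * volOne μ)⁻¹ *
          (ENNReal.ofReal (aOne (finrank ℝ E) * volOne μ) * ∫⁻ x in Dplus f u \ D2 μ f u, g x ∂μ) := by
          rw [← mul_assoc, h2, one_mul]
      _ ≤ _ := mul_le_mul' le_rfl h1
  have hfew := D2_bound (μ := μ) h hd1
  have hDsplit : ∫⁻ x in Dplus f u, g x ∂μ ≤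
      ∫⁻ x in Dplus f u \ D2 μ f u, g x ∂μ + ∫⁻ x in D2 μ f u, g x ∂μ := by
    have hsub : Dplus f u ⊆ (Dplus f u \ D2 μ f u) ∪ D2 μ f u := by
      intro x hx
      by_cases h2 : x ∈ D2 μ f u
      · exact Or.inr h2
      · exact Or.inl ⟨hx, h2⟩
    exact (lintegral_mono_set hsub).trans (lintegral_union_le _ _ _)
  calc ∫⁻ x, ‖fderiv ℝ u x‖ₑ ∂μ
      ≤ ∫⁻ x, (Dplus f u).indicator g x + ‖fderiv ℝ f x‖ₑ ∂μ := lintegral_mono_ae hae
    _ = ∫⁻ x, (Dplus f u).indicator g x ∂μ + I := by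
        rw [lintegral_add_left (hgm.indicator hDp)]
    _ = ∫⁻ x in Dplus f u, g x ∂μ + I := by
        rw [lintegral_indicator hDp]
    _ ≤ (∫⁻ x in Dplus f u \ D2 μ f u, g x ∂μ + ∫⁻ x in D2 μ f u, g x ∂μ) + I := by gcongr
    _ ≤ (ENNReal.ofReal (aOne (finrank ℝ E) * volOne μ)⁻¹ *
          (5 * I * ∫⁻ w in ball (0 : E) 1, ENNReal.ofReal ‖w‖⁻¹ ∂μ) +
        ENNReal.ofReal (scaleC (finrank ℝ E) (volOne μ)) *
        (ENNReal.ofReal (8 * 60000) * μ (ball 0 1) * I)) + I := by
        gcongr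
    _ = absConst μ * I := by
        unfold absConst
        ring

end Vale.Agent.Lib.P137



/-! The uncentered maximal function of a nonnegative integrable Lipschitz function gives a pair. -/

namespace Vale.Agent.Lib.P137

open MeasureTheory Set Filter Topology Metric Module
open scoped ENNReal NNReal RealInnerProductSpace Pointwise

set_option linter.unusedSectionVars false
set_option linter.unusedVariables false

variable {E : Type*} [NormedAddCommGroup E] [InnerProductSpace ℝ E] [FiniteDimensional ℝ E]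
  [MeasurableSpace E] [BorelSpace E] {μ : Measure E} [μ.IsAddHaarMeasure]

variable {a u : E → ℝ} {L : ℝ≥0}

/-- The average over a ball, written on the unit ball. -/
noncomputable def avgA (μ : Measure E) (a : E → ℝ) (c : E) (r : ℝ) : ℝ :=
  ballInt μ a c r / volOne μ

lemma avgA_lip (hL : LipschitzWith L a) (c c' : E) (r r' : ℝ) :
    |avgA μ a c r - avgA μ a c' r'| ≤ L * (‖c - c'‖ + |r - r'|) := by
  have hV := volOne_pos μ
  have hac := hL.continuous
  have h1 : Continuous (fun v : E => a (c + r • v)) :=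
    hac.comp (continuous_const.add (continuous_const.smul continuous_id))
  have h2 : Continuous (fun v : E => a (c' + r' • v)) :=
    hac.comp (continuous_const.add (continuous_const.smul continuous_id))
  have h3 : ballInt μ a c r - ballInt μ a c' r' =
      ∫ v in ball (0 : E) 1, (a (c + r • v) - a (c' + r' • v)) ∂μ := by
    unfold ballInt
    rw [integral_sub (integrableOn_ball_of_continuous h1 _ _) (integrableOn_ball_of_continuous h2 _ _)]
  have h4 : ‖∫ v in ball (0 : E) 1, (a (c + r • v) - a (c' + r' • v)) ∂μ‖ ≤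
      (L * (‖c - c'‖ + |r - r'|)) * μ.real (ball (0 : E) 1) := by
    apply norm_setIntegral_le_of_norm_le_const (measure_ball_lt_top)
    intro v hv
    rw [mem_ball_zero_iff] at hv
    have h5 := hL.dist_le_mul (c + r • v) (c' + r' • v)
    rw [Real.norm_eq_abs, ← Real.dist_eq]
    refine h5.trans (mul_le_mul_of_nonneg_left ?_ L.2)
    rw [dist_eq_norm]
    have e : c + r • v - (c' + r' • v) = (c - c') + (r - r') • v := by
      rw [sub_smul]; abel
    rw [e]
    refine (norm_add_le _ _).trans (add_le_add le_rfl ?_)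
    rw [norm_smul, Real.norm_eq_abs]
    nlinarith [abs_nonneg (r - r'), hv.le]
  unfold avgA
  rw [← sub_div, abs_div, abs_of_pos hV, div_le_iff₀ hV, h3]
  have e2 : μ.real (ball (0 : E) 1) = volOne μ := rfl
  rw [e2] at h4
  exact h4

lemma avgA_zero (a : E → ℝ) (x : E) : avgA μ a x 0 = a x := by
  have hV := volOne_pos μ
  unfold avgA ballInt
  simp only [zero_smul, add_zero]
  rw [setIntegral_const, smul_eq_mul]
  have e2 : μ.real (ball (0 : E) 1) = volOne μ := rfl
  rw [e2]
  field_simp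

lemma avgA_nonneg (ha0 : ∀ x, 0 ≤ a x) (c : E) (r : ℝ) : 0 ≤ avgA μ a c r := by
  have hV := volOne_pos μ
  unfold avgA ballInt
  apply div_nonneg _ hV.le
  exact setIntegral_nonneg measurableSet_ball (fun v _ => ha0 _)

lemma integral_ball_avgA (a : E → ℝ) (c : E) {r : ℝ} (hr : 0 < r) :
    ∫ y in ball c r, a y ∂μ = avgA μ a c r * (μ (ball c r)).toReal := by
  have hV := volOne_pos μ
  rw [integral_ball_eq a c hr, measure_ball_toReal μ c hr]
  unfold avgA
  field_simp

lemma avgA_le_large (ha0 : ∀ x, 0 ≤ a x) (hI : Integrable a μ) (c : E) {r : ℝ} (hr : 0 < r) :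
    avgA μ a c r ≤ (∫ y, a y ∂μ) / (r ^ finrank ℝ E * volOne μ) := by
  have hV := volOne_pos μ
  have h1 : ∫ y in ball c r, a y ∂μ ≤ ∫ y, a y ∂μ :=
    setIntegral_le_integral hI (ae_of_all _ ha0)
  rw [integral_ball_avgA a c hr, measure_ball_toReal μ c hr] at h1
  rw [le_div_iff₀ (by positivity)]
  exact h1

/-- `u` is the supremum of the averages over balls containing the point. -/
def IsMaxFn (μ : Measure E) (a u : E → ℝ) : Prop :=
  ∀ x, (∀ c r, 0 < r → x ∈ ball c r → avgA μ a c r ≤ u x) ∧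
    (∀ b, (∀ c r, 0 < r → x ∈ ball c r → avgA μ a c r ≤ b) → u x ≤ b)

lemma IsMaxFn.le_closed (hL : LipschitzWith L a) (hu : IsMaxFn μ a u) {c p : E} {r : ℝ} (hr : 0 < r)
    (hp : p ∈ closedBall c r) : avgA μ a c r ≤ u p := by
  apply le_of_forall_pos_le_add
  intro ε hε
  have hδ : 0 < ε / (L + 1) := by positivity
  have hm : p ∈ ball c (r + ε / (L + 1)) := by
    rw [mem_closedBall] at hp
    rw [mem_ball]
    linarith
  have h1 := (hu p).1 c (r + ε / (L + 1)) (by positivity) hm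
  have h2 := avgA_lip (μ := μ) hL c c r (r + ε / (L + 1))
  have h3 : |r - (r + ε / (L + 1))| = ε / (L + 1) := by
    rw [sub_add_cancel_left, abs_neg, abs_of_pos hδ]
  rw [h3, sub_self, norm_zero, zero_add] at h2
  have h4 : (L : ℝ) * (ε / (L + 1)) ≤ ε := by
    have hL0 : (0 : ℝ) ≤ L := L.2
    rw [mul_div_assoc', div_le_iff₀ (by positivity)]
    nlinarith
  have h5 := (abs_le.1 h2).2
  linarith

/-- The maximal function of a nonnegative Lipschitz integrable function forms a pair. -/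
theorem superPair_of_isMaxFn [Nontrivial E] (hd : 1 ≤ finrank ℝ E) (ha0 : ∀ x, 0 ≤ a x)
    (hL : LipschitzWith L a) (hI : Integrable a μ) (hu : IsMaxFn μ a u) :
    SuperPair μ a u L L := by
  have hV := volOne_pos μ
  have hac := hL.continuous
  have hL0 : (0 : ℝ) ≤ L := L.2
  have hlipu : LipschitzWith L u := by
    apply LipschitzWith.of_le_add_mul
    intro x x'
    apply (hu x).2
    intro c r hr hx
    have h1 : x' ∈ ball (c + (x' - x)) r := by
      rw [mem_ball, dist_eq_norm] at hx ⊢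
      have e : x' - (c + (x' - x)) = x - c := by abel
      rwa [e]
    have h2 := (hu x').1 _ r hr h1
    have h3 := avgA_lip (μ := μ) hL c (c + (x' - x)) r r
    rw [sub_self, abs_zero, add_zero] at h3
    have e : ‖c - (c + (x' - x))‖ = dist x x' := by
      have e1 : c - (c + (x' - x)) = x - x' := by abel
      rw [e1, dist_eq_norm]
    rw [e] at h3
    have h4 := (abs_le.1 h3).2
    linarith
  have hle : ∀ x, a x ≤ u x := by
    intro x
    apply le_of_forall_pos_le_add
    intro ε hε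
    have hδ : 0 < ε / (L + 1) := by positivity
    have hm : x ∈ ball x (ε / (L + 1)) := mem_ball_self hδ
    have h1 := (hu x).1 x (ε / (L + 1)) hδ hm
    have h2 := avgA_lip (μ := μ) hL x x 0 (ε / (L + 1))
    rw [sub_self, norm_zero, zero_add, avgA_zero, zero_sub, abs_neg, abs_of_pos hδ] at h2
    have h4 : (L : ℝ) * (ε / (L + 1)) ≤ ε := by
      rw [mul_div_assoc', div_le_iff₀ (by positivity)]
      nlinarith
    have h5 := (abs_le.1 h2).2
    linarith
  refine ⟨hL, hlipu, hle, ⟨hac, ?_⟩, ?_⟩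
  · intro c r hr p hp
    rw [integral_ball_avgA a c hr]
    apply mul_le_mul_of_nonneg_right (hu.le_closed hL hr hp) ENNReal.toReal_nonneg
  · intro x hx
    -- the compact set of candidate balls
    set I := ∫ y, a y ∂μ with hIdef
    have hI0 : 0 ≤ I := integral_nonneg ha0
    set δ := (u x - a x) / 2 with hδdef
    have hδ : 0 < δ := by
      have : 0 < u x - a x := sub_pos.2 hx
      positivity
    set v := u x - δ with hvdef
    have hv1 : a x < v := by rw [hvdef, hδdef]; linarith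
    have hv2 : v < u x := by rw [hvdef]; linarith
    have hv0 : 0 < v := lt_of_le_of_lt (ha0 x) hv1
    set rmin := (v - a x) / (2 * (L + 1)) with hrmin
    have hrminpos : 0 < rmin := by
      have : 0 < v - a x := sub_pos.2 hv1
      positivity
    set Rmax := max 1 (I / (v * volOne μ)) + 1 with hRmax
    have hR1 : 1 < Rmax := by
      have : (1 : ℝ) ≤ max 1 (I / (v * volOne μ)) := le_max_left _ _
      linarith
    have hR2 : I / (v * volOne μ) < Rmax := by
      have : I / (v * volOne μ) ≤ max 1 (I / (v * volOne μ)) := le_max_right _ _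
      linarith
    -- every ball with a large average lies in the compact set
    have hin : ∀ c r, 0 < r → x ∈ ball c r → v < avgA μ a c r → rmin ≤ r ∧ r ≤ Rmax := by
      intro c r hr hxc hA
      constructor
      · by_contra hc
        push Not at hc
        have h2 := avgA_lip (μ := μ) hL c x r 0
        rw [avgA_zero, sub_zero, abs_of_pos hr] at h2
        rw [mem_ball, dist_eq_norm, norm_sub_rev] at hxc
        have h3 := (abs_le.1 h2).2
        have h4 : (L : ℝ) * (‖c - x‖ + r) ≤ (L + 1) * (2 * r) := by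
          nlinarith [norm_nonneg (c - x)]
        have h5 : (L + 1) * (2 * r) < v - a x := by
          rw [hrmin, lt_div_iff₀ (by positivity)] at hc
          nlinarith
        linarith
      · by_contra hc
        push Not at hc
        have h2 := avgA_le_large (μ := μ) ha0 hI c hr
        have h3 : r ≤ r ^ finrank ℝ E := by
          have hr1 : 1 ≤ r := by linarith
          calc r = r ^ 1 := (pow_one r).symm
            _ ≤ r ^ finrank ℝ E := pow_le_pow_right₀ hr1 hd
        have h4 : I / (r ^ finrank ℝ E * volOne μ) ≤ v := by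
          rw [div_le_iff₀ (by positivity)]
          rw [div_lt_iff₀ (by positivity)] at hR2
          have h5 : Rmax ≤ r ^ finrank ℝ E := hc.le.trans h3
          have h6 : Rmax * (v * volOne μ) ≤ r ^ finrank ℝ E * (v * volOne μ) :=
            mul_le_mul_of_nonneg_right h5 (by positivity)
          nlinarith
        linarith
    let K : Set (E × ℝ) := closedBall x Rmax ×ˢ Icc rmin Rmax ∩ {p | ‖p.1 - x‖ ≤ p.2}
    have hK : IsCompact K := by
      apply ((isCompact_closedBall x Rmax).prod isCompact_Icc).inter_right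
      exact isClosed_le (continuous_fst.sub continuous_const).norm continuous_snd
    have hcontA : Continuous (fun p : E × ℝ => avgA μ a p.1 p.2) :=
      (continuous_ballInt hac).div_const _
    -- a near optimal ball
    have hex : ∃ c r, 0 < r ∧ x ∈ ball c r ∧ v < avgA μ a c r := by
      by_contra hc
      push Not at hc
      have := (hu x).2 v hc
      linarith
    obtain ⟨c₀, r₀, hr₀, hx₀, hA₀⟩ := hex
    have hinK : ∀ c r, 0 < r → x ∈ ball c r → v < avgA μ a c r → (c, r) ∈ K := by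
      intro c r hr hxc hA
      obtain ⟨h1, h2⟩ := hin c r hr hxc hA
      rw [mem_ball, dist_eq_norm, norm_sub_rev] at hxc
      refine ⟨⟨?_, h1, h2⟩, hxc.le⟩
      rw [mem_closedBall, dist_eq_norm]
      linarith
    obtain ⟨⟨cs, rs⟩, hmem, hmax⟩ := hK.exists_isMaxOn ⟨(c₀, r₀), hinK c₀ r₀ hr₀ hx₀ hA₀⟩ hcontA.continuousOn
    have hrspos : 0 < rs := lt_of_lt_of_le hrminpos hmem.1.2.1
    have hxs : x ∈ closedBall cs rs := by
      rw [mem_closedBall, dist_eq_norm, norm_sub_rev]
      exact hmem.2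
    refine ⟨cs, rs, hrspos, hxs, ?_⟩
    rw [integral_ball_avgA a cs hrspos]
    congr 1
    apply le_antisymm (hu.le_closed hL hrspos hxs)
    -- the upper bound
    have hub : u x ≤ max v (avgA μ a cs rs) := by
      apply (hu x).2
      intro c r hr hxc
      by_cases hvc : v < avgA μ a c r
      · exact le_max_of_le_right (hmax (hinK c r hr hxc hvc))
      · exact le_max_of_le_left (not_lt.1 hvc)
    rcases le_max_iff.1 hub with h | h
    · linarith
    · exact h

end Vale.Agent.Lib.P137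



/-! The gradient bound for the maximal function of an integrable Lipschitz function. -/

namespace Vale.Agent.Lib.P137

open MeasureTheory Set Filter Topology Metric Module
open scoped ENNReal NNReal RealInnerProductSpace Pointwise

set_option linter.unusedSectionVars false
set_option linter.unusedVariables false

variable {E : Type*} [NormedAddCommGroup E] [InnerProductSpace ℝ E] [FiniteDimensional ℝ E]
  [MeasurableSpace E] [BorelSpace E] {μ : Measure E} [μ.IsAddHaarMeasure]

variable {f : E → ℝ} {L : ℝ≥0}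

/-- The maximal function on a general space. -/
noncomputable def maxE (μ : Measure E) (f : E → ℝ) (x : E) : ℝ≥0∞ :=
  ⨆ (c : E) (r : ℝ) (_ : 0 < r) (_ : x ∈ ball c r),
    (∫⁻ y in ball c r, ENNReal.ofReal |f y| ∂μ) / μ (ball c r)

lemma lipschitz_abs (hL : LipschitzWith L f) : LipschitzWith L (fun x => |f x|) := by
  apply LipschitzWith.of_dist_le_mul
  intro x y
  refine le_trans ?_ (hL.dist_le_mul x y)
  rw [Real.dist_eq, Real.dist_eq]
  exact abs_abs_sub_abs_le_abs_sub _ _

lemma ball_mean_eq (hf : Continuous f) (c : E) {r : ℝ} (hr : 0 < r) :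
    (∫⁻ y in ball c r, ENNReal.ofReal |f y| ∂μ) / μ (ball c r) =
      ENNReal.ofReal (avgA μ (fun x => |f x|) c r) := by
  have hV := volOne_pos μ
  have hint : IntegrableOn (fun y => |f y|) (ball c r) μ :=
    integrableOn_ball_of_continuous hf.abs c r
  have hm : 0 < (μ (ball c r)).toReal := by
    rw [measure_ball_toReal μ c hr]
    positivity
  rw [← ofReal_integral_eq_lintegral_ofReal hint (ae_of_all _ (fun y => abs_nonneg _)),
    integral_ball_avgA (fun x => |f x|) c hr]
  have e : ENNReal.ofReal (μ (ball c r)).toReal = μ (ball c r) :=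
    ENNReal.ofReal_toReal measure_ball_lt_top.ne
  have h2 := ENNReal.ofReal_div_of_pos (x := avgA μ (fun x => |f x|) c r * (μ (ball c r)).toReal) hm
  rw [mul_div_cancel_right₀ _ hm.ne', e] at h2
  exact h2.symm

lemma maxE_le (hL : LipschitzWith L f) (hI : Integrable f μ) (hd : 1 ≤ finrank ℝ E) (x : E) :
    maxE μ f x ≤ ENNReal.ofReal (|f x| + 2 * L + (∫ y, |f y| ∂μ) / volOne μ) := by
  have hV := volOne_pos μ
  have hLa := lipschitz_abs hL
  have hIa : Integrable (fun y => |f y|) μ := hI.abs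
  have hI0 : 0 ≤ ∫ y, |f y| ∂μ := integral_nonneg (fun y => abs_nonneg _)
  have hL0 : (0 : ℝ) ≤ L := L.2
  unfold maxE
  refine iSup_le fun c => iSup_le fun r => iSup_le fun hr => iSup_le fun hx => ?_
  rw [ball_mean_eq hL.continuous c hr]
  apply ENNReal.ofReal_le_ofReal
  by_cases h1 : r ≤ 1
  · have h2 := avgA_lip (μ := μ) hLa c x r 0
    rw [avgA_zero, sub_zero, abs_of_pos hr] at h2
    have h3 := (abs_le.1 h2).2
    rw [mem_ball, dist_eq_norm, norm_sub_rev] at hx
    have h4 : (L : ℝ) * (‖c - x‖ + r) ≤ 2 * L := by nlinarith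
    have h5 : 0 ≤ (∫ y, |f y| ∂μ) / volOne μ := by positivity
    linarith
  · push Not at h1
    have h2 := avgA_le_large (μ := μ) (fun y => abs_nonneg (f y)) hIa c hr
    have h3 : (∫ y, |f y| ∂μ) / (r ^ finrank ℝ E * volOne μ) ≤ (∫ y, |f y| ∂μ) / volOne μ := by
      apply div_le_div_of_nonneg_left hI0 hV
      have : 1 ≤ r ^ finrank ℝ E := one_le_pow₀ h1.le
      nlinarith
    have h4 : 0 ≤ |f x| := abs_nonneg _
    linarith

lemma maxE_ne_top (hL : LipschitzWith L f) (hI : Integrable f μ) (hd : 1 ≤ finrank ℝ E) (x : E) :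
    maxE μ f x ≠ ∞ := ne_top_of_le_ne_top ENNReal.ofReal_ne_top (maxE_le hL hI hd x)

lemma isMaxFn_maxE (hL : LipschitzWith L f) (hI : Integrable f μ) (hd : 1 ≤ finrank ℝ E) :
    IsMaxFn μ (fun x => |f x|) (fun x => (maxE μ f x).toReal) := by
  intro x
  constructor
  · intro c r hr hx
    rw [← ENNReal.ofReal_le_iff_le_toReal (maxE_ne_top hL hI hd x), ← ball_mean_eq hL.continuous c hr]
    unfold maxE
    exact le_iSup_of_le c (le_iSup_of_le r (le_iSup_of_le hr (le_iSup_of_le hx le_rfl)))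
  · intro b hb
    have hb0 : 0 ≤ b := by
      have h1 := hb x 1 one_pos (mem_ball_self one_pos)
      exact (avgA_nonneg (fun y => abs_nonneg (f y)) x 1).trans h1
    apply ENNReal.toReal_le_of_le_ofReal hb0
    unfold maxE
    refine iSup_le fun c => iSup_le fun r => iSup_le fun hr => iSup_le fun hx => ?_
    rw [ball_mean_eq hL.continuous c hr]
    exact ENNReal.ofReal_le_ofReal (hb c r hr hx)

/-- The derivative of the absolute value. -/
lemma norm_fderiv_abs_le {x : E} (hf : DifferentiableAt ℝ f x) :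
    ‖fderiv ℝ (fun x => |f x|) x‖ ≤ ‖fderiv ℝ f x‖ := by
  by_cases h0 : f x = 0
  · have hmin : IsLocalMin (fun y => |f y|) x := by
      apply Filter.Eventually.of_forall
      intro y
      simp only [h0, abs_zero]
      exact abs_nonneg _
    rw [hmin.fderiv_eq_zero, norm_zero]
    exact norm_nonneg _
  · have h1 := (hf.hasFDerivAt.abs h0).fderiv
    rw [h1, norm_smul]
    have h2 : ‖((SignType.sign (f x) : SignType) : ℝ)‖ ≤ 1 := by
      rcases lt_or_gt_of_ne h0 with h | h
      · simp [sign_neg h]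
      · simp [sign_pos h]
    calc _ ≤ 1 * ‖fderiv ℝ f x‖ := mul_le_mul_of_nonneg_right h2 (norm_nonneg _)
      _ = _ := one_mul _

/-- The gradient bound for the maximal function of an integrable Lipschitz function. -/
theorem maxE_bound (hd : 2 ≤ finrank ℝ E) (hL : LipschitzWith L f) (hI : Integrable f μ) :
    (∀ x, maxE μ f x ≠ ∞) ∧ LipschitzWith L (fun x => (maxE μ f x).toReal) ∧
    ∫⁻ x, ‖fderiv ℝ (fun x => (maxE μ f x).toReal) x‖ₑ ∂μ ≤
      absConst μ * ∫⁻ x, ‖fderiv ℝ f x‖ₑ ∂μ := by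
  have hd1 : 1 ≤ finrank ℝ E := by omega
  have : Nontrivial E := Module.nontrivial_of_finrank_pos (R := ℝ) (by omega)
  have hS := superPair_of_isMaxFn (μ := μ) hd1 (fun y => abs_nonneg (f y)) (lipschitz_abs hL) hI.abs
    (isMaxFn_maxE hL hI hd1)
  refine ⟨maxE_ne_top hL hI hd1, hS.lipu, ?_⟩
  refine (superPair_bound hS hd).trans (mul_le_mul' le_rfl ?_)
  apply lintegral_mono_ae
  filter_upwards [hL.ae_differentiableAt (μ := μ)] with x hx
  have := norm_fderiv_abs_le hx
  rw [← ofReal_norm, ← ofReal_norm]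
  exact ENNReal.ofReal_le_ofReal this

end Vale.Agent.Lib.P137

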