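import Vale.Agent.Lib.P137.KeyLong


/-! The first half of the key lemma: the gap at a good point is controlled by short chords. -/

namespace Vale.Agent.Lib.P137

open MeasureTheory Set Filter Topology Metric Module
open scoped ENNReal NNReal RealInnerProductSpace Pointwise

set_option linter.unusedSectionVars false
set_option linter.unusedVariables false

variable {E : Type*} [NormedAddCommGroup E] [InnerProductSpace ℝ E] [FiniteDimensional ℝ E]
  [MeasurableSpace E] [BorelSpace E] {μ : Measure E} [μ.IsAddHaarMeasure]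

variable {f u : E → ℝ}

/-- Combining the short chord lower bound with the comparison bound. -/
lemma long_finish (hd : 1 ≤ finrank ℝ E) (hA : AvgPair μ f u) {y nst p q x₀ : E} {s lam β R₀ : ℝ}
    {P : Set E}
    (hRB : RegionBound μ f y nst s) (hnst : ‖nst‖ = 1)
    (hpy : ‖p - y‖ ≤ 41) (hph : -4 ≤ ⟪p - y, nst⟫)
    (hup : u p ≤ lam) (hβ : β ≤ lam) (hs : lam ≤ s) (hβs : β < s)
    (hPsmall : μ P ≤ ENNReal.ofReal ((1 / 32 : ℝ) ^ finrank ℝ E * volOne μ / 2))
    (hlowf : ∀ z ∈ ball q (1 / 32), z ∉ P → β < f z)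
    (hlowh : ∀ z ∈ ball q (1 / 32), ⟪z - y, nst⟫ ≤ ⟪p - y, nst⟫ - 1 / 16)
    (hlowd : ∀ z ∈ ball q (1 / 32), ‖z - p‖ < 41)
    (hGsub : ball (p + (205 : ℝ) • nst) 205 ⊆ ball x₀ R₀) :
    ENNReal.ofReal (etaK ^ finrank ℝ E / 4 * volOne μ) *
      ENNReal.ofReal ((s - lam) * ((82 : ℝ) ^ finrank ℝ E * volOne μ / 2) -
        (lam - β) * ((205 : ℝ) ^ finrank ℝ E * volOne μ)) ≤ Mprime μ f R₀ 60000 x₀ := by
  have h1 := layer_low (μ := μ) (f := f) (G := ball (p + (205 : ℝ) • nst) 205) measurableSet_ball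
    (ρ₂ := 60000) hGsub hA.cont (β := β) (c₀ := etaK ^ finrank ℝ E / 4 * volOne μ)
    (fun y' hy' s' hfy' hs' => short_lower hd hRB hnst hpy hph hPsmall hlowf hlowh hlowd hβs hy' hfy' hs')
  refine le_trans ?_ h1
  gcongr
  have h2 : ∫⁻ y' in ball (p + (205 : ℝ) • nst) 205, ENNReal.ofReal (β - f y') ∂μ =
      ENNReal.ofReal (∫ y' in ball (p + (205 : ℝ) • nst) 205, max (β - f y') 0 ∂μ) :=
    (ofReal_integral_max_le (g := fun y' => β - f y') (continuous_const.sub hA.cont) _ _).symm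
  rw [h2]
  exact ENNReal.ofReal_le_ofReal (comp_bound hA hRB hnst hpy hup hβ hs)

/-- A power times `a` is very small, in positive dimension. -/
lemma aSmall_mul_pow_le' {Λ κ : ℝ} (h0 : 0 ≤ Λ) (hκ : κ ≤ 1) (h : Λ ≤ κ * (29440 * 10 ^ 10)) {d : ℕ}
    (hd : 1 ≤ d) : Λ ^ d * aSmall d ≤ κ / 16 := by
  rw [aSmall_eq, ← mul_div_assoc, ← mul_pow]
  have hq : Λ * ((1 : ℝ) / (29440 * 10 ^ 10)) ≤ κ := by
    rw [mul_one_div, div_le_iff₀ (by norm_num)]
    exact h
  have hq0 : 0 ≤ Λ * ((1 : ℝ) / (29440 * 10 ^ 10)) := by positivity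
  have hq1 : Λ * ((1 : ℝ) / (29440 * 10 ^ 10)) ≤ 1 := hq.trans hκ
  have h1 : (Λ * ((1 : ℝ) / (29440 * 10 ^ 10))) ^ d ≤ Λ * ((1 : ℝ) / (29440 * 10 ^ 10)) := by
    calc _ ≤ (Λ * ((1 : ℝ) / (29440 * 10 ^ 10))) ^ 1 := pow_le_pow_of_le_one hq0 hq1 hd
      _ = _ := pow_one _
  linarith

/-- First constant of the key lemma. -/
noncomputable def KoneA (d : ℕ) : ℝ := cTwo d * (5 / 8)
/-- Second constant of the key lemma. -/
noncomputable def KoneB (d : ℕ) : ℝ := etaK ^ d / 4 * ((82 : ℝ) ^ d / (64 * aSmall d))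
/-- The constant of the first half of the key lemma. -/
noncomputable def Kone (d : ℕ) : ℝ := min (KoneA d) (KoneB d)

lemma KoneA_pos (d : ℕ) : 0 < KoneA d := by
  unfold KoneA; have := cTwo_pos d; positivity
lemma KoneB_pos (d : ℕ) : 0 < KoneB d := by
  unfold KoneB; have := aSmall_pos d; have := etaK_pos; positivity
lemma Kone_pos (d : ℕ) : 0 < Kone d := lt_min (KoneA_pos d) (KoneB_pos d)

variable {x n : E} {r : ℝ}

/-- The rayPart has measure at most `a |B|`. -/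
lemma GoodPoint.measure_rayPart_le' (hG : GoodPoint μ (aOne (finrank ℝ E)) f u x n r) :
    μ (rayPart f u x n r) ≤ ENNReal.ofReal (r ^ finrank ℝ E * aSmall (finrank ℝ E) * volOne μ) := by
  refine (hG.measure_rayPart_le (aOne_pos _).le).trans (ENNReal.ofReal_le_ofReal (le_of_eq ?_))
  unfold aOne
  rw [mul_pow]
  field_simp

/-- The no-long case. -/
lemma key_one_no_long (hA : AvgPair μ f u) (hG : GoodPoint μ (aOne (finrank ℝ E)) f u x n r)
    {x₀ : E} {R₀ : ℝ} (hsub : ball (x + r • n) r ⊆ ball x₀ R₀) :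
    let a := aSmall (finrank ℝ E)
    let e := u x - f x
    let α := f x + e / 4 + e / (8 * a)
    (∀ y ∈ ball (x + r • n) r, ∀ s, α ≤ s → s < f y →
      ENNReal.ofReal (cTwo (finrank ℝ E) * volOne μ) ≤ μ (shortDirs f 60000 y s ∩ ball 0 1)) →
    ENNReal.ofReal (KoneA (finrank ℝ E) * (u x - f x) * volOne μ ^ 2) ≤ Mprime μ f R₀ 60000 x₀ := by
  classical
  intro a e α hno
  set d := finrank ℝ E with hdd
  set V₀ := volOne μ with hV₀
  have hV : 0 < V₀ := volOne_pos μ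
  have ha : 0 < a := aSmall_pos d
  have he : 0 < e := sub_pos.2 hG.lt
  have hr := hG.r_pos
  have hf := hA.cont
  set c := x + r • n with hc
  set B := ball c r with hB
  have hBvol : (μ B).toReal = r ^ d * V₀ := measure_ball_toReal μ c hr
  set T := f x + e / 4 with hT
  have hαT : α - T = e / (8 * a) := by simp only [α, hT]; ring
  have hαT0 : 0 ≤ α - T := by rw [hαT]; positivity
  set Pm := toMeasurable μ (rayPart f u x n r) with hPm
  have hPmm : MeasurableSet Pm := measurableSet_toMeasurable _ _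
  have hPmvol : μ Pm ≤ ENNReal.ofReal (r ^ d * a * V₀) := by
    rw [hPm, measure_toMeasurable]
    exact hG.measure_rayPart_le'
  have h1 : ∀ z ∈ B, f z - T ≤ max (f z - α) 0 + Pm.indicator (fun _ => α - T) z := by
    intro z hz
    have hmax1 : f z - α ≤ max (f z - α) 0 := le_max_left _ _
    have hmax2 : 0 ≤ max (f z - α) 0 := le_max_right _ _
    by_cases hzP : z ∈ Pm
    · rw [indicator_of_mem hzP]
      linarith
    · rw [indicator_of_notMem hzP]
      have hnot : z ∉ rayPart f u x n r := fun h => hzP (subset_toMeasurable _ _ h)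
      rcases hG.ray_or_plateau hA hz with h2 | h2
      · exact absurd ⟨hz, h2⟩ hnot
      · have h3 := (abs_lt.1 h2).2
        have h4 : f z - T < 0 := by
          simp only [hT]
          have : (u x - f x) / 4 = e / 4 := rfl
          linarith
        linarith
  have hfint : IntegrableOn f B μ := integrableOn_ball_of_continuous hf _ _
  have hmaxint : IntegrableOn (fun z => max (f z - α) 0) B μ :=
    integrableOn_ball_of_continuous ((hf.sub continuous_const).max continuous_const) _ _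
  have hindint : IntegrableOn (Pm.indicator (fun _ => α - T)) B μ := by
    apply IntegrableOn.indicator _ hPmm
    exact integrableOn_const (measure_ball_lt_top).ne
  have hTint : IntegrableOn (fun _ : E => T) B μ := integrableOn_const (measure_ball_lt_top).ne
  have h2 : ∫ z in B, (f z - T) ∂μ ≤ ∫ z in B, (max (f z - α) 0 + Pm.indicator (fun _ => α - T) z) ∂μ :=
    setIntegral_mono_on (hfint.sub hTint) (hmaxint.add hindint) measurableSet_ball h1
  rw [integral_sub hfint hTint, integral_add hmaxint hindint, hG.opt, setIntegral_const,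
    setIntegral_indicator hPmm, setIntegral_const] at h2
  simp only [Measure.real, smul_eq_mul] at h2
  rw [hBvol] at h2
  have hPmfin : μ (B ∩ Pm) ≠ ∞ := ne_top_of_le_ne_top (measure_ball_lt_top (μ := μ) (x := c) (r := r)).ne
    (measure_mono inter_subset_left)
  have h3 : (μ (B ∩ Pm)).toReal ≤ r ^ d * a * V₀ := by
    have h4 : μ (B ∩ Pm) ≤ ENNReal.ofReal (r ^ d * a * V₀) :=
      (measure_mono inter_subset_right).trans hPmvol
    have h5 := ENNReal.toReal_mono ENNReal.ofReal_ne_top h4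
    rwa [ENNReal.toReal_ofReal (by positivity)] at h5
  have h4 : (α - T) * (μ (B ∩ Pm)).toReal ≤ e / 8 * (r ^ d * V₀) := by
    calc (α - T) * (μ (B ∩ Pm)).toReal ≤ (α - T) * (r ^ d * a * V₀) :=
          mul_le_mul_of_nonneg_left h3 hαT0
      _ = e / 8 * (r ^ d * V₀) := by
          rw [hαT]; field_simp
  have huT : u x - T = 3 / 4 * e := by
    simp only [hT]
    have : e = u x - f x := rfl
    linarith
  have h5 : 5 / 8 * e * (r ^ d * V₀) ≤ ∫ z in B, max (f z - α) 0 ∂μ := by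
    have h6 : u x * (r ^ d * V₀) - (r ^ d * V₀) * T = (u x - T) * (r ^ d * V₀) := by ring
    rw [mul_comm (μ (B ∩ Pm)).toReal, h6, huT] at h2
    linarith
  have hr1 : 1 ≤ r ^ d := one_le_pow₀ hG.r_ge
  have h6 : 5 / 8 * e * V₀ ≤ ∫ z in B, max (f z - α) 0 ∂μ := by
    have : 5 / 8 * e * V₀ ≤ 5 / 8 * e * (r ^ d * V₀) := by
      apply mul_le_mul_of_nonneg_left _ (by positivity)
      nlinarith only [hr1, volOne_pos μ]
    linarith
  have h7 := layer_high (μ := μ) (f := f) (G := B) measurableSet_ball (ρ₂ := 60000) hsub hf (α := α)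
    (c₀ := cTwo d * V₀) hno
  refine le_trans ?_ h7
  have hc2 := cTwo_pos d
  have h8 : ∫⁻ y in B, ENNReal.ofReal (f y - α) ∂μ = ENNReal.ofReal (∫ y in B, max (f y - α) 0 ∂μ) :=
    (ofReal_integral_max_le (g := fun y => f y - α) (hf.sub continuous_const) _ _).symm
  rw [h8, ← ENNReal.ofReal_mul (by positivity)]
  apply ENNReal.ofReal_le_ofReal
  have : KoneA d * e * V₀ ^ 2 = cTwo d * V₀ * (5 / 8 * e * V₀) := by
    unfold KoneA; ring
  rw [this]
  exact mul_le_mul_of_nonneg_left h6 (by positivity)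

/-- Points of the ball off the exceptional part lie on the plateau. -/
lemma GoodPoint.plateau (hG : GoodPoint μ (aOne (finrank ℝ E)) f u x n r) (hA : AvgPair μ f u) {z : E}
    (hz : z ∈ ball (x + r • n) r) (hzP : z ∉ rayPart f u x n r) :
    |f z - f x| < (u x - f x) / 4 := by
  rcases hG.ray_or_plateau hA hz with h | h
  · exact absurd ⟨hz, h⟩ hzP
  · exact h

set_option maxHeartbeats 2000000 in
/-- The long case of the first half of the key lemma. -/
lemma key_one_long (hd : 1 ≤ finrank ℝ E) (hA : AvgPair μ f u)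
    (hG : GoodPoint μ (aOne (finrank ℝ E)) f u x n r)
    {x₀ : E} {R₀ : ℝ} (hsub : ball x 450 ⊆ ball x₀ R₀) {y : E} {s : ℝ}
    (hy : y ∈ ball (x + r • n) r)
    (hα : f x + (u x - f x) / 4 + (u x - f x) / (8 * aSmall (finrank ℝ E)) ≤ s) (hfy : s < f y)
    (hS : μ (shortDirs f 60000 y s ∩ ball 0 1) < ENNReal.ofReal (cTwo (finrank ℝ E) * volOne μ)) :
    ENNReal.ofReal (KoneB (finrank ℝ E) * (u x - f x) * volOne μ ^ 2) ≤ Mprime μ f R₀ 60000 x₀ := by
  classical
  set d := finrank ℝ E with hdd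
  set V₀ := volOne μ with hV₀
  set a := aSmall d with ha_def
  set e := u x - f x with he_def
  have hV : 0 < V₀ := volOne_pos μ
  have ha : 0 < a := aSmall_pos d
  have he : 0 < e := sub_pos.2 hG.lt
  have hr := hG.r_pos
  have r1 := hG.r_ge
  have r2 := hG.r_le
  have hnunit := hG.unit
  have hη := etaK_pos
  have hc4 := cFour_pos d
  have ha16 : a ≤ 1 / 16 := by
    have := aSmall_mul_pow_le (Λ := 1) (by norm_num) (by norm_num) d
    simpa using this
  have hepos8 : 0 < e / (8 * a) := by positivity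
  have hsT : f x + e / 4 < s := by linarith
  obtain ⟨nst, ρ, hnst, hρ1, hρr, hyeq, hRB'⟩ := region_bound hG hA hy hfy hsT hS
  have hRB : RegionBound μ f y nst s := hRB'
  set c := x + r • n with hc
  -- numerics on the levels
  set lam := u x with hlam
  set b := f x with hb
  set β := b - e / 4 with hβ
  have hlamb : lam = b + e := by rw [he_def]; ring
  have hlamβ : lam - β = 5 / 4 * e := by rw [hβ, hlamb]; ring
  have hst : e / (16 * a) ≤ s - lam := by
    have h1 : e / (8 * a) = 2 * (e / (16 * a)) := by field_simp; ring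
    have h2 : 3 / 4 * e ≤ e / (16 * a) := by
      rw [le_div_iff₀ (by positivity)]
      nlinarith only [ha16, he]
    rw [hlamb]
    linarith
  have hst0 : 0 < e / (16 * a) := by positivity
  have hβlam : β ≤ lam := by rw [hβ, hlamb]; linarith
  have hlams : lam ≤ s := by linarith
  have hβs : β < s := by linarith
  -- the exceptional part
  have hPsmall : μ (rayPart f u x n r) ≤ ENNReal.ofReal ((1 / 32 : ℝ) ^ d * V₀ / 2) := by
    refine hG.measure_rayPart_le'.trans (ENNReal.ofReal_le_ofReal ?_)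
    have h1 : r ^ d ≤ 2 ^ d := pow_le_pow_left₀ hr.le r2 d
    have h2 : (64 : ℝ) ^ d * a ≤ 1 / 16 := aSmall_mul_pow_le (by norm_num) (by norm_num) d
    have h3 : (64 : ℝ) ^ d = 2 ^ d * 32 ^ d := by rw [← mul_pow]; norm_num
    have h4 : (1 / 32 : ℝ) ^ d * 32 ^ d = 1 := by rw [← mul_pow]; norm_num
    have h5 : (2 : ℝ) ^ d * a ≤ (1 / 32 : ℝ) ^ d / 2 := by
      have h6 : (2 : ℝ) ^ d * a = (1 / 32 : ℝ) ^ d * ((64 : ℝ) ^ d * a) := by
        rw [h3]
        calc (2 : ℝ) ^ d * a = ((1 / 32 : ℝ) ^ d * 32 ^ d) * (2 ^ d * a) := by rw [h4, one_mul]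
          _ = _ := by ring
      rw [h6]
      have h7 : (0 : ℝ) < (1 / 32 : ℝ) ^ d := by positivity
      nlinarith only [h2, h7]
    calc r ^ d * a * V₀ ≤ 2 ^ d * a * V₀ := by gcongr
      _ ≤ (1 / 32 : ℝ) ^ d / 2 * V₀ := by gcongr
      _ = _ := by ring
  have hlowf_gen : ∀ z ∈ ball c r, z ∉ rayPart f u x n r → β < f z := by
    intro z hz hzP
    have h1 := (abs_lt.1 (hG.plateau hA hz hzP)).1
    have h2 : (u x - f x) / 4 = e / 4 := rfl
    rw [hβ]
    linarith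
  -- geometry
  have hyc : y - c = ρ • nst := by rw [hyeq]; abel
  have hcx : c - x = r • n := by rw [hc]; abel
  have hxy : ‖x - y‖ < 4 := by
    have e1 : x - y = -(r • n) - ρ • nst := by rw [hyeq, hc]; abel
    rw [e1]
    calc _ ≤ ‖-(r • n)‖ + ‖ρ • nst‖ := norm_sub_le _ _
      _ = r + ρ := by
          rw [norm_neg, norm_smul, norm_smul, hnunit, hnst, Real.norm_eq_abs, Real.norm_eq_abs,
            abs_of_pos hr, abs_of_pos (by linarith : (0 : ℝ) < ρ)]
          ring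
      _ < 4 := by linarith
  have hxyin : -4 ≤ ⟪x - y, nst⟫ := by
    have h1 := abs_real_inner_le_norm (x - y) nst
    rw [hnst, mul_one] at h1
    have h2 := (abs_le.1 h1).1
    linarith
  have hxyin' : ⟪x - y, nst⟫ = - r * ⟪n, nst⟫ - ρ := by
    have e1 : x - y = (-r) • n - ρ • nst := by rw [hyeq, hc, neg_smul]; abel
    rw [e1, inner_sub_left, inner_smul_left, inner_smul_left, real_inner_self_eq_norm_sq, hnst]
    simp
  -- the final computation, common to both cases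
  have hfinish : ENNReal.ofReal (etaK ^ d / 4 * V₀) *
      ENNReal.ofReal ((s - lam) * ((82 : ℝ) ^ d * V₀ / 2) - (lam - β) * ((205 : ℝ) ^ d * V₀)) ≤
      Mprime μ f R₀ 60000 x₀ → ENNReal.ofReal (KoneB d * e * V₀ ^ 2) ≤ Mprime μ f R₀ 60000 x₀ := by
    intro h
    refine le_trans ?_ h
    rw [← ENNReal.ofReal_mul (by positivity)]
    apply ENNReal.ofReal_le_ofReal
    have h1 : e / (16 * a) * ((82 : ℝ) ^ d * V₀ / 4) ≤
        (s - lam) * ((82 : ℝ) ^ d * V₀ / 2) - (lam - β) * ((205 : ℝ) ^ d * V₀) := by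
      have h2 : (5 / 2 : ℝ) ^ d * a ≤ (1 / 1000) / 16 :=
        aSmall_mul_pow_le' (by norm_num) (by norm_num) (by norm_num) hd
      have h3 : (205 : ℝ) ^ d = 82 ^ d * (5 / 2 : ℝ) ^ d := by rw [← mul_pow]; norm_num
      have h4 : (lam - β) * ((205 : ℝ) ^ d * V₀) ≤ e / (16 * a) * ((82 : ℝ) ^ d * V₀ / 4) := by
        rw [hlamβ, h3]
        have h5 : (0 : ℝ) < 82 ^ d * V₀ := by positivity
        have h6 : 5 / 4 * e * ((5 / 2 : ℝ) ^ d) ≤ e / (16 * a) / 4 := by
          rw [le_div_iff₀ (by norm_num), le_div_iff₀ (by positivity)]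
          have : 5 / 4 * e * (5 / 2 : ℝ) ^ d * 4 * (16 * a) = e * (80 * ((5 / 2 : ℝ) ^ d * a)) := by ring
          rw [this]
          have : 80 * ((5 / 2 : ℝ) ^ d * a) ≤ 1 := by linarith
          nlinarith only [this, he]
        calc 5 / 4 * e * (82 ^ d * (5 / 2 : ℝ) ^ d * V₀) = (5 / 4 * e * (5 / 2 : ℝ) ^ d) * (82 ^ d * V₀) := by ring
          _ ≤ (e / (16 * a) / 4) * (82 ^ d * V₀) := mul_le_mul_of_nonneg_right h6 h5.le
          _ = _ := by ring
      have h7 : e / (16 * a) * ((82 : ℝ) ^ d * V₀ / 2) ≤ (s - lam) * ((82 : ℝ) ^ d * V₀ / 2) :=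
        mul_le_mul_of_nonneg_right hst (by positivity)
      have h8 : e / (16 * a) * ((82 : ℝ) ^ d * V₀ / 2) = 2 * (e / (16 * a) * ((82 : ℝ) ^ d * V₀ / 4)) := by ring
      linarith
    have h2 : KoneB d * e * V₀ ^ 2 = etaK ^ d / 4 * V₀ * (e / (16 * a) * ((82 : ℝ) ^ d * V₀ / 4)) := by
      have h3 : KoneB d = etaK ^ d / 4 * ((82 : ℝ) ^ d / (64 * a)) := rfl
      rw [h3]
      field_simp
      ring
    rw [h2]
    exact mul_le_mul_of_nonneg_left h1 (by positivity)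
  apply hfinish
  by_cases hcase : ⟪n, nst⟫ ≤ 7 / 8
  · -- first case: the touching point is not the lowest point of the ball
    set q := c - (r - 1 / 32) • nst with hq
    have hqball : ∀ z ∈ ball q (1 / 32), ‖z - q‖ < 1 / 32 := by
      intro z hz
      have : dist z q < 1 / 32 := hz
      rwa [dist_eq_norm] at this
    have hqsub : ∀ z ∈ ball q (1 / 32), z ∈ ball c r := by
      intro z hz
      have h1 := hqball z hz
      rw [mem_ball, dist_eq_norm]
      have e1 : z - c = (z - q) - (r - 1 / 32) • nst := by rw [hq]; abel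
      rw [e1]
      calc _ ≤ ‖z - q‖ + ‖(r - 1 / 32) • nst‖ := norm_sub_le _ _
        _ < 1 / 32 + (r - 1 / 32) := by
            rw [norm_smul, hnst, Real.norm_eq_abs, abs_of_pos (by linarith), mul_one]
            linarith
        _ = r := by ring
    refine long_finish hd hA (y := y) (nst := nst) (p := x) (q := q) (s := s) (lam := lam) (β := β)
      (P := rayPart f u x n r) hRB hnst ?_ hxyin le_rfl hβlam hlams hβs hPsmall ?_ ?_ ?_ ?_
    · linarith
    · exact fun z hz hzP => hlowf_gen z (hqsub z hz) hzP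
    · intro z hz
      have h1 := hqball z hz
      have h2 := abs_real_inner_le_norm (z - q) nst
      rw [hnst, mul_one] at h2
      have h3 := (abs_le.1 h2).2
      have e1 : z - y = (z - q) + (-(r - 1 / 32 + ρ)) • nst := by
        rw [hyeq, hq, neg_smul, add_smul, sub_smul]
        abel
      have h4 : ⟪z - y, nst⟫ = ⟪z - q, nst⟫ - (r - 1 / 32 + ρ) := by
        rw [e1, inner_add_left, inner_smul_left, real_inner_self_eq_norm_sq, hnst]
        simp
        ring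
      rw [h4, hxyin']
      have h5 : r * ⟪n, nst⟫ ≤ r * (7 / 8) := mul_le_mul_of_nonneg_left hcase hr.le
      linarith only [h3, h1, r1, h5]
    · intro z hz
      have h1 := hqsub z hz
      rw [mem_ball, dist_eq_norm] at h1
      have e1 : z - x = (z - c) + r • n := by rw [hc]; abel
      rw [e1]
      calc _ ≤ ‖z - c‖ + ‖r • n‖ := norm_add_le _ _
        _ < 41 := by
            rw [norm_smul, hnunit, Real.norm_eq_abs, abs_of_pos hr]
            linarith
    · intro z hz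
      apply hsub
      rw [mem_ball, dist_eq_norm]
      have hz' : ‖z - (x + (205 : ℝ) • nst)‖ < 205 := by
        have : dist z (x + (205 : ℝ) • nst) < 205 := hz
        rwa [dist_eq_norm] at this
      have e1 : z - x = (z - (x + (205 : ℝ) • nst)) + (205 : ℝ) • nst := by abel
      rw [e1]
      calc _ ≤ ‖z - (x + (205 : ℝ) • nst)‖ + ‖(205 : ℝ) • nst‖ := norm_add_le _ _
        _ < 450 := by
            rw [norm_smul, hnst]
            norm_num
            linarith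
  · -- second case: go beyond the ball along a direction which is not ray good
    push Not at hcase
    let Rset : Set E := {w | w ∈ ball ((1 / 2 : ℝ) • n) (1 / 2) ∧ RayGood f u x w}
    have hRset : μ Rset ≤ ENNReal.ofReal (aOne d * V₀) := hG.small
    -- the far bad directions
    let Cb : Set E := {w | w ≠ 0 ∧ (1 / 4) * ‖w‖ ≤ ⟪w, nst⟫ ∧
      ∀ τ : ℝ, 36 ≤ τ → τ < 37 → f (x + (τ / ‖w‖) • w) < s}
    have hCb : IsConeSet Cb := by
      rintro w ⟨h0, h1, h2⟩ t ht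
      have hwn : 0 < ‖w‖ := norm_pos_iff.2 h0
      refine ⟨smul_ne_zero ht.ne' h0, ?_, ?_⟩
      · rw [norm_smul, Real.norm_eq_abs, abs_of_pos ht, inner_smul_left]
        simp only [conj_trivial]
        calc (1 / 4) * (t * ‖w‖) = t * ((1 / 4) * ‖w‖) := by ring
          _ ≤ t * ⟪w, nst⟫ := mul_le_mul_of_nonneg_left h1 ht.le
      · intro τ h3 h4
        rw [norm_smul, Real.norm_eq_abs, abs_of_pos ht, smul_smul]
        have : τ / (t * ‖w‖) * t = τ / ‖w‖ := by field_simp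
        rw [this]
        exact h2 τ h3 h4
    let Ab : Set E := {z | ∃ v ∈ Cb, 36 ≤ ‖v‖ ∧ ‖v‖ < 37 ∧ z = x + v}
    have hAb : μ Ab ≤ ENNReal.ofReal ((41 : ℝ) ^ d * cFour d * V₀) := by
      apply hRB 41 (by norm_num) (by norm_num)
      rintro _ ⟨v, ⟨hv0, hv1, hv2⟩, hn1, hn2, rfl⟩
      have hvn : 0 < ‖v‖ := by linarith
      have e1 : x + v - y = (x - y) + v := by abel
      have hin : ⟪x + v - y, nst⟫ = ⟪x - y, nst⟫ + ⟪v, nst⟫ := by
        rw [e1, inner_add_left]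
      have hnorm : ‖x + v - y‖ ≤ ‖x - y‖ + ‖v‖ := by
        rw [e1]; exact norm_add_le _ _
      refine ⟨?_, ?_, ?_, ?_⟩
      · have h3 := hv2 ‖v‖ hn1 hn2
        rwa [div_self hvn.ne', one_smul] at h3
      · rw [hin]
        have h3 : etaK * ‖x + v - y‖ ≤ etaK * (‖x - y‖ + ‖v‖) :=
          mul_le_mul_of_nonneg_left hnorm hη.le
        have h4 : etaK = 1 / 14720 := rfl
        rw [h4] at h3 ⊢
        linarith only [h3, hxy, hxyin, hv1, hn1, hn2]
      · intro h3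
        have h4 : x + v - y = 0 := by rw [h3]; abel
        rw [h4, inner_zero_left] at hin
        linarith only [hin, hxyin, hv1, hn1]
      · linarith
    have hCbsmall : μ (Cb ∩ ball 0 1) ≤ ENNReal.ofReal ((41 : ℝ) ^ d * cFour d * V₀) := by
      have h2 := sector_le μ hCb (x := x) (Z := Ab) (τ₁ := 36) (τ₂ := 37) (by norm_num) (by norm_num)
        (fun v hv h3 h4 => ⟨v, hv, h3, h4, rfl⟩)
      have h3 : (1 : ℝ) ≤ (37 : ℝ) ^ d - (36 : ℝ) ^ d := by
        have := pow_add_one_sub_ge (τ := 36) (by norm_num) hd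
        norm_num at this
        linarith
      have h4 : μ (Cb ∩ ball 0 1) ≤ ENNReal.ofReal ((37 : ℝ) ^ d - (36 : ℝ) ^ d) * μ (Cb ∩ ball 0 1) := by
        conv_lhs => rw [← one_mul (μ (Cb ∩ ball 0 1))]
        gcongr
        rw [← ENNReal.ofReal_one]
        exact ENNReal.ofReal_le_ofReal h3
      exact h4.trans (h2.trans hAb)
    -- a good direction exists
    have hnum : aOne d * V₀ + (41 : ℝ) ^ d * cFour d * V₀ < (1 / 16 : ℝ) ^ d * V₀ := by
      have h1 : (16 : ℝ) ^ d * a ≤ 1 / 16 := aSmall_mul_pow_le (by norm_num) (by norm_num) d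
      have h2 : ((16 : ℝ) * 41) ^ d * cFour d ≤ 1 / 8 := cFour_mul_pow_le (by norm_num) (by norm_num) d
      have h3 : (1 / 16 : ℝ) ^ d * 16 ^ d = 1 := by rw [← mul_pow]; norm_num
      have h4 : (0 : ℝ) < (1 / 16 : ℝ) ^ d := by positivity
      have h5 : aOne d ≤ a := by
        unfold aOne
        apply div_le_self ha.le
        exact one_le_pow₀ (by norm_num)
      have h6 : a ≤ (1 / 16 : ℝ) ^ d * (1 / 16) := by
        calc a = ((1 / 16 : ℝ) ^ d * 16 ^ d) * a := by rw [h3, one_mul]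
          _ = (1 / 16 : ℝ) ^ d * (16 ^ d * a) := by ring
          _ ≤ _ := mul_le_mul_of_nonneg_left h1 h4.le
      have h7 : (41 : ℝ) ^ d * cFour d ≤ (1 / 16 : ℝ) ^ d * (1 / 8) := by
        rw [mul_pow] at h2
        calc (41 : ℝ) ^ d * cFour d = ((1 / 16 : ℝ) ^ d * 16 ^ d) * (41 ^ d * cFour d) := by rw [h3, one_mul]
          _ = (1 / 16 : ℝ) ^ d * (16 ^ d * 41 ^ d * cFour d) := by ring
          _ ≤ _ := mul_le_mul_of_nonneg_left h2 h4.le
      have h8 : aOne d + (41 : ℝ) ^ d * cFour d < (1 / 16 : ℝ) ^ d := by nlinarith only [h5, h6, h7, h4]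
      calc aOne d * V₀ + (41 : ℝ) ^ d * cFour d * V₀ = (aOne d + (41 : ℝ) ^ d * cFour d) * V₀ := by ring
        _ < _ := mul_lt_mul_of_pos_right h8 hV
    obtain ⟨w, hw, hwR, hwC⟩ : ∃ w ∈ ball ((1 / 2 : ℝ) • n) (1 / 16), w ∉ Rset ∧ w ∉ Cb ∩ ball 0 1 := by
      by_contra hc'
      push Not at hc'
      have hsub' : ball ((1 / 2 : ℝ) • n) (1 / 16) ⊆ Rset ∪ (Cb ∩ ball 0 1) := by
        intro w hw
        by_cases h1 : w ∈ Rset
        · exact Or.inl h1
        · exact Or.inr (hc' w hw h1)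
      have h1 := (measure_mono (μ := μ) hsub').trans (measure_union_le _ _)
      rw [measure_ball_eq μ _ (by norm_num : (0 : ℝ) < 1 / 16)] at h1
      have h2 : ENNReal.ofReal ((1 / 16 : ℝ) ^ d * V₀) ≤
          ENNReal.ofReal (aOne d * V₀ + (41 : ℝ) ^ d * cFour d * V₀) := by
        rw [ENNReal.ofReal_add (by have := aOne_pos d; positivity) (by positivity)]
        exact h1.trans (add_le_add hRset hCbsmall)
      have h3 := (ENNReal.ofReal_le_ofReal_iff (by have := aOne_pos d; positivity)).1 h2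
      linarith
    -- properties of w
    have hw' : ‖w - (1 / 2 : ℝ) • n‖ < 1 / 16 := by
      have : dist w ((1 / 2 : ℝ) • n) < 1 / 16 := hw
      rwa [dist_eq_norm] at this
    have hwnorm : ‖w‖ < 9 / 16 := by
      have e1 : w = (w - (1 / 2 : ℝ) • n) + (1 / 2 : ℝ) • n := by abel
      calc ‖w‖ = ‖(w - (1 / 2 : ℝ) • n) + (1 / 2 : ℝ) • n‖ := by rw [← e1]
        _ ≤ ‖w - (1 / 2 : ℝ) • n‖ + ‖(1 / 2 : ℝ) • n‖ := norm_add_le _ _
        _ < 9 / 16 := by
            rw [norm_smul, hnunit]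
            norm_num
            linarith
    have hwn : 7 / 16 ≤ ⟪w, n⟫ := by
      have h1 := abs_real_inner_le_norm (w - (1 / 2 : ℝ) • n) n
      rw [hnunit, mul_one] at h1
      have h2 := (abs_le.1 h1).1
      rw [inner_sub_left, inner_smul_left, real_inner_self_eq_norm_sq, hnunit] at h2
      simp at h2
      linarith
    have hw0 : w ≠ 0 := by
      intro h0
      rw [h0, inner_zero_left] at hwn
      linarith
    have hwpos : 0 < ‖w‖ := norm_pos_iff.2 hw0
    have hwnn : 7 / 9 * ‖w‖ ≤ ⟪w, n⟫ := by nlinarith only [hwnorm, hwn, hwpos]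
    have hnn : ‖nst - n‖ < 1 / 2 := by
      have h1 : ‖nst - n‖ ^ 2 = 2 - 2 * ⟪n, nst⟫ := by
        rw [@norm_sub_sq_real, hnst, hnunit, real_inner_comm]
        ring
      have h2 : ‖nst - n‖ ^ 2 < (1 / 2) ^ 2 := by
        rw [h1]; linarith
      exact lt_of_pow_lt_pow_left₀ 2 (by norm_num) h2
    have hwnst : 1 / 4 * ‖w‖ ≤ ⟪w, nst⟫ := by
      have e1 : ⟪w, nst⟫ = ⟪w, n⟫ + ⟪w, nst - n⟫ := by
        rw [inner_sub_right]; ring
      have h1 := abs_real_inner_le_norm w (nst - n)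
      have h2 := (abs_le.1 h1).1
      have h3 : ‖w‖ * ‖nst - n‖ ≤ ‖w‖ * (1 / 2) := mul_le_mul_of_nonneg_left hnn.le hwpos.le
      rw [e1]
      linarith
    -- the far point where `f` is high
    have hfar : ∃ τ : ℝ, 36 ≤ τ ∧ τ < 37 ∧ s ≤ f (x + (τ / ‖w‖) • w) := by
      by_contra hc'
      push Not at hc'
      exact hwC ⟨⟨hw0, hwnst, hc'⟩, by
        rw [mem_ball_zero_iff]; linarith⟩
    obtain ⟨τ, hτ1, hτ2, hτf⟩ := hfar
    have hwsmall : w ∈ ball ((1 / 2 : ℝ) • n) (1 / 2) :=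
      ball_subset_ball (by norm_num) hw
    have hnotRay : ¬ RayGood f u x w := fun h => hwR ⟨hwsmall, h⟩
    have hdrop : ∃ σ ∈ Icc (0 : ℝ) (τ / ‖w‖), u (x + σ • w) < u x := by
      by_contra hc'
      push Not at hc'
      apply hnotRay
      refine ⟨τ / ‖w‖, by positivity, hc', ?_⟩
      have h1 : (u x - f x) / 4 = e / 4 := rfl
      rw [h1]
      have h2 : e / 4 ≤ f (x + (τ / ‖w‖) • w) - f x := by
        have : f x = b := rfl
        linarith
      exact h2.trans (le_abs_self _)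
    obtain ⟨σ, hσ, hσu⟩ := hdrop
    set z := x + σ • w with hz
    have hznot : z ∉ closedBall c r := fun h => absurd (hG.le_on hA h) (not_le.2 hσu)
    rw [hc, mem_closedBall_iff_inner hnunit hr] at hznot
    have hzx : z - x = σ • w := by rw [hz]; abel
    rw [hzx, inner_smul_left, norm_smul, Real.norm_eq_abs, abs_of_nonneg hσ.1] at hznot
    simp only [conj_trivial] at hznot
    push Not at hznot
    have hσpos : 0 < σ := by
      rcases hσ.1.lt_or_eq with h | h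
      · exact h
      · exfalso
        rw [← h] at hznot
        simp at hznot
    have hσw : 14 / 9 < σ * ‖w‖ := by
      have h1 : 2 * r * ⟪w, n⟫ < σ * ‖w‖ ^ 2 := by
        have h2 : σ * (2 * r * ⟪w, n⟫) < σ * (σ * ‖w‖ ^ 2) := by nlinarith only [hznot]
        exact lt_of_mul_lt_mul_left h2 hσpos.le
      have h3 : 2 * (7 / 9 * ‖w‖) ≤ 2 * r * ⟪w, n⟫ := by nlinarith only [r1, hwnn, hwpos, hwn]
      have h4 : ‖w‖ * (14 / 9) < ‖w‖ * (σ * ‖w‖) := by nlinarith only [h1, h3]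
      exact lt_of_mul_lt_mul_left h4 hwpos.le
    have hσw2 : σ * ‖w‖ ≤ τ := by
      have := hσ.2
      rw [le_div_iff₀ hwpos] at this
      exact this
    have hzxn : ‖z - x‖ < 37 := by
      rw [hzx, norm_smul, Real.norm_eq_abs, abs_of_pos hσpos]
      linarith
    have hzy : ‖z - y‖ ≤ 41 := by
      have e1 : z - y = (z - x) + (x - y) := by abel
      rw [e1]
      have := norm_add_le (z - x) (x - y)
      linarith
    have hzin : ⟪z - y, nst⟫ = ⟪x - y, nst⟫ + σ * ⟪w, nst⟫ := by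
      have e1 : z - y = (x - y) + σ • w := by rw [hz]; abel
      rw [e1, inner_add_left, inner_smul_left]
      simp
    have hzin2 : ⟪x - y, nst⟫ + 7 / 18 ≤ ⟪z - y, nst⟫ := by
      rw [hzin]
      have h1 : σ * (1 / 4 * ‖w‖) ≤ σ * ⟪w, nst⟫ := mul_le_mul_of_nonneg_left hwnst hσpos.le
      nlinarith only [h1, hσw]
    set q := x + (1 / 32 : ℝ) • n with hq
    have hqball : ∀ z' ∈ ball q (1 / 32), ‖z' - q‖ < 1 / 32 := by
      intro z' hz'
      have : dist z' q < 1 / 32 := hz'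
      rwa [dist_eq_norm] at this
    have hqx : ∀ z' ∈ ball q (1 / 32), ‖z' - x‖ < 1 / 16 := by
      intro z' hz'
      have e1 : z' - x = (z' - q) + (1 / 32 : ℝ) • n := by rw [hq]; abel
      rw [e1]
      calc _ ≤ ‖z' - q‖ + ‖(1 / 32 : ℝ) • n‖ := norm_add_le _ _
        _ < 1 / 16 := by
            rw [norm_smul, hnunit]
            norm_num
            linarith [hqball z' hz']
    have hqsub : ∀ z' ∈ ball q (1 / 32), z' ∈ ball c r := by
      intro z' hz'
      rw [mem_ball, dist_eq_norm]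
      have e1 : z' - c = (z' - q) - (r - 1 / 32) • n := by
        rw [hq, hc, sub_smul]
        abel
      rw [e1]
      calc _ ≤ ‖z' - q‖ + ‖(r - 1 / 32) • n‖ := norm_sub_le _ _
        _ < 1 / 32 + (r - 1 / 32) := by
            rw [norm_smul, hnunit, Real.norm_eq_abs, abs_of_pos (by linarith), mul_one]
            linarith [hqball z' hz']
        _ = r := by ring
    refine long_finish hd hA (y := y) (nst := nst) (p := z) (q := q) (s := s) (lam := lam) (β := β)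
      (P := rayPart f u x n r) hRB hnst hzy (by linarith) hσu.le hβlam hlams hβs hPsmall ?_ ?_ ?_ ?_
    · exact fun z' hz' hzP => hlowf_gen z' (hqsub z' hz') hzP
    · intro z' hz'
      have h1 := hqx z' hz'
      have h2 := abs_real_inner_le_norm (z' - x) nst
      rw [hnst, mul_one] at h2
      have h3 := (abs_le.1 h2).2
      have e1 : z' - y = (z' - x) + (x - y) := by abel
      rw [e1, inner_add_left]
      linarith
    · intro z' hz'
      have h1 := hqx z' hz'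
      have e1 : z' - z = (z' - x) - (z - x) := by abel
      rw [e1]
      have := norm_sub_le (z' - x) (z - x)
      linarith
    · intro z' hz'
      apply hsub
      rw [mem_ball, dist_eq_norm]
      have hz'' : ‖z' - (z + (205 : ℝ) • nst)‖ < 205 := by
        have : dist z' (z + (205 : ℝ) • nst) < 205 := hz'
        rwa [dist_eq_norm] at this
      have e1 : z' - x = (z' - (z + (205 : ℝ) • nst)) + (205 : ℝ) • nst + (z - x) := by abel
      rw [e1]
      calc _ ≤ ‖z' - (z + (205 : ℝ) • nst)‖ + ‖(205 : ℝ) • nst‖ + ‖z - x‖ := norm_add₃_le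
        _ < 450 := by
            rw [norm_smul, hnst]
            norm_num
            linarith

/-- First half of the key lemma. -/
theorem key_one (hd : 1 ≤ finrank ℝ E) (hA : AvgPair μ f u)
    (hG : GoodPoint μ (aOne (finrank ℝ E)) f u x n r)
    {x₀ : E} {R₀ : ℝ} (hsub : ball x 450 ⊆ ball x₀ R₀) :
    ENNReal.ofReal (Kone (finrank ℝ E) * (u x - f x) * volOne μ ^ 2) ≤ Mprime μ f R₀ 60000 x₀ := by
  classical
  have he : 0 < u x - f x := sub_pos.2 hG.lt
  have hV := volOne_pos μ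
  have hB : ball (x + r • n) r ⊆ ball x₀ R₀ := by
    refine Subset.trans ?_ hsub
    intro z hz
    have hr := hG.r_pos
    rw [mem_ball, dist_eq_norm] at hz ⊢
    have e1 : z - x = (z - (x + r • n)) + r • n := by abel
    rw [e1]
    calc _ ≤ ‖z - (x + r • n)‖ + ‖r • n‖ := norm_add_le _ _
      _ < 450 := by
          rw [norm_smul, hG.unit, Real.norm_eq_abs, abs_of_pos hr]
          linarith [hG.r_le]
  by_cases hno : ∀ y ∈ ball (x + r • n) r, ∀ s,
      f x + (u x - f x) / 4 + (u x - f x) / (8 * aSmall (finrank ℝ E)) ≤ s → s < f y →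
      ENNReal.ofReal (cTwo (finrank ℝ E) * volOne μ) ≤ μ (shortDirs f 60000 y s ∩ ball 0 1)
  · refine le_trans (ENNReal.ofReal_le_ofReal ?_) (key_one_no_long hA hG hB hno)
    have := min_le_left (KoneA (finrank ℝ E)) (KoneB (finrank ℝ E))
    unfold Kone
    gcongr
  · push Not at hno
    obtain ⟨y, hy, s, h1, h2, h3⟩ := hno
    refine le_trans (ENNReal.ofReal_le_ofReal ?_) (key_one_long hd hA hG hsub hy h1 h2 h3)
    have := min_le_right (KoneA (finrank ℝ E)) (KoneB (finrank ℝ E))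
    unfold Kone
    gcongr

end Vale.Agent.Lib.P137



/-! The second half of the key lemma: two nearby good points with different values. -/

namespace Vale.Agent.Lib.P137

open MeasureTheory Set Filter Topology Metric Module
open scoped ENNReal NNReal RealInnerProductSpace Pointwise

set_option linter.unusedSectionVars false
set_option linter.unusedVariables false

variable {E : Type*} [NormedAddCommGroup E] [InnerProductSpace ℝ E] [FiniteDimensional ℝ E]
  [MeasurableSpace E] [BorelSpace E] {μ : Measure E} [μ.IsAddHaarMeasure]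

variable {f u : E → ℝ} {x n x' n' : E} {r r' : ℝ}

lemma ofReal_le_of_add_two {A B C : ℝ} {X : ℝ≥0∞} (hB : 0 ≤ B) (hC : 0 ≤ C) (hABC : C + B + B ≤ A)
    (h : ENNReal.ofReal A ≤ X + ENNReal.ofReal B + ENNReal.ofReal B) : ENNReal.ofReal C ≤ X := by
  have h1 : ENNReal.ofReal C + ENNReal.ofReal B + ENNReal.ofReal B ≤ X + ENNReal.ofReal B + ENNReal.ofReal B := by
    rw [← ENNReal.ofReal_add hC hB, ← ENNReal.ofReal_add (by positivity) hB]
    exact (ENNReal.ofReal_le_ofReal hABC).trans h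
  have h2 := (ENNReal.add_le_add_iff_right ENNReal.ofReal_ne_top).1 h1
  exact (ENNReal.add_le_add_iff_right ENNReal.ofReal_ne_top).1 h2

/-- Two optimal balls touching nearly at the same point with disjoint plateaus point in nearly
opposite directions. -/
lemma normals_opposite (hA : AvgPair μ f u)
    (hG : GoodPoint μ (aOne (finrank ℝ E)) f u x n r)
    (hG' : GoodPoint μ (aOne (finrank ℝ E)) f u x' n' r')
    (hxx : ‖x - x'‖ < 1 / 10 ^ 6)
    (hdisj : ∀ z, z ∈ ball (x + r • n) r → z ∉ rayPart f u x n r → z ∈ ball (x' + r' • n') r' →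
      z ∉ rayPart f u x' n' r' → False) :
    ⟪n, n'⟫ ≤ -1 + 1 / 72 := by
  classical
  set d := finrank ℝ E with hdd
  set V₀ := volOne μ with hV₀
  have hV : 0 < V₀ := volOne_pos μ
  have ha := aSmall_pos d
  by_contra hc
  push Not at hc
  set κ := 1 + ⟪n, n'⟫ with hκ
  have hκ1 : 1 / 72 < κ := by rw [hκ]; linarith
  obtain ⟨ξ, hξ⟩ : ∃ ξ : ℝ, ξ = 1 / 10 ^ 5 := ⟨_, rfl⟩
  have hξv : ξ = 1 / 100000 := by rw [hξ]; norm_num
  have hξpos : 0 < ξ := by rw [hξv]; norm_num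
  set q := x + (1 / 300 : ℝ) • (n + n') with hq
  have hun := hG.unit
  have hun' := hG'.unit
  have hzq : ∀ z ∈ ball q ξ, ‖z - q‖ < ξ := by
    intro z hz
    have : dist z q < ξ := hz
    rwa [dist_eq_norm] at this
  have hnn : ‖n + n'‖ ≤ 2 := by
    calc ‖n + n'‖ ≤ ‖n‖ + ‖n'‖ := norm_add_le _ _
      _ = 2 := by rw [hun, hun']; norm_num
  have h300 : ‖(1 / 300 : ℝ) • (n + n')‖ ≤ 1 / 150 := by
    rw [norm_smul]
    norm_num
    linarith
  have hinn : ⟪n + n', n⟫ = κ := by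
    rw [inner_add_left, real_inner_self_eq_norm_sq, hun, real_inner_comm]
    rw [hκ]; ring
  have hinn' : ⟪n + n', n'⟫ = κ := by
    rw [inner_add_left, real_inner_self_eq_norm_sq, hun', hκ]; ring
  have hsub1 : ball q ξ ⊆ ball (x + r • n) r := by
    intro z hz
    rw [mem_ball_iff_inner hun hG.r_pos]
    have h1 := hzq z hz
    have e1 : z - x = (z - q) + (1 / 300 : ℝ) • (n + n') := by rw [hq]; abel
    have h2 : ‖z - x‖ ≤ ξ + 1 / 150 := by
      rw [e1]
      calc _ ≤ ‖z - q‖ + ‖(1 / 300 : ℝ) • (n + n')‖ := norm_add_le _ _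
        _ ≤ _ := by linarith
    have h3 : ⟪z - x, n⟫ = ⟪z - q, n⟫ + (1 / 300) * κ := by
      rw [e1, inner_add_left, inner_smul_left, hinn]
      simp
    have h4 := abs_real_inner_le_norm (z - q) n
    rw [hun, mul_one] at h4
    have h5 := (abs_le.1 h4).1
    have h6 : (1 / 300 : ℝ) * (1 / 72) - ξ ≤ ⟪z - x, n⟫ := by
      rw [h3]; linarith
    have h7 : ‖z - x‖ ^ 2 ≤ (ξ + 1 / 150) ^ 2 := pow_le_pow_left₀ (norm_nonneg _) h2 2
    have h8 : (ξ + 1 / 150) ^ 2 < 2 * ((1 / 300 : ℝ) * (1 / 72) - ξ) := by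
      rw [hξ]; norm_num
    have h9 : 2 * ((1 / 300 : ℝ) * (1 / 72) - ξ) ≤ 2 * r * ⟪z - x, n⟫ := by
      have h10 : 0 < (1 / 300 : ℝ) * (1 / 72) - ξ := by rw [hξ]; norm_num
      nlinarith [hG.r_ge]
    linarith
  have hsub2 : ball q ξ ⊆ ball (x' + r' • n') r' := by
    intro z hz
    rw [mem_ball_iff_inner hun' hG'.r_pos]
    have h1 := hzq z hz
    have e1 : z - x' = (z - q) + (x - x') + (1 / 300 : ℝ) • (n + n') := by rw [hq]; abel
    have h2 : ‖z - x'‖ ≤ ξ + 1 / 10 ^ 6 + 1 / 150 := by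
      rw [e1]
      calc _ ≤ ‖z - q‖ + ‖x - x'‖ + ‖(1 / 300 : ℝ) • (n + n')‖ := norm_add₃_le
        _ ≤ _ := by linarith
    have h3 : ⟪z - x', n'⟫ = ⟪z - q, n'⟫ + ⟪x - x', n'⟫ + (1 / 300) * κ := by
      rw [e1, inner_add_left, inner_add_left, inner_smul_left, hinn']
      simp
    have h4 := abs_real_inner_le_norm (z - q) n'
    rw [hun', mul_one] at h4
    have h5 := (abs_le.1 h4).1
    have h4' := abs_real_inner_le_norm (x - x') n'
    rw [hun', mul_one] at h4'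
    have h5' := (abs_le.1 h4').1
    have h6 : (1 / 300 : ℝ) * (1 / 72) - ξ - 1 / 10 ^ 6 ≤ ⟪z - x', n'⟫ := by
      rw [h3]; linarith
    have h7 : ‖z - x'‖ ^ 2 ≤ (ξ + 1 / 10 ^ 6 + 1 / 150) ^ 2 := pow_le_pow_left₀ (norm_nonneg _) h2 2
    have h8 : (ξ + 1 / 10 ^ 6 + 1 / 150) ^ 2 < 2 * ((1 / 300 : ℝ) * (1 / 72) - ξ - 1 / 10 ^ 6) := by
      rw [hξ]; norm_num
    have h9 : 2 * ((1 / 300 : ℝ) * (1 / 72) - ξ - 1 / 10 ^ 6) ≤ 2 * r' * ⟪z - x', n'⟫ := by
      have h10 : 0 < (1 / 300 : ℝ) * (1 / 72) - ξ - 1 / 10 ^ 6 := by rw [hξ]; norm_num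
      nlinarith [hG'.r_ge]
    linarith
  -- the exceptional parts cannot fill the small ball
  have hP := hG.measure_rayPart_le'
  have hP' := hG'.measure_rayPart_le'
  have hnum : r ^ d * aSmall d * V₀ + r' ^ d * aSmall d * V₀ < ξ ^ d * V₀ := by
    have h1 : r ^ d ≤ 2 ^ d := pow_le_pow_left₀ hG.r_pos.le hG.r_le d
    have h2 : r' ^ d ≤ 2 ^ d := pow_le_pow_left₀ hG'.r_pos.le hG'.r_le d
    have h3 : ((2 : ℝ) * 10 ^ 5) ^ d * aSmall d ≤ 1 / 16 := aSmall_mul_pow_le (by norm_num) (by norm_num) d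
    have h4 : ξ ^ d * (10 ^ 5) ^ d = 1 := by
      rw [← mul_pow, hξ]; norm_num
    have h5 : (0 : ℝ) < ξ ^ d := by rw [hξ]; positivity
    have h6 : (2 : ℝ) ^ d * aSmall d ≤ ξ ^ d * (1 / 16) := by
      calc (2 : ℝ) ^ d * aSmall d = (ξ ^ d * (10 ^ 5) ^ d) * (2 ^ d * aSmall d) := by rw [h4, one_mul]
        _ = ξ ^ d * (((2 : ℝ) * 10 ^ 5) ^ d * aSmall d) := by rw [mul_pow]; ring
        _ ≤ _ := mul_le_mul_of_nonneg_left h3 h5.le
    have h7 : r ^ d * aSmall d ≤ 2 ^ d * aSmall d := mul_le_mul_of_nonneg_right h1 ha.le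
    have h8 : r' ^ d * aSmall d ≤ 2 ^ d * aSmall d := mul_le_mul_of_nonneg_right h2 ha.le
    have h9 : r ^ d * aSmall d + r' ^ d * aSmall d < ξ ^ d := by nlinarith
    calc r ^ d * aSmall d * V₀ + r' ^ d * aSmall d * V₀ = (r ^ d * aSmall d + r' ^ d * aSmall d) * V₀ := by ring
      _ < _ := mul_lt_mul_of_pos_right h9 hV
  obtain ⟨z, hz, hz1, hz2⟩ : ∃ z ∈ ball q ξ, z ∉ rayPart f u x n r ∧ z ∉ rayPart f u x' n' r' := by
    by_contra hcc
    push Not at hcc
    have hsub' : ball q ξ ⊆ rayPart f u x n r ∪ rayPart f u x' n' r' := by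
      intro z hz
      by_cases h1 : z ∈ rayPart f u x n r
      · exact Or.inl h1
      · exact Or.inr (hcc z hz h1)
    have h1 := (measure_mono (μ := μ) hsub').trans (measure_union_le _ _)
    rw [measure_ball_eq μ _ hξpos] at h1
    have hr0 := hG.r_pos
    have hr0' := hG'.r_pos
    have h2 : ENNReal.ofReal (ξ ^ d * V₀) ≤ ENNReal.ofReal (r ^ d * aSmall d * V₀ + r' ^ d * aSmall d * V₀) := by
      rw [ENNReal.ofReal_add (by positivity) (by positivity)]
      exact h1.trans (add_le_add hP hP')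
    have h3 := (ENNReal.ofReal_le_ofReal_iff (by positivity)).1 h2
    linarith
  exact hdisj z (hsub1 hz) hz1 (hsub2 hz) hz2

/-- A deep low point: both rays reach the high plateau of the second ball. -/
lemma short_two_deep (hG' : GoodPoint μ (aOne (finrank ℝ E)) f u x' n' r') {y' : E} {s' : ℝ}
    (hdeep : ball y' (2 / 10 ^ 5) ⊆ ball (x' + r' • n') r')
    (hfy' : f y' < s')
    (hhigh : ∀ z, z ∈ ball (x' + r' • n') r' → z ∉ rayPart f u x' n' r' → s' < f z) :
    ENNReal.ofReal (volOne μ / 2) ≤ μ (shortDirs f 60000 y' s' ∩ ball 0 1) := by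
  classical
  set d := finrank ℝ E with hdd
  set V₀ := volOne μ with hV₀
  have hV : 0 < V₀ := volOne_pos μ
  have ha := aSmall_pos d
  set d₁ : ℝ := 2 / 10 ^ 5 with hd₁
  have hd₁pos : 0 < d₁ := by rw [hd₁]; positivity
  set P' := rayPart f u x' n' r' with hP'def
  have hP' : μ P' ≤ ENNReal.ofReal (2 ^ d * aSmall d * V₀) := by
    refine hG'.measure_rayPart_le'.trans (ENNReal.ofReal_le_ofReal ?_)
    have h2 : r' ^ d ≤ 2 ^ d := pow_le_pow_left₀ hG'.r_pos.le hG'.r_le d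
    have h8 : r' ^ d * aSmall d ≤ 2 ^ d * aSmall d := mul_le_mul_of_nonneg_right h2 ha.le
    exact mul_le_mul_of_nonneg_right h8 hV.le
  let Wp : Set E := {w | w ∈ ball (0 : E) 1 ∧ y' + d₁ • w ∈ P'}
  let Wm : Set E := {w | w ∈ ball (0 : E) 1 ∧ y' - d₁ • w ∈ P'}
  have hWp : μ Wp ≤ ENNReal.ofReal (2 ^ d * aSmall d * V₀ / d₁ ^ d) :=
    le_ofReal_div (by positivity) ((scale_le μ hd₁pos (fun w hw => hw.2)).trans hP')
  have hWm : μ Wm ≤ ENNReal.ofReal (2 ^ d * aSmall d * V₀ / d₁ ^ d) :=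
    le_ofReal_div (by positivity) ((scale_neg_le μ hd₁pos (fun w hw => hw.2)).trans hP')
  have hnum : 2 ^ d * aSmall d * V₀ / d₁ ^ d ≤ V₀ / 16 := by
    have h3 : ((2 : ℝ) * (10 ^ 5 / 2)) ^ d * aSmall d ≤ 1 / 16 :=
      aSmall_mul_pow_le (by norm_num) (by norm_num) d
    rw [mul_pow] at h3
    have h4 : (1 / d₁) ^ d = (10 ^ 5 / 2 : ℝ) ^ d := by
      congr 1
      rw [hd₁]; norm_num
    rw [div_le_iff₀ (by positivity)]
    have h5 : d₁ ^ d * (1 / d₁) ^ d = 1 := by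
      rw [← mul_pow, mul_one_div, div_self hd₁pos.ne', one_pow]
    have h6 : (2 : ℝ) ^ d * aSmall d ≤ d₁ ^ d * (1 / 16) := by
      calc (2 : ℝ) ^ d * aSmall d = (d₁ ^ d * (1 / d₁) ^ d) * (2 ^ d * aSmall d) := by rw [h5, one_mul]
        _ = d₁ ^ d * (2 ^ d * (1 / d₁) ^ d * aSmall d) := by ring
        _ ≤ _ := by
            rw [h4]
            exact mul_le_mul_of_nonneg_left h3 (by positivity)
    calc 2 ^ d * aSmall d * V₀ ≤ d₁ ^ d * (1 / 16) * V₀ := mul_le_mul_of_nonneg_right h6 hV.le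
      _ = _ := by ring
  have hsub : ball (0 : E) 1 ⊆ (shortDirs f 60000 y' s' ∩ ball 0 1) ∪ Wp ∪ Wm := by
    intro w hw
    have hwn : ‖w‖ < 1 := by simpa using hw
    by_cases h1 : w ∈ Wp
    · exact Or.inl (Or.inr h1)
    by_cases h2 : w ∈ Wm
    · exact Or.inr h2
    refine Or.inl (Or.inl ⟨⟨d₁, d₁, hd₁pos, ?_, hd₁pos, ?_, Or.inr ⟨hfy', ?_, ?_⟩⟩, hw⟩)
    · rw [hd₁]; nlinarith [norm_nonneg w]
    · rw [hd₁]; nlinarith [norm_nonneg w]
    · apply hhigh
      · apply hdeep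
        rw [mem_ball, dist_eq_norm]
        have : y' + d₁ • w - y' = d₁ • w := by abel
        rw [this, norm_smul, Real.norm_eq_abs, abs_of_pos hd₁pos]
        nlinarith [norm_nonneg w]
      · exact fun h => h1 ⟨hw, h⟩
    · apply hhigh
      · apply hdeep
        rw [mem_ball, dist_eq_norm]
        have : y' - d₁ • w - y' = -(d₁ • w) := by abel
        rw [this, norm_neg, norm_smul, Real.norm_eq_abs, abs_of_pos hd₁pos]
        nlinarith [norm_nonneg w]
      · exact fun h => h2 ⟨hw, h⟩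
  have h1 : ENNReal.ofReal V₀ ≤ μ (shortDirs f 60000 y' s' ∩ ball 0 1) + ENNReal.ofReal (V₀ / 16) +
      ENNReal.ofReal (V₀ / 16) := by
    rw [hV₀, ofReal_volOne μ]
    calc μ (ball (0 : E) 1) ≤ μ ((shortDirs f 60000 y' s' ∩ ball 0 1) ∪ Wp ∪ Wm) := measure_mono hsub
      _ ≤ μ (shortDirs f 60000 y' s' ∩ ball 0 1) + μ Wp + μ Wm :=
          (measure_union_le _ _).trans (add_le_add (measure_union_le _ _) le_rfl)
      _ ≤ _ := by
          gcongr
          · exact hWp.trans (ENNReal.ofReal_le_ofReal hnum)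
          · exact hWm.trans (ENNReal.ofReal_le_ofReal hnum)
  exact ofReal_le_of_add_two (by positivity) (by positivity) (by linarith) h1

set_option maxHeartbeats 2000000 in
/-- A shallow low point is very close to `x`, and the rays reach both plateaus. -/
lemma short_two_shallow (hd : 1 ≤ finrank ℝ E)
    (hG : GoodPoint μ (aOne (finrank ℝ E)) f u x n r)
    (hG' : GoodPoint μ (aOne (finrank ℝ E)) f u x' n' r')
    (hxx : ‖x - x'‖ < 1 / 10 ^ 6) (hnn : ⟪n, n'⟫ ≤ -1 + 1 / 72) {y' : E} {s' : ℝ}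
    (hy'x : ‖y' - x‖ < 1 / 100) (hfy' : f y' < s')
    (hlow : ∀ z, z ∈ ball (x + r • n) r → z ∉ rayPart f u x n r → s' < f z)
    (hhigh : ∀ z, z ∈ ball (x' + r' • n') r' → z ∉ rayPart f u x' n' r' → s' < f z) :
    ENNReal.ofReal ((1 / 8 : ℝ) ^ finrank ℝ E / 2 * volOne μ) ≤
      μ (shortDirs f 60000 y' s' ∩ ball 0 1) := by
  classical
  set d := finrank ℝ E with hdd
  set V₀ := volOne μ with hV₀
  have hV : 0 < V₀ := volOne_pos μ
  have ha := aSmall_pos d
  have hun := hG.unit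
  have hun' := hG'.unit
  have hr := hG.r_pos
  have hr' := hG'.r_pos
  set P := rayPart f u x n r with hPdef
  set P' := rayPart f u x' n' r' with hP'def
  have hPle : μ P ≤ ENNReal.ofReal (2 ^ d * aSmall d * V₀) := by
    refine hG.measure_rayPart_le'.trans (ENNReal.ofReal_le_ofReal ?_)
    have h2 : r ^ d ≤ 2 ^ d := pow_le_pow_left₀ hr.le hG.r_le d
    have h8 : r ^ d * aSmall d ≤ 2 ^ d * aSmall d := mul_le_mul_of_nonneg_right h2 ha.le
    exact mul_le_mul_of_nonneg_right h8 hV.le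
  have hP'le : μ P' ≤ ENNReal.ofReal (2 ^ d * aSmall d * V₀) := by
    refine hG'.measure_rayPart_le'.trans (ENNReal.ofReal_le_ofReal ?_)
    have h2 : r' ^ d ≤ 2 ^ d := pow_le_pow_left₀ hr'.le hG'.r_le d
    have h8 : r' ^ d * aSmall d ≤ 2 ^ d * aSmall d := mul_le_mul_of_nonneg_right h2 ha.le
    exact mul_le_mul_of_nonneg_right h8 hV.le
  -- the direction cone
  let C₀ : Set E := {w | w ≠ 0 ∧ (1 / 2) * ‖w‖ ≤ ⟪w, n⟫}
  let Fp : Set E := {w | w ∈ C₀ ∧ ∀ τ : ℝ, 1 / 5 ≤ τ → τ < 1 / 2 → y' + (τ / ‖w‖) • w ∈ P}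
  let Fm : Set E := {v | -v ∈ C₀ ∧ ∀ τ : ℝ, 1 / 10 ≤ τ → τ < 1 / 4 → y' + (τ / ‖v‖) • v ∈ P'}
  have hC₀scale : ∀ w ∈ C₀, ∀ t : ℝ, 0 < t → t • w ∈ C₀ := by
    rintro w ⟨h0, h1⟩ t ht
    refine ⟨smul_ne_zero ht.ne' h0, ?_⟩
    rw [norm_smul, Real.norm_eq_abs, abs_of_pos ht, inner_smul_left]
    simp only [conj_trivial]
    calc (1 / 2) * (t * ‖w‖) = t * ((1 / 2) * ‖w‖) := by ring
      _ ≤ t * ⟪w, n⟫ := mul_le_mul_of_nonneg_left h1 ht.le
  have hFp : IsConeSet Fp := by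
    rintro w ⟨hw, h1⟩ t ht
    have hw0 : 0 < ‖w‖ := norm_pos_iff.2 hw.1
    refine ⟨hC₀scale w hw t ht, ?_⟩
    intro τ h2 h3
    rw [norm_smul, Real.norm_eq_abs, abs_of_pos ht, smul_smul]
    have : τ / (t * ‖w‖) * t = τ / ‖w‖ := by field_simp
    rw [this]
    exact h1 τ h2 h3
  have hFm : IsConeSet Fm := by
    rintro v ⟨hv, h1⟩ t ht
    have hv0 : 0 < ‖v‖ := by
      have := norm_pos_iff.2 hv.1
      rwa [norm_neg] at this
    refine ⟨?_, ?_⟩
    · have := hC₀scale _ hv t ht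
      rw [smul_neg] at this
      exact this
    · intro τ h2 h3
      rw [norm_smul, Real.norm_eq_abs, abs_of_pos ht, smul_smul]
      have : τ / (t * ‖v‖) * t = τ / ‖v‖ := by field_simp
      rw [this]
      exact h1 τ h2 h3
  have hFpsmall : ENNReal.ofReal ((1 / 2 : ℝ) ^ d - (1 / 5 : ℝ) ^ d) * μ (Fp ∩ ball 0 1) ≤ μ P := by
    apply sector_le μ hFp (x := y') (by norm_num) (by norm_num)
    intro v hv h1 h2
    have hv0 : 0 < ‖v‖ := by linarith
    have := hv.2 ‖v‖ h1 h2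
    rwa [div_self hv0.ne', one_smul] at this
  have hFmsmall : ENNReal.ofReal ((1 / 4 : ℝ) ^ d - (1 / 10 : ℝ) ^ d) * μ (Fm ∩ ball 0 1) ≤ μ P' := by
    apply sector_le μ hFm (x := y') (by norm_num) (by norm_num)
    intro v hv h1 h2
    have hv0 : 0 < ‖v‖ := by linarith
    have := hv.2 ‖v‖ h1 h2
    rwa [div_self hv0.ne', one_smul] at this
  -- numerics of the sectors
  have hq1 : (1 / 2 : ℝ) ^ d * (3 / 5) ≤ (1 / 2 : ℝ) ^ d - (1 / 5 : ℝ) ^ d := by
    have h1 : (1 / 5 : ℝ) ^ d = (1 / 2 : ℝ) ^ d * (2 / 5 : ℝ) ^ d := by rw [← mul_pow]; norm_num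
    have h2 : (2 / 5 : ℝ) ^ d ≤ 2 / 5 := by
      calc (2 / 5 : ℝ) ^ d ≤ (2 / 5 : ℝ) ^ 1 := pow_le_pow_of_le_one (by norm_num) (by norm_num) hd
        _ = 2 / 5 := pow_one _
    rw [h1]
    have h3 : (0 : ℝ) < (1 / 2 : ℝ) ^ d := by positivity
    nlinarith
  have hq2 : (1 / 4 : ℝ) ^ d * (3 / 5) ≤ (1 / 4 : ℝ) ^ d - (1 / 10 : ℝ) ^ d := by
    have h1 : (1 / 10 : ℝ) ^ d = (1 / 4 : ℝ) ^ d * (2 / 5 : ℝ) ^ d := by rw [← mul_pow]; norm_num
    have h2 : (2 / 5 : ℝ) ^ d ≤ 2 / 5 := by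
      calc (2 / 5 : ℝ) ^ d ≤ (2 / 5 : ℝ) ^ 1 := pow_le_pow_of_le_one (by norm_num) (by norm_num) hd
        _ = 2 / 5 := pow_one _
    rw [h1]
    have h3 : (0 : ℝ) < (1 / 4 : ℝ) ^ d := by positivity
    nlinarith
  have hnumA : (64 : ℝ) ^ d * aSmall d ≤ 1 / 16 := aSmall_mul_pow_le (by norm_num) (by norm_num) d
  have h18 : (1 / 8 : ℝ) ^ d * 8 ^ d = 1 := by rw [← mul_pow]; norm_num
  have h18pos : (0 : ℝ) < (1 / 8 : ℝ) ^ d := by positivity
  have hFpbound : μ (Fp ∩ ball 0 1) ≤ ENNReal.ofReal ((1 / 8 : ℝ) ^ d / 8 * V₀) := by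
    have h1 := hFpsmall.trans hPle
    have h2 : ENNReal.ofReal ((1 / 2 : ℝ) ^ d * (3 / 5)) * μ (Fp ∩ ball 0 1) ≤
        ENNReal.ofReal ((1 / 2 : ℝ) ^ d - (1 / 5 : ℝ) ^ d) * μ (Fp ∩ ball 0 1) := by
      gcongr
    have h3 := le_ofReal_div (by positivity) (h2.trans h1)
    refine h3.trans (ENNReal.ofReal_le_ofReal ?_)
    rw [div_le_iff₀ (by positivity)]
    have h4 : (64 : ℝ) ^ d = 8 ^ d * 2 ^ d * 4 ^ d := by
      rw [← mul_pow, ← mul_pow]; norm_num
    have h5 : (2 : ℝ) ^ d * (1 / 2 : ℝ) ^ d = 1 := by rw [← mul_pow]; norm_num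
    have h6 : (0 : ℝ) < (4 : ℝ) ^ d := by positivity
    have h7 : (2 : ℝ) ^ d * aSmall d * V₀ = (1 / 8 : ℝ) ^ d * (1 / 2 : ℝ) ^ d * (8 ^ d * 2 ^ d * 2 ^ d * aSmall d) * V₀ := by
      calc (2 : ℝ) ^ d * aSmall d * V₀ = ((1 / 8 : ℝ) ^ d * 8 ^ d) * ((2 : ℝ) ^ d * (1 / 2 : ℝ) ^ d) * (2 ^ d * aSmall d * V₀) := by
            rw [h18, h5]; ring
        _ = _ := by ring
    have h8 : (8 : ℝ) ^ d * 2 ^ d * 2 ^ d * aSmall d ≤ 1 / 16 := by
      have h9 : (8 : ℝ) ^ d * 2 ^ d * 2 ^ d ≤ 64 ^ d := by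
        rw [h4]
        have : (2 : ℝ) ^ d ≤ 4 ^ d := pow_le_pow_left₀ (by norm_num) (by norm_num) d
        have h10 : (0 : ℝ) < (8 : ℝ) ^ d * 2 ^ d := by positivity
        exact mul_le_mul_of_nonneg_left this h10.le
      exact (mul_le_mul_of_nonneg_right h9 ha.le).trans hnumA
    rw [h7]
    have h11 : (0 : ℝ) < (1 / 8 : ℝ) ^ d * (1 / 2 : ℝ) ^ d * V₀ := by positivity
    nlinarith
  have hFmbound : μ (Fm ∩ ball 0 1) ≤ ENNReal.ofReal ((1 / 8 : ℝ) ^ d / 8 * V₀) := by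
    have h1 := hFmsmall.trans hP'le
    have h2 : ENNReal.ofReal ((1 / 4 : ℝ) ^ d * (3 / 5)) * μ (Fm ∩ ball 0 1) ≤
        ENNReal.ofReal ((1 / 4 : ℝ) ^ d - (1 / 10 : ℝ) ^ d) * μ (Fm ∩ ball 0 1) := by
      gcongr
    have h3 := le_ofReal_div (by positivity) (h2.trans h1)
    refine h3.trans (ENNReal.ofReal_le_ofReal ?_)
    rw [div_le_iff₀ (by positivity)]
    have h4 : (64 : ℝ) ^ d = 8 ^ d * 2 ^ d * 4 ^ d := by
      rw [← mul_pow, ← mul_pow]; norm_num
    have h5 : (4 : ℝ) ^ d * (1 / 4 : ℝ) ^ d = 1 := by rw [← mul_pow]; norm_num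
    have h7 : (2 : ℝ) ^ d * aSmall d * V₀ = (1 / 8 : ℝ) ^ d * (1 / 4 : ℝ) ^ d * (8 ^ d * 2 ^ d * 4 ^ d * aSmall d) * V₀ := by
      calc (2 : ℝ) ^ d * aSmall d * V₀ = ((1 / 8 : ℝ) ^ d * 8 ^ d) * ((4 : ℝ) ^ d * (1 / 4 : ℝ) ^ d) * (2 ^ d * aSmall d * V₀) := by
            rw [h18, h5]; ring
        _ = _ := by ring
    rw [h7, ← h4]
    have h11 : (0 : ℝ) < (1 / 8 : ℝ) ^ d * (1 / 4 : ℝ) ^ d * V₀ := by positivity
    nlinarith
  -- geometry of the rays
  have hforward : ∀ w ∈ C₀, ∀ τ : ℝ, 1 / 5 ≤ τ → τ < 1 / 2 → y' + (τ / ‖w‖) • w ∈ ball (x + r • n) r := by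
    rintro w ⟨hw0, hw1⟩ τ h1 h2
    have hwn : 0 < ‖w‖ := norm_pos_iff.2 hw0
    rw [mem_ball_iff_inner hun hr]
    have e1 : y' + (τ / ‖w‖) • w - x = (y' - x) + (τ / ‖w‖) • w := by abel
    have hnorm : ‖(τ / ‖w‖) • w‖ = τ := by
      rw [norm_smul, Real.norm_eq_abs, abs_of_pos (by positivity)]
      field_simp
    have hin : τ / 2 ≤ ⟪(τ / ‖w‖) • w, n⟫ := by
      rw [inner_smul_left]
      simp only [conj_trivial]
      have h3 : τ / ‖w‖ * ((1 / 2) * ‖w‖) ≤ τ / ‖w‖ * ⟪w, n⟫ :=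
        mul_le_mul_of_nonneg_left hw1 (by positivity)
      have h4 : τ / ‖w‖ * ((1 / 2) * ‖w‖) = τ / 2 := by field_simp
      linarith
    have h5 := abs_real_inner_le_norm (y' - x) n
    rw [hun, mul_one] at h5
    have h6 := (abs_le.1 h5).1
    have h7 : τ / 2 - 1 / 100 ≤ ⟪y' + (τ / ‖w‖) • w - x, n⟫ := by
      rw [e1, inner_add_left]; linarith
    have h8 : ‖y' + (τ / ‖w‖) • w - x‖ ≤ 1 / 100 + τ := by
      rw [e1]
      calc _ ≤ ‖y' - x‖ + ‖(τ / ‖w‖) • w‖ := norm_add_le _ _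
        _ ≤ _ := by rw [hnorm]; linarith
    have h9 : ‖y' + (τ / ‖w‖) • w - x‖ ^ 2 ≤ (1 / 100 + τ) ^ 2 := pow_le_pow_left₀ (norm_nonneg _) h8 2
    have h10 : (1 / 100 + τ) ^ 2 < 2 * (τ / 2 - 1 / 100) := by nlinarith
    have h11 : 2 * (τ / 2 - 1 / 100) ≤ 2 * r * ⟪y' + (τ / ‖w‖) • w - x, n⟫ := by
      have h12 : 0 < τ / 2 - 1 / 100 := by linarith
      nlinarith [hG.r_ge]
    linarith
  have hnplus : ‖n + n'‖ ≤ 1 / 6 := by
    have h1 : ‖n + n'‖ ^ 2 = 2 + 2 * ⟪n, n'⟫ := by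
      rw [@norm_add_sq_real, hun, hun']; ring
    have h2 : ‖n + n'‖ ^ 2 ≤ (1 / 6) ^ 2 := by rw [h1]; linarith
    exact le_of_pow_le_pow_left₀ (by norm_num) (by norm_num) h2
  have hbackward : ∀ w ∈ C₀, ∀ τ : ℝ, 1 / 10 ≤ τ → τ < 1 / 4 →
      y' + (τ / ‖-w‖) • (-w) ∈ ball (x' + r' • n') r' := by
    rintro w ⟨hw0, hw1⟩ τ h1 h2
    have hwn : 0 < ‖w‖ := norm_pos_iff.2 hw0
    rw [norm_neg, mem_ball_iff_inner hun' hr']
    have e1 : y' + (τ / ‖w‖) • (-w) - x' = ((y' - x) + (x - x')) + (τ / ‖w‖) • (-w) := by abel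
    have hnorm : ‖(τ / ‖w‖) • (-w)‖ = τ := by
      rw [norm_smul, norm_neg, Real.norm_eq_abs, abs_of_pos (by positivity)]
      field_simp
    have hin : τ / 3 ≤ ⟪(τ / ‖w‖) • (-w), n'⟫ := by
      rw [inner_smul_left, inner_neg_left]
      simp only [conj_trivial]
      have h3 : ⟪w, n'⟫ = ⟪w, n + n'⟫ - ⟪w, n⟫ := by rw [inner_add_right]; ring
      have h4 := abs_real_inner_le_norm w (n + n')
      have h5 := (abs_le.1 h4).2
      have h6 : ‖w‖ * ‖n + n'‖ ≤ ‖w‖ * (1 / 6) := mul_le_mul_of_nonneg_left hnplus hwn.le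
      have h7 : (1 / 3) * ‖w‖ ≤ -⟪w, n'⟫ := by rw [h3]; linarith
      have h8 : τ / ‖w‖ * ((1 / 3) * ‖w‖) ≤ τ / ‖w‖ * -⟪w, n'⟫ :=
        mul_le_mul_of_nonneg_left h7 (by positivity)
      have h9 : τ / ‖w‖ * ((1 / 3) * ‖w‖) = τ / 3 := by field_simp
      linarith
    have h10 : ‖(y' - x) + (x - x')‖ < 101 / 10000 := by
      calc _ ≤ ‖y' - x‖ + ‖x - x'‖ := norm_add_le _ _
        _ < _ := by norm_num at hxx hy'x ⊢; linarith
    have h5 := abs_real_inner_le_norm ((y' - x) + (x - x')) n'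
    rw [hun', mul_one] at h5
    have h6 := (abs_le.1 h5).1
    have h7 : τ / 3 - 101 / 10000 ≤ ⟪y' + (τ / ‖w‖) • (-w) - x', n'⟫ := by
      rw [e1, inner_add_left]; linarith
    have h8 : ‖y' + (τ / ‖w‖) • (-w) - x'‖ ≤ 101 / 10000 + τ := by
      rw [e1]
      calc _ ≤ ‖(y' - x) + (x - x')‖ + ‖(τ / ‖w‖) • (-w)‖ := norm_add_le _ _
        _ ≤ _ := by rw [hnorm]; linarith
    have h9 : ‖y' + (τ / ‖w‖) • (-w) - x'‖ ^ 2 ≤ (101 / 10000 + τ) ^ 2 := pow_le_pow_left₀ (norm_nonneg _) h8 2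
    have h11 : (101 / 10000 + τ) ^ 2 < 2 * (τ / 3 - 101 / 10000) := by nlinarith
    have h12 : 2 * (τ / 3 - 101 / 10000) ≤ 2 * r' * ⟪y' + (τ / ‖w‖) • (-w) - x', n'⟫ := by
      have h13 : 0 < τ / 3 - 101 / 10000 := by linarith
      nlinarith [hG'.r_ge]
    linarith
  -- covering of a small ball of directions
  have hsub : ball ((1 / 2 : ℝ) • n) (1 / 8) ⊆ (shortDirs f 60000 y' s' ∩ ball 0 1) ∪ (Fp ∩ ball 0 1) ∪
      {w | -w ∈ Fm ∩ ball (0 : E) 1} := by
    intro w hw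
    have hw' : ‖w - (1 / 2 : ℝ) • n‖ < 1 / 8 := by
      have : dist w ((1 / 2 : ℝ) • n) < 1 / 8 := hw
      rwa [dist_eq_norm] at this
    have hwnorm : ‖w‖ < 5 / 8 := by
      have e1 : w = (w - (1 / 2 : ℝ) • n) + (1 / 2 : ℝ) • n := by abel
      calc ‖w‖ = ‖(w - (1 / 2 : ℝ) • n) + (1 / 2 : ℝ) • n‖ := by rw [← e1]
        _ ≤ ‖w - (1 / 2 : ℝ) • n‖ + ‖(1 / 2 : ℝ) • n‖ := norm_add_le _ _
        _ < 5 / 8 := by
            rw [norm_smul, hun]
            norm_num
            linarith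
    have hwn : 3 / 8 ≤ ⟪w, n⟫ := by
      have h1 := abs_real_inner_le_norm (w - (1 / 2 : ℝ) • n) n
      rw [hun, mul_one] at h1
      have h2 := (abs_le.1 h1).1
      rw [inner_sub_left, inner_smul_left, real_inner_self_eq_norm_sq, hun] at h2
      simp at h2
      linarith
    have hw0 : w ≠ 0 := by
      intro h0
      rw [h0, inner_zero_left] at hwn
      linarith
    have hwC : w ∈ C₀ := ⟨hw0, by nlinarith⟩
    have hw1 : w ∈ ball (0 : E) 1 := by
      rw [mem_ball_zero_iff]; linarith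
    have hwpos : 0 < ‖w‖ := norm_pos_iff.2 hw0
    by_cases h1 : w ∈ Fp
    · exact Or.inl (Or.inr ⟨h1, hw1⟩)
    by_cases h2 : -w ∈ Fm
    · exact Or.inr ⟨h2, by simpa using hw1⟩
    -- both rays leave the exceptional parts
    have h1' : ∃ τ : ℝ, 1 / 5 ≤ τ ∧ τ < 1 / 2 ∧ y' + (τ / ‖w‖) • w ∉ P := by
      by_contra hc
      push Not at hc
      exact h1 ⟨hwC, hc⟩
    have h2' : ∃ τ : ℝ, 1 / 10 ≤ τ ∧ τ < 1 / 4 ∧ y' + (τ / ‖-w‖) • (-w) ∉ P' := by
      by_contra hc
      push Not at hc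
      exact h2 ⟨by simpa using hwC, hc⟩
    obtain ⟨τ, h3, h4, h5⟩ := h1'
    obtain ⟨τ', h6, h7, h8⟩ := h2'
    refine Or.inl (Or.inl ⟨⟨τ / ‖w‖, τ' / ‖w‖, by positivity, ?_, by positivity, ?_, Or.inr ⟨hfy', ?_, ?_⟩⟩, hw1⟩)
    · rw [div_mul_cancel₀ _ hwpos.ne']; linarith
    · rw [div_mul_cancel₀ _ hwpos.ne']; linarith
    · exact hlow _ (hforward w hwC τ h3 h4) h5
    · have h9 := hhigh _ (hbackward w hwC τ' h6 h7) h8
      rw [norm_neg, smul_neg, ← sub_eq_add_neg] at h9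
      exact h9
  have hm1 : ENNReal.ofReal ((1 / 8 : ℝ) ^ d * V₀) ≤
      μ (shortDirs f 60000 y' s' ∩ ball 0 1) + ENNReal.ofReal ((1 / 8 : ℝ) ^ d / 8 * V₀) +
        ENNReal.ofReal ((1 / 8 : ℝ) ^ d / 8 * V₀) := by
    rw [← measure_ball_eq μ ((1 / 2 : ℝ) • n) (by norm_num : (0 : ℝ) < 1 / 8)]
    calc _ ≤ μ ((shortDirs f 60000 y' s' ∩ ball 0 1) ∪ (Fp ∩ ball 0 1) ∪ {w | -w ∈ Fm ∩ ball (0 : E) 1}) :=
          measure_mono hsub
      _ ≤ μ (shortDirs f 60000 y' s' ∩ ball 0 1) + μ (Fp ∩ ball 0 1) + μ {w | -w ∈ Fm ∩ ball (0 : E) 1} :=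
          (measure_union_le _ _).trans (add_le_add (measure_union_le _ _) le_rfl)
      _ ≤ _ := by
          rw [measure_neg_set]
          gcongr
  exact ofReal_le_of_add_two (by positivity) (by positivity) (by nlinarith) hm1

end Vale.Agent.Lib.P137



/-! The key lemma. -/

namespace Vale.Agent.Lib.P137

open MeasureTheory Set Filter Topology Metric Module
open scoped ENNReal NNReal RealInnerProductSpace Pointwise

set_option linter.unusedSectionVars false
set_option linter.unusedVariables false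

variable {E : Type*} [NormedAddCommGroup E] [InnerProductSpace ℝ E] [FiniteDimensional ℝ E]
  [MeasurableSpace E] [BorelSpace E] {μ : Measure E} [μ.IsAddHaarMeasure]

variable {f u : E → ℝ} {x n x' n' : E} {r r' : ℝ}

/-- A point of the half-size ball at `x` far from the boundary of the second ball's complement
is close to `x`. -/
lemma shallow_close {ε : ℝ} (hε1 : ε ≤ 1 / 10 ^ 6) (hun' : ‖n'‖ = 1) (hr1 : 1 ≤ r') (hr2 : r' ≤ 2)
    (hxx : ‖x - x'‖ < ε) {y' : E} (hy' : y' ∈ ball (x + (r' / 2) • n') (r' / 2))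
    (hnot : ¬ ball y' (2 / 10 ^ 5) ⊆ ball (x' + r' • n') r') : ‖y' - x‖ < 1 / 100 := by
  classical
  have hr0 : 0 < r' := by linarith
  have h1 := (mem_ball_iff_inner hun' (by linarith : (0 : ℝ) < r' / 2)).1 hy'
  set v := y' - x with hv
  have h2 : ‖v‖ ^ 2 < r' * ⟪v, n'⟫ := by
    have : 2 * (r' / 2) * ⟪v, n'⟫ = r' * ⟪v, n'⟫ := by ring
    rwa [this] at h1
  obtain ⟨z, hz, hz'⟩ := not_subset.1 hnot
  have hz1 : ‖z - y'‖ < 2 / 10 ^ 5 := by
    have : dist z y' < 2 / 10 ^ 5 := hz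
    rwa [dist_eq_norm] at this
  have hz2 : r' ≤ ‖z - (x' + r' • n')‖ := by
    rw [mem_ball, dist_eq_norm] at hz'
    exact not_lt.1 hz'
  set A := v - r' • n' with hA
  have e1 : z - (x' + r' • n') = (z - y') + A + (x - x') := by rw [hA, hv]; abel
  have h3 : r' ≤ ‖z - y'‖ + ‖A‖ + ‖x - x'‖ := by
    rw [e1] at hz2
    exact hz2.trans norm_add₃_le
  have hA2 : ‖A‖ ^ 2 = ‖v‖ ^ 2 - 2 * r' * ⟪v, n'⟫ + r' ^ 2 := by
    rw [hA, @norm_sub_sq_real, inner_smul_right, norm_smul, hun', Real.norm_eq_abs, abs_of_pos hr0]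
    ring
  have h4 : ‖A‖ ^ 2 < r' ^ 2 - ‖v‖ ^ 2 := by
    rw [hA2]
    nlinarith
  have hε' : (ε : ℝ) ≤ 1 / 1000000 := by
    norm_num at hε1 ⊢
    linarith
  have hz1' : ‖z - y'‖ < 2 / 100000 := by
    norm_num at hz1 ⊢
    linarith
  have h5 : r' - 21 / 1000000 < ‖A‖ := by linarith
  have h6 : (r' - 21 / 1000000) ^ 2 < ‖A‖ ^ 2 := by
    apply pow_lt_pow_left₀ h5 (by linarith) (by norm_num)
  have h7 : ‖v‖ ^ 2 < (1 / 100) ^ 2 := by nlinarith
  exact lt_of_pow_lt_pow_left₀ 2 (by norm_num) h7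

/-- The constant of the second half. -/
noncomputable def Ktwo (d : ℕ) : ℝ := (1 / 8 : ℝ) ^ d / 2 * ((1 / 2 : ℝ) ^ d / 4)

lemma Ktwo_pos (d : ℕ) : 0 < Ktwo d := by unfold Ktwo; positivity

set_option maxHeartbeats 1000000 in
/-- The core case of the second half of the key lemma. -/
lemma key_two_core (hd : 1 ≤ finrank ℝ E) (hA : AvgPair μ f u)
    (hG : GoodPoint μ (aOne (finrank ℝ E)) f u x n r)
    (hG' : GoodPoint μ (aOne (finrank ℝ E)) f u x' n' r')
    {ε : ℝ} (hε : 0 < ε) (hε1 : ε ≤ 1 / 10 ^ 6) (hε2 : ε * finrank ℝ E ≤ 1 / 16)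
    (hxx : ‖x - x'‖ < ε) {δ : ℝ} (hδ : δ = u x' - u x) (hδ0 : 0 < δ)
    (he : u x - f x < δ / 8) (he' : u x' - f x' < δ / 8)
    {x₀ : E} {R₀ : ℝ} (hsub : ball x 450 ⊆ ball x₀ R₀) :
    ENNReal.ofReal (Ktwo (finrank ℝ E) * δ * volOne μ ^ 2) ≤ Mprime μ f R₀ 60000 x₀ := by
  classical
  set d := finrank ℝ E with hdd
  set V₀ := volOne μ with hV₀
  have hV : 0 < V₀ := volOne_pos μ
  have ha := aSmall_pos d
  have hun := hG.unit
  have hun' := hG'.unit
  have hr := hG.r_pos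
  have hr' := hG'.r_pos
  have r1' := hG'.r_ge
  have r2' := hG'.r_le
  have hf := hA.cont
  have hε1' : ε ≤ 1 / 1000000 := by
    norm_num at hε1 ⊢
    linarith
  have hepos : 0 < u x - f x := sub_pos.2 hG.lt
  have hepos' : 0 < u x' - f x' := sub_pos.2 hG'.lt
  set β := f x - (u x - f x) / 4 with hβ
  have hβu : u x - (5 / 32) * δ ≤ β := by
    rw [hβ]; linarith
  have hβu2 : β ≤ u x := by rw [hβ]; linarith
  have hlowB : ∀ z, z ∈ ball (x + r • n) r → z ∉ rayPart f u x n r → β < f z ∧ f z < u x := by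
    intro z hz hzP
    have h1 := abs_lt.1 (hG.plateau hA hz hzP)
    constructor
    · rw [hβ]; linarith [h1.1]
    · linarith [h1.2]
  have hhighB : ∀ z, z ∈ ball (x' + r' • n') r' → z ∉ rayPart f u x' n' r' → u x + 27 / 32 * δ < f z := by
    intro z hz hzP
    have h1 := abs_lt.1 (hG'.plateau hA hz hzP)
    have h2 := h1.1
    rw [hδ] at he' ⊢
    linarith
  have hnn : ⟪n, n'⟫ ≤ -1 + 1 / 72 := by
    apply normals_opposite hA hG hG' (by linarith)
    intro z h1 h2 h3 h4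
    have h5 := (hlowB z h1 h2).2
    have h6 := hhighB z h3 h4
    linarith
  set γ := r' / 2 with hγ
  have hγ1 : 1 / 2 ≤ γ := by rw [hγ]; linarith
  have hγ0 : 0 < γ := by linarith
  set G := ball (x + γ • n') γ with hG_def
  have hGsub : G ⊆ ball x₀ R₀ := by
    refine Subset.trans ?_ hsub
    intro z hz
    rw [mem_ball, dist_eq_norm]
    have hz' : ‖z - (x + γ • n')‖ < γ := by
      have : dist z (x + γ • n') < γ := hz
      rwa [dist_eq_norm] at this
    have e1 : z - x = (z - (x + γ • n')) + γ • n' := by abel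
    rw [e1]
    calc _ ≤ ‖z - (x + γ • n')‖ + ‖γ • n'‖ := norm_add_le _ _
      _ < 450 := by
          rw [norm_smul, hun', Real.norm_eq_abs, abs_of_pos hγ0]
          rw [hγ] at hz' ⊢
          linarith
  -- short chords at deep low points
  have hshort : ∀ y' ∈ G, ∀ s', f y' < s' → s' < β →
      ENNReal.ofReal ((1 / 8 : ℝ) ^ d / 2 * V₀) ≤ μ (shortDirs f 60000 y' s' ∩ ball 0 1) := by
    intro y' hy' s' hs1 hs2
    have hlow' : ∀ z, z ∈ ball (x + r • n) r → z ∉ rayPart f u x n r → s' < f z :=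
      fun z h1 h2 => hs2.trans (hlowB z h1 h2).1
    have hhigh' : ∀ z, z ∈ ball (x' + r' • n') r' → z ∉ rayPart f u x' n' r' → s' < f z := by
      intro z h1 h2
      have := hhighB z h1 h2
      linarith
    by_cases hdeep : ball y' (2 / 10 ^ 5) ⊆ ball (x' + r' • n') r'
    · refine le_trans (ENNReal.ofReal_le_ofReal ?_) (short_two_deep hG' hdeep hs1 hhigh')
      have h1 : (1 / 8 : ℝ) ^ d ≤ 1 := pow_le_one₀ (by norm_num) (by norm_num)
      nlinarith
    · have hclose := shallow_close hε1 hun' r1' r2' hxx hy' hdeep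
      exact short_two_shallow hd hG hG' (by linarith) hnn hclose hs1 hlow' hhigh'
  -- the integral bound
  set Gm := ball (x + γ • n') (γ - ε) with hGm
  have hεγ : ε < γ := by
    have : (1 : ℝ) / 1000000 < 1 / 2 := by norm_num
    linarith
  have hGmpos : 0 < γ - ε := by linarith
  have hGmB : Gm ⊆ ball (x' + r' • n') r' := by
    intro z hz
    rw [mem_ball, dist_eq_norm]
    have hz' : ‖z - (x + γ • n')‖ < γ - ε := by
      have : dist z (x + γ • n') < γ - ε := hz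
      rwa [dist_eq_norm] at this
    have e1 : z - (x' + r' • n') = (z - (x + γ • n')) + (x - x') - γ • n' := by
      have : r' • n' = γ • n' + γ • n' := by
        rw [← add_smul, hγ]; congr 1; ring
      rw [this]
      abel
    rw [e1]
    have h3 : ‖γ • n'‖ = γ := by
      rw [norm_smul, hun', Real.norm_eq_abs, abs_of_pos hγ0, mul_one]
    calc _ ≤ ‖(z - (x + γ • n')) + (x - x')‖ + ‖γ • n'‖ := norm_sub_le _ _
      _ ≤ ‖z - (x + γ • n')‖ + ‖x - x'‖ + ‖γ • n'‖ := by gcongr; exact norm_add_le _ _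
      _ < r' := by
          rw [h3, hγ] at *
          linarith
  have hGmG : Gm ⊆ G := ball_subset_ball (by linarith)
  have hGvol : (μ G).toReal = γ ^ d * V₀ := measure_ball_toReal μ _ hγ0
  set Pm := toMeasurable μ (rayPart f u x' n' r') with hPm
  have hPmm : MeasurableSet Pm := measurableSet_toMeasurable _ _
  let Q : Set E := Gm \ Pm
  have hQm : MeasurableSet Q := measurableSet_ball.diff hPmm
  have hQG : Q ⊆ G := fun z hz => hGmG hz.1
  have hQvol : γ ^ d * V₀ / 2 ≤ (μ Q).toReal := by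
    have hγd : (3 / 4 : ℝ) * γ ^ d ≤ (γ - ε) ^ d := by
      have h1 : (1 : ℝ) + d * (-(ε / γ)) ≤ (1 + -(ε / γ)) ^ d := by
        apply one_add_mul_le_pow
        have : ε / γ ≤ 1 := by
          rw [div_le_one hγ0]; linarith
        linarith
      have h2 : ε / γ ≤ 2 * ε := by
        rw [div_le_iff₀ hγ0]
        nlinarith
      have h3 : (3 / 4 : ℝ) ≤ 1 + d * (-(ε / γ)) := by
        have h4 : (d : ℝ) * (ε / γ) ≤ d * (2 * ε) :=
          mul_le_mul_of_nonneg_left h2 (Nat.cast_nonneg d)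
        have h5 : (d : ℝ) * ε ≤ 1 / 16 := by linarith [mul_comm ε (d : ℝ)]
        nlinarith
      have h6 : γ - ε = γ * (1 + -(ε / γ)) := by field_simp; ring
      rw [h6, mul_pow]
      have h7 : (0 : ℝ) < γ ^ d := by positivity
      calc (3 / 4 : ℝ) * γ ^ d = γ ^ d * (3 / 4) := by ring
        _ ≤ γ ^ d * (1 + -(ε / γ)) ^ d :=
            mul_le_mul_of_nonneg_left (h3.trans h1) h7.le
    have hPvol : μ Pm ≤ ENNReal.ofReal (γ ^ d * V₀ / 16) := by
      rw [hPm, measure_toMeasurable]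
      refine hG'.measure_rayPart_le'.trans (ENNReal.ofReal_le_ofReal ?_)
      have h1 : r' ^ d = 2 ^ d * γ ^ d := by
        rw [← mul_pow, hγ]; congr 1; ring
      have h2 : (2 : ℝ) ^ d * aSmall d ≤ 1 / 16 := aSmall_mul_pow_le (by norm_num) (by norm_num) d
      rw [h1]
      have h3 : (0 : ℝ) < γ ^ d * V₀ := by positivity
      nlinarith
    have h1 : ENNReal.ofReal ((γ - ε) ^ d * V₀) ≤ μ Q + ENNReal.ofReal (γ ^ d * V₀ / 16) := by
      rw [← measure_ball_eq μ _ hGmpos]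
      have hsp : Gm ⊆ Q ∪ Pm := by
        intro z hz
        by_cases h : z ∈ Pm
        · exact Or.inr h
        · exact Or.inl ⟨hz, h⟩
      exact (measure_mono hsp).trans ((measure_union_le _ _).trans (add_le_add le_rfl hPvol))
    have hQfin : μ Q ≠ ∞ := ne_top_of_le_ne_top (measure_ball_lt_top (μ := μ) (x := x + γ • n') (r := γ)).ne
      (measure_mono hQG)
    have h2 := ENNReal.toReal_mono (by finiteness) h1
    have hn1 : 0 ≤ (γ - ε) ^ d * V₀ := by positivity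
    have hn2 : 0 ≤ γ ^ d * V₀ / 16 := by positivity
    rw [ENNReal.toReal_add hQfin ENNReal.ofReal_ne_top, ENNReal.toReal_ofReal hn1,
      ENNReal.toReal_ofReal hn2] at h2
    have h3 : (3 / 4 : ℝ) * γ ^ d * V₀ ≤ (γ - ε) ^ d * V₀ := mul_le_mul_of_nonneg_right hγd hV.le
    linarith
  have hxG : x ∈ closedBall (x + γ • n') γ := by
    rw [mem_closedBall, dist_eq_norm]
    have : x - (x + γ • n') = -(γ • n') := by abel
    rw [this, norm_neg, norm_smul, hun', Real.norm_eq_abs, abs_of_pos hγ0, mul_one]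
  have havg : ∫ z in G, f z ∂μ ≤ u x * (γ ^ d * V₀) := by
    have h1 := hA.avg_le _ γ hγ0 x hxG
    rwa [← hG_def, hGvol] at h1
  have hpt : ∀ z ∈ G, Q.indicator (fun _ => 27 / 32 * δ) z + (u x - 5 / 32 * δ) - max (β - f z) 0 ≤ f z := by
    intro z _
    have hmax1 : β - f z ≤ max (β - f z) 0 := le_max_left _ _
    have hmax2 : 0 ≤ max (β - f z) 0 := le_max_right _ _
    by_cases hz : z ∈ Q
    · rw [indicator_of_mem hz]
      have hz2 : z ∉ rayPart f u x' n' r' := fun h => hz.2 (subset_toMeasurable _ _ h)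
      have := hhighB z (hGmB hz.1) hz2
      linarith
    · rw [indicator_of_notMem hz]
      linarith
  have h1i : IntegrableOn (Q.indicator (fun _ => 27 / 32 * δ)) G μ := by
    apply IntegrableOn.indicator _ hQm
    exact integrableOn_const (measure_ball_lt_top).ne
  have h2i : IntegrableOn (fun _ : E => u x - 5 / 32 * δ) G μ := integrableOn_const (measure_ball_lt_top).ne
  have h3i : IntegrableOn (fun z => max (β - f z) 0) G μ :=
    integrableOn_ball_of_continuous ((continuous_const.sub hf).max continuous_const) _ _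
  have h12i : IntegrableOn (fun z => Q.indicator (fun _ => 27 / 32 * δ) z + (u x - 5 / 32 * δ)) G μ := h1i.add h2i
  have hfi : IntegrableOn f G μ := integrableOn_ball_of_continuous hf _ _
  have hmono : ∫ z in G, (Q.indicator (fun _ => 27 / 32 * δ) z + (u x - 5 / 32 * δ) - max (β - f z) 0) ∂μ ≤
      ∫ z in G, f z ∂μ := setIntegral_mono_on (h12i.sub h3i) hfi measurableSet_ball hpt
  have hcomp : ∫ z in G, (Q.indicator (fun _ => 27 / 32 * δ) z + (u x - 5 / 32 * δ) - max (β - f z) 0) ∂μ =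
      27 / 32 * δ * (μ Q).toReal + (u x - 5 / 32 * δ) * (γ ^ d * V₀) - ∫ z in G, max (β - f z) 0 ∂μ := by
    rw [integral_sub h12i h3i, integral_add h1i h2i, setIntegral_const,
      setIntegral_indicator hQm, inter_eq_right.2 hQG, setIntegral_const]
    simp only [Measure.real, hGvol, smul_eq_mul]
    ring
  rw [hcomp] at hmono
  have h6 : 27 / 32 * δ * (γ ^ d * V₀ / 2) ≤ 27 / 32 * δ * (μ Q).toReal :=
    mul_le_mul_of_nonneg_left hQvol (by positivity)
  have hint : δ / 4 * (γ ^ d * V₀) ≤ ∫ z in G, max (β - f z) 0 ∂μ := by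
    have h7 : (0 : ℝ) < δ * (γ ^ d * V₀) := by positivity
    nlinarith
  have hγd : (1 / 2 : ℝ) ^ d ≤ γ ^ d := pow_le_pow_left₀ (by norm_num) hγ1 d
  have hfinal := layer_low (μ := μ) (f := f) (G := G) measurableSet_ball (ρ₂ := 60000) hGsub hf
    (β := β) (c₀ := (1 / 8 : ℝ) ^ d / 2 * V₀) hshort
  refine le_trans ?_ hfinal
  have h8 : ∫⁻ z in G, ENNReal.ofReal (β - f z) ∂μ = ENNReal.ofReal (∫ z in G, max (β - f z) 0 ∂μ) :=
    (ofReal_integral_max_le (g := fun z => β - f z) (continuous_const.sub hf) _ _).symm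
  rw [h8, ← ENNReal.ofReal_mul (by positivity)]
  apply ENNReal.ofReal_le_ofReal
  have h9 : Ktwo d * δ * V₀ ^ 2 = (1 / 8 : ℝ) ^ d / 2 * V₀ * (δ / 4 * ((1 / 2 : ℝ) ^ d * V₀)) := by
    unfold Ktwo; ring
  rw [h9]
  apply mul_le_mul_of_nonneg_left _ (by positivity)
  refine le_trans ?_ hint
  apply mul_le_mul_of_nonneg_left _ (by positivity)
  exact mul_le_mul_of_nonneg_right hγd hV.le

/-- The constant of the key lemma. -/
noncomputable def Kkey (d : ℕ) : ℝ := min (Kone d / 8) (Ktwo d)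

lemma Kkey_pos (d : ℕ) : 0 < Kkey d := lt_min (by have := Kone_pos d; positivity) (Ktwo_pos d)

/-- One sided version of the key lemma. -/
lemma key_aux (hd : 1 ≤ finrank ℝ E) (hA : AvgPair μ f u)
    (hG : GoodPoint μ (aOne (finrank ℝ E)) f u x n r)
    (hG' : GoodPoint μ (aOne (finrank ℝ E)) f u x' n' r')
    {ε : ℝ} (hε : 0 < ε) (hε1 : ε ≤ 1 / 10 ^ 6) (hε2 : ε * finrank ℝ E ≤ 1 / 16)
    (hxx : ‖x - x'‖ < ε) (hlt : u x < u x')
    {x₀ : E} {R₀ : ℝ} (hsub : ball x 450 ⊆ ball x₀ R₀) (hsub' : ball x' 450 ⊆ ball x₀ R₀) :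
    ENNReal.ofReal (Kkey (finrank ℝ E) * (u x' - u x) * volOne μ ^ 2) ≤ Mprime μ f R₀ 60000 x₀ := by
  set d := finrank ℝ E with hdd
  have hV := volOne_pos μ
  set δ := u x' - u x with hδ
  have hδ0 : 0 < δ := sub_pos.2 hlt
  have hK1 : Kkey d ≤ Kone d / 8 := min_le_left _ _
  have hK2 : Kkey d ≤ Ktwo d := min_le_right _ _
  have hKpos := Kone_pos d
  by_cases h1 : δ / 8 ≤ u x - f x
  · refine le_trans (ENNReal.ofReal_le_ofReal ?_) (key_one hd hA hG hsub)
    apply mul_le_mul_of_nonneg_right _ (by positivity)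
    calc Kkey d * δ ≤ Kone d / 8 * δ := mul_le_mul_of_nonneg_right hK1 hδ0.le
      _ = Kone d * (δ / 8) := by ring
      _ ≤ Kone d * (u x - f x) := mul_le_mul_of_nonneg_left h1 hKpos.le
  by_cases h2 : δ / 8 ≤ u x' - f x'
  · refine le_trans (ENNReal.ofReal_le_ofReal ?_) (key_one hd hA hG' hsub')
    apply mul_le_mul_of_nonneg_right _ (by positivity)
    calc Kkey d * δ ≤ Kone d / 8 * δ := mul_le_mul_of_nonneg_right hK1 hδ0.le
      _ = Kone d * (δ / 8) := by ring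
      _ ≤ Kone d * (u x' - f x') := mul_le_mul_of_nonneg_left h2 hKpos.le
  push Not at h1 h2
  refine le_trans (ENNReal.ofReal_le_ofReal ?_)
    (key_two_core hd hA hG hG' hε hε1 hε2 hxx hδ hδ0 h1 h2 hsub)
  apply mul_le_mul_of_nonneg_right _ (by positivity)
  exact mul_le_mul_of_nonneg_right hK2 hδ0.le

/-- The key lemma: the difference of `u` at two nearby good points of scale one is controlled by
the short chords nearby. -/
theorem key_lemma (hd : 1 ≤ finrank ℝ E) (hA : AvgPair μ f u)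
    (hG : GoodPoint μ (aOne (finrank ℝ E)) f u x n r)
    (hG' : GoodPoint μ (aOne (finrank ℝ E)) f u x' n' r')
    {ε : ℝ} (hε : 0 < ε) (hε1 : ε ≤ 1 / 10 ^ 6) (hε2 : ε * finrank ℝ E ≤ 1 / 16)
    (hxx : ‖x - x'‖ < ε)
    {x₀ : E} {R₀ : ℝ} (hsub : ball x 450 ⊆ ball x₀ R₀) (hsub' : ball x' 450 ⊆ ball x₀ R₀) :
    ENNReal.ofReal (Kkey (finrank ℝ E) * |u x - u x'| * volOne μ ^ 2) ≤ Mprime μ f R₀ 60000 x₀ := by
  rcases lt_trichotomy (u x) (u x') with h | h | h
  · rw [abs_sub_comm, abs_of_pos (sub_pos.2 h)]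
    exact key_aux hd hA hG hG' hε hε1 hε2 hxx h hsub hsub'
  · simp [h]
  · rw [abs_of_pos (sub_pos.2 h)]
    exact key_aux hd hA hG' hG hε hε1 hε2 (by rwa [norm_sub_rev]) h hsub' hsub

end Vale.Agent.Lib.P137

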