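import Mathlib


/-! Combinatorial selection and counting used in the one-dimensional line lemma. -/

namespace Vale.Agent.Lib.P137

open Finset

/-- Greedy selection: keep a conflict-free subfamily, every discarded point conflicts with a kept
point of at least the same level. -/
lemma exists_selection {ι : Type*} [DecidableEq ι] (Pts : Finset ι) (lev : ι → ℝ)
    (conf : ι → ι → Prop) (hsymm : ∀ a b, conf a b → conf b a) :
    ∃ S ⊆ Pts, (∀ v ∈ S, ∀ w ∈ S, v ≠ w → ¬ conf v w) ∧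
      ∀ t ∈ Pts, t ∉ S → ∃ w ∈ S, lev t ≤ lev w ∧ conf t w := by
  classical
  induction' h : Pts.card with n ih generalizing Pts
  · rw [Finset.card_eq_zero] at h
    subst h
    exact ⟨∅, by simp, by simp, by simp⟩
  · have hne : Pts.Nonempty := by
      rw [← Finset.card_pos]; omega
    obtain ⟨t₀, ht₀, hmin⟩ := Finset.exists_min_image Pts lev hne
    have hcard : (Pts.erase t₀).card = n := by
      rw [Finset.card_erase_of_mem ht₀]; omega
    obtain ⟨S', hS', hdisj, hcov⟩ := ih (Pts.erase t₀) hcard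
    by_cases hc : ∃ w ∈ S', conf t₀ w
    · refine ⟨S', hS'.trans (Finset.erase_subset _ _), hdisj, ?_⟩
      intro t ht htS
      by_cases htt : t = t₀
      · subst htt
        obtain ⟨w, hw, hcw⟩ := hc
        refine ⟨w, hw, hmin w ?_, hcw⟩
        exact Finset.mem_of_mem_erase (hS' hw)
      · exact hcov t (Finset.mem_erase.2 ⟨htt, ht⟩) htS
    · push Not at hc
      have ht₀S' : t₀ ∉ S' := fun hh => by
        have := hS' hh
        simp at this
      refine ⟨insert t₀ S', ?_, ?_, ?_⟩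
      · intro x hx
        rcases Finset.mem_insert.1 hx with rfl | hx
        · exact ht₀
        · exact Finset.mem_of_mem_erase (hS' hx)
      · intro v hv w hw hvw
        rcases Finset.mem_insert.1 hv with hv' | hv'
        · rcases Finset.mem_insert.1 hw with hw' | hw'
          · exact absurd (hv'.trans hw'.symm) hvw
          · rw [hv']; exact hc w hw'
        · rcases Finset.mem_insert.1 hw with hw' | hw'
          · rw [hw']; exact fun h => hc v hv' (hsymm _ _ h)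
          · exact hdisj v hv' w hw' hvw
      · intro t ht htS
        have htt : t ≠ t₀ := fun h => htS (h ▸ Finset.mem_insert_self _ _)
        have htS' : t ∉ S' := fun h => htS (Finset.mem_insert_of_mem h)
        obtain ⟨w, hw, h1, h2⟩ := hcov t (Finset.mem_erase.2 ⟨htt, ht⟩) htS'
        exact ⟨w, Finset.mem_insert_of_mem hw, h1, h2⟩

/-- A finite set of integers whose grid values lie in an interval has controlled cardinality. -/
lemma card_mul_le_of_grid {T : Finset ℤ} {θ η α β : ℝ} (hη : 0 < η)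
    (hT : ∀ k ∈ T, α ≤ θ + η * k ∧ θ + η * k ≤ β) (hαβ : α ≤ β) :
    (T.card : ℝ) * η ≤ β - α + η := by
  classical
  set lo : ℤ := ⌈(α - θ) / η⌉ with hlo
  set hi : ℤ := ⌊(β - θ) / η⌋ with hhi
  have hsub : T ⊆ Finset.Icc lo hi := by
    intro k hk
    obtain ⟨h1, h2⟩ := hT k hk
    rw [Finset.mem_Icc]
    constructor
    · apply Int.ceil_le.2
      rw [div_le_iff₀ hη]; nlinarith
    · apply Int.le_floor.2
      rw [le_div_iff₀ hη]; nlinarith
  have hc : (T.card : ℝ) ≤ ((Finset.Icc lo hi).card : ℝ) := by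
    exact_mod_cast Finset.card_le_card hsub
  rw [Int.card_Icc] at hc
  have hcase : (((hi + 1 - lo).toNat : ℕ) : ℝ) ≤ (β - α) / η + 1 := by
    by_cases hle : 0 ≤ hi + 1 - lo
    · have : (((hi + 1 - lo).toNat : ℕ) : ℤ) = hi + 1 - lo := Int.toNat_of_nonneg hle
      have h' : (((hi + 1 - lo).toNat : ℕ) : ℝ) = (hi : ℝ) + 1 - lo := by
        have := congrArg (fun z : ℤ => (z : ℝ)) this
        push_cast at this
        simpa using this
      rw [h']
      have h1 : (hi : ℝ) ≤ (β - θ) / η := Int.floor_le _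
      have h2 : (α - θ) / η ≤ (lo : ℝ) := Int.le_ceil _
      have h3 : (β - α) / η = (β - θ) / η - (α - θ) / η := by
        field_simp; ring
      rw [h3]; linarith
    · have : (hi + 1 - lo).toNat = 0 := Int.toNat_of_nonpos (by omega)
      rw [this]
      have : 0 ≤ (β - α) / η := div_nonneg (by linarith) hη.le
      simpa using (by linarith : (0:ℝ) ≤ (β - α) / η + 1)
  have : (T.card : ℝ) * η ≤ ((β - α) / η + 1) * η :=
    mul_le_mul_of_nonneg_right (hc.trans hcase) hη.le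
  calc (T.card : ℝ) * η ≤ ((β - α) / η + 1) * η := this
    _ = β - α + η := by field_simp

end Vale.Agent.Lib.P137



/-! Slab decomposition: integrating over a space by integrating over lines in a fixed direction. -/

namespace Vale.Agent.Lib.P137

open MeasureTheory Set Filter Topology
open scoped ENNReal NNReal

variable {E : Type*} [NormedAddCommGroup E] [NormedSpace ℝ E] [FiniteDimensional ℝ E]
  [MeasurableSpace E] [BorelSpace E]

/-- Slab decomposition. -/
theorem exists_slab (μ : Measure E) [μ.IsAddHaarMeasure] {w : E} (hw : w ≠ 0) :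
    ∃ Sl : Set E, MeasurableSet Sl ∧ ∀ a : E → ℝ≥0∞, Measurable a →
      ∫⁻ x, a x ∂μ = ∫⁻ x in Sl, (∫⁻ t : ℝ, a (x + t • w)) ∂μ := by
  obtain ⟨φ, hφ⟩ : ∃ φ : StrongDual ℝ E, φ w = 1 := by
    obtain ⟨g, hg, hg'⟩ := exists_dual_vector ℝ w (norm_ne_zero_iff.2 hw)
    refine ⟨(‖w‖⁻¹ : ℝ) • g, ?_⟩
    have hn : (‖w‖ : ℝ) ≠ 0 := norm_ne_zero_iff.2 hw
    simp only [smul_apply, hg', smul_eq_mul]
    simp [hn]
  let Sl : Set E := {x | φ x ∈ Ico (0 : ℝ) 1}
  have hSl : MeasurableSet Sl := φ.continuous.measurable measurableSet_Ico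
  refine ⟨Sl, hSl, ?_⟩
  intro a ha
  have hjoint : Measurable (fun p : E × ℝ => a (p.1 + p.2 • w)) :=
    ha.comp (by fun_prop)
  -- rewrite the right side as an iterated integral with indicator
  have hR : ∫⁻ x in Sl, (∫⁻ t : ℝ, a (x + t • w)) ∂μ =
      ∫⁻ x, (∫⁻ t : ℝ, Sl.indicator 1 x * a (x + t • w)) ∂μ := by
    rw [← lintegral_indicator hSl]
    apply lintegral_congr
    intro x
    by_cases hx : x ∈ Sl
    · simp [hx]
    · simp [hx]
  rw [hR]
  have hjoint' : Measurable (fun p : E × ℝ => Sl.indicator (1 : E → ℝ≥0∞) p.1 * a (p.1 + p.2 • w)) :=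
    ((measurable_one.indicator hSl).comp measurable_fst).mul hjoint
  rw [lintegral_lintegral_swap hjoint'.aemeasurable]
  -- translate
  have hT : ∀ t : ℝ, ∫⁻ x, Sl.indicator 1 x * a (x + t • w) ∂μ =
      ∫⁻ x, Sl.indicator 1 (x - t • w) * a x ∂μ := by
    intro t
    rw [← lintegral_add_right_eq_self (fun x => Sl.indicator (1 : E → ℝ≥0∞) (x - t • w) * a x) (t • w)]
    apply lintegral_congr
    intro x
    simp
  simp_rw [hT]
  have hjoint2 : Measurable (fun p : ℝ × E => Sl.indicator (1 : E → ℝ≥0∞) (p.2 - p.1 • w) * a p.2) :=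
    ((measurable_one.indicator hSl).comp (by fun_prop)).mul (ha.comp measurable_snd)
  rw [lintegral_lintegral_swap hjoint2.aemeasurable]
  apply lintegral_congr
  intro x
  have hmm : Measurable (fun t : ℝ => Sl.indicator (1 : E → ℝ≥0∞) (x - t • w)) :=
    (measurable_one.indicator hSl).comp (by fun_prop)
  rw [lintegral_mul_const _ hmm]
  have h1 : ∫⁻ t : ℝ, Sl.indicator (1 : E → ℝ≥0∞) (x - t • w) = 1 := by
    have : (fun t : ℝ => Sl.indicator (1 : E → ℝ≥0∞) (x - t • w)) =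
        (Ioc (φ x - 1) (φ x)).indicator 1 := by
      ext t
      have hiff : x - t • w ∈ Sl ↔ t ∈ Ioc (φ x - 1) (φ x) := by
        simp only [Sl, mem_ofPred_eq, mem_Ico, map_sub, map_smul, hφ, smul_eq_mul, mul_one, mem_Ioc]
        constructor
        · rintro ⟨h1, h2⟩; constructor <;> linarith
        · rintro ⟨h1, h2⟩; constructor <;> linarith
      by_cases h : t ∈ Ioc (φ x - 1) (φ x)
      · rw [indicator_of_mem h, indicator_of_mem (hiff.2 h)]; rfl
      · rw [indicator_of_notMem h, indicator_of_notMem (fun h' => h (hiff.1 h'))]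
    rw [this, lintegral_indicator measurableSet_Ioc]
    simp
  rw [h1, one_mul]

/-- Comparison along all lines implies comparison of integrals. -/
theorem lintegral_le_of_lines (μ : Measure E) [μ.IsAddHaarMeasure] {w : E} (hw : w ≠ 0)
    {a b : E → ℝ≥0∞} (ha : Measurable a) (hb : Measurable b)
    (h : ∀ x, ∫⁻ t : ℝ, a (x + t • w) ≤ ∫⁻ t : ℝ, b (x + t • w)) :
    ∫⁻ x, a x ∂μ ≤ ∫⁻ x, b x ∂μ := by
  obtain ⟨Sl, -, hSl⟩ := exists_slab μ hw
  rw [hSl a ha, hSl b hb]
  exact lintegral_mono (fun x => h x)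

end Vale.Agent.Lib.P137



/-! A one dimensional absolute continuity criterion. -/

namespace Vale.Agent.Lib.P137

open MeasureTheory Set Filter Topology
open scoped ENNReal NNReal

set_option linter.unusedVariables false

/-- The derivative is the limit of the difference quotients along `1 / (n + 1)`. -/
lemma tendsto_diff_quot {U : ℝ → ℝ} {t : ℝ} (h : DifferentiableAt ℝ U t) :
    Tendsto (fun n : ℕ => ((n : ℝ) + 1) * (U (t + 1 / ((n : ℝ) + 1)) - U t)) atTop
      (𝓝 (deriv U t)) := by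
  have h1 := hasDerivAt_iff_tendsto_slope_zero.1 h.hasDerivAt
  have h2 : Tendsto (fun n : ℕ => 1 / ((n : ℝ) + 1)) atTop (𝓝[≠] 0) := by
    rw [tendsto_nhdsWithin_iff]
    refine ⟨tendsto_one_div_add_atTop_nhds_zero_nat, ?_⟩
    filter_upwards with n
    simp only [mem_compl_iff, mem_singleton_iff]
    positivity
  have h3 := h1.comp h2
  refine h3.congr (fun n => ?_)
  simp only [Function.comp, smul_eq_mul, one_div, inv_inv]

/-- Fatou for difference quotients. -/
lemma setLIntegral_deriv_le_of_diff {U : ℝ → ℝ} (hUc : Continuous U) {B : ℝ≥0∞}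
    (hB : ∀ h : ℝ, 0 < h → ∫⁻ t, ‖U (t + h) - U t‖ₑ ≤ ENNReal.ofReal h * B) {O : Set ℝ}
    (hO : MeasurableSet O) (hd : ∀ᵐ t, t ∈ O → DifferentiableAt ℝ U t) :
    ∫⁻ t in O, ‖deriv U t‖ₑ ≤ B := by
  let D : ℕ → ℝ → ℝ≥0∞ := fun n t => ‖((n : ℝ) + 1) * (U (t + 1 / ((n : ℝ) + 1)) - U t)‖ₑ
  have hDm : ∀ n, Measurable (D n) := by
    intro n
    have : Continuous (fun t => ((n : ℝ) + 1) * (U (t + 1 / ((n : ℝ) + 1)) - U t)) := by
      fun_prop
    exact this.measurable.enorm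
  have hpt : ∀ᵐ t ∂(volume.restrict O), ‖deriv U t‖ₑ ≤ liminf (fun n => D n t) atTop := by
    rw [ae_restrict_iff' hO]
    filter_upwards [hd] with t ht htO
    have h1 := tendsto_diff_quot (ht htO)
    have h2 : Tendsto (fun n => D n t) atTop (𝓝 ‖deriv U t‖ₑ) := h1.enorm
    rw [h2.liminf_eq]
  have hbound : ∀ n, ∫⁻ t, D n t ≤ B := by
    intro n
    have hn : (0 : ℝ) < (n : ℝ) + 1 := by positivity
    have h1 : ∀ t, D n t = ENNReal.ofReal ((n : ℝ) + 1) * ‖U (t + 1 / ((n : ℝ) + 1)) - U t‖ₑ := by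
      intro t
      simp only [D]
      rw [enorm_mul, Real.enorm_eq_ofReal hn.le]
    simp_rw [h1]
    have hm : Measurable (fun t => ‖U (t + 1 / ((n : ℝ) + 1)) - U t‖ₑ) := by
      have : Continuous (fun t => U (t + 1 / ((n : ℝ) + 1)) - U t) := by fun_prop
      exact this.measurable.enorm
    rw [lintegral_const_mul _ hm]
    calc ENNReal.ofReal ((n : ℝ) + 1) * ∫⁻ t, ‖U (t + 1 / ((n : ℝ) + 1)) - U t‖ₑ
        ≤ ENNReal.ofReal ((n : ℝ) + 1) * (ENNReal.ofReal (1 / ((n : ℝ) + 1)) * B) :=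
          mul_le_mul' le_rfl (hB _ (by positivity))
      _ = B := by
          rw [← mul_assoc, ← ENNReal.ofReal_mul hn.le]
          have : ((n : ℝ) + 1) * (1 / ((n : ℝ) + 1)) = 1 := by field_simp
          rw [this]
          simp
  calc ∫⁻ t in O, ‖deriv U t‖ₑ ≤ ∫⁻ t in O, liminf (fun n => D n t) atTop := lintegral_mono_ae hpt
    _ ≤ liminf (fun n => ∫⁻ t in O, D n t) atTop := lintegral_liminf_le (fun n => hDm n)
    _ ≤ B := by
        apply liminf_le_of_le (by isBoundedDefault)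
        intro b hb
        obtain ⟨n, hn⟩ := hb.exists
        exact hn.trans ((setLIntegral_le_lintegral _ _).trans (hbound n))

lemma lintegral_Ioc_add {ζ : ℝ → ℝ≥0∞} {a p b : ℝ} (h1 : a ≤ p) (h2 : p ≤ b) :
    (∫⁻ t in Ioc a p, ζ t) + (∫⁻ t in Ioc p b, ζ t) = ∫⁻ t in Ioc a b, ζ t := by
  rw [← Ioc_union_Ioc_eq_Ioc h1 h2, lintegral_union measurableSet_Ioc]
  exact Set.disjoint_left.2 (fun t ht ht' => absurd ht.2 (not_le.2 ht'.1))

/-- A function controlled by the integral of an integrable function is absolutely continuous. -/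
lemma ac_of_integral_bound {U : ℝ → ℝ} {ζ : ℝ → ℝ≥0∞} (hζm : Measurable ζ) (hζ : ∫⁻ t, ζ t < ∞)
    (h : ∀ a b, a ≤ b → ENNReal.ofReal |U b - U a| ≤ ∫⁻ t in Ioc a b, ζ t) (a b : ℝ) :
    AbsolutelyContinuousOnInterval U a b := by
  let ζr : ℝ → ℝ := fun t => (ζ t).toReal
  have hae : ∀ᵐ t, ζ t < ∞ := ae_lt_top hζm hζ.ne
  have hint : Integrable ζr := by
    refine ⟨hζm.ennreal_toReal.aestronglyMeasurable, ?_⟩
    rw [hasFiniteIntegral_iff_enorm]
    refine lt_of_le_of_lt (lintegral_mono_ae ?_) hζ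
    filter_upwards [hae] with t ht
    simp only [ζr]
    rw [Real.enorm_eq_ofReal ENNReal.toReal_nonneg, ENNReal.ofReal_toReal ht.ne]
  have hii : IntervalIntegrable ζr volume a b := hint.intervalIntegrable
  have hZ := hii.absolutelyContinuousOnInterval_intervalIntegral (c := a) left_mem_uIcc
  have hle : ∀ s t, s ≤ t → dist (U s) (U t) ≤ (∫⁻ r in Ioc s t, ζ r).toReal := by
    intro s t hst
    have h1 := h s t hst
    rw [Real.dist_eq, abs_sub_comm]
    rw [ENNReal.ofReal_le_iff_le_toReal] at h1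
    · exact h1
    · exact (lt_of_le_of_lt (setLIntegral_le_lintegral _ _) hζ).ne
  have hZd : ∀ s t, s ≤ t → (∫⁻ r in Ioc s t, ζ r).toReal =
      dist (∫ v in a..s, ζr v) (∫ v in a..t, ζr v) := by
    intro s t hst
    have h1 : (∫ v in a..t, ζr v) - (∫ v in a..s, ζr v) = ∫ v in s..t, ζr v := by
      exact intervalIntegral.integral_interval_sub_left (hint.intervalIntegrable) (hint.intervalIntegrable)
    have h2 : 0 ≤ ∫ v in s..t, ζr v :=
      intervalIntegral.integral_nonneg hst (fun _ _ => ENNReal.toReal_nonneg)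
    rw [dist_comm, Real.dist_eq, h1, abs_of_nonneg h2, intervalIntegral.integral_of_le hst]
    have hae' : ∀ᵐ r ∂(volume.restrict (Ioc s t)), ζ r < ∞ := ae_restrict_of_ae hae
    rw [integral_toReal hζm.aemeasurable hae']
  have hdist : ∀ s t, dist (U s) (U t) ≤ dist (∫ v in a..s, ζr v) (∫ v in a..t, ζr v) := by
    intro s t
    rcases le_total s t with hst | hst
    · rw [← hZd s t hst]; exact hle s t hst
    · rw [dist_comm, dist_comm (∫ v in a..s, ζr v), ← hZd t s hst]; exact hle t s hst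
  rw [absolutelyContinuousOnInterval_iff] at hZ ⊢
  intro ε hε
  obtain ⟨δ, hδ, hZ'⟩ := hZ ε hε
  refine ⟨δ, hδ, fun E hE hsum => ?_⟩
  refine lt_of_le_of_lt ?_ (hZ' E hE hsum)
  exact Finset.sum_le_sum (fun i _ => hdist _ _)

/-- The one dimensional absolute continuity criterion. -/
theorem ac_of_gap {U F : ℝ → ℝ} (hUc : Continuous U) (hFc : Continuous F) (hle : ∀ t, F t ≤ U t)
    {Γ : ℝ → ℝ≥0∞} (hΓm : Measurable Γ) (hΓ : ∫⁻ t, Γ t < ∞)
    (hF : ∀ a b, a ≤ b → ENNReal.ofReal |F b - F a| ≤ ∫⁻ t in Ioc a b, Γ t)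
    (hLip : ∀ γ : ℝ, 0 < γ → ∃ Λ : ℝ≥0, ∀ t t', γ ≤ U t - F t → γ ≤ U t' - F t' →
      |U t - U t'| ≤ Λ * |t - t'|)
    {B : ℝ≥0∞} (hBtop : B ≠ ∞)
    (hB : ∀ h : ℝ, 0 < h → ∫⁻ t, ‖U (t + h) - U t‖ₑ ≤ ENNReal.ofReal h * B) :
    (∀ a b, AbsolutelyContinuousOnInterval U a b) ∧ ∫⁻ t, ‖deriv U t‖ₑ ≤ B := by
  classical
  let W : ℝ → ℝ := fun t => U t - F t
  have hWc : Continuous W := hUc.sub hFc
  have hW0 : ∀ t, 0 ≤ W t := fun t => sub_nonneg.2 (hle t)
  let O : Set ℝ := {t | F t < U t}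
  have hOo : IsOpen O := isOpen_lt hFc hUc
  have hOm : MeasurableSet O := hOo.measurableSet
  -- differentiability on the open set
  have hdO : ∀ᵐ t, t ∈ O → DifferentiableAt ℝ U t := by
    have hn : ∀ n : ℕ, ∀ᵐ t, 1 / ((n : ℝ) + 1) < W t → DifferentiableAt ℝ U t := by
      intro n
      obtain ⟨Λ, hΛ⟩ := hLip (1 / ((n : ℝ) + 1)) (by positivity)
      have hL : LipschitzOnWith Λ U {t | 1 / ((n : ℝ) + 1) ≤ W t} := by
        apply LipschitzOnWith.of_dist_le_mul
        intro t ht t' ht'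
        rw [Real.dist_eq, Real.dist_eq]
        exact hΛ t t' ht ht'
      obtain ⟨g, hg, hEq⟩ := hL.extend_real
      filter_upwards [hg.ae_differentiableAt_real] with t ht hmem
      have hev : ∀ᶠ s in 𝓝 t, U s = g s := by
        have : ∀ᶠ s in 𝓝 t, 1 / ((n : ℝ) + 1) < W s :=
          (isOpen_lt continuous_const hWc).mem_nhds hmem
        filter_upwards [this] with s hs
        exact hEq hs.le
      exact ht.congr_of_eventuallyEq hev
    have hall := ae_all_iff.2 hn
    filter_upwards [hall] with t ht htO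
    have hpos : 0 < W t := sub_pos.2 htO
    obtain ⟨n, hn'⟩ := exists_nat_one_div_lt hpos
    exact ht n hn'
  have hIO : ∫⁻ t in O, ‖deriv U t‖ₑ ≤ B := setLIntegral_deriv_le_of_diff hUc hB hOm hdO
  -- the dominating function
  have hdm : Measurable (fun t => ‖deriv U t‖ₑ) := (measurable_deriv U).enorm
  let ind : ℝ → ℝ≥0∞ := O.indicator (fun t => ‖deriv U t‖ₑ)
  have hindm : Measurable ind := hdm.indicator hOm
  let ζ : ℝ → ℝ≥0∞ := fun t => Γ t + ind t
  have hζm : Measurable ζ := hΓm.add hindm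
  have hζ : ∫⁻ t, ζ t < ∞ := by
    simp only [ζ]
    rw [lintegral_add_left hΓm, lintegral_indicator hOm]
    exact ENNReal.add_lt_top.2 ⟨hΓ, lt_of_le_of_lt hIO hBtop.lt_top⟩
  -- pieces inside the gap set
  have hS : ∀ a b, a ≤ b → ∀ γ : ℝ, 0 < γ → (∀ t ∈ Icc a b, γ ≤ W t) →
      ENNReal.ofReal |U b - U a| ≤ ∫⁻ t in Ioc a b, ind t := by
    intro a b hab γ hγ hall
    obtain ⟨Λ, hΛ⟩ := hLip γ hγ
    have hL : LipschitzOnWith Λ U (uIcc a b) := by
      apply LipschitzOnWith.of_dist_le_mul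
      intro t ht t' ht'
      rw [uIcc_of_le hab] at ht ht'
      rw [Real.dist_eq, Real.dist_eq]
      exact hΛ t t' (hall t ht) (hall t' ht')
    have hac := hL.absolutelyContinuousOnInterval
    have h1 := hac.integral_deriv_eq_sub
    rw [← h1, intervalIntegral.integral_of_le hab, ← Real.enorm_eq_ofReal_abs]
    refine (enorm_integral_le_lintegral_enorm _).trans ?_
    apply le_of_eq
    apply setLIntegral_congr_fun measurableSet_Ioc
    intro t ht
    have htO : t ∈ O := by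
      have := hall t ⟨ht.1.le, ht.2⟩
      show F t < U t
      have : 0 < W t := lt_of_lt_of_le hγ this
      exact sub_pos.1 this
    simp only [ind]
    rw [indicator_of_mem htO]
  have hζind : ∀ a b, ∫⁻ t in Ioc a b, ind t ≤ ∫⁻ t in Ioc a b, ζ t := by
    intro a b
    apply lintegral_mono
    intro t
    simp only [ζ]
    exact le_add_self
  have hζΓ : ∀ a b, ∫⁻ t in Ioc a b, Γ t ≤ ∫⁻ t in Ioc a b, ζ t := by
    intro a b
    apply lintegral_mono
    intro t
    simp only [ζ]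
    exact le_self_add
  -- the key bound
  have hkey : ∀ a b, a ≤ b → ENNReal.ofReal |U b - U a| ≤ ∫⁻ t in Ioc a b, ζ t := by
    intro a b hab
    apply ENNReal.le_of_forall_pos_le_add
    intro ε' hε' _
    obtain ⟨ε, hεdef⟩ : ∃ ε : ℝ, ε = (ε' : ℝ) := ⟨_, rfl⟩
    have hε : 0 < ε := by rw [hεdef]; exact_mod_cast hε'
    have hεE : ((ε' : ℝ≥0) : ℝ≥0∞) = ENNReal.ofReal ε := by
      rw [hεdef]; simp
    rw [hεE]
    let S : Set ℝ := Icc a b ∩ {t | W t ≤ ε}
    have hScl : IsCompact S :=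
      isCompact_Icc.inter_right (isClosed_le hWc continuous_const)
    by_cases hne : S.Nonempty
    · have hp := hScl.sInf_mem hne
      have hq := hScl.sSup_mem hne
      set p := sInf S with hpd
      set q := sSup S with hqd
      have hbdd : BddBelow S := hScl.bddBelow
      have hbda : BddAbove S := hScl.bddAbove
      have hpq : p ≤ q := csInf_le hbdd hq
      have hA : ENNReal.ofReal |U p - U a| ≤ ∫⁻ t in Ioc a p, ind t := by
        rcases (hp.1.1).eq_or_lt with h | h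
        · rw [← h]; simp
        · apply hS a p hp.1.1 ε hε
          have hlt : ∀ t ∈ Ico a p, ε ≤ W t := by
            intro t ht
            by_contra hc
            push Not at hc
            have : t ∈ S := ⟨⟨ht.1, ht.2.le.trans hp.1.2⟩, hc.le⟩
            exact absurd (csInf_le hbdd this) (not_le.2 ht.2)
          intro t ht
          rcases ht.2.lt_or_eq with h' | h'
          · exact hlt t ⟨ht.1, h'⟩
          · rw [h']
            have hT : Tendsto W (𝓝[<] p) (𝓝 (W p)) := (hWc.tendsto p).mono_left nhdsWithin_le_nhds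
            apply ge_of_tendsto hT
            filter_upwards [Ico_mem_nhdsLT h] with s hs
            exact hlt s hs
      have hB' : ENNReal.ofReal |U b - U q| ≤ ∫⁻ t in Ioc q b, ind t := by
        rcases (hq.1.2).eq_or_lt with h | h
        · rw [h]; simp
        · apply hS q b hq.1.2 ε hε
          have hlt : ∀ t ∈ Ioc q b, ε ≤ W t := by
            intro t ht
            by_contra hc
            push Not at hc
            have : t ∈ S := ⟨⟨hq.1.1.trans ht.1.le, ht.2⟩, hc.le⟩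
            exact absurd (le_csSup hbda this) (not_le.2 ht.1)
          intro t ht
          rcases (ht.1).eq_or_lt with h' | h'
          · rw [← h']
            have hT : Tendsto W (𝓝[>] q) (𝓝 (W q)) := (hWc.tendsto q).mono_left nhdsWithin_le_nhds
            apply ge_of_tendsto hT
            filter_upwards [Ioc_mem_nhdsGT h] with s hs
            exact hlt s hs
          · exact hlt t ⟨h', ht.2⟩
      have hM : |U q - U p| ≤ |F q - F p| + ε := by
        have e : U q - U p = (F q - F p) + (W q - W p) := by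
          simp only [W]; ring
        rw [e]
        refine (abs_add_le _ _).trans (add_le_add le_rfl ?_)
        have hpw : W p ≤ ε := hp.2
        have hqw : W q ≤ ε := hq.2
        rw [abs_le]
        constructor
        · linarith [hW0 q]
        · linarith [hW0 p]
      have hM2 : ENNReal.ofReal |U q - U p| ≤ (∫⁻ t in Ioc p q, Γ t) + ENNReal.ofReal ε := by
        refine (ENNReal.ofReal_le_ofReal hM).trans ?_
        rw [ENNReal.ofReal_add (abs_nonneg _) hε.le]
        exact add_le_add (hF p q hpq) le_rfl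
      have htri : |U b - U a| ≤ |U p - U a| + (|U q - U p| + |U b - U q|) := by
        have e : U b - U a = (U p - U a) + ((U q - U p) + (U b - U q)) := by ring
        rw [e]
        exact (abs_add_le _ _).trans (add_le_add le_rfl (abs_add_le _ _))
      calc ENNReal.ofReal |U b - U a|
          ≤ ENNReal.ofReal (|U p - U a| + (|U q - U p| + |U b - U q|)) :=
            ENNReal.ofReal_le_ofReal htri
        _ = ENNReal.ofReal |U p - U a| + (ENNReal.ofReal |U q - U p| + ENNReal.ofReal |U b - U q|) := by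
            rw [ENNReal.ofReal_add (abs_nonneg _) (by positivity),
              ENNReal.ofReal_add (abs_nonneg _) (abs_nonneg _)]
        _ ≤ (∫⁻ t in Ioc a p, ζ t) + (((∫⁻ t in Ioc p q, ζ t) + ENNReal.ofReal ε) + (∫⁻ t in Ioc q b, ζ t)) := by
            refine add_le_add (hA.trans (hζind _ _)) (add_le_add ?_ (hB'.trans (hζind _ _)))
            exact hM2.trans (add_le_add (hζΓ _ _) le_rfl)
        _ = ((∫⁻ t in Ioc a p, ζ t) + ((∫⁻ t in Ioc p q, ζ t) + (∫⁻ t in Ioc q b, ζ t))) + ENNReal.ofReal ε := by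
            ring
        _ = (∫⁻ t in Ioc a b, ζ t) + ENNReal.ofReal ε := by
            rw [lintegral_Ioc_add hpq hq.1.2, lintegral_Ioc_add hp.1.1 (hpq.trans hq.1.2)]
    · have hall : ∀ t ∈ Icc a b, ε ≤ W t := by
        intro t ht
        by_contra hc
        push Not at hc
        exact hne ⟨t, ht, hc.le⟩
      exact ((hS a b hab ε hε hall).trans (hζind a b)).trans le_self_add
  have hAC : ∀ a b, AbsolutelyContinuousOnInterval U a b := ac_of_integral_bound hζm hζ hkey
  refine ⟨hAC, ?_⟩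
  -- the integral of the derivative
  have hdall : ∀ᵐ t, DifferentiableAt ℝ U t := by
    have hn : ∀ n : ℕ, ∀ᵐ t, t ∈ Icc (-(n : ℝ)) n → DifferentiableAt ℝ U t := by
      intro n
      have h1 := (hAC (-(n : ℝ)) n).ae_differentiableAt
      rw [uIcc_of_le (by linarith [(Nat.cast_nonneg n : (0 : ℝ) ≤ n)])] at h1
      exact h1
    have hall := ae_all_iff.2 hn
    filter_upwards [hall] with t ht
    obtain ⟨n, hn'⟩ := exists_nat_ge |t|
    exact ht n (abs_le.1 hn')
  have h2 := setLIntegral_deriv_le_of_diff hUc hB MeasurableSet.univ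
    (by filter_upwards [hdall] with t ht _ using ht)
  rwa [setLIntegral_univ] at h2

end Vale.Agent.Lib.P137



/-! Volume comparisons under homotheties, in an inner product space. -/

namespace Vale.Agent.Lib.P137

open MeasureTheory Set Filter Topology Metric Module
open scoped ENNReal NNReal RealInnerProductSpace Pointwise

set_option linter.unusedSectionVars false
set_option linter.unusedVariables false

variable {E : Type*} [NormedAddCommGroup E] [InnerProductSpace ℝ E] [FiniteDimensional ℝ E]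
  [MeasurableSpace E] [BorelSpace E] (μ : Measure E) [μ.IsAddHaarMeasure]

/-- Membership in a ball tangent at `x` to the hyperplane orthogonal to the unit vector `n`. -/
lemma mem_ball_iff_inner {x n z : E} {r : ℝ} (hn : ‖n‖ = 1) (hr : 0 < r) :
    z ∈ ball (x + r • n) r ↔ ‖z - x‖ ^ 2 < 2 * r * ⟪z - x, n⟫ := by
  rw [mem_ball, dist_eq_norm]
  have h1 : z - (x + r • n) = (z - x) - r • n := by abel
  rw [h1]
  have h2 : ‖(z - x) - r • n‖ ^ 2 = ‖z - x‖ ^ 2 - 2 * r * ⟪z - x, n⟫ + r ^ 2 := by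
    rw [@norm_sub_sq_real, inner_smul_right, norm_smul, hn, Real.norm_eq_abs, abs_of_pos hr]
    ring
  constructor
  · intro h
    have h3 : ‖(z - x) - r • n‖ ^ 2 < r ^ 2 := by
      apply pow_lt_pow_left₀ h (norm_nonneg _) (by norm_num)
    linarith
  · intro h
    have h3 : ‖(z - x) - r • n‖ ^ 2 < r ^ 2 := by linarith
    exact lt_of_pow_lt_pow_left₀ 2 hr.le h3

lemma mem_closedBall_iff_inner {x n z : E} {r : ℝ} (hn : ‖n‖ = 1) (hr : 0 < r) :
    z ∈ closedBall (x + r • n) r ↔ ‖z - x‖ ^ 2 ≤ 2 * r * ⟪z - x, n⟫ := by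
  rw [mem_closedBall, dist_eq_norm]
  have h1 : z - (x + r • n) = (z - x) - r • n := by abel
  rw [h1]
  have h2 : ‖(z - x) - r • n‖ ^ 2 = ‖z - x‖ ^ 2 - 2 * r * ⟪z - x, n⟫ + r ^ 2 := by
    rw [@norm_sub_sq_real, inner_smul_right, norm_smul, hn, Real.norm_eq_abs, abs_of_pos hr]
    ring
  constructor
  · intro h
    have h3 : ‖(z - x) - r • n‖ ^ 2 ≤ r ^ 2 := by
      apply pow_le_pow_left₀ (norm_nonneg _) h
    linarith
  · intro h
    have h3 : ‖(z - x) - r • n‖ ^ 2 ≤ r ^ 2 := by linarith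
    exact le_of_pow_le_pow_left₀ (by norm_num) hr.le h3

/-- The volume of the unit ball, as a real number. -/
noncomputable def volOne : ℝ := (μ (ball (0 : E) 1)).toReal

lemma ball_one_ne_top : μ (ball (0 : E) 1) ≠ ∞ := measure_ball_lt_top.ne

lemma volOne_pos : 0 < volOne μ := by
  apply ENNReal.toReal_pos
  · exact (measure_ball_pos μ _ one_pos).ne'
  · exact ball_one_ne_top μ

lemma ofReal_volOne : ENNReal.ofReal (volOne μ) = μ (ball (0 : E) 1) :=
  ENNReal.ofReal_toReal (ball_one_ne_top μ)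

lemma measure_ball_eq (c : E) {ρ : ℝ} (hρ : 0 < ρ) :
    μ (ball c ρ) = ENNReal.ofReal (ρ ^ finrank ℝ E * volOne μ) := by
  rw [Measure.addHaar_ball_of_pos μ c hρ, ENNReal.ofReal_mul (by positivity), ofReal_volOne]

lemma measure_ball_toReal (c : E) {ρ : ℝ} (hρ : 0 < ρ) :
    (μ (ball c ρ)).toReal = ρ ^ finrank ℝ E * volOne μ := by
  rw [measure_ball_eq μ c hρ, ENNReal.toReal_ofReal]
  have := volOne_pos μ
  positivity

/-- The image of a set under a homothety-like map. -/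
lemma measure_image_homothety (x : E) (ρ : ℝ) (A : Set E) :
    μ ((fun w => x + ρ • w) '' A) = ENNReal.ofReal (|ρ ^ finrank ℝ E|) * μ A := by
  have h1 : (fun w => x + ρ • w) '' A = (fun v => x + v) '' (ρ • A) := by
    ext z
    simp only [mem_image, mem_smul_set]
    constructor
    · rintro ⟨w, hw, rfl⟩
      exact ⟨ρ • w, ⟨w, hw, rfl⟩, rfl⟩
    · rintro ⟨_, ⟨w, hw, rfl⟩, rfl⟩
      exact ⟨w, hw, rfl⟩
  rw [h1, image_add_left, measure_preimage_add, Measure.addHaar_smul]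

/-- If a homothetic copy of `A` lies in `Q` then the measure is controlled. -/
lemma scale_le {A Q : Set E} {x : E} {ρ : ℝ} (hρ : 0 < ρ) (h : ∀ w ∈ A, x + ρ • w ∈ Q) :
    ENNReal.ofReal (ρ ^ finrank ℝ E) * μ A ≤ μ Q := by
  have h1 : (fun w => x + ρ • w) '' A ⊆ Q := by
    rintro _ ⟨w, hw, rfl⟩
    exact h w hw
  have h2 := measure_mono (μ := μ) h1
  rw [measure_image_homothety, abs_of_pos (by positivity)] at h2
  exact h2

/-- Reflected version. -/
lemma scale_neg_le {A Q : Set E} {x : E} {ρ : ℝ} (hρ : 0 < ρ) (h : ∀ w ∈ A, x - ρ • w ∈ Q) :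
    ENNReal.ofReal (ρ ^ finrank ℝ E) * μ A ≤ μ Q := by
  have h1 : (fun w => x + (-ρ) • w) '' A ⊆ Q := by
    rintro _ ⟨w, hw, rfl⟩
    have := h w hw
    simpa [sub_eq_add_neg] using this
  have h2 := measure_mono (μ := μ) h1
  rw [measure_image_homothety] at h2
  have h3 : |(-ρ) ^ finrank ℝ E| = ρ ^ finrank ℝ E := by
    rw [abs_pow, abs_neg, abs_of_pos hρ]
  rwa [h3] at h2

/-- Measure of the reflection of a set. -/
lemma measure_neg_set (A : Set E) : μ {w | -w ∈ A} = μ A := by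
  have h := scale_neg_le μ (A := {w | -w ∈ A}) (Q := A) (x := 0) (ρ := 1) one_pos
    (fun w hw => by simpa using hw)
  have h' := scale_neg_le μ (A := A) (Q := {w | -w ∈ A}) (x := 0) (ρ := 1) one_pos
    (fun w hw => by simpa using hw)
  simp only [one_pow, ENNReal.ofReal_one, one_mul] at h h'
  exact le_antisymm h h'

/-- Cones of directions. -/
def IsConeSet (K : Set E) : Prop := ∀ w ∈ K, ∀ t : ℝ, 0 < t → t • w ∈ K

/-- A set seen from `x` inside a cone and within distance `D` has measure controlled by the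
part of the cone in the unit ball. -/
lemma cone_cover {K Q : Set E} (hK : IsConeSet K) {x : E} {D : ℝ} (hD : 0 < D)
    (h : ∀ y ∈ Q, y - x ∈ K ∧ ‖y - x‖ < D) :
    μ Q ≤ ENNReal.ofReal (D ^ finrank ℝ E) * μ (K ∩ ball 0 1) := by
  have h1 : Q ⊆ (fun w => x + D • w) '' (K ∩ ball 0 1) := by
    intro y hy
    obtain ⟨hyK, hyD⟩ := h y hy
    refine ⟨D⁻¹ • (y - x), ⟨hK _ hyK _ (inv_pos.2 hD), ?_⟩, ?_⟩
    · rw [mem_ball_zero_iff, norm_smul, Real.norm_eq_abs, abs_of_pos (inv_pos.2 hD)]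
      rw [inv_mul_lt_iff₀ hD]
      linarith
    · simp only
      rw [smul_smul, mul_inv_cancel₀ hD.ne', one_smul]
      abel
  have h2 := measure_mono (μ := μ) h1
  rw [measure_image_homothety, abs_of_pos (by positivity)] at h2
  exact h2

/-- Lower bound for the part of a cone in a shell. -/
lemma sector_le {K Z : Set E} (hK : IsConeSet K) {x : E} {τ₁ τ₂ : ℝ} (h1 : 0 < τ₁) (h2 : τ₁ < τ₂)
    (h : ∀ v ∈ K, τ₁ ≤ ‖v‖ → ‖v‖ < τ₂ → x + v ∈ Z) :
    ENNReal.ofReal (τ₂ ^ finrank ℝ E - τ₁ ^ finrank ℝ E) * μ (K ∩ ball 0 1) ≤ μ Z := by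
  set A : Set E := K ∩ ball 0 1 with hA
  have hAfin : μ A ≠ ∞ := ne_top_of_le_ne_top (ball_one_ne_top μ) (measure_mono inter_subset_right)
  have h0 : 0 < τ₂ := h1.trans h2
  let T : ℝ → Set E := fun τ => (fun w => (0 : E) + τ • w) '' A
  have hT : ∀ τ, 0 < τ → μ (T τ) = ENNReal.ofReal (τ ^ finrank ℝ E) * μ A := by
    intro τ hτ
    simp only [T]
    rw [measure_image_homothety, abs_of_pos (by positivity)]
  have hsub : T τ₂ \ T τ₁ ⊆ {v | x + v ∈ Z} := by
    rintro v ⟨⟨w, hw, rfl⟩, hv⟩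
    simp only [zero_add] at hv ⊢
    have hwn : ‖w‖ < 1 := by simpa using hw.2
    have hvK : τ₂ • w ∈ K := hK w hw.1 τ₂ h0
    have hnorm : ‖τ₂ • w‖ = τ₂ * ‖w‖ := by
      rw [norm_smul, Real.norm_eq_abs, abs_of_pos h0]
    refine h _ hvK ?_ ?_
    · by_contra hc
      push Not at hc
      apply hv
      refine ⟨(τ₂ / τ₁) • w, ⟨hK w hw.1 _ (div_pos h0 h1), ?_⟩, ?_⟩
      · rw [mem_ball_zero_iff, norm_smul, Real.norm_eq_abs, abs_of_pos (div_pos h0 h1)]
        rw [hnorm] at hc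
        rw [div_mul_eq_mul_div, div_lt_one h1]
        exact hc
      · simp only [zero_add]
        rw [smul_smul]
        congr 1
        field_simp
    · rw [hnorm]
      nlinarith [norm_nonneg w]
  have hZ : μ {v | x + v ∈ Z} = μ Z := by
    have : {v | x + v ∈ Z} = (fun v => x + v) ⁻¹' Z := rfl
    rw [this, measure_preimage_add]
  calc ENNReal.ofReal (τ₂ ^ finrank ℝ E - τ₁ ^ finrank ℝ E) * μ A
      = (ENNReal.ofReal (τ₂ ^ finrank ℝ E) - ENNReal.ofReal (τ₁ ^ finrank ℝ E)) * μ A := by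
        rw [ENNReal.ofReal_sub _ (by positivity)]
    _ = ENNReal.ofReal (τ₂ ^ finrank ℝ E) * μ A - ENNReal.ofReal (τ₁ ^ finrank ℝ E) * μ A :=
        ENNReal.sub_mul (fun _ _ => hAfin)
    _ = μ (T τ₂) - μ (T τ₁) := by rw [hT _ h0, hT _ h1]
    _ ≤ μ (T τ₂ \ T τ₁) := le_measure_sdiff
    _ ≤ μ {v | x + v ∈ Z} := measure_mono hsub
    _ = μ Z := hZ

end Vale.Agent.Lib.P137



/-! The counting bound behind the one-dimensional line lemma. -/

namespace Vale.Agent.Lib.P137

open MeasureTheory Set Filter Topology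
open scoped ENNReal NNReal

/-- For a Lipschitz function, the measure of an image is at most the integral of `|F'|`. -/
lemma volume_image_le {F : ℝ → ℝ} {L : ℝ≥0} (hF : LipschitzWith L F) {A : Set ℝ}
    (hA : MeasurableSet A) : volume (F '' A) ≤ ∫⁻ t in A, ‖deriv F t‖ₑ := by
  classical
  set D : Set ℝ := {t | DifferentiableAt ℝ F t} with hD
  have hDm : MeasurableSet D := measurableSet_of_differentiableAt ℝ F
  have hnull : volume (A \ D) = 0 := by
    have h := hF.ae_differentiableAt_real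
    have : volume Dᶜ = 0 := by simpa [hD, compl_ofPred, ae_iff] using h
    exact measure_mono_null (fun x hx => hx.2) this
  have himnull : volume (F '' (A \ D)) = 0 := by
    have h1 := hF.hausdorffMeasure_image_le (d := 1) zero_le_one (A \ D)
    rw [← MeasureTheory.hausdorffMeasure_real] at hnull ⊢
    rw [hnull] at h1
    simpa using h1
  have hA1 : MeasurableSet (A ∩ D) := hA.inter hDm
  have h1 : volume (F '' (A ∩ D)) ≤ ∫⁻ t in A ∩ D, ‖deriv F t‖ₑ := by
    have := addHaar_image_le_lintegral_abs_det_fderiv (μ := (volume : Measure ℝ)) hA1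
      (f := F) (f' := fun x => ContinuousLinearMap.toSpanSingleton ℝ (deriv F x))
      (fun x hx => (hx.2.hasDerivAt.hasFDerivAt).hasFDerivWithinAt)
    simp only [ContinuousLinearMap.det_toSpanSingleton] at this
    refine this.trans (le_of_eq ?_)
    apply lintegral_congr
    intro t
    rw [Real.enorm_eq_ofReal_abs]
  have hsplit : F '' A ⊆ F '' (A ∩ D) ∪ F '' (A \ D) := by
    rintro _ ⟨t, ht, rfl⟩
    by_cases htD : t ∈ D
    · exact Or.inl ⟨t, ⟨ht, htD⟩, rfl⟩
    · exact Or.inr ⟨t, ⟨ht, htD⟩, rfl⟩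
  calc volume (F '' A) ≤ volume (F '' (A ∩ D) ∪ F '' (A \ D)) := measure_mono hsplit
    _ ≤ volume (F '' (A ∩ D)) + volume (F '' (A \ D)) := measure_union_le _ _
    _ = volume (F '' (A ∩ D)) := by rw [himnull, add_zero]
    _ ≤ ∫⁻ t in A ∩ D, ‖deriv F t‖ₑ := h1
    _ ≤ ∫⁻ t in A, ‖deriv F t‖ₑ := lintegral_mono_set inter_subset_left

/-- Main counting bound. -/
lemma count_bound {U F : ℝ → ℝ} {LF : ℝ≥0} (hF : LipschitzWith LF F)
    (Pts : Finset ℝ) (τ : ℝ → ℝ) (θ η ε : ℝ) (hη : 0 < η) (hε : 0 < ε)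
    (hτ : ∀ t ∈ Pts, 0 ≤ τ t)
    (hmono : ∀ t ∈ Pts, ∀ σ ∈ Icc 0 (τ t), U t ≤ U (t + σ))
    (hcross : ∀ t ∈ Pts, (U t - F t) / 4 ≤ |F (t + τ t) - F t|)
    (he : ∀ t ∈ Pts, ε ≤ U t - F t)
    (hleft : ∀ t ∈ Pts, ∃ δ > 0, ∀ s, t - δ < s → s < t → U s < U t)
    (hgrid : ∀ t ∈ Pts, ∃ k : ℤ, U t = θ + η * k) :
    ENNReal.ofReal ((Pts.card : ℝ) * η) ≤
      ENNReal.ofReal (5 + 4 * η / ε) * ∫⁻ t, ‖deriv F t‖ₑ := by
  classical
  set V : ℝ≥0∞ := ∫⁻ t, ‖deriv F t‖ₑ with hV
  let e : ℝ → ℝ := fun t => U t - F t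
  let I : ℝ → Set ℝ := fun t => Icc t (t + τ t)
  let Lv : ℝ → Set ℝ := fun t => Icc (F t - e t / 4) (U t)
  let R : ℝ → Set ℝ := fun t =>
    if F t ≤ F (t + τ t) then Icc (F t) (F t + e t / 4) else Icc (F t - e t / 4) (F t)
  let conf : ℝ → ℝ → Prop := fun a b => (I a ∩ I b).Nonempty ∧ (Lv a ∩ Lv b).Nonempty
  have hsymm : ∀ a b, conf a b → conf b a := by
    intro a b h
    exact ⟨by rw [inter_comm]; exact h.1, by rw [inter_comm]; exact h.2⟩
  obtain ⟨S, hSsub, hSdisj, hScov⟩ := exists_selection Pts U conf hsymm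
  have hepos : ∀ t ∈ Pts, 0 < e t := fun t ht => lt_of_lt_of_le hε (he t ht)
  -- assigned points
  let Asg : ℝ → ℝ → Prop := fun w t => t = w ∨ (U t ≤ U w ∧ conf t w)
  have hAsg_inter : ∀ w ∈ S, ∀ t ∈ Pts, Asg w t → (I t ∩ I w).Nonempty := by
    intro w hw t ht h
    rcases h with rfl | h
    · exact ⟨t, ⟨⟨le_refl _, by linarith [hτ t ht]⟩, ⟨le_refl _, by linarith [hτ t ht]⟩⟩⟩
    · exact h.2.1
  have hAsg_lev : ∀ w ∈ S, ∀ t ∈ Pts, Asg w t → U t ≤ U w := by
    intro w hw t ht h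
    rcases h with rfl | h
    · exact le_refl _
    · exact h.1
  -- U is at least the level on I t
  have hI_ge : ∀ t ∈ Pts, ∀ s ∈ I t, U t ≤ U s := by
    intro t ht s hs
    have := hmono t ht (s - t) ⟨by linarith [hs.1], by linarith [hs.2]⟩
    simpa using this
  -- distinct levels
  have hdistinct_aux : ∀ w ∈ S, ∀ t₁ ∈ Pts, ∀ t₂ ∈ Pts, Asg w t₁ → Asg w t₂ →
      U t₁ = U t₂ → ¬ t₁ < t₂ := by
    intro w hw t₁ h₁ t₂ h₂ a₁ a₂ hlev hlt
    have hwP := hSsub hw
    obtain ⟨z₁, hz₁, hz₁'⟩ := hAsg_inter w hw t₁ h₁ a₁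
    obtain ⟨z₂, hz₂, hz₂'⟩ := hAsg_inter w hw t₂ h₂ a₂
    have hge : ∀ s, t₁ ≤ s → s ≤ t₂ → U t₁ ≤ U s := by
      intro s hs1 hs2
      by_cases hc : s ≤ t₁ + τ t₁
      · exact hI_ge t₁ h₁ s ⟨hs1, hc⟩
      · have hzs : z₁ < s := lt_of_le_of_lt hz₁.2 (not_le.1 hc)
        have hws : w ≤ s := hz₁'.1.trans hzs.le
        have hsw : s ≤ w + τ w := by
          calc s ≤ t₂ := hs2
            _ ≤ z₂ := hz₂.1
            _ ≤ w + τ w := hz₂'.2
        calc U t₁ ≤ U w := hAsg_lev w hw t₁ h₁ a₁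
          _ ≤ U s := hI_ge w hwP s ⟨hws, hsw⟩
    obtain ⟨δ, hδ, hδ'⟩ := hleft t₂ h₂
    set s := max t₁ (t₂ - δ / 2) with hs
    have hs1 : t₁ ≤ s := le_max_left _ _
    have hs2 : s < t₂ := max_lt hlt (by linarith)
    have hs3 : t₂ - δ < s := lt_of_lt_of_le (by linarith) (le_max_right _ _)
    have := hδ' s hs3 hs2
    have h3 := hge s hs1 hs2.le
    rw [hlev] at h3
    exact absurd this (not_lt.2 h3)
  have hdistinct : ∀ w ∈ S, ∀ t₁ ∈ Pts, ∀ t₂ ∈ Pts, Asg w t₁ → Asg w t₂ →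
      U t₁ = U t₂ → t₁ = t₂ := by
    intro w hw t₁ h₁ t₂ h₂ a₁ a₂ hlev
    rcases lt_trichotomy t₁ t₂ with h | h | h
    · exact absurd h (hdistinct_aux w hw t₁ h₁ t₂ h₂ a₁ a₂ hlev)
    · exact h
    · exact absurd h (hdistinct_aux w hw t₂ h₂ t₁ h₁ a₂ a₁ hlev.symm)
  -- choose grid indices
  choose! k hk using hgrid
  -- counting for each selected point
  let Af : ℝ → Finset ℝ := fun w => Pts.filter (fun t => Asg w t)
  have hcount : ∀ w ∈ S, ((Af w).card : ℝ) * η ≤ 5 * (e w / 4) + η := by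
    intro w hw
    have hwP := hSsub hw
    have hinj : Set.InjOn k (Af w : Set ℝ) := by
      intro t₁ h₁ t₂ h₂ hk12
      have h₁' := Finset.mem_filter.1 (Finset.mem_coe.1 h₁)
      have h₂' := Finset.mem_filter.1 (Finset.mem_coe.1 h₂)
      apply hdistinct w hw t₁ h₁'.1 t₂ h₂'.1 h₁'.2 h₂'.2
      rw [hk t₁ h₁'.1, hk t₂ h₂'.1, hk12]
    have hcard : ((Af w).image k).card = (Af w).card := Finset.card_image_of_injOn hinj
    have hgr := card_mul_le_of_grid (T := (Af w).image k) (θ := θ) (η := η)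
      (α := F w - e w / 4) (β := U w) hη ?_ ?_
    · rw [hcard] at hgr
      have : U w - (F w - e w / 4) = 5 * (e w / 4) := by
        simp only [e]; ring
      rw [this] at hgr
      exact hgr
    · intro j hj
      obtain ⟨t, ht, rfl⟩ := Finset.mem_image.1 hj
      have ht' := Finset.mem_filter.1 ht
      rw [← hk t ht'.1]
      constructor
      · rcases ht'.2 with rfl | h
        · have := hepos t ht'.1
          simp only [e] at this ⊢
          linarith
        · obtain ⟨z, hz, hz'⟩ := h.2.2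
          exact hz'.1.trans hz.2
      · exact hAsg_lev w hw t ht'.1 ht'.2
    · have := hepos w hwP
      simp only [e] at this ⊢
      linarith
  have hcover : Pts ⊆ S.biUnion Af := by
    intro t ht
    rw [Finset.mem_biUnion]
    by_cases htS : t ∈ S
    · exact ⟨t, htS, Finset.mem_filter.2 ⟨ht, Or.inl rfl⟩⟩
    · obtain ⟨w, hw, h1, h2⟩ := hScov t ht htS
      exact ⟨w, hw, Finset.mem_filter.2 ⟨ht, Or.inr ⟨h1, h2⟩⟩⟩
  have hcardle : (Pts.card : ℝ) ≤ ∑ w ∈ S, ((Af w).card : ℝ) := by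
    have h1 : Pts.card ≤ (S.biUnion Af).card := Finset.card_le_card hcover
    have h2 : (S.biUnion Af).card ≤ ∑ w ∈ S, (Af w).card := Finset.card_biUnion_le
    exact_mod_cast h1.trans h2
  set W : ℝ := ∑ w ∈ S, e w / 4 with hW
  have hWnn : 0 ≤ W := Finset.sum_nonneg (fun w hw => by
    have := hepos w (hSsub hw); linarith)
  -- the number of selected points
  have hScard : (S.card : ℝ) * ε ≤ 4 * W := by
    have : ∑ w ∈ S, ε ≤ ∑ w ∈ S, e w := Finset.sum_le_sum (fun w hw => he w (hSsub hw))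
    rw [Finset.sum_const, nsmul_eq_mul] at this
    have h4 : 4 * W = ∑ w ∈ S, e w := by
      rw [hW, Finset.mul_sum]
      exact Finset.sum_congr rfl (fun w _ => by ring)
    rw [h4]; exact this
  have hmain : (Pts.card : ℝ) * η ≤ (5 + 4 * η / ε) * W := by
    have h1 : (Pts.card : ℝ) * η ≤ ∑ w ∈ S, (5 * (e w / 4) + η) := by
      calc (Pts.card : ℝ) * η ≤ (∑ w ∈ S, ((Af w).card : ℝ)) * η :=
            mul_le_mul_of_nonneg_right hcardle hη.le
        _ = ∑ w ∈ S, ((Af w).card : ℝ) * η := by rw [Finset.sum_mul]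
        _ ≤ _ := Finset.sum_le_sum hcount
    have h2 : ∑ w ∈ S, (5 * (e w / 4) + η) = 5 * W + S.card * η := by
      rw [Finset.sum_add_distrib, Finset.sum_const, nsmul_eq_mul, hW, Finset.mul_sum]
    have h3 : (S.card : ℝ) * η ≤ 4 * η / ε * W := by
      have : (S.card : ℝ) ≤ 4 * W / ε := by
        rw [le_div_iff₀ hε]; exact hScard
      calc (S.card : ℝ) * η ≤ 4 * W / ε * η := mul_le_mul_of_nonneg_right this hη.le
        _ = 4 * η / ε * W := by field_simp
    rw [h2] at h1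
    nlinarith
  -- capacity
  have hR_sub : ∀ w ∈ S, R w ⊆ Lv w := by
    intro w hw z hz
    have hpos := hepos w (hSsub hw)
    simp only [R] at hz
    split_ifs at hz
    · exact ⟨by linarith [hz.1], by simp only [e] at hz hpos; linarith [hz.2]⟩
    · exact ⟨hz.1, by simp only [e] at hz hpos; linarith [hz.2]⟩
  have hR_vol : ∀ w, volume (R w) = ENNReal.ofReal (e w / 4) := by
    intro w
    simp only [R]
    split_ifs <;> rw [Real.volume_Icc] <;> congr 1 <;> ring
  let A' : ℝ → Set ℝ := fun w => I w ∩ F ⁻¹' (R w)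
  have hFc : Continuous F := hF.continuous
  have hRclosed : ∀ w, IsClosed (R w) := by
    intro w
    simp only [R]
    split_ifs <;> exact isClosed_Icc
  have hA'm : ∀ w, MeasurableSet (A' w) := fun w =>
    (isClosed_Icc.inter ((hRclosed w).preimage hFc)).measurableSet
  have hR_im : ∀ w ∈ S, R w ⊆ F '' (A' w) := by
    intro w hw z hz
    have hwP := hSsub hw
    have hcr := hcross w hwP
    have hpos := hepos w hwP
    have hle : w ≤ w + τ w := by linarith [hτ w hwP]
    by_cases hc : F w ≤ F (w + τ w)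
    · have hzz : z ∈ R w := hz
      simp only [R, if_pos hc] at hz
      have habs : |F (w + τ w) - F w| = F (w + τ w) - F w := abs_of_nonneg (by linarith)
      rw [habs] at hcr
      have hz' : z ∈ Icc (F w) (F (w + τ w)) := ⟨hz.1, by
        have : z ≤ F w + e w / 4 := hz.2
        have h4 : e w / 4 = (U w - F w) / 4 := rfl
        linarith⟩
      obtain ⟨s, hs, hsz⟩ := intermediate_value_Icc hle hFc.continuousOn hz'
      exact ⟨s, ⟨hs, by simpa [hsz] using hzz⟩, hsz⟩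
    · have hzz : z ∈ R w := hz
      simp only [R, if_neg hc] at hz
      have hc' : F (w + τ w) < F w := not_le.1 hc
      have habs : |F (w + τ w) - F w| = F w - F (w + τ w) := by
        rw [abs_of_neg (by linarith)]; ring
      rw [habs] at hcr
      have hz' : z ∈ Icc (F (w + τ w)) (F w) := ⟨by
        have : F w - e w / 4 ≤ z := hz.1
        have h4 : e w / 4 = (U w - F w) / 4 := rfl
        linarith, hz.2⟩
      obtain ⟨s, hs, hsz⟩ := intermediate_value_Icc' hle hFc.continuousOn hz'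
      exact ⟨s, ⟨hs, by simpa [hsz] using hzz⟩, hsz⟩
  have hA'disj : (S : Set ℝ).PairwiseDisjoint A' := by
    intro v hv w hw hvw
    rw [Function.onFun, Set.disjoint_left]
    intro s hs1 hs2
    refine hSdisj v hv w hw hvw ⟨⟨s, hs1.1, hs2.1⟩, ⟨F s, hR_sub v hv hs1.2, hR_sub w hw hs2.2⟩⟩
  have hcap : ENNReal.ofReal W ≤ V := by
    have h1 : ENNReal.ofReal W = ∑ w ∈ S, ENNReal.ofReal (e w / 4) := by
      rw [hW, ENNReal.ofReal_sum_of_nonneg]
      intro w hw
      have := hepos w (hSsub hw); linarith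
    rw [h1]
    calc ∑ w ∈ S, ENNReal.ofReal (e w / 4) = ∑ w ∈ S, volume (R w) :=
          Finset.sum_congr rfl (fun w _ => (hR_vol w).symm)
      _ ≤ ∑ w ∈ S, volume (F '' (A' w)) :=
          Finset.sum_le_sum (fun w hw => measure_mono (hR_im w hw))
      _ ≤ ∑ w ∈ S, ∫⁻ t in A' w, ‖deriv F t‖ₑ :=
          Finset.sum_le_sum (fun w _ => volume_image_le hF (hA'm w))
      _ = ∫⁻ t in ⋃ w ∈ S, A' w, ‖deriv F t‖ₑ :=
          (lintegral_biUnion_finset hA'disj (fun w _ => hA'm w) _).symm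
      _ ≤ V := setLIntegral_le_lintegral _ _
  have hcoef : 0 ≤ 5 + 4 * η / ε := by positivity
  calc ENNReal.ofReal ((Pts.card : ℝ) * η) ≤ ENNReal.ofReal ((5 + 4 * η / ε) * W) :=
        ENNReal.ofReal_le_ofReal hmain
    _ = ENNReal.ofReal (5 + 4 * η / ε) * ENNReal.ofReal W := ENNReal.ofReal_mul hcoef
    _ ≤ ENNReal.ofReal (5 + 4 * η / ε) * V := by gcongr

end Vale.Agent.Lib.P137



/-! The one-dimensional chord capacity estimate. -/

namespace Vale.Agent.Lib.P137

open MeasureTheory Set Filter Topology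
open scoped ENNReal NNReal

/-- The point `t` is above level `s`, with points below level `s` on both sides within `ρ`. -/
def chordUp (F : ℝ → ℝ) (s ρ : ℝ) : Set ℝ :=
  {t | s < F t ∧ ∃ τ₁ τ₂, 0 < τ₁ ∧ τ₁ < ρ ∧ 0 < τ₂ ∧ τ₂ < ρ ∧ F (t + τ₁) < s ∧ F (t - τ₂) < s}

/-- Version of `chordUp` with a finite set of admissible low points. -/
def chordUpG (F : ℝ → ℝ) (G : Finset ℝ) (s ρ : ℝ) : Set ℝ :=
  {t | s < F t ∧ ∃ a ∈ G, ∃ b ∈ G, a < t ∧ t < b ∧ t - a < ρ ∧ b - t < ρ ∧ F a < s ∧ F b < s}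

/-- Geometric sum over the scales that exceed a given length. -/
lemma tsum_dyadic_le {L κ : ℝ} (hL : 0 < L) (hκ : 0 < κ) :
    ∑' k : ℤ, ({k : ℤ | L < κ * (2 : ℝ) ^ k}).indicator (fun k : ℤ => ENNReal.ofReal ((2 : ℝ) ^ (-k))) k
      ≤ ENNReal.ofReal (2 * κ / L) := by
  classical
  obtain ⟨n, hn1, hn2⟩ := exists_mem_Ioc_zpow (x := L / κ) (y := 2) (by positivity) (by norm_num)
  set g : ℤ → ℝ≥0∞ := ({k : ℤ | L < κ * (2 : ℝ) ^ k}).indicator
    (fun k : ℤ => ENNReal.ofReal ((2 : ℝ) ^ (-k))) with hg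
  let ι : ℕ → ℤ := fun j => n + 1 + j
  have hι : Function.Injective ι := by
    intro a b h
    simp only [ι] at h
    omega
  have hsupp : Function.support g ⊆ range ι := by
    intro k hk
    have hk' : k ∈ {k : ℤ | L < κ * (2 : ℝ) ^ k} := by
      by_contra h
      exact hk (indicator_of_notMem h _)
    have h1 : L / κ < (2 : ℝ) ^ k := by
      rw [div_lt_iff₀ hκ]; linarith [hk'.out, mul_comm κ ((2 : ℝ) ^ k)]
    have h2 : (2 : ℝ) ^ n < (2 : ℝ) ^ k := lt_trans hn1 h1
    have h3 : n < k := (zpow_lt_zpow_iff_right₀ (by norm_num : (1 : ℝ) < 2)).1 h2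
    refine ⟨(k - n - 1).toNat, ?_⟩
    simp only [ι]
    have : ((k - n - 1).toNat : ℤ) = k - n - 1 := Int.toNat_of_nonneg (by omega)
    omega
  rw [← hι.tsum_eq hsupp]
  have hterm : ∀ j : ℕ, g (ι j) ≤ ENNReal.ofReal ((2 : ℝ) ^ (-(n + 1))) * (2⁻¹ : ℝ≥0∞) ^ j := by
    intro j
    have h1 : g (ι j) ≤ ENNReal.ofReal ((2 : ℝ) ^ (-(ι j))) := by
      simp only [hg]
      exact indicator_le_self' (fun _ _ => zero_le) _
    refine h1.trans (le_of_eq ?_)
    have h2 : (2⁻¹ : ℝ≥0∞) = ENNReal.ofReal (2⁻¹ : ℝ) := by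
      rw [ENNReal.ofReal_inv_of_pos (by norm_num)]
      simp
    rw [h2, ← ENNReal.ofReal_pow (by norm_num), ← ENNReal.ofReal_mul (by positivity)]
    congr 1
    simp only [ι]
    rw [show -(n + 1 + (j : ℤ)) = -(n + 1) + -(j : ℤ) by ring,
      zpow_add₀ (by norm_num : (2 : ℝ) ≠ 0), zpow_neg (2 : ℝ) (j : ℤ), zpow_natCast, inv_pow]
  calc ∑' j : ℕ, g (ι j) ≤ ∑' j : ℕ, ENNReal.ofReal ((2 : ℝ) ^ (-(n + 1))) * (2⁻¹ : ℝ≥0∞) ^ j :=
        ENNReal.tsum_le_tsum hterm
    _ = ENNReal.ofReal ((2 : ℝ) ^ (-(n + 1))) * 2 := by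
        rw [ENNReal.tsum_mul_left, ENNReal.tsum_geometric]
        congr 1
        rw [ENNReal.one_sub_inv_two, inv_inv]
    _ ≤ ENNReal.ofReal (2 * κ / L) := by
        have h2 : (2 : ℝ≥0∞) = ENNReal.ofReal 2 := by simp
        rw [h2, ← ENNReal.ofReal_mul (by positivity)]
        apply ENNReal.ofReal_le_ofReal
        have h3 : L ≤ κ * (2 : ℝ) ^ (n + 1) := by
          rw [div_le_iff₀ hκ] at hn2
          linarith [mul_comm κ ((2 : ℝ) ^ (n + 1))]
        have h4 : (2 : ℝ) ^ (-(n + 1)) = ((2 : ℝ) ^ (n + 1))⁻¹ := zpow_neg _ _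
        rw [h4, le_div_iff₀ hL]
        have h5 : (0 : ℝ) < (2 : ℝ) ^ (n + 1) := by positivity
        have h6 : ((2 : ℝ) ^ (n + 1))⁻¹ * 2 * L ≤ ((2 : ℝ) ^ (n + 1))⁻¹ * 2 * (κ * (2 : ℝ) ^ (n + 1)) :=
          mul_le_mul_of_nonneg_left h3 (by positivity)
        have h7 : ((2 : ℝ) ^ (n + 1))⁻¹ * 2 * (κ * (2 : ℝ) ^ (n + 1)) = 2 * κ := by
          field_simp
        linarith

/-- Consecutive pairs of a finite set. -/
noncomputable def consecPairs (A : Finset ℝ) : Finset (ℝ × ℝ) := by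
  classical
  exact (A ×ˢ A).filter (fun p => p.1 < p.2 ∧ ∀ c ∈ A, ¬ (p.1 < c ∧ c < p.2))

lemma mem_consecPairs {A : Finset ℝ} {p : ℝ × ℝ} :
    p ∈ consecPairs A ↔ p.1 ∈ A ∧ p.2 ∈ A ∧ p.1 < p.2 ∧ ∀ c ∈ A, ¬ (p.1 < c ∧ c < p.2) := by
  classical
  simp only [consecPairs, Finset.mem_filter, Finset.mem_product, and_assoc]

/-- A point between two elements of `A`, not in `A`, lies in a consecutive gap, contained in the
given gap. -/
lemma exists_consec {A : Finset ℝ} {a b t : ℝ} (ha : a ∈ A) (hb : b ∈ A) (hat : a < t) (htb : t < b)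
    (ht : t ∉ A) : ∃ p ∈ consecPairs A, a ≤ p.1 ∧ p.1 < t ∧ t < p.2 ∧ p.2 ≤ b := by
  classical
  have hne1 : (A.filter (· < t)).Nonempty := ⟨a, Finset.mem_filter.2 ⟨ha, hat⟩⟩
  have hne2 : (A.filter (t < ·)).Nonempty := ⟨b, Finset.mem_filter.2 ⟨hb, htb⟩⟩
  set a₀ := (A.filter (· < t)).max' hne1 with ha₀
  set b₀ := (A.filter (t < ·)).min' hne2 with hb₀
  have h1 := Finset.mem_filter.1 (Finset.max'_mem _ hne1)
  have h2 := Finset.mem_filter.1 (Finset.min'_mem _ hne2)
  refine ⟨(a₀, b₀), mem_consecPairs.2 ⟨h1.1, h2.1, lt_trans h1.2 h2.2, ?_⟩, ?_, h1.2, h2.2, ?_⟩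
  · rintro c hc ⟨hc1, hc2⟩
    rcases lt_trichotomy c t with h | h | h
    · have := Finset.le_max' (A.filter (· < t)) c (Finset.mem_filter.2 ⟨hc, h⟩)
      exact absurd hc1 (not_lt.2 this)
    · exact ht (h ▸ hc)
    · have := Finset.min'_le (A.filter (t < ·)) c (Finset.mem_filter.2 ⟨hc, h⟩)
      exact absurd hc2 (not_lt.2 this)
  · exact Finset.le_max' (A.filter (· < t)) a (Finset.mem_filter.2 ⟨ha, hat⟩)
  · exact Finset.min'_le (A.filter (t < ·)) b (Finset.mem_filter.2 ⟨hb, htb⟩)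

lemma isOpen_setOf_chordUpG {F : ℝ → ℝ} (hF : Continuous F) (G : Finset ℝ) (ρ : ℝ) :
    IsOpen {p : ℝ × ℝ | p.2 ∈ chordUpG F G p.1 ρ} := by
  have : {p : ℝ × ℝ | p.2 ∈ chordUpG F G p.1 ρ} =
      {p : ℝ × ℝ | p.1 < F p.2} ∩ ⋃ a ∈ G, ⋃ b ∈ G,
        {p : ℝ × ℝ | a < p.2 ∧ p.2 < b ∧ p.2 - a < ρ ∧ b - p.2 < ρ ∧ F a < p.1 ∧ F b < p.1} := by
    ext p
    simp only [chordUpG, mem_ofPred_eq, mem_inter_iff, mem_iUnion, exists_prop]
  rw [this]
  apply IsOpen.inter
  · exact isOpen_lt continuous_fst (hF.comp continuous_snd)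
  · refine isOpen_biUnion fun a _ => isOpen_biUnion fun b _ => ?_
    have h1 : IsOpen {p : ℝ × ℝ | a < p.2} := isOpen_lt continuous_const continuous_snd
    have h2 : IsOpen {p : ℝ × ℝ | p.2 < b} := isOpen_lt continuous_snd continuous_const
    have h3 : IsOpen {p : ℝ × ℝ | p.2 - a < ρ} :=
      isOpen_lt (continuous_snd.sub continuous_const) continuous_const
    have h4 : IsOpen {p : ℝ × ℝ | b - p.2 < ρ} :=
      isOpen_lt (continuous_const.sub continuous_snd) continuous_const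
    have h5 : IsOpen {p : ℝ × ℝ | F a < p.1} := isOpen_lt continuous_const continuous_fst
    have h6 : IsOpen {p : ℝ × ℝ | F b < p.1} := isOpen_lt continuous_const continuous_fst
    exact h1.inter (h2.inter (h3.inter (h4.inter (h5.inter h6))))

/-- The estimate at a fixed level, on a finite grid. -/
lemma fixed_level_bound {F : ℝ → ℝ} (hF : Continuous F) {κ h : ℝ} (hκ : 0 < κ) (hh : 0 < h)
    (G : Finset ℝ)
    (hG : ∀ a ∈ G, ∀ b ∈ G, a < b → a + h ≤ b ∧ (a + h < b → a + h ∈ G)) (s : ℝ) :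
    ∑' k : ℤ, ENNReal.ofReal ((2 : ℝ) ^ (-k)) *
        ∫⁻ t, (chordUpG F G s (κ * (2 : ℝ) ^ k)).indicator (fun _ => (1 : ℝ≥0∞)) t
      ≤ ENNReal.ofReal (4 * κ) *
        ∑ a ∈ G, (F '' Icc a (a + h)).indicator (fun _ => (1 : ℝ≥0∞)) s := by
  classical
  set A : Finset ℝ := G.filter (fun a => F a < s) with hA
  set P : Finset (ℝ × ℝ) := consecPairs A with hP
  set V : Set ℝ := {t | s < F t} with hV
  have hVo : IsOpen V := isOpen_lt continuous_const hF
  let Ψ : ℝ → ℝ≥0∞ := fun t => ∑ p ∈ P,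
    (Ioo p.1 p.2 ∩ V).indicator (fun _ => ENNReal.ofReal (4 * κ / (p.2 - p.1))) t
  -- measurability of the sets
  have hmeasC : ∀ ρ, MeasurableSet (chordUpG F G s ρ) := by
    intro ρ
    have := (isOpen_setOf_chordUpG hF G ρ).preimage (Continuous.prodMk_right s)
    exact this.measurableSet
  -- pointwise bound
  have hpt : ∀ t, ∑' k : ℤ, ENNReal.ofReal ((2 : ℝ) ^ (-k)) *
      (chordUpG F G s (κ * (2 : ℝ) ^ k)).indicator (fun _ => (1 : ℝ≥0∞)) t ≤ Ψ t := by
    intro t
    by_cases hex : ∃ k : ℤ, t ∈ chordUpG F G s (κ * (2 : ℝ) ^ k)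
    · obtain ⟨k₀, hk₀⟩ := hex
      obtain ⟨htV, a, ha, b, hb, hat, htb, -, -, hFa, hFb⟩ := hk₀
      have haA : a ∈ A := Finset.mem_filter.2 ⟨ha, hFa⟩
      have hbA : b ∈ A := Finset.mem_filter.2 ⟨hb, hFb⟩
      have htA : t ∉ A := fun h => by
        have := (Finset.mem_filter.1 h).2
        linarith
      obtain ⟨p, hp, -, hp1, hp2, -⟩ := exists_consec haA hbA hat htb htA
      have hpmem := mem_consecPairs.1 hp
      have hlen : 0 < p.2 - p.1 := by linarith
      have hL : 0 < (p.2 - p.1) / 2 := by linarith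
      -- every relevant scale exceeds half the gap
      have hscale : ∀ k : ℤ, t ∈ chordUpG F G s (κ * (2 : ℝ) ^ k) →
          (p.2 - p.1) / 2 < κ * (2 : ℝ) ^ k := by
        rintro k ⟨-, a', ha', b', hb', hat', htb', h1, h2, hFa', hFb'⟩
        have ha'A : a' ∈ A := Finset.mem_filter.2 ⟨ha', hFa'⟩
        have hb'A : b' ∈ A := Finset.mem_filter.2 ⟨hb', hFb'⟩
        have hpa : a' ≤ p.1 := by
          by_contra hc
          push Not at hc
          exact hpmem.2.2.2 a' ha'A ⟨hc, hat'.trans hp2⟩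
        have hpb : p.2 ≤ b' := by
          by_contra hc
          push Not at hc
          exact hpmem.2.2.2 b' hb'A ⟨hp1.trans htb', hc⟩
        linarith
      calc ∑' k : ℤ, ENNReal.ofReal ((2 : ℝ) ^ (-k)) *
            (chordUpG F G s (κ * (2 : ℝ) ^ k)).indicator (fun _ => (1 : ℝ≥0∞)) t
          ≤ ∑' k : ℤ, ({k : ℤ | (p.2 - p.1) / 2 < κ * (2 : ℝ) ^ k}).indicator
              (fun k : ℤ => ENNReal.ofReal ((2 : ℝ) ^ (-k))) k := by
            apply ENNReal.tsum_le_tsum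
            intro k
            by_cases hk : t ∈ chordUpG F G s (κ * (2 : ℝ) ^ k)
            · have : k ∈ {k : ℤ | (p.2 - p.1) / 2 < κ * (2 : ℝ) ^ k} := hscale k hk
              rw [indicator_of_mem hk, indicator_of_mem this, mul_one]
            · rw [indicator_of_notMem hk, mul_zero]
              exact zero_le
        _ ≤ ENNReal.ofReal (2 * κ / ((p.2 - p.1) / 2)) := tsum_dyadic_le hL hκ
        _ = ENNReal.ofReal (4 * κ / (p.2 - p.1)) := by
            congr 1; field_simp; ring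
        _ = (Ioo p.1 p.2 ∩ V).indicator (fun _ => ENNReal.ofReal (4 * κ / (p.2 - p.1))) t := by
            have hmem : t ∈ Ioo p.1 p.2 ∩ V := ⟨⟨hp1, hp2⟩, htV⟩
            rw [indicator_of_mem hmem]
        _ ≤ Ψ t := by
            exact Finset.single_le_sum
              (f := fun p : ℝ × ℝ =>
                (Ioo p.1 p.2 ∩ V).indicator (fun _ => ENNReal.ofReal (4 * κ / (p.2 - p.1))) t)
              (fun _ _ => zero_le) hp
    · push Not at hex
      have : ∑' k : ℤ, ENNReal.ofReal ((2 : ℝ) ^ (-k)) *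
          (chordUpG F G s (κ * (2 : ℝ) ^ k)).indicator (fun _ => (1 : ℝ≥0∞)) t = 0 := by
        rw [ENNReal.tsum_eq_zero]
        intro k
        rw [indicator_of_notMem (hex k), mul_zero]
      rw [this]
      exact zero_le
  -- integrate in t
  have hPsi : ∫⁻ t, Ψ t ≤ ENNReal.ofReal (4 * κ) *
      ∑ a ∈ G, (F '' Icc a (a + h)).indicator (fun _ => (1 : ℝ≥0∞)) s := by
    have hm : ∀ p ∈ P, Measurable
        ((Ioo p.1 p.2 ∩ V).indicator (fun _ => ENNReal.ofReal (4 * κ / (p.2 - p.1)))) := by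
      intro p _
      exact measurable_const.indicator (measurableSet_Ioo.inter hVo.measurableSet)
    simp only [Ψ]
    rw [lintegral_finsetSum _ hm]
    have hterm : ∀ p ∈ P, ∫⁻ t, (Ioo p.1 p.2 ∩ V).indicator
        (fun _ => ENNReal.ofReal (4 * κ / (p.2 - p.1))) t ≤
        ENNReal.ofReal (4 * κ) * (if (Ioo p.1 p.2 ∩ V).Nonempty then 1 else 0) := by
      intro p hp
      have hpmem := mem_consecPairs.1 hp
      have hlen : 0 < p.2 - p.1 := by linarith [hpmem.2.2.1]
      rw [lintegral_indicator (measurableSet_Ioo.inter hVo.measurableSet), setLIntegral_const]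
      by_cases hne : (Ioo p.1 p.2 ∩ V).Nonempty
      · rw [if_pos hne, mul_one]
        calc ENNReal.ofReal (4 * κ / (p.2 - p.1)) * volume (Ioo p.1 p.2 ∩ V)
            ≤ ENNReal.ofReal (4 * κ / (p.2 - p.1)) * volume (Ioo p.1 p.2) := by
              gcongr
              exact inter_subset_left
          _ = ENNReal.ofReal (4 * κ) := by
              rw [Real.volume_Ioo, ← ENNReal.ofReal_mul (by positivity)]
              congr 1
              field_simp
      · rw [if_neg hne, mul_zero]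
        rw [not_nonempty_iff_eq_empty.1 hne]
        simp
    refine (Finset.sum_le_sum hterm).trans ?_
    rw [← Finset.mul_sum]
    gcongr
    -- the counting step
    let P' : Finset (ℝ × ℝ) := P.filter (fun p => (Ioo p.1 p.2 ∩ V).Nonempty)
    have h1 : ∑ p ∈ P, (if (Ioo p.1 p.2 ∩ V).Nonempty then (1 : ℝ≥0∞) else 0) = (P'.card : ℝ≥0∞) := by
      rw [Finset.card_eq_sum_ones, Nat.cast_sum, Finset.sum_filter]
      apply Finset.sum_congr rfl
      intro p _
      by_cases hh : (Ioo p.1 p.2 ∩ V).Nonempty <;> simp [hh]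
    let Q : Finset ℝ := G.filter (fun a => s ∈ F '' Icc a (a + h))
    have h2 : ∑ a ∈ G, (F '' Icc a (a + h)).indicator (fun _ => (1 : ℝ≥0∞)) s = (Q.card : ℝ≥0∞) := by
      rw [Finset.card_eq_sum_ones, Nat.cast_sum, Finset.sum_filter]
      apply Finset.sum_congr rfl
      intro a _
      by_cases hh : s ∈ F '' Icc a (a + h)
      · simp [hh]
      · simp [hh]
    rw [h1, h2]
    have hinj : Set.InjOn Prod.fst (P' : Set (ℝ × ℝ)) := by
      intro p hp q hq hpq
      have hp' := mem_consecPairs.1 (Finset.mem_filter.1 (Finset.mem_coe.1 hp)).1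
      have hq' := mem_consecPairs.1 (Finset.mem_filter.1 (Finset.mem_coe.1 hq)).1
      have hpq' : p.1 = q.1 := hpq
      apply Prod.ext hpq'
      rcases lt_trichotomy p.2 q.2 with hh' | hh' | hh'
      · exfalso
        apply hq'.2.2.2 p.2 hp'.2.1
        exact ⟨by rw [← hpq']; exact hp'.2.2.1, hh'⟩
      · exact hh'
      · exfalso
        apply hp'.2.2.2 q.2 hq'.2.1
        exact ⟨by rw [hpq']; exact hq'.2.2.1, hh'⟩
    have hsub : P'.image Prod.fst ⊆ Q := by
      intro a ha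
      obtain ⟨p, hp, rfl⟩ := Finset.mem_image.1 ha
      obtain ⟨hpP, t, ⟨ht1, ht2⟩, htV⟩ := Finset.mem_filter.1 hp
      have hpmem := mem_consecPairs.1 hpP
      have hp1G := (Finset.mem_filter.1 hpmem.1)
      have hp2G := (Finset.mem_filter.1 hpmem.2.1)
      have hgr := hG p.1 hp1G.1 p.2 hp2G.1 hpmem.2.2.1
      refine Finset.mem_filter.2 ⟨hp1G.1, ?_⟩
      have hFp1 : F p.1 < s := hp1G.2
      have hVt : s < F t := htV
      by_cases hlt : p.1 + h < p.2
      · have hmem := hgr.2 hlt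
        have hnot : ¬ F (p.1 + h) < s := by
          intro hc
          have hha : p.1 + h ∈ A := Finset.mem_filter.2 ⟨hmem, hc⟩
          exact hpmem.2.2.2 _ hha ⟨by linarith, hlt⟩
        have hs : s ∈ Icc (F p.1) (F (p.1 + h)) := ⟨hFp1.le, not_lt.1 hnot⟩
        exact intermediate_value_Icc (by linarith) hF.continuousOn hs
      · have hs : s ∈ Icc (F p.1) (F t) := ⟨hFp1.le, hVt.le⟩
        obtain ⟨c, hc, hcs⟩ := intermediate_value_Icc ht1.le hF.continuousOn hs
        exact ⟨c, ⟨hc.1, by linarith [hc.2, not_lt.1 hlt]⟩, hcs⟩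
    calc (P'.card : ℝ≥0∞) = ((P'.image Prod.fst).card : ℝ≥0∞) := by
          rw [Finset.card_image_of_injOn hinj]
      _ ≤ (Q.card : ℝ≥0∞) := by
          exact_mod_cast Finset.card_le_card hsub
  -- put together
  have hmeasF : ∀ k : ℤ, Measurable
      ((chordUpG F G s (κ * (2 : ℝ) ^ k)).indicator (fun _ => (1 : ℝ≥0∞))) :=
    fun k => measurable_const.indicator (hmeasC _)
  calc ∑' k : ℤ, ENNReal.ofReal ((2 : ℝ) ^ (-k)) *
        ∫⁻ t, (chordUpG F G s (κ * (2 : ℝ) ^ k)).indicator (fun _ => (1 : ℝ≥0∞)) t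
      = ∫⁻ t, ∑' k : ℤ, ENNReal.ofReal ((2 : ℝ) ^ (-k)) *
        (chordUpG F G s (κ * (2 : ℝ) ^ k)).indicator (fun _ => (1 : ℝ≥0∞)) t := by
        rw [lintegral_tsum]
        · congr 1
          ext k
          rw [lintegral_const_mul _ (hmeasF k)]
        · intro k
          exact ((hmeasF k).const_mul _).aemeasurable
    _ ≤ ∫⁻ t, Ψ t := lintegral_mono hpt
    _ ≤ _ := hPsi

/-- The dyadic grid of level `m` in `[-m, m]`. -/
noncomputable def gridPts (m : ℕ) : Finset ℝ := by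
  classical
  exact (Finset.Icc (-((m : ℤ) * 2 ^ m)) ((m : ℤ) * 2 ^ m)).image (fun i : ℤ => (i : ℝ) / 2 ^ m)

lemma mem_gridPts {m : ℕ} {a : ℝ} :
    a ∈ gridPts m ↔ ∃ i : ℤ, -((m : ℤ) * 2 ^ m) ≤ i ∧ i ≤ (m : ℤ) * 2 ^ m ∧ (i : ℝ) / 2 ^ m = a := by
  classical
  simp only [gridPts, Finset.mem_image, Finset.mem_Icc, and_assoc]

lemma gridPts_struct (m : ℕ) :
    ∀ a ∈ gridPts m, ∀ b ∈ gridPts m, a < b →
      a + 1 / 2 ^ m ≤ b ∧ (a + 1 / 2 ^ m < b → a + 1 / 2 ^ m ∈ gridPts m) := by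
  intro a ha b hb hab
  obtain ⟨i, hi1, hi2, rfl⟩ := mem_gridPts.1 ha
  obtain ⟨j, hj1, hj2, rfl⟩ := mem_gridPts.1 hb
  have hpos : (0 : ℝ) < 2 ^ m := by positivity
  have hij : i < j := by
    have : (i : ℝ) < j := by
      rwa [div_lt_div_iff_of_pos_right hpos] at hab
    exact_mod_cast this
  have hadd : (i : ℝ) / 2 ^ m + 1 / 2 ^ m = ((i + 1 : ℤ) : ℝ) / 2 ^ m := by
    push_cast; ring
  rw [hadd]
  constructor
  · apply (div_le_div_iff_of_pos_right hpos).2
    exact_mod_cast hij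
  · intro hlt
    have hij' : i + 1 < j := by
      have : ((i + 1 : ℤ) : ℝ) < j := by
        rwa [div_lt_div_iff_of_pos_right hpos] at hlt
      exact_mod_cast this
    exact mem_gridPts.2 ⟨i + 1, by omega, by omega, rfl⟩

lemma gridPts_mono {m m' : ℕ} (h : m ≤ m') : gridPts m ⊆ gridPts m' := by
  intro a ha
  obtain ⟨i, hi1, hi2, rfl⟩ := mem_gridPts.1 ha
  obtain ⟨l, rfl⟩ := Nat.exists_eq_add_of_le h
  refine mem_gridPts.2 ⟨i * 2 ^ l, ?_, ?_, ?_⟩
  · have h2 : (0 : ℤ) < 2 ^ l := by positivity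
    have hm : (m : ℤ) * 2 ^ m * 2 ^ l ≤ ((m + l : ℕ) : ℤ) * 2 ^ (m + l) := by
      rw [pow_add]
      have : (m : ℤ) ≤ ((m + l : ℕ) : ℤ) := by push_cast; omega
      have h3 : (0 : ℤ) ≤ 2 ^ m * 2 ^ l := by positivity
      nlinarith
    nlinarith
  · have h2 : (0 : ℤ) < 2 ^ l := by positivity
    have hm : (m : ℤ) * 2 ^ m * 2 ^ l ≤ ((m + l : ℕ) : ℤ) * 2 ^ (m + l) := by
      rw [pow_add]
      have : (m : ℤ) ≤ ((m + l : ℕ) : ℤ) := by push_cast; omega
      have h3 : (0 : ℤ) ≤ 2 ^ m * 2 ^ l := by positivity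
      nlinarith
    nlinarith
  · push_cast
    rw [pow_add]
    field_simp

/-- Every nonempty open interval contains a grid point. -/
lemma exists_gridPt {x y : ℝ} (hxy : x < y) : ∃ m : ℕ, ∃ a ∈ gridPts m, x < a ∧ a < y := by
  obtain ⟨m₁, hm₁⟩ := exists_nat_gt (|x| + |y| + 1)
  obtain ⟨m₂, hm₂⟩ := exists_pow_lt_of_lt_one (sub_pos.2 hxy) (by norm_num : (1 / 2 : ℝ) < 1)
  set m := max m₁ m₂ with hm
  have hm1 : (m₁ : ℝ) ≤ m := by exact_mod_cast le_max_left _ _
  have hm2 : (1 / 2 : ℝ) ^ m ≤ (1 / 2 : ℝ) ^ m₂ :=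
    pow_le_pow_of_le_one (by norm_num) (by norm_num) (le_max_right _ _)
  have hpos : (0 : ℝ) < 2 ^ m := by positivity
  set i : ℤ := ⌊x * 2 ^ m⌋ + 1 with hi
  have hi1 : x * 2 ^ m < i := by
    rw [hi]; push_cast; exact Int.lt_floor_add_one _
  have hi2 : (i : ℝ) ≤ x * 2 ^ m + 1 := by
    rw [hi]; push_cast; linarith [Int.floor_le (x * 2 ^ m)]
  have hone : (1 / 2 : ℝ) ^ m * 2 ^ m = 1 := by
    rw [← mul_pow]; norm_num
  have hax : x < (i : ℝ) / 2 ^ m := by
    rw [lt_div_iff₀ hpos]; exact hi1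
  have hay : (i : ℝ) / 2 ^ m < y := by
    rw [div_lt_iff₀ hpos]
    have : (1 / 2 : ℝ) ^ m < y - x := lt_of_le_of_lt hm2 hm₂
    nlinarith
  refine ⟨m, (i : ℝ) / 2 ^ m, mem_gridPts.2 ⟨i, ?_, ?_, rfl⟩, hax, hay⟩
  · have hx : -|x| ≤ x := neg_abs_le x
    have hb : -((m : ℝ) * 2 ^ m) ≤ i := by
      have h1 : (|x| + |y| + 1) * 2 ^ m ≤ (m : ℝ) * 2 ^ m :=
        mul_le_mul_of_nonneg_right (hm₁.le.trans hm1) hpos.le
      have hy : 0 ≤ |y| := abs_nonneg y
      nlinarith
    exact_mod_cast hb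
  · have hb : (i : ℝ) ≤ (m : ℝ) * 2 ^ m := by
      have h1 : (|x| + |y| + 1) * 2 ^ m ≤ (m : ℝ) * 2 ^ m :=
        mul_le_mul_of_nonneg_right (hm₁.le.trans hm1) hpos.le
      have hy : 0 ≤ |y| := abs_nonneg y
      have hx : x ≤ |x| := le_abs_self x
      have h2 : (1 : ℝ) ≤ 2 ^ m := one_le_pow₀ (by norm_num)
      nlinarith
    exact_mod_cast hb

lemma chordUp_eq_iUnion {F : ℝ → ℝ} (hF : Continuous F) (s ρ : ℝ) :
    chordUp F s ρ = ⋃ m, chordUpG F (gridPts m) s ρ := by
  ext t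
  simp only [mem_iUnion]
  constructor
  · rintro ⟨hs, τ₁, τ₂, h1, h2, h3, h4, h5, h6⟩
    -- an open neighbourhood of the right low point
    have hopen : IsOpen {c | F c < s} := isOpen_lt hF continuous_const
    obtain ⟨ε₁, hε₁, hb₁⟩ := Metric.isOpen_iff.1 hopen (t + τ₁) h5
    obtain ⟨ε₂, hε₂, hb₂⟩ := Metric.isOpen_iff.1 hopen (t - τ₂) h6
    obtain ⟨m₁, b, hb, hb1, hb2⟩ := exists_gridPt (x := max t (t + τ₁ - ε₁))
      (y := min (t + ρ) (t + τ₁ + ε₁)) (by
        apply max_lt <;> apply lt_min <;> linarith)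
    obtain ⟨m₂, a, ha, ha1, ha2⟩ := exists_gridPt (x := max (t - ρ) (t - τ₂ - ε₂))
      (y := min t (t - τ₂ + ε₂)) (by
        apply max_lt <;> apply lt_min <;> linarith)
    refine ⟨max m₁ m₂, hs, a, gridPts_mono (le_max_right _ _) ha, b,
      gridPts_mono (le_max_left _ _) hb, ?_, ?_, ?_, ?_, ?_, ?_⟩
    · exact lt_of_lt_of_le ha2 (min_le_left _ _)
    · exact lt_of_le_of_lt (le_max_left _ _) hb1
    · have := lt_of_le_of_lt (le_max_left _ _) ha1; linarith
    · have := lt_of_lt_of_le hb2 (min_le_left _ _); linarith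
    · apply hb₂
      rw [Metric.mem_ball, Real.dist_eq, abs_lt]
      have h7 := lt_of_le_of_lt (le_max_right _ _) ha1
      have h8 := lt_of_lt_of_le ha2 (min_le_right _ _)
      constructor <;> linarith
    · apply hb₁
      rw [Metric.mem_ball, Real.dist_eq, abs_lt]
      have h7 := lt_of_le_of_lt (le_max_right _ _) hb1
      have h8 := lt_of_lt_of_le hb2 (min_le_right _ _)
      constructor <;> linarith
  · rintro ⟨m, hs, a, -, b, -, hat, htb, h1, h2, h3, h4⟩
    refine ⟨hs, b - t, t - a, by linarith, h2, by linarith, h1, ?_, ?_⟩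
    · have : t + (b - t) = b := by ring
      rwa [this]
    · have : t - (t - a) = a := by ring
      rwa [this]

lemma chordUpG_mono (F : ℝ → ℝ) (s ρ : ℝ) :
    Monotone (fun m => chordUpG F (gridPts m) s ρ) := by
  intro m m' h t ht
  obtain ⟨hs, a, ha, b, hb, rest⟩ := ht
  exact ⟨hs, a, gridPts_mono h ha, b, gridPts_mono h hb, rest⟩

/-- The estimate on a fixed grid after integrating over the level. -/
lemma grid_bound {F : ℝ → ℝ} {L : ℝ≥0} (hF : LipschitzWith L F) {κ : ℝ} (hκ : 0 < κ) (m : ℕ) :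
    ∑' k : ℤ, ENNReal.ofReal ((2 : ℝ) ^ (-k)) *
        ∫⁻ s, ∫⁻ t, (chordUpG F (gridPts m) s (κ * (2 : ℝ) ^ k)).indicator (fun _ => (1 : ℝ≥0∞)) t
      ≤ ENNReal.ofReal (4 * κ) * ∫⁻ t, ‖deriv F t‖ₑ := by
  classical
  have hFc := hF.continuous
  set G := gridPts m with hG
  set h : ℝ := 1 / 2 ^ m with hh
  have hhpos : 0 < h := by positivity
  have hmj : ∀ ρ, Measurable (fun p : ℝ × ℝ =>
      (chordUpG F G p.1 ρ).indicator (fun _ => (1 : ℝ≥0∞)) p.2) := by
    intro ρ
    have hm := (isOpen_setOf_chordUpG hFc G ρ).measurableSet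
    have : (fun p : ℝ × ℝ => (chordUpG F G p.1 ρ).indicator (fun _ => (1 : ℝ≥0∞)) p.2) =
        ({p : ℝ × ℝ | p.2 ∈ chordUpG F G p.1 ρ}).indicator (fun _ => (1 : ℝ≥0∞)) := by
      ext p
      by_cases hp : p.2 ∈ chordUpG F G p.1 ρ
      · rw [indicator_of_mem hp, indicator_of_mem (show p ∈ {p : ℝ × ℝ | p.2 ∈ chordUpG F G p.1 ρ} from hp)]
      · rw [indicator_of_notMem hp, indicator_of_notMem (show p ∉ {p : ℝ × ℝ | p.2 ∈ chordUpG F G p.1 ρ} from hp)]
    rw [this]
    exact measurable_const.indicator hm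
  have hms : ∀ ρ, Measurable (fun s : ℝ =>
      ∫⁻ t, (chordUpG F G s ρ).indicator (fun _ => (1 : ℝ≥0∞)) t) :=
    fun ρ => (hmj ρ).lintegral_prod_right'
  have himm : ∀ a : ℝ, MeasurableSet (F '' Icc a (a + h)) := fun a =>
    (isCompact_Icc.image hFc).measurableSet
  calc ∑' k : ℤ, ENNReal.ofReal ((2 : ℝ) ^ (-k)) *
        ∫⁻ s, ∫⁻ t, (chordUpG F G s (κ * (2 : ℝ) ^ k)).indicator (fun _ => (1 : ℝ≥0∞)) t
      = ∫⁻ s, ∑' k : ℤ, ENNReal.ofReal ((2 : ℝ) ^ (-k)) *
        ∫⁻ t, (chordUpG F G s (κ * (2 : ℝ) ^ k)).indicator (fun _ => (1 : ℝ≥0∞)) t := by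
        rw [lintegral_tsum]
        · congr 1
          ext k
          rw [lintegral_const_mul _ (hms _)]
        · intro k
          exact ((hms _).const_mul _).aemeasurable
    _ ≤ ∫⁻ s, ENNReal.ofReal (4 * κ) *
        ∑ a ∈ G, (F '' Icc a (a + h)).indicator (fun _ => (1 : ℝ≥0∞)) s :=
        lintegral_mono (fun s => fixed_level_bound hFc hκ hhpos G (gridPts_struct m) s)
    _ = ENNReal.ofReal (4 * κ) * ∑ a ∈ G, volume (F '' Icc a (a + h)) := by
        rw [lintegral_const_mul _ (Finset.measurable_sum _ (fun a _ =>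
          measurable_const.indicator (himm a)))]
        rw [lintegral_finsetSum _ (fun a _ => measurable_const.indicator (himm a))]
        congr 2
        ext a
        rw [lintegral_indicator (himm a)]
        simp
    _ ≤ ENNReal.ofReal (4 * κ) * ∫⁻ t, ‖deriv F t‖ₑ := by
        gcongr
        have hdisj : (G : Set ℝ).PairwiseDisjoint (fun a => Ico a (a + h)) := by
          intro a ha b hb hab
          rw [Function.onFun, Set.disjoint_left]
          intro t ht ht'
          rcases lt_or_gt_of_ne hab with hlt | hlt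
          · have := (gridPts_struct m a ha b hb hlt).1
            linarith [ht.2, ht'.1]
          · have := (gridPts_struct m b hb a ha hlt).1
            linarith [ht.1, ht'.2]
        calc ∑ a ∈ G, volume (F '' Icc a (a + h))
            ≤ ∑ a ∈ G, ∫⁻ t in Icc a (a + h), ‖deriv F t‖ₑ :=
              Finset.sum_le_sum (fun a _ => volume_image_le hF measurableSet_Icc)
          _ = ∑ a ∈ G, ∫⁻ t in Ico a (a + h), ‖deriv F t‖ₑ := by
              apply Finset.sum_congr rfl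
              intro a _
              exact (setLIntegral_congr Ico_ae_eq_Icc).symm
          _ = ∫⁻ t in ⋃ a ∈ G, Ico a (a + h), ‖deriv F t‖ₑ :=
              (lintegral_biUnion_finset hdisj (fun a _ => measurableSet_Ico) _).symm
          _ ≤ ∫⁻ t, ‖deriv F t‖ₑ := setLIntegral_le_lintegral _ _

/-- The one-sided chord capacity estimate. -/
theorem capacity_up {F : ℝ → ℝ} {L : ℝ≥0} (hF : LipschitzWith L F) {κ : ℝ} (hκ : 0 < κ) :
    ∑' k : ℤ, ENNReal.ofReal ((2 : ℝ) ^ (-k)) *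
        ∫⁻ s, ∫⁻ t, (chordUp F s (κ * (2 : ℝ) ^ k)).indicator (fun _ => (1 : ℝ≥0∞)) t
      ≤ ENNReal.ofReal (4 * κ) * ∫⁻ t, ‖deriv F t‖ₑ := by
  classical
  have hFc := hF.continuous
  -- monotone limit for each scale
  have hT : ∀ ρ : ℝ, ∫⁻ s, ∫⁻ t, (chordUp F s ρ).indicator (fun _ => (1 : ℝ≥0∞)) t =
      ⨆ m, ∫⁻ s, ∫⁻ t, (chordUpG F (gridPts m) s ρ).indicator (fun _ => (1 : ℝ≥0∞)) t := by
    intro ρ
    have hmj : ∀ m, Measurable (fun p : ℝ × ℝ =>
        (chordUpG F (gridPts m) p.1 ρ).indicator (fun _ => (1 : ℝ≥0∞)) p.2) := by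
      intro m
      have hm := (isOpen_setOf_chordUpG hFc (gridPts m) ρ).measurableSet
      have : (fun p : ℝ × ℝ => (chordUpG F (gridPts m) p.1 ρ).indicator (fun _ => (1 : ℝ≥0∞)) p.2) =
          ({p : ℝ × ℝ | p.2 ∈ chordUpG F (gridPts m) p.1 ρ}).indicator (fun _ => (1 : ℝ≥0∞)) := by
        ext p
        by_cases hp : p.2 ∈ chordUpG F (gridPts m) p.1 ρ
        · rw [indicator_of_mem hp, indicator_of_mem (show p ∈ {p : ℝ × ℝ | p.2 ∈ chordUpG F (gridPts m) p.1 ρ} from hp)]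
        · rw [indicator_of_notMem hp, indicator_of_notMem (show p ∉ {p : ℝ × ℝ | p.2 ∈ chordUpG F (gridPts m) p.1 ρ} from hp)]
      rw [this]
      exact measurable_const.indicator hm
    have hmono : ∀ (s t : ℝ), Monotone (fun m =>
        (chordUpG F (gridPts m) s ρ).indicator (fun _ => (1 : ℝ≥0∞)) t) := by
      intro s t m m' h
      apply indicator_le_indicator_of_subset (chordUpG_mono F s ρ h) (fun _ => zero_le)
    have hinner : ∀ s, ∫⁻ t, (chordUp F s ρ).indicator (fun _ => (1 : ℝ≥0∞)) t =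
        ⨆ m, ∫⁻ t, (chordUpG F (gridPts m) s ρ).indicator (fun _ => (1 : ℝ≥0∞)) t := by
      intro s
      rw [← lintegral_iSup]
      · apply lintegral_congr
        intro t
        rw [chordUp_eq_iUnion hFc]
        exact indicator_iUnion_apply (by simp) _ _ _
      · intro m
        exact (hmj m).comp measurable_prodMk_left
      · intro m m' h t
        exact hmono s t h
    simp_rw [hinner]
    rw [lintegral_iSup]
    · intro m
      exact (hmj m).lintegral_prod_right'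
    · intro m m' h s
      exact lintegral_mono (fun t => hmono s t h)
  rw [ENNReal.tsum_eq_iSup_sum]
  apply iSup_le
  intro K
  simp_rw [hT, ENNReal.mul_iSup]
  rw [ENNReal.finsetSum_iSup_of_monotone]
  · apply iSup_le
    intro m
    refine le_trans ?_ (grid_bound hF hκ m)
    exact ENNReal.sum_le_tsum K
  · intro k m m' h
    refine mul_le_mul' le_rfl ?_
    apply lintegral_mono
    intro s
    apply lintegral_mono
    intro t
    exact indicator_le_indicator_of_subset (chordUpG_mono F s _ h) (fun _ => zero_le) t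

end Vale.Agent.Lib.P137



/-! The one-dimensional line lemma. -/

namespace Vale.Agent.Lib.P137

open MeasureTheory Set Filter Topology
open scoped ENNReal NNReal

/-- Averaging a set over a grid of mesh `η`. -/
lemma volume_eq_lintegral_grid {S : Set ℝ} (hS : MeasurableSet S) {η : ℝ} (hη : 0 < η) :
    volume S = ∫⁻ θ in Ioc 0 η, ∑' k : ℤ, S.indicator (fun _ => (1 : ℝ≥0∞)) (θ + η * k) := by
  have hmeas : Measurable (S.indicator (fun _ => (1 : ℝ≥0∞))) :=
    measurable_const.indicator hS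
  rw [lintegral_tsum]
  · have hU : (⋃ n : ℤ, Ioc (0 + n • η) (0 + (n + 1) • η)) = univ := iUnion_Ioc_add_zsmul hη 0
    have hD : Pairwise (Function.onFun Disjoint fun n : ℤ => Ioc (0 + n • η) (0 + (n + 1) • η)) :=
      pairwise_disjoint_Ioc_add_zsmul 0 η
    have h1 : volume S = ∫⁻ x, S.indicator (fun _ => (1 : ℝ≥0∞)) x := by
      rw [lintegral_indicator hS]; simp
    rw [h1, ← setLIntegral_univ, ← hU, lintegral_iUnion (fun n => measurableSet_Ioc) hD]
    congr 1
    ext k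
    have hsm : MeasurableSet (Ioc (0 : ℝ) η) := measurableSet_Ioc
    rw [← lintegral_indicator measurableSet_Ioc, ← lintegral_indicator hsm,
      ← lintegral_add_right_eq_self _ (η * k)]
    apply lintegral_congr
    intro θ
    have hiff : θ + η * k ∈ Ioc (0 + k • η) (0 + (k + 1) • η) ↔ θ ∈ Ioc 0 η := by
      simp only [mem_Ioc, zsmul_eq_mul, zero_add]
      push_cast
      constructor
      · rintro ⟨h1, h2⟩; constructor <;> nlinarith
      · rintro ⟨h1, h2⟩; constructor <;> nlinarith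
    by_cases h : θ ∈ Ioc 0 η
    · rw [indicator_of_mem h, indicator_of_mem (hiff.2 h)]
    · rw [indicator_of_notMem h, indicator_of_notMem (fun h' => h (hiff.1 h'))]
  · intro k
    exact (hmeas.comp (by fun_prop)).aemeasurable

/-- The one-dimensional line lemma. -/
theorem line_lemma {U F U' : ℝ → ℝ} {LU LF : ℝ≥0} (hU : LipschitzWith LU U)
    (hF : LipschitzWith LF F) {Y : Set ℝ} (hY : MeasurableSet Y)
    (hd : ∀ t ∈ Y, HasDerivAt U (U' t) t) (hpos : ∀ t ∈ Y, 0 < U' t)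
    (hlt : ∀ t ∈ Y, F t < U t)
    (hray : ∀ t ∈ Y, ∃ τ, 0 ≤ τ ∧ (∀ σ ∈ Icc 0 τ, U t ≤ U (t + σ)) ∧
      (U t - F t) / 4 ≤ |F (t + τ) - F t|) :
    ∫⁻ t in Y, ENNReal.ofReal (U' t) ≤ 5 * ∫⁻ t, ‖deriv F t‖ₑ := by
  classical
  set V : ℝ≥0∞ := ∫⁻ t, ‖deriv F t‖ₑ with hV
  have hUc : Continuous U := hU.continuous
  have hFc : Continuous F := hF.continuous
  -- the uniform pieces
  let Ym : ℕ → Set ℝ := fun m => Y ∩ ({t | 1 / ((m : ℝ) + 1) ≤ U t - F t} ∩
    {t | ∀ h : ℝ, 0 < h → h ≤ 1 / ((m : ℝ) + 1) →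
      h / ((m : ℝ) + 1) ≤ U (t + h) - U t ∧ h / ((m : ℝ) + 1) ≤ U t - U (t - h)})
  have hYmm : ∀ m, MeasurableSet (Ym m) := by
    intro m
    refine hY.inter (MeasurableSet.inter ?_ ?_)
    · exact (isClosed_le continuous_const (hUc.sub hFc)).measurableSet
    · have : {t | ∀ h : ℝ, 0 < h → h ≤ 1 / ((m : ℝ) + 1) →
          h / ((m : ℝ) + 1) ≤ U (t + h) - U t ∧ h / ((m : ℝ) + 1) ≤ U t - U (t - h)} =
          ⋂ h : ℝ, ⋂ (_ : 0 < h), ⋂ (_ : h ≤ 1 / ((m : ℝ) + 1)),
            {t | h / ((m : ℝ) + 1) ≤ U (t + h) - U t} ∩ {t | h / ((m : ℝ) + 1) ≤ U t - U (t - h)} := by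
        ext t; simp only [mem_ofPred_eq, mem_iInter, mem_inter_iff]
      rw [this]
      apply IsClosed.measurableSet
      refine isClosed_iInter fun h => isClosed_iInter fun _ => isClosed_iInter fun _ => ?_
      apply IsClosed.inter
      · exact isClosed_le continuous_const ((hUc.comp (by fun_prop)).sub hUc)
      · exact isClosed_le continuous_const (hUc.sub (hUc.comp (by fun_prop)))
  have hYmono : Monotone Ym := by
    intro m m' hmm t ht
    have hm : (m : ℝ) ≤ m' := by exact_mod_cast hmm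
    have hm0 : (0 : ℝ) ≤ m := Nat.cast_nonneg m
    have h1 : 1 / ((m' : ℝ) + 1) ≤ 1 / ((m : ℝ) + 1) :=
      one_div_le_one_div_of_le (by linarith) (by linarith)
    refine ⟨ht.1, h1.trans ht.2.1, ?_⟩
    intro h hh hh'
    obtain ⟨a, b⟩ := ht.2.2 h hh (hh'.trans h1)
    have h2 : h / ((m' : ℝ) + 1) ≤ h / ((m : ℝ) + 1) := by
      apply div_le_div_of_nonneg_left hh.le (by linarith) (by linarith)
    exact ⟨h2.trans a, h2.trans b⟩
  have hYcover : Y = ⋃ m, Ym m := by
    apply Subset.antisymm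
    · intro t ht
      have hpos' := hpos t ht
      have he := sub_pos.2 (hlt t ht)
      -- derivative estimate
      have hder := (hd t ht).hasDerivWithinAt (s := univ)
      have hlo : ∀ᶠ h in 𝓝[≠] (0 : ℝ), (U (t + h) - U t) / h ∈ Ioi (U' t / 2) := by
        have := (hasDerivAt_iff_tendsto_slope_zero.1 (hd t ht))
        have h2 : Tendsto (fun h : ℝ => h⁻¹ • (U (t + h) - U t)) (𝓝[≠] 0) (𝓝 (U' t)) := this
        have h3 : Ioi (U' t / 2) ∈ 𝓝 (U' t) := Ioi_mem_nhds (by linarith)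
        have h4 := h2 h3
        filter_upwards [h4] with h hh
        simpa [div_eq_inv_mul] using hh
      rw [eventually_nhdsWithin_iff] at hlo
      obtain ⟨δ, hδ, hδ'⟩ := Metric.eventually_nhds_iff.1 hlo
      -- choose m
      have hmin : 0 < min (min δ (U' t / 2)) (U t - F t) :=
        lt_min (lt_min hδ (by linarith)) he
      obtain ⟨m, hm⟩ := exists_nat_one_div_lt hmin
      have hm1 : 1 / ((m : ℝ) + 1) < δ := hm.trans_le ((min_le_left _ _).trans (min_le_left _ _))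
      have hm2 : 1 / ((m : ℝ) + 1) < U' t / 2 := hm.trans_le ((min_le_left _ _).trans (min_le_right _ _))
      have hm3 : 1 / ((m : ℝ) + 1) < U t - F t := hm.trans_le (min_le_right _ _)
      refine mem_iUnion.2 ⟨m, ht, hm3.le, ?_⟩
      intro h hh hh'
      have hm0 : (0 : ℝ) < (m : ℝ) + 1 := by positivity
      have hrate : h / ((m : ℝ) + 1) ≤ h * (U' t / 2) := by
        rw [div_eq_mul_one_div]
        exact mul_le_mul_of_nonneg_left hm2.le hh.le
      constructor
      · have h5 := hδ' (y := h) (by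
          rw [Real.dist_eq, sub_zero, abs_of_pos hh]; linarith) (ne_of_gt hh)
        have h6 : U' t / 2 < (U (t + h) - U t) / h := h5
        rw [lt_div_iff₀ hh] at h6
        nlinarith
      · have hneg : -h < 0 := by linarith
        have h5 := hδ' (y := -h) (by
          rw [Real.dist_eq, sub_zero, abs_neg, abs_of_pos hh]; linarith) (ne_of_lt hneg)
        have h6 : U' t / 2 < (U (t + -h) - U t) / (-h) := h5
        rw [lt_div_iff_of_neg hneg] at h6
        have h7 : t + -h = t - h := by ring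
        rw [h7] at h6
        nlinarith
    · exact iUnion_subset (fun m => inter_subset_left)
  -- bound for each m
  have hstep : ∀ (m : ℕ) (η : ℝ), 0 < η →
      ∫⁻ t in Ym m, ENNReal.ofReal (U' t) ≤ ENNReal.ofReal (5 + 4 * η * ((m : ℝ) + 1)) * V := by
    intro m η hη
    have hm0 : (0 : ℝ) < (m : ℝ) + 1 := by positivity
    let Z : ℤ → Set ℝ := fun j => Ym m ∩ Ico ((j : ℝ) / (2 * ((m : ℝ) + 1)))
      (((j : ℝ) + 1) / (2 * ((m : ℝ) + 1)))
    have hZm : ∀ j, MeasurableSet (Z j) := fun j => (hYmm m).inter measurableSet_Ico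
    have hZsub : ∀ j, Z j ⊆ Ym m := fun j => inter_subset_left
    have hZincr : ∀ j, ∀ t ∈ Z j, ∀ t' ∈ Z j, t < t' → U t < U t' := by
      intro j t ht t' ht' htt
      have h1 : t' - t ≤ 1 / ((m : ℝ) + 1) := by
        have a1 := ht.2.1
        have a2 := ht'.2.2
        have : ((j : ℝ) + 1) / (2 * ((m : ℝ) + 1)) - (j : ℝ) / (2 * ((m : ℝ) + 1)) =
            1 / (2 * ((m : ℝ) + 1)) := by field_simp; ring
        have h3 : 1 / (2 * ((m : ℝ) + 1)) ≤ 1 / ((m : ℝ) + 1) :=
          one_div_le_one_div_of_le hm0 (by linarith)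
        linarith
      obtain ⟨a, -⟩ := ht.1.2.2 (t' - t) (by linarith) h1
      have h2 : t + (t' - t) = t' := by ring
      rw [h2] at a
      have : 0 < (t' - t) / ((m : ℝ) + 1) := div_pos (by linarith) hm0
      linarith
    have hZmono : ∀ j, MonotoneOn U (Z j) := by
      intro j t ht t' ht' htt
      rcases htt.lt_or_eq with h | h
      · exact (hZincr j t ht t' ht' h).le
      · rw [h]
    have hZdisj : Pairwise (Function.onFun Disjoint Z) := by
      intro j j' hjj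
      rw [Function.onFun, Set.disjoint_left]
      intro t ht ht'
      have h2 : 0 < 2 * ((m : ℝ) + 1) := by positivity
      have a1 := ht.2.1
      have a2 := ht.2.2
      have b1 := ht'.2.1
      have b2 := ht'.2.2
      rw [div_le_iff₀ h2] at a1 b1
      rw [lt_div_iff₀ h2] at a2 b2
      have c1 : (j : ℝ) < (j' : ℝ) + 1 := by linarith
      have c2 : (j' : ℝ) < (j : ℝ) + 1 := by linarith
      have c1' : j < j' + 1 := by exact_mod_cast c1
      have c2' : j' < j + 1 := by exact_mod_cast c2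
      exact hjj (by omega)
    have hZcov : Ym m = ⋃ j, Z j := by
      apply Subset.antisymm
      · intro t ht
        have h2 : 0 < 2 * ((m : ℝ) + 1) := by positivity
        refine mem_iUnion.2 ⟨⌊t * (2 * ((m : ℝ) + 1))⌋, ht, ?_, ?_⟩
        · rw [div_le_iff₀ h2]; exact Int.floor_le _
        · rw [lt_div_iff₀ h2]; exact Int.lt_floor_add_one _
      · exact iUnion_subset hZsub
    have hpiece : ∀ j, ∫⁻ t in Z j, ENNReal.ofReal (U' t) = volume (U '' Z j) := by
      intro j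
      exact lintegral_deriv_eq_volume_image_of_monotoneOn (hZm j)
        (fun t ht => (hd t (hZsub j ht).1).hasDerivWithinAt) (hZmono j)
    have himm : ∀ j, MeasurableSet (U '' Z j) := by
      intro j
      exact (hZm j).image_of_monotoneOn (hZmono j)
    -- the counting function
    let G : ℝ → ℝ≥0∞ := fun θ => ∑' j : ℤ, ∑' k : ℤ,
      (U '' Z j).indicator (fun _ => (1 : ℝ≥0∞)) (θ + η * k)
    have hGm : Measurable G := by
      apply Measurable.tsum
      intro j
      apply Measurable.tsum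
      intro k
      exact (measurable_const.indicator (himm j)).comp (by fun_prop)
    have hint : ∫⁻ t in Ym m, ENNReal.ofReal (U' t) = ∫⁻ θ in Ioc 0 η, G θ := by
      rw [hZcov, lintegral_iUnion hZm hZdisj]
      simp_rw [hpiece]
      simp only [G]
      rw [lintegral_tsum]
      · congr 1
        ext j
        exact volume_eq_lintegral_grid (himm j) hη
      · intro j
        apply Measurable.aemeasurable
        apply Measurable.tsum
        intro k
        exact (measurable_const.indicator (himm j)).comp (by fun_prop)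
    set B : ℝ≥0∞ := ENNReal.ofReal (5 + 4 * η * ((m : ℝ) + 1)) * V with hB
    -- pointwise bound
    have hpt : ∀ θ, G θ * ENNReal.ofReal η ≤ B := by
      intro θ
      simp only [G]
      rw [← ENNReal.tsum_prod' (f := fun p : ℤ × ℤ =>
        (U '' Z p.1).indicator (fun _ => (1 : ℝ≥0∞)) (θ + η * p.2)), ENNReal.tsum_eq_iSup_sum,
        ENNReal.iSup_mul]
      apply iSup_le
      intro P
      let P' : Finset (ℤ × ℤ) := P.filter (fun p => θ + η * p.2 ∈ U '' Z p.1)
      have hsum : ∑ p ∈ P, (U '' Z p.1).indicator (fun _ => (1 : ℝ≥0∞)) (θ + η * p.2) =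
          (P'.card : ℝ≥0∞) := by
        rw [Finset.card_eq_sum_ones, Nat.cast_sum, Finset.sum_filter]
        apply Finset.sum_congr rfl
        intro p _
        by_cases h : θ + η * p.2 ∈ U '' Z p.1
        · simp [h]
        · simp [h]
      rw [hsum]
      have hchoose : ∀ p : ℤ × ℤ, ∃ t : ℝ, p ∈ P' → t ∈ Z p.1 ∧ U t = θ + η * p.2 := by
        intro p
        by_cases h : p ∈ P'
        · obtain ⟨t, ht, ht'⟩ := (Finset.mem_filter.1 h).2
          exact ⟨t, fun _ => ⟨ht, ht'⟩⟩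
        · exact ⟨0, fun h' => absurd h' h⟩
      choose pt hpt using hchoose
      have hinj : Set.InjOn pt (P' : Set (ℤ × ℤ)) := by
        intro p hp q hq hpq
        have h1 := hpt p hp
        have h2 := hpt q hq
        have hk : p.2 = q.2 := by
          have : θ + η * p.2 = θ + η * q.2 := by rw [← h1.2, ← h2.2, hpq]
          have h3 : η * (p.2 : ℝ) = η * q.2 := by linarith
          have h4 : (p.2 : ℝ) = q.2 := mul_left_cancel₀ hη.ne' h3
          exact_mod_cast h4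
        have hj : p.1 = q.1 := by
          by_contra hne
          have := hZdisj hne
          rw [Function.onFun, Set.disjoint_left] at this
          exact this h1.1 (by rw [hpq]; exact h2.1)
        exact Prod.ext hj hk
      let Pts : Finset ℝ := P'.image pt
      have hcard : Pts.card = P'.card := Finset.card_image_of_injOn hinj
      have hPts : ∀ t ∈ Pts, t ∈ Ym m ∧ ∃ k : ℤ, U t = θ + η * k := by
        intro t ht
        obtain ⟨p, hp, rfl⟩ := Finset.mem_image.1 ht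
        have := hpt p hp
        exact ⟨hZsub _ this.1, p.2, this.2⟩
      have hchooseτ : ∀ t : ℝ, ∃ τ : ℝ, t ∈ Pts → 0 ≤ τ ∧ (∀ σ ∈ Icc 0 τ, U t ≤ U (t + σ)) ∧
          (U t - F t) / 4 ≤ |F (t + τ) - F t| := by
        intro t
        by_cases h : t ∈ Pts
        · obtain ⟨τ, h1, h2, h3⟩ := hray t (hPts t h).1.1
          exact ⟨τ, fun _ => ⟨h1, h2, h3⟩⟩
        · exact ⟨0, fun h' => absurd h' h⟩
      choose τ hτ using hchooseτ
      have hcount := count_bound hF Pts τ θ η (1 / ((m : ℝ) + 1)) hη (by positivity)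
        (fun t ht => (hτ t ht).1) (fun t ht => (hτ t ht).2.1) (fun t ht => (hτ t ht).2.2)
        (fun t ht => (hPts t ht).1.2.1)
        (fun t ht => by
          refine ⟨1 / ((m : ℝ) + 1), by positivity, ?_⟩
          intro s hs1 hs2
          obtain ⟨-, b⟩ := (hPts t ht).1.2.2 (t - s) (by linarith) (by linarith)
          have h2 : t - (t - s) = s := by ring
          rw [h2] at b
          have : 0 < (t - s) / ((m : ℝ) + 1) := div_pos (by linarith) hm0
          linarith)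
        (fun t ht => (hPts t ht).2)
      have hc4 : 4 * η / (1 / ((m : ℝ) + 1)) = 4 * η * ((m : ℝ) + 1) := by
        field_simp
      rw [hc4, hcard] at hcount
      have : (P'.card : ℝ≥0∞) * ENNReal.ofReal η = ENNReal.ofReal ((P'.card : ℝ) * η) := by
        rw [ENNReal.ofReal_mul (Nat.cast_nonneg _), ENNReal.ofReal_natCast]
      rw [this]
      exact hcount
    rw [hint]
    have hηE : ENNReal.ofReal η ≠ 0 := (ENNReal.ofReal_pos.2 hη).ne'
    have hηT : ENNReal.ofReal η ≠ ∞ := ENNReal.ofReal_ne_top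
    calc ∫⁻ θ in Ioc 0 η, G θ ≤ ∫⁻ _ in Ioc 0 η, B / ENNReal.ofReal η := by
          apply lintegral_mono
          intro θ
          rw [ENNReal.le_div_iff_mul_le (Or.inl hηE) (Or.inl hηT)]
          exact hpt θ
      _ = B / ENNReal.ofReal η * ENNReal.ofReal η := by
          rw [setLIntegral_const, Real.volume_Ioc, sub_zero]
      _ = B := ENNReal.div_mul_cancel hηE hηT
  -- limit in η
  have hlim : ∀ m, ∫⁻ t in Ym m, ENNReal.ofReal (U' t) ≤ 5 * V := by
    intro m
    by_cases hVtop : V = ∞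
    · rw [hVtop]; simp
    have hT : Tendsto (fun η : ℝ => ENNReal.ofReal (5 + 4 * η * ((m : ℝ) + 1)) * V)
        (𝓝[>] 0) (𝓝 (ENNReal.ofReal (5 + 4 * 0 * ((m : ℝ) + 1)) * V)) := by
      apply ENNReal.Tendsto.mul_const _ (Or.inr hVtop)
      apply ENNReal.continuous_ofReal.continuousAt.tendsto.comp
      apply Filter.Tendsto.mono_left _ nhdsWithin_le_nhds
      exact (by fun_prop : Continuous fun η : ℝ => 5 + 4 * η * ((m : ℝ) + 1)).tendsto 0
    have hle := ge_of_tendsto hT (by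
      filter_upwards [self_mem_nhdsWithin] with η hη
      exact hstep m η hη)
    have h5 : ENNReal.ofReal (5 + 4 * 0 * ((m : ℝ) + 1)) = 5 := by
      simp
    rwa [h5] at hle
  rw [hYcover]
  have hdir : Directed (· ⊆ ·) Ym := hYmono.directed_le
  rw [setLIntegral_iUnion_of_directed _ hdir]
  exact iSup_le hlim

end Vale.Agent.Lib.P137



/-! Short chord directions, and the capacity estimate on a finite dimensional space. -/

namespace Vale.Agent.Lib.P137

open MeasureTheory Set Filter Topology Metric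
open scoped ENNReal NNReal

set_option linter.unusedSectionVars false
set_option linter.unusedVariables false

variable {E : Type*} [NormedAddCommGroup E] [NormedSpace ℝ E] [FiniteDimensional ℝ E]
  [MeasurableSpace E] [BorelSpace E]

/-- The directions `w` in which the level `s` separates `y` from points on both sides of the line
through `y`, within distance `ρ`. -/
def shortDirs (f : E → ℝ) (ρ : ℝ) (y : E) (s : ℝ) : Set E :=
  {w | ∃ τ₁ τ₂ : ℝ, 0 < τ₁ ∧ τ₁ * ‖w‖ < ρ ∧ 0 < τ₂ ∧ τ₂ * ‖w‖ < ρ ∧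
    ((s < f y ∧ f (y + τ₁ • w) < s ∧ f (y - τ₂ • w) < s) ∨
     (f y < s ∧ s < f (y + τ₁ • w) ∧ s < f (y - τ₂ • w)))}

lemma isOpen_shortDirs {f : E → ℝ} (hf : Continuous f) (ρ : ℝ) :
    IsOpen {p : E × ℝ × E | p.2.2 ∈ shortDirs f ρ p.1 p.2.1} := by
  have : {p : E × ℝ × E | p.2.2 ∈ shortDirs f ρ p.1 p.2.1} =
      ⋃ τ₁ : ℝ, ⋃ τ₂ : ℝ, {p : E × ℝ × E | 0 < τ₁ ∧ τ₁ * ‖p.2.2‖ < ρ ∧ 0 < τ₂ ∧ τ₂ * ‖p.2.2‖ < ρ ∧
        ((p.2.1 < f p.1 ∧ f (p.1 + τ₁ • p.2.2) < p.2.1 ∧ f (p.1 - τ₂ • p.2.2) < p.2.1) ∨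
         (f p.1 < p.2.1 ∧ p.2.1 < f (p.1 + τ₁ • p.2.2) ∧ p.2.1 < f (p.1 - τ₂ • p.2.2)))} := by
    ext p
    simp only [shortDirs, mem_ofPred_eq, mem_iUnion]
  rw [this]
  refine isOpen_iUnion fun τ₁ => isOpen_iUnion fun τ₂ => ?_
  have hc1 : Continuous (fun p : E × ℝ × E => f p.1) := hf.comp continuous_fst
  have hc2 : Continuous (fun p : E × ℝ × E => p.2.1) := continuous_snd.fst
  have hc3 : Continuous (fun p : E × ℝ × E => f (p.1 + τ₁ • p.2.2)) :=
    hf.comp (continuous_fst.add (continuous_const.smul continuous_snd.snd))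
  have hc4 : Continuous (fun p : E × ℝ × E => f (p.1 - τ₂ • p.2.2)) :=
    hf.comp (continuous_fst.sub (continuous_const.smul continuous_snd.snd))
  have hc5 : Continuous (fun p : E × ℝ × E => ‖p.2.2‖) := continuous_snd.snd.norm
  by_cases h1 : 0 < τ₁
  · by_cases h2 : 0 < τ₂
    · simp only [h1, h2, true_and]
      apply IsOpen.inter (isOpen_lt (continuous_const.mul hc5) continuous_const)
      apply IsOpen.inter (isOpen_lt (continuous_const.mul hc5) continuous_const)
      apply IsOpen.union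
      · exact (isOpen_lt hc2 hc1).inter ((isOpen_lt hc3 hc2).inter (isOpen_lt hc4 hc2))
      · exact (isOpen_lt hc1 hc2).inter ((isOpen_lt hc2 hc3).inter (isOpen_lt hc2 hc4))
    · simp [h2]
  · simp [h1]

/-- Auxiliary function dominating the directional derivative on every line. -/
noncomputable def btilde (f : E → ℝ) (w : E) (y : E) : ℝ≥0∞ :=
  ‖fderiv ℝ f y w‖ₑ + ({y | DifferentiableAt ℝ f y}ᶜ).indicator (fun _ => ∞) y

lemma measurable_btilde (f : E → ℝ) (w : E) : Measurable (btilde f w) := by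
  have h := ((measurable_fderiv_apply_const ℝ f w).enorm).add
    (measurable_const.indicator (f := fun _ => (∞ : ℝ≥0∞))
      (measurableSet_of_differentiableAt ℝ f).compl)
  exact h

lemma lintegral_btilde_le (μ : Measure E) [μ.IsAddHaarMeasure] {f : E → ℝ} {L : ℝ≥0}
    (hf : LipschitzWith L f) (w : E) :
    ∫⁻ y, btilde f w y ∂μ ≤ ‖w‖ₑ * ∫⁻ y, ‖fderiv ℝ f y‖ₑ ∂μ := by
  have hae : ∀ᵐ y ∂μ, DifferentiableAt ℝ f y := hf.ae_differentiableAt
  have h1 : ∫⁻ y, btilde f w y ∂μ = ∫⁻ y, ‖fderiv ℝ f y w‖ₑ ∂μ := by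
    apply lintegral_congr_ae
    filter_upwards [hae] with y hy
    have : y ∉ ({y | DifferentiableAt ℝ f y}ᶜ) := fun h => h hy
    simp only [btilde, indicator_of_notMem this, add_zero]
  rw [h1, ← lintegral_const_mul _ ((measurable_fderiv ℝ f).enorm)]
  apply lintegral_mono
  intro y
  show ‖fderiv ℝ f y w‖ₑ ≤ ‖w‖ₑ * ‖fderiv ℝ f y‖ₑ
  rw [mul_comm]
  exact (fderiv ℝ f y).le_opENorm w

/-- The derivative along a line is dominated by `btilde`, for all lines. -/
lemma lintegral_line_deriv_le {f : E → ℝ} {L : ℝ≥0}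
    (hf : LipschitzWith L f) (w x : E) :
    ∫⁻ t : ℝ, ‖deriv (fun t : ℝ => f (x + t • w)) t‖ₑ ≤ ∫⁻ t : ℝ, btilde f w (x + t • w) := by
  classical
  by_cases hnull : volume {t : ℝ | ¬ DifferentiableAt ℝ f (x + t • w)} = 0
  · apply lintegral_mono_ae
    have : ∀ᵐ t : ℝ, DifferentiableAt ℝ f (x + t • w) := by
      rw [ae_iff]; exact hnull
    filter_upwards [this] with t ht
    have hd : HasDerivAt (fun t : ℝ => f (x + t • w)) (fderiv ℝ f (x + t • w) w) t := by
      have h1 : HasDerivAt (fun t : ℝ => x + t • w) w t := by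
        simpa using ((hasDerivAt_id t).smul_const w).const_add x
      exact ht.hasFDerivAt.comp_hasDerivAt t h1
    rw [hd.deriv]
    simp only [btilde]
    exact le_self_add
  · have hm : MeasurableSet {t : ℝ | ¬ DifferentiableAt ℝ f (x + t • w)} := by
      have : Measurable (fun t : ℝ => x + t • w) := by fun_prop
      exact this ((measurableSet_of_differentiableAt ℝ f).compl)
    have hinf : ∫⁻ t : ℝ, btilde f w (x + t • w) = ∞ := by
      have h2 : ∫⁻ t : ℝ, ({t : ℝ | ¬ DifferentiableAt ℝ f (x + t • w)}).indicator (fun _ => ∞) t = ∞ := by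
        rw [lintegral_indicator hm, setLIntegral_const, ENNReal.top_mul hnull]
      refine top_le_iff.1 ?_
      rw [← h2]
      apply lintegral_mono
      intro t
      by_cases ht : DifferentiableAt ℝ f (x + t • w)
      · have : t ∉ {t : ℝ | ¬ DifferentiableAt ℝ f (x + t • w)} := fun h => h ht
        rw [indicator_of_notMem this]
        exact zero_le
      · have h3 : t ∈ {t : ℝ | ¬ DifferentiableAt ℝ f (x + t • w)} := ht
        rw [indicator_of_mem h3]
        have h4 : x + t • w ∈ ({y | DifferentiableAt ℝ f y}ᶜ) := ht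
        simp only [btilde, indicator_of_mem h4]
        simp
    rw [hinf]
    exact le_top

/-- Both sided chord capacity in dimension one. -/
theorem capacity_two_sided {F : ℝ → ℝ} {L : ℝ≥0} (hF : LipschitzWith L F) {κ : ℝ} (hκ : 0 < κ) :
    ∑' k : ℤ, ENNReal.ofReal ((2 : ℝ) ^ (-k)) *
        ∫⁻ s, ∫⁻ t, (chordUp F s (κ * (2 : ℝ) ^ k) ∪ chordUp (fun t => - F t) (- s) (κ * (2 : ℝ) ^ k)).indicator
          (fun _ => (1 : ℝ≥0∞)) t
      ≤ ENNReal.ofReal (8 * κ) * ∫⁻ t, ‖deriv F t‖ₑ := by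
  classical
  have hF' : LipschitzWith L (fun t => - F t) :=
    LipschitzWith.of_dist_le_mul (fun x y => by rw [dist_neg_neg]; exact hF.dist_le_mul x y)
  have h1 := capacity_up hF hκ
  have h2 := capacity_up hF' hκ
  have hderiv : ∀ t, ‖deriv (fun t => - F t) t‖ₑ = ‖deriv F t‖ₑ := by
    intro t
    rw [deriv.fun_neg, enorm_neg]
  simp_rw [hderiv] at h2
  have hswap : ∀ ρ : ℝ, ∫⁻ s, ∫⁻ t, (chordUp (fun t => - F t) (- s) ρ).indicator (fun _ => (1 : ℝ≥0∞)) t =
      ∫⁻ s, ∫⁻ t, (chordUp (fun t => - F t) s ρ).indicator (fun _ => (1 : ℝ≥0∞)) t := by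
    intro ρ
    exact lintegral_neg_eq_self (fun s => ∫⁻ t, (chordUp (fun t => - F t) s ρ).indicator (fun _ => (1 : ℝ≥0∞)) t)
  -- subadditivity
  have hterm : ∀ k : ℤ, ENNReal.ofReal ((2 : ℝ) ^ (-k)) *
      ∫⁻ s, ∫⁻ t, (chordUp F s (κ * (2 : ℝ) ^ k) ∪ chordUp (fun t => - F t) (- s) (κ * (2 : ℝ) ^ k)).indicator
        (fun _ => (1 : ℝ≥0∞)) t ≤
      ENNReal.ofReal ((2 : ℝ) ^ (-k)) * (∫⁻ s, ∫⁻ t, (chordUp F s (κ * (2 : ℝ) ^ k)).indicator (fun _ => (1 : ℝ≥0∞)) t) +
      ENNReal.ofReal ((2 : ℝ) ^ (-k)) * ∫⁻ s, ∫⁻ t, (chordUp (fun t => - F t) s (κ * (2 : ℝ) ^ k)).indicator (fun _ => (1 : ℝ≥0∞)) t := by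
    intro k
    rw [← mul_add]
    refine mul_le_mul' le_rfl ?_
    rw [← hswap]
    set ρ := κ * (2 : ℝ) ^ k
    have hopen : ∀ (G : ℝ → ℝ), Continuous G → IsOpen {p : ℝ × ℝ | p.2 ∈ chordUp G p.1 ρ} := by
      intro G hG
      have : {p : ℝ × ℝ | p.2 ∈ chordUp G p.1 ρ} = ⋃ m, {p : ℝ × ℝ | p.2 ∈ chordUpG G (gridPts m) p.1 ρ} := by
        ext p
        have := congrArg (fun S : Set ℝ => p.2 ∈ S) (chordUp_eq_iUnion hG p.1 ρ)
        simp only [mem_iUnion, eq_iff_iff] at this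
        simp only [mem_ofPred_eq, mem_iUnion]
        exact this
      rw [this]
      exact isOpen_iUnion (fun m => isOpen_setOf_chordUpG hG _ _)
    have hmeas1 : Measurable (fun p : ℝ × ℝ => (chordUp F p.1 ρ).indicator (fun _ => (1 : ℝ≥0∞)) p.2) := by
      have hm := (hopen F hF.continuous).measurableSet
      have : (fun p : ℝ × ℝ => (chordUp F p.1 ρ).indicator (fun _ => (1 : ℝ≥0∞)) p.2) =
          ({p : ℝ × ℝ | p.2 ∈ chordUp F p.1 ρ}).indicator (fun _ => (1 : ℝ≥0∞)) := by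
        ext p
        by_cases hp : p.2 ∈ chordUp F p.1 ρ
        · rw [indicator_of_mem hp, indicator_of_mem (show p ∈ {p : ℝ × ℝ | p.2 ∈ chordUp F p.1 ρ} from hp)]
        · rw [indicator_of_notMem hp, indicator_of_notMem (show p ∉ {p : ℝ × ℝ | p.2 ∈ chordUp F p.1 ρ} from hp)]
      rw [this]
      exact measurable_const.indicator hm
    have hmeas3 : Measurable (fun s : ℝ => ∫⁻ t, (chordUp F s ρ).indicator (fun _ => (1 : ℝ≥0∞)) t) :=
      hmeas1.lintegral_prod_right'
    rw [← lintegral_add_left hmeas3]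
    apply lintegral_mono
    intro s
    have hm1 : Measurable ((chordUp F s ρ).indicator (fun _ => (1 : ℝ≥0∞))) :=
      hmeas1.comp measurable_prodMk_left
    beta_reduce
    rw [← lintegral_add_left hm1]
    apply lintegral_mono
    intro t
    beta_reduce
    by_cases a : t ∈ chordUp F s ρ
    · have hu : t ∈ chordUp F s ρ ∪ chordUp (fun t => - F t) (- s) ρ := Or.inl a
      rw [indicator_of_mem hu, indicator_of_mem a]
      exact le_self_add
    · by_cases b : t ∈ chordUp (fun t => - F t) (- s) ρ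
      · have hu : t ∈ chordUp F s ρ ∪ chordUp (fun t => - F t) (- s) ρ := Or.inr b
        rw [indicator_of_mem hu, indicator_of_mem b]
        exact le_add_self
      · have : t ∉ chordUp F s ρ ∪ chordUp (fun t => - F t) (- s) ρ := fun h => h.elim a b
        rw [indicator_of_notMem this]
        exact zero_le
  calc _ ≤ ∑' k : ℤ, (ENNReal.ofReal ((2 : ℝ) ^ (-k)) * (∫⁻ s, ∫⁻ t, (chordUp F s (κ * (2 : ℝ) ^ k)).indicator (fun _ => (1 : ℝ≥0∞)) t) +
      ENNReal.ofReal ((2 : ℝ) ^ (-k)) * ∫⁻ s, ∫⁻ t, (chordUp (fun t => - F t) s (κ * (2 : ℝ) ^ k)).indicator (fun _ => (1 : ℝ≥0∞)) t) :=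
        ENNReal.tsum_le_tsum hterm
    _ = _ + _ := ENNReal.tsum_add
    _ ≤ ENNReal.ofReal (4 * κ) * (∫⁻ t, ‖deriv F t‖ₑ) + ENNReal.ofReal (4 * κ) * ∫⁻ t, ‖deriv F t‖ₑ :=
        add_le_add h1 h2
    _ = ENNReal.ofReal (8 * κ) * ∫⁻ t, ‖deriv F t‖ₑ := by
        rw [← add_mul, ← ENNReal.ofReal_add (by positivity) (by positivity)]
        congr 2
        ring

lemma mem_shortDirs_line {f : E → ℝ} {w : E} (hw : w ≠ 0) (x : E) (t s ρ : ℝ) :
    w ∈ shortDirs f ρ (x + t • w) s ↔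
      t ∈ chordUp (fun t : ℝ => f (x + t • w)) s (ρ / ‖w‖) ∪
        chordUp (fun t => - (fun t : ℝ => f (x + t • w)) t) (- s) (ρ / ‖w‖) := by
  have hn : 0 < ‖w‖ := norm_pos_iff.2 hw
  have e1 : ∀ τ : ℝ, x + t • w + τ • w = x + (t + τ) • w := by
    intro τ; rw [add_smul, add_assoc]
  have e2 : ∀ τ : ℝ, x + t • w - τ • w = x + (t - τ) • w := by
    intro τ; rw [sub_smul, add_sub_assoc]
  have e3 : ∀ τ : ℝ, τ * ‖w‖ < ρ ↔ τ < ρ / ‖w‖ := fun τ => (lt_div_iff₀ hn).symm
  simp only [shortDirs, mem_ofPred_eq, e1, e2, e3, chordUp, mem_union, neg_lt_neg_iff]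
  constructor
  · rintro ⟨τ₁, τ₂, h1, h2, h3, h4, ⟨a, b, c⟩ | ⟨a, b, c⟩⟩
    · exact Or.inl ⟨a, τ₁, τ₂, h1, h2, h3, h4, b, c⟩
    · exact Or.inr ⟨a, τ₁, τ₂, h1, h2, h3, h4, b, c⟩
  · rintro (⟨a, τ₁, τ₂, h1, h2, h3, h4, b, c⟩ | ⟨a, τ₁, τ₂, h1, h2, h3, h4, b, c⟩)
    · exact ⟨τ₁, τ₂, h1, h2, h3, h4, Or.inl ⟨a, b, c⟩⟩
    · exact ⟨τ₁, τ₂, h1, h2, h3, h4, Or.inr ⟨a, b, c⟩⟩

/-- The chord capacity estimate for a fixed direction. -/
lemma capacity_direction (μ : Measure E) [μ.IsAddHaarMeasure] {f : E → ℝ} {L : ℝ≥0}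
    (hf : LipschitzWith L f) {κ : ℝ} (hκ : 0 < κ) (w : E) :
    ∑' k : ℤ, ENNReal.ofReal ((2 : ℝ) ^ (-k)) *
        ∫⁻ s : ℝ, ∫⁻ y, ({p : E × ℝ × E | p.2.2 ∈ shortDirs f (κ * (2 : ℝ) ^ k) p.1 p.2.1}).indicator
          (fun _ => (1 : ℝ≥0∞)) (y, s, w) ∂μ
      ≤ ENNReal.ofReal (8 * κ) * ∫⁻ y, ‖fderiv ℝ f y‖ₑ ∂μ := by
  classical
  by_cases hw : w = 0
  · subst hw
    have h0 : ∀ ρ y s, (0 : E) ∉ shortDirs f ρ y s := by
      rintro ρ y s ⟨τ₁, τ₂, -, -, -, -, ⟨a, b, -⟩ | ⟨a, b, -⟩⟩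
      · simp at b; linarith
      · simp at b; linarith
    have : ∀ k : ℤ, ∫⁻ s : ℝ, ∫⁻ y, ({p : E × ℝ × E | p.2.2 ∈ shortDirs f (κ * (2 : ℝ) ^ k) p.1 p.2.1}).indicator
          (fun _ => (1 : ℝ≥0∞)) (y, s, (0 : E)) ∂μ = 0 := by
      intro k
      have : ∀ s y, ({p : E × ℝ × E | p.2.2 ∈ shortDirs f (κ * (2 : ℝ) ^ k) p.1 p.2.1}).indicator
          (fun _ => (1 : ℝ≥0∞)) (y, s, (0 : E)) = 0 := by
        intro s y
        apply indicator_of_notMem
        exact h0 _ _ _
      simp [this]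
    simp [this]
  have hn : 0 < ‖w‖ := norm_pos_iff.2 hw
  obtain ⟨Sl, hSlm, hSl⟩ := exists_slab μ hw
  have hfc := hf.continuous
  let ind : ℝ → E × ℝ × E → ℝ≥0∞ := fun ρ =>
    ({p : E × ℝ × E | p.2.2 ∈ shortDirs f ρ p.1 p.2.1}).indicator (fun _ => (1 : ℝ≥0∞))
  have hind : ∀ ρ, Measurable (ind ρ) := fun ρ =>
    measurable_const.indicator (isOpen_shortDirs hfc ρ).measurableSet
  -- on lines
  let J : ℝ → E → ℝ → ℝ → ℝ≥0∞ := fun ρ x s t => ind ρ (x + t • w, s, w)
  have hJ : ∀ ρ, Measurable (fun q : E × ℝ × ℝ => J ρ q.1 q.2.1 q.2.2) := by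
    intro ρ
    apply (hind ρ).comp
    fun_prop
  have hrepr : ∀ ρ s, ∫⁻ y, ind ρ (y, s, w) ∂μ = ∫⁻ x in Sl, (∫⁻ t : ℝ, J ρ x s t) ∂μ := by
    intro ρ s
    apply hSl (fun y => ind ρ (y, s, w))
    apply (hind ρ).comp
    fun_prop
  have hswap : ∀ ρ, ∫⁻ s : ℝ, ∫⁻ y, ind ρ (y, s, w) ∂μ =
      ∫⁻ x in Sl, (∫⁻ s : ℝ, ∫⁻ t : ℝ, J ρ x s t) ∂μ := by
    intro ρ
    simp_rw [hrepr]
    rw [lintegral_lintegral_swap]
    have hm : Measurable (fun q : ℝ × E => ∫⁻ t : ℝ, J ρ q.2 q.1 t) := by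
      have hc : Measurable (fun r : (ℝ × E) × ℝ => ((r.1.2, r.1.1, r.2) : E × ℝ × ℝ)) := by fun_prop
      have : Measurable (fun r : (ℝ × E) × ℝ => J ρ r.1.2 r.1.1 r.2) := (hJ ρ).comp hc
      exact this.lintegral_prod_right'
    exact hm.aemeasurable
  have hHm : ∀ ρ, Measurable (fun x : E => ∫⁻ s : ℝ, ∫⁻ t : ℝ, J ρ x s t) := by
    intro ρ
    have hc : Measurable (fun r : (E × ℝ) × ℝ => ((r.1.1, r.1.2, r.2) : E × ℝ × ℝ)) := by fun_prop
    have h1 : Measurable (fun r : (E × ℝ) × ℝ => J ρ r.1.1 r.1.2 r.2) := (hJ ρ).comp hc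
    have h2 : Measurable (fun r : E × ℝ => ∫⁻ t : ℝ, J ρ r.1 r.2 t) := h1.lintegral_prod_right'
    exact h2.lintegral_prod_right'
  have hκ' : 0 < κ / ‖w‖ := div_pos hκ hn
  have hline : ∀ x : E, ∑' k : ℤ, ENNReal.ofReal ((2 : ℝ) ^ (-k)) *
      (∫⁻ s : ℝ, ∫⁻ t : ℝ, J (κ * (2 : ℝ) ^ k) x s t) ≤
      ENNReal.ofReal (8 * (κ / ‖w‖)) * ∫⁻ t : ℝ, btilde f w (x + t • w) := by
    intro x
    have hL : LipschitzWith (L * ‖w‖₊) (fun t : ℝ => f (x + t • w)) := by
      apply LipschitzWith.of_dist_le_mul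
      intro a b
      have h1 := hf.dist_le_mul (x + a • w) (x + b • w)
      have h2 : dist (x + a • w) (x + b • w) = dist a b * ‖w‖ := by
        rw [dist_add_left, dist_eq_norm, ← sub_smul, norm_smul, Real.dist_eq, Real.norm_eq_abs]
      rw [h2] at h1
      push_cast
      calc dist (f (x + a • w)) (f (x + b • w)) ≤ (L : ℝ) * (dist a b * ‖w‖) := h1
        _ = (L : ℝ) * ‖w‖ * dist a b := by ring
    have hcap := capacity_two_sided hL hκ'
    have hEq : ∀ k : ℤ, (∫⁻ s : ℝ, ∫⁻ t : ℝ, J (κ * (2 : ℝ) ^ k) x s t) =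
        ∫⁻ s : ℝ, ∫⁻ t : ℝ, (chordUp (fun t : ℝ => f (x + t • w)) s (κ / ‖w‖ * (2 : ℝ) ^ k) ∪
          chordUp (fun t => - (fun t : ℝ => f (x + t • w)) t) (- s) (κ / ‖w‖ * (2 : ℝ) ^ k)).indicator
          (fun _ => (1 : ℝ≥0∞)) t := by
      intro k
      apply lintegral_congr
      intro s
      apply lintegral_congr
      intro t
      have hρ : κ / ‖w‖ * (2 : ℝ) ^ k = κ * (2 : ℝ) ^ k / ‖w‖ := by ring
      rw [hρ]
      by_cases hmem : w ∈ shortDirs f (κ * (2 : ℝ) ^ k) (x + t • w) s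
      · have h2 := (mem_shortDirs_line hw x t s _).1 hmem
        rw [indicator_of_mem h2]
        exact indicator_of_mem (show (x + t • w, s, w) ∈ {p : E × ℝ × E | p.2.2 ∈ shortDirs f (κ * (2 : ℝ) ^ k) p.1 p.2.1} from hmem) _
      · have h2 : t ∉ _ := fun h => hmem ((mem_shortDirs_line hw x t s _).2 h)
        rw [indicator_of_notMem h2]
        exact indicator_of_notMem (show (x + t • w, s, w) ∉ {p : E × ℝ × E | p.2.2 ∈ shortDirs f (κ * (2 : ℝ) ^ k) p.1 p.2.1} from hmem) _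
    simp_rw [hEq]
    refine hcap.trans ?_
    exact mul_le_mul' le_rfl (lintegral_line_deriv_le hf w x)
  have hmb : Measurable (fun x : E => ∫⁻ t : ℝ, btilde f w (x + t • w)) := by
    have : Measurable (fun r : E × ℝ => btilde f w (r.1 + r.2 • w)) :=
      (measurable_btilde f w).comp (by fun_prop)
    exact this.lintegral_prod_right'
  calc ∑' k : ℤ, ENNReal.ofReal ((2 : ℝ) ^ (-k)) * ∫⁻ s : ℝ, ∫⁻ y, ind (κ * (2 : ℝ) ^ k) (y, s, w) ∂μ
      = ∑' k : ℤ, ENNReal.ofReal ((2 : ℝ) ^ (-k)) *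
          ∫⁻ x in Sl, (∫⁻ s : ℝ, ∫⁻ t : ℝ, J (κ * (2 : ℝ) ^ k) x s t) ∂μ := by
        simp_rw [hswap]
    _ = ∫⁻ x in Sl, (∑' k : ℤ, ENNReal.ofReal ((2 : ℝ) ^ (-k)) *
          (∫⁻ s : ℝ, ∫⁻ t : ℝ, J (κ * (2 : ℝ) ^ k) x s t)) ∂μ := by
        rw [lintegral_tsum]
        · congr 1
          ext k
          rw [lintegral_const_mul _ (hHm _)]
        · intro k
          exact ((hHm _).const_mul _).aemeasurable
    _ ≤ ∫⁻ x in Sl, ENNReal.ofReal (8 * (κ / ‖w‖)) * (∫⁻ t : ℝ, btilde f w (x + t • w)) ∂μ :=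
        lintegral_mono (fun x => hline x)
    _ = ENNReal.ofReal (8 * (κ / ‖w‖)) * ∫⁻ x in Sl, (∫⁻ t : ℝ, btilde f w (x + t • w)) ∂μ :=
        lintegral_const_mul _ hmb
    _ = ENNReal.ofReal (8 * (κ / ‖w‖)) * ∫⁻ y, btilde f w y ∂μ := by
        rw [hSl _ (measurable_btilde f w)]
    _ ≤ ENNReal.ofReal (8 * (κ / ‖w‖)) * (‖w‖ₑ * ∫⁻ y, ‖fderiv ℝ f y‖ₑ ∂μ) := by
        gcongr
        exact lintegral_btilde_le μ hf w
    _ = ENNReal.ofReal (8 * κ) * ∫⁻ y, ‖fderiv ℝ f y‖ₑ ∂μ := by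
        rw [← mul_assoc]
        congr 1
        rw [enorm_eq_nnnorm]
        have : (‖w‖₊ : ℝ≥0∞) = ENNReal.ofReal ‖w‖ := by
          rw [ENNReal.ofReal, Real.toNNReal_of_nonneg (norm_nonneg w)]
          rfl
        rw [this, ← ENNReal.ofReal_mul (by positivity)]
        congr 1
        field_simp

/-- The chord capacity estimate on the whole space. -/
theorem capacity_E (μ : Measure E) [μ.IsAddHaarMeasure] {f : E → ℝ} {L : ℝ≥0}
    (hf : LipschitzWith L f) {κ : ℝ} (hκ : 0 < κ) :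
    ∑' k : ℤ, ENNReal.ofReal ((2 : ℝ) ^ (-k)) *
        ∫⁻ s : ℝ, ∫⁻ y, μ (shortDirs f (κ * (2 : ℝ) ^ k) y s ∩ ball 0 1) ∂μ
      ≤ ENNReal.ofReal (8 * κ) * μ (ball 0 1) * ∫⁻ y, ‖fderiv ℝ f y‖ₑ ∂μ := by
  classical
  have hfc := hf.continuous
  let ind : ℝ → E × ℝ × E → ℝ≥0∞ := fun ρ =>
    ({p : E × ℝ × E | p.2.2 ∈ shortDirs f ρ p.1 p.2.1}).indicator (fun _ => (1 : ℝ≥0∞))
  have hind : ∀ ρ, Measurable (ind ρ) := fun ρ =>
    measurable_const.indicator (isOpen_shortDirs hfc ρ).measurableSet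
  have hB : MeasurableSet (ball (0 : E) 1) := measurableSet_ball
  have hsec : ∀ ρ y s, μ (shortDirs f ρ y s ∩ ball 0 1) = ∫⁻ w in ball (0 : E) 1, ind ρ (y, s, w) ∂μ := by
    intro ρ y s
    have hm : MeasurableSet (shortDirs f ρ y s) := by
      have h1 : Measurable (fun w : E => (y, s, w)) := by fun_prop
      exact h1 (isOpen_shortDirs hfc ρ).measurableSet
    rw [← lintegral_indicator_one (hm.inter hB), ← lintegral_indicator hB]
    apply lintegral_congr
    intro w
    by_cases h1 : w ∈ ball (0 : E) 1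
    · rw [indicator_of_mem h1]
      by_cases h2 : w ∈ shortDirs f ρ y s
      · have hmem : w ∈ shortDirs f ρ y s ∩ ball 0 1 := ⟨h2, h1⟩
        rw [indicator_of_mem hmem]
        have hm2 : (y, s, w) ∈ {p : E × ℝ × E | p.2.2 ∈ shortDirs f ρ p.1 p.2.1} := h2
        simp only [ind]
        rw [indicator_of_mem hm2]
        rfl
      · have hmem : w ∉ shortDirs f ρ y s ∩ ball 0 1 := fun h => h2 h.1
        rw [indicator_of_notMem hmem]
        have hm2 : (y, s, w) ∉ {p : E × ℝ × E | p.2.2 ∈ shortDirs f ρ p.1 p.2.1} := h2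
        simp only [ind]
        rw [indicator_of_notMem hm2]
    · have hmem : w ∉ shortDirs f ρ y s ∩ ball 0 1 := fun h => h1 h.2
      rw [indicator_of_notMem h1, indicator_of_notMem hmem]
  have hswap : ∀ ρ, ∫⁻ s : ℝ, ∫⁻ y, μ (shortDirs f ρ y s ∩ ball 0 1) ∂μ =
      ∫⁻ w in ball (0 : E) 1, (∫⁻ s : ℝ, ∫⁻ y, ind ρ (y, s, w) ∂μ) ∂μ := by
    intro ρ
    simp_rw [hsec]
    have h1 : ∀ s : ℝ, ∫⁻ y, ∫⁻ w in ball (0 : E) 1, ind ρ (y, s, w) ∂μ ∂μ =
        ∫⁻ w in ball (0 : E) 1, ∫⁻ y, ind ρ (y, s, w) ∂μ ∂μ := by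
      intro s
      apply lintegral_lintegral_swap
      apply Measurable.aemeasurable
      exact (hind ρ).comp (by fun_prop)
    simp_rw [h1]
    rw [lintegral_lintegral_swap]
    apply Measurable.aemeasurable
    have : Measurable (fun r : (ℝ × E) × E => ind ρ (r.2, r.1.1, r.1.2)) :=
      (hind ρ).comp (by fun_prop)
    exact this.lintegral_prod_right'
  have hGm : ∀ ρ, Measurable (fun w : E => ∫⁻ s : ℝ, ∫⁻ y, ind ρ (y, s, w) ∂μ) := by
    intro ρ
    have h1 : Measurable (fun r : (E × ℝ) × E => ind ρ (r.2, r.1.2, r.1.1)) :=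
      (hind ρ).comp (by fun_prop)
    have h2 : Measurable (fun r : E × ℝ => ∫⁻ y, ind ρ (y, r.2, r.1) ∂μ) := h1.lintegral_prod_right'
    exact h2.lintegral_prod_right'
  calc ∑' k : ℤ, ENNReal.ofReal ((2 : ℝ) ^ (-k)) *
        ∫⁻ s : ℝ, ∫⁻ y, μ (shortDirs f (κ * (2 : ℝ) ^ k) y s ∩ ball 0 1) ∂μ
      = ∑' k : ℤ, ENNReal.ofReal ((2 : ℝ) ^ (-k)) *
        ∫⁻ w in ball (0 : E) 1, (∫⁻ s : ℝ, ∫⁻ y, ind (κ * (2 : ℝ) ^ k) (y, s, w) ∂μ) ∂μ := by
        simp_rw [hswap]
    _ = ∫⁻ w in ball (0 : E) 1, (∑' k : ℤ, ENNReal.ofReal ((2 : ℝ) ^ (-k)) *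
        (∫⁻ s : ℝ, ∫⁻ y, ind (κ * (2 : ℝ) ^ k) (y, s, w) ∂μ)) ∂μ := by
        rw [lintegral_tsum]
        · congr 1
          ext k
          rw [lintegral_const_mul _ (hGm _)]
        · intro k
          exact ((hGm _).const_mul _).aemeasurable
    _ ≤ ∫⁻ _ in ball (0 : E) 1, ENNReal.ofReal (8 * κ) * ∫⁻ y, ‖fderiv ℝ f y‖ₑ ∂μ ∂μ :=
        lintegral_mono (fun w => capacity_direction μ hf hκ w)
    _ = ENNReal.ofReal (8 * κ) * μ (ball 0 1) * ∫⁻ y, ‖fderiv ℝ f y‖ₑ ∂μ := by
        rw [setLIntegral_const]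
        ring

end Vale.Agent.Lib.P137



/-! Basic objects for the key lemma. -/

namespace Vale.Agent.Lib.P137

open MeasureTheory Set Filter Topology Metric Module
open scoped ENNReal NNReal RealInnerProductSpace Pointwise

set_option linter.unusedSectionVars false
set_option linter.unusedVariables false

variable {E : Type*} [NormedAddCommGroup E] [InnerProductSpace ℝ E] [FiniteDimensional ℝ E]
  [MeasurableSpace E] [BorelSpace E] {μ : Measure E} [μ.IsAddHaarMeasure]

/-- Along the ray from `x` in direction `w`, the function `u` stays at least `u x` up to a point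
where `f` has moved by a quarter of the gap `u x - f x`. -/
def RayGood (f u : E → ℝ) (x w : E) : Prop :=
  ∃ τ : ℝ, 0 ≤ τ ∧ (∀ σ ∈ Icc 0 τ, u x ≤ u (x + σ • w)) ∧ (u x - f x) / 4 ≤ |f (x + τ • w) - f x|

lemma RayGood.smul {f u : E → ℝ} {x w : E} (h : RayGood f u x w) {t : ℝ} (ht : 0 < t) :
    RayGood f u x (t • w) := by
  obtain ⟨τ, h0, h1, h2⟩ := h
  refine ⟨τ / t, by positivity, ?_, ?_⟩
  · intro σ hσ
    have := h1 (σ * t) ⟨by have := hσ.1; positivity, by
      have := hσ.2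
      rwa [le_div_iff₀ ht] at this⟩
    rwa [smul_smul]
  · rw [smul_smul, div_mul_cancel₀ _ ht.ne']
    exact h2

/-- The averaging property of the pair `(f, u)`. -/
structure AvgPair (μ : Measure E) (f u : E → ℝ) : Prop where
  cont : Continuous f
  avg_le : ∀ (c : E) (r : ℝ), 0 < r → ∀ p ∈ closedBall c r,
    ∫ y in ball c r, f y ∂μ ≤ u p * (μ (ball c r)).toReal

/-- A point with an optimal ball tangent at `x` with inner normal `n`, radius in `[1, 2]`,
for which few directions are ray good. -/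
structure GoodPoint (μ : Measure E) (a₁ : ℝ) (f u : E → ℝ) (x n : E) (r : ℝ) : Prop where
  unit : ‖n‖ = 1
  r_ge : 1 ≤ r
  r_le : r ≤ 2
  opt : ∫ y in ball (x + r • n) r, f y ∂μ = u x * (μ (ball (x + r • n) r)).toReal
  lt : f x < u x
  small : μ {w | w ∈ ball ((1 / 2 : ℝ) • n) (1 / 2) ∧ RayGood f u x w} ≤
    ENNReal.ofReal (a₁ * volOne μ)

variable {f u : E → ℝ} {a₁ : ℝ} {x n : E} {r : ℝ}

lemma GoodPoint.r_pos (h : GoodPoint μ a₁ f u x n r) : 0 < r := by linarith [h.r_ge]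

/-- On the closed optimal ball `u` is at least `u x`. -/
lemma GoodPoint.le_on (h : GoodPoint μ a₁ f u x n r) (hA : AvgPair μ f u) {p : E}
    (hp : p ∈ closedBall (x + r • n) r) : u x ≤ u p := by
  have hr := h.r_pos
  have h1 := hA.avg_le _ r hr p hp
  rw [h.opt] at h1
  have hpos : 0 < (μ (ball (x + r • n) r)).toReal := by
    rw [measure_ball_toReal μ _ hr]
    have := volOne_pos μ
    positivity
  exact le_of_mul_le_mul_right h1 hpos

lemma GoodPoint.self_mem (h : GoodPoint μ a₁ f u x n r) : x ∈ closedBall (x + r • n) r := by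
  rw [mem_closedBall, dist_eq_norm]
  have : x - (x + r • n) = - (r • n) := by abel
  rw [this, norm_neg, norm_smul, h.unit, Real.norm_eq_abs, abs_of_pos h.r_pos, mul_one]

/-- In the optimal ball, either the direction is ray good or `f` is close to `f x`. -/
lemma GoodPoint.ray_or_plateau (h : GoodPoint μ a₁ f u x n r) (hA : AvgPair μ f u) {z : E}
    (hz : z ∈ ball (x + r • n) r) :
    RayGood f u x (z - x) ∨ |f z - f x| < (u x - f x) / 4 := by
  by_contra hc
  push Not at hc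
  obtain ⟨h1, h2⟩ := hc
  apply h1
  refine ⟨1, zero_le_one, ?_, ?_⟩
  · intro σ hσ
    apply h.le_on hA
    have hconv := (convex_closedBall (x + r • n) r).add_smul_sub_mem h.self_mem
      (ball_subset_closedBall hz) hσ
    simpa using hconv
  · simpa using h2

/-- The exceptional part of the optimal ball. -/
def rayPart (f u : E → ℝ) (x n : E) (r : ℝ) : Set E :=
  {z | z ∈ ball (x + r • n) r ∧ RayGood f u x (z - x)}

/-- The exceptional part is small. -/
lemma GoodPoint.measure_rayPart_le (h : GoodPoint μ a₁ f u x n r) (ha : 0 ≤ a₁) :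
    μ (rayPart f u x n r) ≤
      ENNReal.ofReal ((2 * r) ^ finrank ℝ E * a₁ * volOne μ) := by
  have hr := h.r_pos
  have hV := volOne_pos μ
  have hsub : rayPart f u x n r ⊆
      (fun w => x + (2 * r) • w) '' {w | w ∈ ball ((1 / 2 : ℝ) • n) (1 / 2) ∧ RayGood f u x w} := by
    rintro z ⟨hz1, hz2⟩
    have h2r : 0 < 2 * r := by positivity
    refine ⟨(2 * r)⁻¹ • (z - x), ⟨?_, hz2.smul (inv_pos.2 h2r)⟩, ?_⟩
    · rw [mem_ball, dist_eq_norm]
      rw [mem_ball, dist_eq_norm] at hz1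
      have e : (2 * r)⁻¹ • (z - x) - (1 / 2 : ℝ) • n = (2 * r)⁻¹ • (z - (x + r • n)) := by
        have e2 : (1 / 2 : ℝ) • n = (2 * r)⁻¹ • (r • n) := by
          rw [smul_smul]
          congr 1
          field_simp
        rw [e2, ← smul_sub]
        congr 1
        abel
      rw [e, norm_smul, Real.norm_eq_abs, abs_of_pos (inv_pos.2 h2r), inv_mul_lt_iff₀ h2r]
      linarith
    · simp only
      rw [smul_smul, mul_inv_cancel₀ (by positivity), one_smul]
      abel
  have h1 := measure_mono (μ := μ) hsub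
  rw [measure_image_homothety, abs_of_pos (by positivity)] at h1
  refine h1.trans ?_
  calc ENNReal.ofReal ((2 * r) ^ finrank ℝ E) *
        μ {w | w ∈ ball ((1 / 2 : ℝ) • n) (1 / 2) ∧ RayGood f u x w}
      ≤ ENNReal.ofReal ((2 * r) ^ finrank ℝ E) * ENNReal.ofReal (a₁ * volOne μ) := by
        gcongr
        exact h.small
    _ = ENNReal.ofReal ((2 * r) ^ finrank ℝ E * a₁ * volOne μ) := by
        rw [← ENNReal.ofReal_mul (by positivity)]
        congr 1
        ring

/-- The integrated short chord mass near a point. -/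
noncomputable def Mprime (μ : Measure E) (f : E → ℝ) (ρ₁ ρ₂ : ℝ) (x₀ : E) : ℝ≥0∞ :=
  ∫⁻ s : ℝ, ∫⁻ y in ball x₀ ρ₁, μ (shortDirs f ρ₂ y s ∩ ball 0 1) ∂μ

/-- Layer cake, low side. -/
lemma layer_low {G : Set E} (hG : MeasurableSet G) {ρ₁ ρ₂ : ℝ} {x₀ : E} (hGs : G ⊆ ball x₀ ρ₁)
    (hf : Continuous f) {β c₀ : ℝ}
    (h : ∀ y ∈ G, ∀ s', f y < s' → s' < β →
      ENNReal.ofReal c₀ ≤ μ (shortDirs f ρ₂ y s' ∩ ball 0 1)) :
    ENNReal.ofReal c₀ * ∫⁻ y in G, ENNReal.ofReal (β - f y) ∂μ ≤ Mprime μ f ρ₁ ρ₂ x₀ := by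
  classical
  let T : Set (ℝ × E) := {p | f p.2 < p.1 ∧ p.1 < β}
  have hT : MeasurableSet T := by
    apply IsOpen.measurableSet
    exact (isOpen_lt (hf.comp continuous_snd) continuous_fst).inter
      (isOpen_lt continuous_fst continuous_const)
  have hind : Measurable (T.indicator (fun _ => (1 : ℝ≥0∞))) := measurable_const.indicator hT
  have h1 : ∀ y, ENNReal.ofReal (β - f y) = ∫⁻ s : ℝ, T.indicator (fun _ => (1 : ℝ≥0∞)) (s, y) := by
    intro y
    have : (fun s : ℝ => T.indicator (fun _ => (1 : ℝ≥0∞)) (s, y)) =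
        (Ioo (f y) β).indicator (fun _ => (1 : ℝ≥0∞)) := by
      ext s
      by_cases hs : s ∈ Ioo (f y) β
      · rw [indicator_of_mem hs, indicator_of_mem (show (s, y) ∈ T from hs)]
      · rw [indicator_of_notMem hs, indicator_of_notMem (show (s, y) ∉ T from hs)]
    rw [this, lintegral_indicator measurableSet_Ioo]
    simp
  have h2 : ∫⁻ y in G, ENNReal.ofReal (β - f y) ∂μ =
      ∫⁻ s : ℝ, ∫⁻ y in G, T.indicator (fun _ => (1 : ℝ≥0∞)) (s, y) ∂μ := by
    simp_rw [h1]
    rw [lintegral_lintegral_swap]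
    apply Measurable.aemeasurable
    have hc : Measurable (fun q : E × ℝ => ((q.2, q.1) : ℝ × E)) := by fun_prop
    exact hind.comp hc
  rw [h2, ← lintegral_const_mul]
  · apply lintegral_mono
    intro s
    beta_reduce
    rw [← lintegral_const_mul]
    · refine le_trans ?_ (lintegral_mono_set hGs)
      apply setLIntegral_mono' hG
      intro y hy
      by_cases hm : (s, y) ∈ T
      · rw [indicator_of_mem hm, mul_one]
        exact h y hy s hm.1 hm.2
      · rw [indicator_of_notMem hm, mul_zero]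
        exact zero_le
    · exact hind.comp (by fun_prop)
  · exact hind.lintegral_prod_right'

/-- Layer cake, high side. -/
lemma layer_high {G : Set E} (hG : MeasurableSet G) {ρ₁ ρ₂ : ℝ} {x₀ : E} (hGs : G ⊆ ball x₀ ρ₁)
    (hf : Continuous f) {α c₀ : ℝ}
    (h : ∀ y ∈ G, ∀ s', α ≤ s' → s' < f y →
      ENNReal.ofReal c₀ ≤ μ (shortDirs f ρ₂ y s' ∩ ball 0 1)) :
    ENNReal.ofReal c₀ * ∫⁻ y in G, ENNReal.ofReal (f y - α) ∂μ ≤ Mprime μ f ρ₁ ρ₂ x₀ := by
  classical
  let T : Set (ℝ × E) := {p | α ≤ p.1 ∧ p.1 < f p.2}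
  have hT : MeasurableSet T := by
    apply MeasurableSet.inter
    · exact (isClosed_le continuous_const continuous_fst).measurableSet
    · exact (isOpen_lt continuous_fst (hf.comp continuous_snd)).measurableSet
  have hind : Measurable (T.indicator (fun _ => (1 : ℝ≥0∞))) := measurable_const.indicator hT
  have h1 : ∀ y, ENNReal.ofReal (f y - α) = ∫⁻ s : ℝ, T.indicator (fun _ => (1 : ℝ≥0∞)) (s, y) := by
    intro y
    have : (fun s : ℝ => T.indicator (fun _ => (1 : ℝ≥0∞)) (s, y)) =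
        (Ico α (f y)).indicator (fun _ => (1 : ℝ≥0∞)) := by
      ext s
      by_cases hs : s ∈ Ico α (f y)
      · rw [indicator_of_mem hs, indicator_of_mem (show (s, y) ∈ T from hs)]
      · rw [indicator_of_notMem hs, indicator_of_notMem (show (s, y) ∉ T from hs)]
    rw [this, lintegral_indicator measurableSet_Ico]
    simp
  have h2 : ∫⁻ y in G, ENNReal.ofReal (f y - α) ∂μ =
      ∫⁻ s : ℝ, ∫⁻ y in G, T.indicator (fun _ => (1 : ℝ≥0∞)) (s, y) ∂μ := by
    simp_rw [h1]
    rw [lintegral_lintegral_swap]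
    apply Measurable.aemeasurable
    have hc : Measurable (fun q : E × ℝ => ((q.2, q.1) : ℝ × E)) := by fun_prop
    exact hind.comp hc
  rw [h2, ← lintegral_const_mul]
  · apply lintegral_mono
    intro s
    beta_reduce
    rw [← lintegral_const_mul]
    · refine le_trans ?_ (lintegral_mono_set hGs)
      apply setLIntegral_mono' hG
      intro y hy
      by_cases hm : (s, y) ∈ T
      · rw [indicator_of_mem hm, mul_one]
        exact h y hy s hm.1 hm.2
      · rw [indicator_of_notMem hm, mul_zero]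
        exact zero_le
    · exact hind.comp (by fun_prop)
  · exact hind.lintegral_prod_right'

lemma integrableOn_ball_of_continuous {g : E → ℝ} (hg : Continuous g) (c : E) (ρ : ℝ) :
    IntegrableOn g (ball c ρ) μ :=
  (hg.continuousOn.integrableOn_compact (isCompact_closedBall c ρ)).mono_set ball_subset_closedBall

/-- From a Bochner integral of the positive part to a lower integral of `ofReal`. -/
lemma ofReal_integral_max_le {g : E → ℝ} (hg : Continuous g) (c : E) (ρ : ℝ) :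
    ENNReal.ofReal (∫ y in ball c ρ, max (g y) 0 ∂μ) = ∫⁻ y in ball c ρ, ENNReal.ofReal (g y) ∂μ := by
  have hint : IntegrableOn (fun y => max (g y) 0) (ball c ρ) μ :=
    integrableOn_ball_of_continuous (hg.max continuous_const) c ρ
  rw [ofReal_integral_eq_lintegral_ofReal hint (ae_of_all _ (fun y => le_max_right _ _))]
  apply lintegral_congr
  intro y
  by_cases h : 0 ≤ g y
  · rw [max_eq_left h]
  · push Not at h
    rw [max_eq_right h.le, ENNReal.ofReal_zero, ENNReal.ofReal_of_nonpos h.le]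

end Vale.Agent.Lib.P137



/-! Constants, and the region bound used in the long chord case of the key lemma. -/

namespace Vale.Agent.Lib.P137

open MeasureTheory Set Filter Topology Metric Module
open scoped ENNReal NNReal RealInnerProductSpace Pointwise

set_option linter.unusedSectionVars false
set_option linter.unusedVariables false

/-- Small constant. -/
noncomputable def cFour (d : ℕ) : ℝ := ((1 : ℝ) / 10 ^ 10) ^ d / 8
/-- Small constant. -/
noncomputable def cTwo (d : ℕ) : ℝ := cFour d / 2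
/-- The aperture constant. -/
noncomputable def etaK : ℝ := 1 / 14720
/-- Small constant. -/
noncomputable def aSmall (d : ℕ) : ℝ := (etaK / 2) ^ d * cFour d / 2
/-- Small constant. -/
noncomputable def aOne (d : ℕ) : ℝ := aSmall d / 2 ^ d

lemma cFour_pos (d : ℕ) : 0 < cFour d := by unfold cFour; positivity
lemma cTwo_pos (d : ℕ) : 0 < cTwo d := by unfold cTwo; have := cFour_pos d; positivity
lemma etaK_pos : 0 < etaK := by unfold etaK; norm_num
lemma aSmall_pos (d : ℕ) : 0 < aSmall d := by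
  unfold aSmall; have := cFour_pos d; have := etaK_pos; positivity
lemma aOne_pos (d : ℕ) : 0 < aOne d := by unfold aOne; have := aSmall_pos d; positivity

lemma cFour_le (d : ℕ) : cFour d ≤ 1 / 8 := by
  unfold cFour
  have : ((1 : ℝ) / 10 ^ 10) ^ d ≤ 1 := pow_le_one₀ (by norm_num) (by norm_num)
  linarith

/-- `a` written as a single power. -/
lemma aSmall_eq (d : ℕ) : aSmall d = ((1 : ℝ) / (29440 * 10 ^ 10)) ^ d / 16 := by
  unfold aSmall cFour etaK
  have : (1 / 14720 / 2 : ℝ) ^ d * ((1 : ℝ) / 10 ^ 10) ^ d = ((1 : ℝ) / (29440 * 10 ^ 10)) ^ d := by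
    rw [← mul_pow]; congr 1; norm_num
  rw [← this]; ring

/-- A power times `a` is small. -/
lemma aSmall_mul_pow_le {Λ : ℝ} (h0 : 0 ≤ Λ) (h : Λ ≤ 29440 * 10 ^ 10) (d : ℕ) :
    Λ ^ d * aSmall d ≤ 1 / 16 := by
  rw [aSmall_eq, ← mul_div_assoc, ← mul_pow]
  have h1 : (Λ * ((1 : ℝ) / (29440 * 10 ^ 10))) ^ d ≤ 1 := by
    apply pow_le_one₀ (by positivity)
    rw [mul_one_div, div_le_one (by norm_num)]
    exact h
  linarith

/-- A power times `c₄` is small. -/
lemma cFour_mul_pow_le {Λ : ℝ} (h0 : 0 ≤ Λ) (h : Λ ≤ 10 ^ 10) (d : ℕ) :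
    Λ ^ d * cFour d ≤ 1 / 8 := by
  unfold cFour
  rw [← mul_div_assoc, ← mul_pow]
  have h1 : (Λ * ((1 : ℝ) / 10 ^ 10)) ^ d ≤ 1 := by
    apply pow_le_one₀ (by positivity)
    rw [mul_one_div, div_le_one (by norm_num)]
    exact h
  linarith

lemma two_pow_mul_aSmall_div (d : ℕ) : 2 ^ d * aSmall d / etaK ^ d = cFour d / 2 := by
  unfold aSmall
  have h : etaK ≠ 0 := etaK_pos.ne'
  rw [div_pow]
  field_simp

/-- Helper: dividing out a positive scale in an `ofReal` bound. -/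
lemma le_ofReal_div {A : ℝ≥0∞} {κ B : ℝ} (hκ : 0 < κ) (h : ENNReal.ofReal κ * A ≤ ENNReal.ofReal B) :
    A ≤ ENNReal.ofReal (B / κ) := by
  have h1 : A = ENNReal.ofReal κ⁻¹ * (ENNReal.ofReal κ * A) := by
    rw [← mul_assoc, ← ENNReal.ofReal_mul (by positivity), inv_mul_cancel₀ hκ.ne']
    simp
  rw [h1, div_eq_inv_mul, ENNReal.ofReal_mul (by positivity)]
  gcongr

variable {E : Type*} [NormedAddCommGroup E] [InnerProductSpace ℝ E] [FiniteDimensional ℝ E]
  [MeasurableSpace E] [BorelSpace E] {μ : Measure E} [μ.IsAddHaarMeasure]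

variable {f u : E → ℝ} {x n : E} {r : ℝ}

/-- The region bound: if a high point `y` of the optimal ball has few short chords, then above
it in an outward cone `f` is at least the level `s`, except on a small part. -/
lemma region_bound (hG : GoodPoint μ (aOne (finrank ℝ E)) f u x n r) (hA : AvgPair μ f u)
    {y : E} {s : ℝ} (hy : y ∈ ball (x + r • n) r) (hfy : s < f y)
    (hsT : f x + (u x - f x) / 4 < s)
    (hS : μ (shortDirs f 60000 y s ∩ ball 0 1) <
      ENNReal.ofReal (cTwo (finrank ℝ E) * volOne μ)) :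
    ∃ (nst : E) (ρ : ℝ), ‖nst‖ = 1 ∧ 1 / 2 ≤ ρ ∧ ρ < r ∧ y = x + r • n + ρ • nst ∧
      ∀ D : ℝ, 0 < D → D ≤ 60000 → ∀ A : Set E,
        (∀ q ∈ A, f q < s ∧ etaK * ‖q - y‖ ≤ ⟪q - y, nst⟫ ∧ q ≠ y ∧ ‖q - y‖ < D) →
        μ A ≤ ENNReal.ofReal (D ^ finrank ℝ E * cFour (finrank ℝ E) * volOne μ) := by
  classical
  set d := finrank ℝ E with hd
  set c := x + r • n with hc
  set V₀ := volOne μ with hV₀
  have hV : 0 < V₀ := volOne_pos μ
  have hr := hG.r_pos
  have r1 := hG.r_ge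
  have r2 := hG.r_le
  have ha := aSmall_pos d
  have hc4 := cFour_pos d
  have hη := etaK_pos
  set P := rayPart f u x n r with hP
  have hPle : μ P ≤ ENNReal.ofReal (2 ^ d * aSmall d * V₀) := by
    refine (hG.measure_rayPart_le (aOne_pos d).le).trans (ENNReal.ofReal_le_ofReal ?_)
    have h1 : (2 * r) ^ d * aOne d = r ^ d * aSmall d := by
      unfold aOne
      rw [mul_pow]
      field_simp
    rw [h1]
    have h2 : r ^ d ≤ 2 ^ d := pow_le_pow_left₀ hr.le r2 d
    have h3 : r ^ d * aSmall d ≤ 2 ^ d * aSmall d := mul_le_mul_of_nonneg_right h2 ha.le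
    exact mul_le_mul_of_nonneg_right h3 hV.le
  -- the cone where `f` stays high
  let K : Set E := {w | ∀ τ : ℝ, 0 < τ → τ * ‖w‖ < 60000 → s ≤ f (y + τ • w)}
  have hKcone : IsConeSet K := by
    intro w hw t ht τ hτ hτ'
    rw [norm_smul, Real.norm_eq_abs, abs_of_pos ht] at hτ'
    have := hw (τ * t) (by positivity) (by linarith [mul_assoc τ t ‖w‖])
    rwa [smul_smul]
  have hray : ∀ w ∈ K, ∀ τ : ℝ, 0 < τ → τ * ‖w‖ < 60000 → y + τ • w ∈ ball c r → y + τ • w ∈ P := by
    intro w hw τ hτ hτ' hmem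
    refine ⟨hmem, ?_⟩
    rcases hG.ray_or_plateau hA hmem with h1 | h1
    · exact h1
    · exfalso
      have h2 := hw τ hτ hτ'
      have h3 := (abs_lt.1 h1).2
      linarith
  -- the covering of the unit ball
  have hcover : ∀ w, w ∈ ball (0 : E) 1 → w ∉ K → -w ∉ K → w ∈ shortDirs f 60000 y s := by
    intro w _ h1 h2
    simp only [K, mem_ofPred_eq, not_forall, not_le] at h1 h2
    obtain ⟨τ₁, h11, h12, h13⟩ := h1
    obtain ⟨τ₂, h21, h22, h23⟩ := h2
    rw [norm_neg] at h22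
    refine ⟨τ₁, τ₂, h11, h12, h21, h22, Or.inl ⟨hfy, h13, ?_⟩⟩
    rw [smul_neg, ← sub_eq_add_neg] at h23
    exact h23
  set mK := μ (K ∩ ball 0 1) with hmK
  have hneg : μ {w | -w ∈ K ∩ ball (0 : E) 1} = mK := measure_neg_set μ _
  have hV_le : ENNReal.ofReal V₀ ≤ ENNReal.ofReal (cTwo d * V₀) + mK + mK := by
    rw [hV₀, ofReal_volOne μ]
    have hsub : ball (0 : E) 1 ⊆ (shortDirs f 60000 y s ∩ ball 0 1) ∪ (K ∩ ball 0 1) ∪
        {w | -w ∈ K ∩ ball (0 : E) 1} := by
      intro w hw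
      by_cases h1 : w ∈ K
      · exact Or.inl (Or.inr ⟨h1, hw⟩)
      · by_cases h2 : -w ∈ K
        · refine Or.inr ⟨h2, ?_⟩
          simpa using hw
        · exact Or.inl (Or.inl ⟨hcover w hw h1 h2, hw⟩)
    calc μ (ball (0 : E) 1) ≤ μ ((shortDirs f 60000 y s ∩ ball 0 1) ∪ (K ∩ ball 0 1) ∪
          {w | -w ∈ K ∩ ball (0 : E) 1}) := measure_mono hsub
      _ ≤ μ (shortDirs f 60000 y s ∩ ball 0 1) + μ (K ∩ ball 0 1) + μ {w | -w ∈ K ∩ ball (0 : E) 1} :=
          (measure_union_le _ _).trans (add_le_add (measure_union_le _ _) le_rfl)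
      _ ≤ _ := by
          rw [hneg]
          gcongr
  -- distance from the center
  set ρ := ‖y - c‖ with hρ
  have hρr : ρ < r := by
    have := hy
    rwa [mem_ball, dist_eq_norm] at this
  have hρ1 : 1 / 2 ≤ ρ := by
    by_contra hc1
    push Not at hc1
    have h1 : ENNReal.ofReal ((1 / 2 : ℝ) ^ d) * mK ≤ μ P := by
      apply scale_le μ (by norm_num : (0 : ℝ) < 1 / 2)
      rintro w ⟨hw, hw1⟩
      have hwn : ‖w‖ < 1 := by simpa using hw1
      apply hray w hw _ (by norm_num) (by nlinarith [norm_nonneg w])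
      rw [mem_ball, dist_eq_norm]
      have e : y + (1 / 2 : ℝ) • w - c = (y - c) + (1 / 2 : ℝ) • w := by abel
      rw [e]
      calc ‖(y - c) + (1 / 2 : ℝ) • w‖ ≤ ‖y - c‖ + ‖(1 / 2 : ℝ) • w‖ := norm_add_le _ _
        _ = ρ + (1 / 2) * ‖w‖ := by
            rw [norm_smul]; norm_num; rfl
        _ < r := by linarith
    have h2 : mK ≤ ENNReal.ofReal (2 ^ d * aSmall d * V₀ / (1 / 2 : ℝ) ^ d) :=
      le_ofReal_div (by positivity) (h1.trans hPle)
    have h3 : 2 ^ d * aSmall d * V₀ / (1 / 2 : ℝ) ^ d = 4 ^ d * aSmall d * V₀ := by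
      have : (4 : ℝ) ^ d = 2 ^ d * 2 ^ d := by rw [← mul_pow]; norm_num
      rw [this, one_div, inv_pow]
      field_simp
    rw [h3] at h2
    have h4 : ENNReal.ofReal V₀ ≤ ENNReal.ofReal (cTwo d * V₀ + (4 ^ d * aSmall d * V₀ + 4 ^ d * aSmall d * V₀)) := by
      rw [ENNReal.ofReal_add (by have := cTwo_pos d; positivity) (by positivity),
        ENNReal.ofReal_add (by positivity) (by positivity)]
      calc ENNReal.ofReal V₀ ≤ ENNReal.ofReal (cTwo d * V₀) + mK + mK := hV_le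
        _ ≤ _ := by
            rw [add_assoc]
            gcongr
    have h5 := (ENNReal.ofReal_le_ofReal_iff (by
      have := cTwo_pos d; positivity)).1 h4
    have h6 : (4 : ℝ) ^ d * aSmall d ≤ 1 / 16 := aSmall_mul_pow_le (by norm_num) (by norm_num) d
    have h7 : cTwo d ≤ 1 / 16 := by
      unfold cTwo; have := cFour_le d; linarith
    have h8 : cTwo d * V₀ + (4 ^ d * aSmall d * V₀ + 4 ^ d * aSmall d * V₀) ≤ (3 / 16) * V₀ := by
      nlinarith
    nlinarith
  have hρpos : 0 < ρ := by linarith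
  -- the outward normal
  obtain ⟨nst, hnstn, hyc⟩ : ∃ nst : E, ‖nst‖ = 1 ∧ y - c = ρ • nst := by
    refine ⟨ρ⁻¹ • (y - c), ?_, ?_⟩
    · rw [norm_smul, Real.norm_eq_abs, abs_of_pos (inv_pos.2 hρpos), ← hρ,
        inv_mul_cancel₀ hρpos.ne']
    · rw [smul_smul, mul_inv_cancel₀ hρpos.ne', one_smul]
  have hyeq : y = c + ρ • nst := by
    rw [← hyc]; abel
  -- the inward part of the cone
  let Bad : Set E := (K ∩ {w | ⟪w, nst⟫ ≤ - etaK * ‖w‖}) ∩ ball 0 1
  have hBad : μ Bad ≤ ENNReal.ofReal (cFour d / 2 * V₀) := by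
    have h1 : ENNReal.ofReal (etaK ^ d) * μ Bad ≤ μ P := by
      apply scale_le μ hη
      rintro w ⟨⟨hw, hwi⟩, hw1⟩
      have hwn : ‖w‖ < 1 := by simpa using hw1
      have hwi' : ⟪w, nst⟫ ≤ - etaK * ‖w‖ := hwi
      have hη1 : etaK ≤ 1 := by unfold etaK; norm_num
      apply hray w hw _ hη (by nlinarith [norm_nonneg w])
      rw [mem_ball, dist_eq_norm]
      have e : y + etaK • w - c = ρ • nst + etaK • w := by rw [← hyc]; abel
      rw [e]
      have h2 : ‖ρ • nst + etaK • w‖ ^ 2 ≤ ρ ^ 2 := by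
        rw [norm_add_sq_real, norm_smul, norm_smul, hnstn, Real.norm_eq_abs, Real.norm_eq_abs,
          abs_of_pos hρpos, abs_of_pos hη, inner_smul_left, inner_smul_right,
          real_inner_comm w nst]
        simp only [conj_trivial]
        have h3 : ρ * (etaK * ⟪w, nst⟫) ≤ ρ * (etaK * (- etaK * ‖w‖)) := by
          apply mul_le_mul_of_nonneg_left _ hρpos.le
          exact mul_le_mul_of_nonneg_left hwi' hη.le
        have h4 : etaK ^ 2 * (‖w‖ * (‖w‖ - 2 * ρ)) ≤ 0 := by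
          apply mul_nonpos_of_nonneg_of_nonpos (by positivity)
          apply mul_nonpos_of_nonneg_of_nonpos (norm_nonneg _)
          linarith
        nlinarith
      have h5 : ‖ρ • nst + etaK • w‖ ≤ ρ := by
        exact le_of_pow_le_pow_left₀ (by norm_num) hρpos.le h2
      linarith
    have h2 := le_ofReal_div (pow_pos hη d) (h1.trans hPle)
    refine h2.trans (ENNReal.ofReal_le_ofReal (le_of_eq ?_))
    have := two_pow_mul_aSmall_div d
    rw [mul_div_right_comm, this]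
  -- the directions in the outward cone where `f` fails to stay high
  let KX : Set E := {w | w ≠ 0 ∧ etaK * ‖w‖ ≤ ⟪w, nst⟫ ∧ w ∉ K}
  have hKXcone : IsConeSet KX := by
    rintro w ⟨h1, h2, h3⟩ t ht
    refine ⟨smul_ne_zero ht.ne' h1, ?_, ?_⟩
    · rw [norm_smul, Real.norm_eq_abs, abs_of_pos ht, inner_smul_left]
      simp only [conj_trivial]
      calc etaK * (t * ‖w‖) = t * (etaK * ‖w‖) := by ring
        _ ≤ t * ⟪w, nst⟫ := mul_le_mul_of_nonneg_left h2 ht.le
    · intro h4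
      apply h3
      have := hKcone _ h4 t⁻¹ (inv_pos.2 ht)
      rwa [smul_smul, inv_mul_cancel₀ ht.ne', one_smul] at this
  have hKX : μ (KX ∩ ball 0 1) ≤ ENNReal.ofReal (cFour d * V₀) := by
    have hsub : KX ∩ ball 0 1 ⊆ (shortDirs f 60000 y s ∩ ball 0 1) ∪ {w | -w ∈ Bad} := by
      rintro w ⟨⟨h1, h2, h3⟩, hw⟩
      by_cases h4 : -w ∈ K
      · refine Or.inr ⟨⟨h4, ?_⟩, by simpa using hw⟩
        show ⟪-w, nst⟫ ≤ - etaK * ‖-w‖
        rw [inner_neg_left, norm_neg]
        linarith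
      · exact Or.inl ⟨hcover w hw h3 h4, hw⟩
    have h5 : μ {w | -w ∈ Bad} = μ Bad := measure_neg_set μ _
    calc μ (KX ∩ ball 0 1) ≤ μ ((shortDirs f 60000 y s ∩ ball 0 1) ∪ {w | -w ∈ Bad}) := measure_mono hsub
      _ ≤ μ (shortDirs f 60000 y s ∩ ball 0 1) + μ {w | -w ∈ Bad} := measure_union_le _ _
      _ ≤ ENNReal.ofReal (cTwo d * V₀) + ENNReal.ofReal (cFour d / 2 * V₀) := by
          rw [h5]
          exact add_le_add hS.le hBad
      _ = ENNReal.ofReal (cFour d * V₀) := by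
          rw [← ENNReal.ofReal_add (by have := cTwo_pos d; positivity) (by positivity)]
          congr 1
          unfold cTwo
          ring
  refine ⟨nst, ρ, hnstn, hρ1, hρr, hyeq, ?_⟩
  intro D hD hD' A hAq
  have h1 : μ A ≤ ENNReal.ofReal (D ^ d) * μ (KX ∩ ball 0 1) := by
    apply cone_cover μ hKXcone hD
    intro q hq
    obtain ⟨h2, h3, h4, h5⟩ := hAq q hq
    refine ⟨⟨sub_ne_zero.2 h4, h3, ?_⟩, h5⟩
    intro hK'
    have h6 := hK' 1 one_pos (by linarith)
    simp only [one_smul, add_sub_cancel] at h6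
    linarith
  refine h1.trans ?_
  calc ENNReal.ofReal (D ^ d) * μ (KX ∩ ball 0 1)
      ≤ ENNReal.ofReal (D ^ d) * ENNReal.ofReal (cFour d * V₀) := by gcongr
    _ = ENNReal.ofReal (D ^ d * cFour d * V₀) := by
        rw [← ENNReal.ofReal_mul (by positivity)]
        congr 1
        ring

end Vale.Agent.Lib.P137



/-! Consequences of the region bound: lower bound for short chords at deep low points,
and the comparison with large balls. -/

namespace Vale.Agent.Lib.P137

open MeasureTheory Set Filter Topology Metric Module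
open scoped ENNReal NNReal RealInnerProductSpace Pointwise

set_option linter.unusedSectionVars false
set_option linter.unusedVariables false

lemma pow_add_one_sub_ge {τ : ℝ} (hτ : 0 ≤ τ) {d : ℕ} (hd : 1 ≤ d) : τ ^ d + 1 ≤ (τ + 1) ^ d := by
  induction d, hd using Nat.le_induction with
  | base => simp
  | succ k hk ih =>
    rw [pow_succ, pow_succ]
    have h1 : 0 ≤ τ ^ k := by positivity
    nlinarith

lemma cFour_pow_le_eta (d : ℕ) : (59783 : ℝ) ^ d * cFour d ≤ etaK ^ d / 4 := by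
  unfold cFour etaK
  have h1 : ((59783 : ℝ) * (1 / 10 ^ 10)) ^ d ≤ (1 / 14720 : ℝ) ^ d :=
    pow_le_pow_left₀ (by norm_num) (by norm_num) d
  rw [mul_pow] at h1
  have h2 : (0 : ℝ) ≤ (1 / 14720 : ℝ) ^ d := by positivity
  calc (59783 : ℝ) ^ d * (((1 : ℝ) / 10 ^ 10) ^ d / 8) = (59783 : ℝ) ^ d * ((1 : ℝ) / 10 ^ 10) ^ d / 8 := by ring
    _ ≤ (1 / 14720 : ℝ) ^ d / 8 := by linarith
    _ ≤ (1 / 14720 : ℝ) ^ d / 4 := by linarith

lemma ofReal_div_le {A : ℝ≥0∞} {κ B : ℝ} (hκ : 0 < κ) (h : ENNReal.ofReal B ≤ ENNReal.ofReal κ * A) :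
    ENNReal.ofReal (B / κ) ≤ A := by
  have h1 : A = ENNReal.ofReal κ⁻¹ * (ENNReal.ofReal κ * A) := by
    rw [← mul_assoc, ← ENNReal.ofReal_mul (by positivity), inv_mul_cancel₀ hκ.ne']
    simp
  rw [h1, div_eq_inv_mul, ENNReal.ofReal_mul (by positivity)]
  gcongr

variable {E : Type*} [NormedAddCommGroup E] [InnerProductSpace ℝ E] [FiniteDimensional ℝ E]
  [MeasurableSpace E] [BorelSpace E] {μ : Measure E} [μ.IsAddHaarMeasure]

variable {f u : E → ℝ}

/-- The statement of the region bound, as a hypothesis. -/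
def RegionBound (μ : Measure E) (f : E → ℝ) (y nst : E) (s : ℝ) : Prop :=
  ∀ D : ℝ, 0 < D → D ≤ 60000 → ∀ A : Set E,
    (∀ q ∈ A, f q < s ∧ etaK * ‖q - y‖ ≤ ⟪q - y, nst⟫ ∧ q ≠ y ∧ ‖q - y‖ < D) →
    μ A ≤ ENNReal.ofReal (D ^ finrank ℝ E * cFour (finrank ℝ E) * volOne μ)

/-- Deep low points of the comparison ball have many short chords. -/
lemma short_lower (hd : 1 ≤ finrank ℝ E) {y nst p q : E} {s β : ℝ} {P : Set E}
    (hRB : RegionBound μ f y nst s) (hnst : ‖nst‖ = 1)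
    (hpy : ‖p - y‖ ≤ 41) (hph : -4 ≤ ⟪p - y, nst⟫)
    (hPsmall : μ P ≤ ENNReal.ofReal ((1 / 32 : ℝ) ^ finrank ℝ E * volOne μ / 2))
    (hlowf : ∀ z ∈ ball q (1 / 32), z ∉ P → β < f z)
    (hlowh : ∀ z ∈ ball q (1 / 32), ⟪z - y, nst⟫ ≤ ⟪p - y, nst⟫ - 1 / 16)
    (hlowd : ∀ z ∈ ball q (1 / 32), ‖z - p‖ < 41)
    (hβs : β < s) {y' : E} {s' : ℝ} (hy' : y' ∈ ball (p + (205 : ℝ) • nst) 205)
    (hfy' : f y' < s') (hs' : s' < β) :
    ENNReal.ofReal (etaK ^ finrank ℝ E / 4 * volOne μ) ≤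
      μ (shortDirs f 60000 y' s' ∩ ball 0 1) := by
  classical
  set d := finrank ℝ E with hdd
  set V₀ := volOne μ with hV₀
  have hV : 0 < V₀ := volOne_pos μ
  have hη := etaK_pos
  have hc4 := cFour_pos d
  -- position of y'
  have h1 := (mem_ball_iff_inner (x := p) (n := nst) (z := y') hnst (by norm_num : (0 : ℝ) < 205)).1 hy'
  have hin0 : 0 ≤ ⟪y' - p, nst⟫ := by
    have : 0 ≤ ‖y' - p‖ ^ 2 := by positivity
    nlinarith
  have hy'p : ‖y' - p‖ < 410 := by
    have h2 : dist y' (p + (205 : ℝ) • nst) < 205 := hy'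
    rw [dist_eq_norm] at h2
    have e : y' - p = (y' - (p + (205 : ℝ) • nst)) + (205 : ℝ) • nst := by abel
    rw [e]
    calc _ ≤ ‖y' - (p + (205 : ℝ) • nst)‖ + ‖(205 : ℝ) • nst‖ := norm_add_le _ _
      _ < 205 + 205 := by
          rw [norm_smul, hnst]
          norm_num
          linarith
      _ = 410 := by norm_num
  have hy'y : ‖y' - y‖ < 451 := by
    have e : y' - y = (y' - p) + (p - y) := by abel
    rw [e]
    calc _ ≤ ‖y' - p‖ + ‖p - y‖ := norm_add_le _ _
      _ < 451 := by linarith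
  have hh : ⟪p - y, nst⟫ ≤ ⟪y' - y, nst⟫ := by
    have e : y' - y = (y' - p) + (p - y) := by abel
    rw [e, inner_add_left]
    linarith
  -- the cone of directions reaching the low plateau
  let Wc : Set E := {w | w ≠ 0 ∧ ∃ τ : ℝ, 0 < τ ∧ τ * ‖w‖ < 60000 ∧
    y' + τ • w ∈ ball q (1 / 32) ∧ y' + τ • w ∉ P}
  have hWc : IsConeSet Wc := by
    rintro w ⟨h0, τ, h2, h3, h4, h5⟩ t ht
    refine ⟨smul_ne_zero ht.ne' h0, τ / t, by positivity, ?_, ?_, ?_⟩
    · rw [norm_smul, Real.norm_eq_abs, abs_of_pos ht]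
      have : τ / t * (t * ‖w‖) = τ * ‖w‖ := by field_simp
      rwa [this]
    · rw [smul_smul, div_mul_cancel₀ _ ht.ne']; exact h4
    · rw [smul_smul, div_mul_cancel₀ _ ht.ne']; exact h5
  have hWc_big : ENNReal.ofReal (etaK ^ d * V₀ / 2) ≤ μ (Wc ∩ ball 0 1) := by
    have h2 : μ (ball q (1 / 32) \ P) ≤ ENNReal.ofReal ((460 : ℝ) ^ d) * μ (Wc ∩ ball 0 1) := by
      apply cone_cover μ hWc (by norm_num : (0 : ℝ) < 460)
      rintro z ⟨hz, hzP⟩
      have hz1 : ‖z - y'‖ < 451 := by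
        have e : z - y' = (z - p) - (y' - p) := by abel
        rw [e]
        calc _ ≤ ‖z - p‖ + ‖y' - p‖ := norm_sub_le _ _
          _ < 451 := by linarith [hlowd z hz]
      refine ⟨⟨?_, 1, one_pos, ?_, ?_, ?_⟩, by linarith⟩
      · intro h0
        have h3 : z = y' := sub_eq_zero.1 h0
        have h4 := hlowf z hz hzP
        rw [h3] at h4
        linarith
      · rw [one_mul]; linarith
      · simpa using hz
      · simpa using hzP
    have h3 : ENNReal.ofReal ((1 / 32 : ℝ) ^ d * V₀ / 2) ≤ μ (ball q (1 / 32) \ P) := by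
      have h4 := le_measure_sdiff (μ := μ) (s₁ := ball q (1 / 32)) (s₂ := P)
      refine le_trans ?_ h4
      rw [measure_ball_eq μ q (by norm_num : (0 : ℝ) < 1 / 32)]
      have hPfin : μ P ≠ ∞ := ne_top_of_le_ne_top ENNReal.ofReal_ne_top hPsmall
      apply ENNReal.le_sub_of_add_le_right hPfin
      calc ENNReal.ofReal ((1 / 32 : ℝ) ^ d * V₀ / 2) + μ P
          ≤ ENNReal.ofReal ((1 / 32 : ℝ) ^ d * V₀ / 2) + ENNReal.ofReal ((1 / 32 : ℝ) ^ d * V₀ / 2) := by
            gcongr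
        _ = ENNReal.ofReal ((1 / 32 : ℝ) ^ d * V₀) := by
            rw [← ENNReal.ofReal_add (by positivity) (by positivity)]
            congr 1
            ring
    have h4 := ofReal_div_le (by positivity) (h3.trans h2)
    refine le_trans (ENNReal.ofReal_le_ofReal (le_of_eq ?_)) h4
    have h5 : etaK = (1 / 32 : ℝ) / 460 := by unfold etaK; norm_num
    rw [h5, div_pow]
    field_simp
  -- the backward cone
  let W₂ : Set E := {v | -v ∈ Wc ∧ ∀ τ : ℝ, 59331 ≤ τ → τ < 59332 → f (y' + (τ / ‖v‖) • v) < s}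
  have hW₂ : IsConeSet W₂ := by
    rintro v ⟨h0, h2⟩ t ht
    refine ⟨?_, ?_⟩
    · have := hWc _ h0 t ht
      rw [smul_neg] at this
      show -(t • v) ∈ Wc
      exact this
    · intro τ hτ1 hτ2
      have h3 := h2 τ hτ1 hτ2
      have hv : v ≠ 0 := by
        intro hv0
        rw [hv0] at h0
        simp [Wc] at h0
      have hvn : 0 < ‖v‖ := norm_pos_iff.2 hv
      rw [norm_smul, Real.norm_eq_abs, abs_of_pos ht, smul_smul]
      have : τ / (t * ‖v‖) * t = τ / ‖v‖ := by field_simp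
      rwa [this]
  let A₂ : Set E := {z | ∃ v ∈ W₂, 59331 ≤ ‖v‖ ∧ ‖v‖ < 59332 ∧ z = y' + v}
  have hA₂ : μ A₂ ≤ ENNReal.ofReal ((59783 : ℝ) ^ d * cFour d * V₀) := by
    apply hRB 59783 (by norm_num) (by norm_num)
    rintro _ ⟨v, ⟨hv1, hv2⟩, hn1, hn2, rfl⟩
    have hvpos : 0 < ‖v‖ := by linarith
    have hv0 : v ≠ 0 := norm_pos_iff.1 hvpos
    obtain ⟨-, τ₀, hτ₀, hτ₀1, hτ₀2, hτ₀3⟩ := hv1
    -- the inward direction
    set z := y' + τ₀ • (-v) with hz
    have hzh := hlowh z hτ₀2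
    have hzd := hlowd z hτ₀2
    have hzy' : z - y' = -(τ₀ • v) := by rw [hz, smul_neg]; abel
    have hzn : τ₀ * ‖v‖ < 460 := by
      have e : z - y' = (z - p) - (y' - p) := by abel
      have h3 : ‖z - y'‖ < 451 := by
        rw [e]
        calc _ ≤ ‖z - p‖ + ‖y' - p‖ := norm_sub_le _ _
          _ < 451 := by linarith
      rw [hzy', norm_neg, norm_smul, Real.norm_eq_abs, abs_of_pos hτ₀] at h3
      linarith
    have hin : 1 / 16 ≤ τ₀ * ⟪v, nst⟫ := by
      have e : z - y = (z - y') + (y' - y) := by abel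
      rw [e, inner_add_left, hzy', inner_neg_left, inner_smul_left] at hzh
      simp only [conj_trivial] at hzh
      linarith
    have hin2 : ‖v‖ ≤ 7360 * ⟪v, nst⟫ := by
      have h3 : τ₀ * ‖v‖ ≤ τ₀ * (7360 * ⟪v, nst⟫) := by nlinarith
      exact le_of_mul_le_mul_left h3 hτ₀
    have hqin : ⟪y' + v - y, nst⟫ = ⟪y' - y, nst⟫ + ⟪v, nst⟫ := by
      have e : y' + v - y = (y' - y) + v := by abel
      rw [e, inner_add_left]
    have hqn : ‖y' + v - y‖ ≤ ‖y' - y‖ + ‖v‖ := by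
      have e : y' + v - y = (y' - y) + v := by abel
      rw [e]
      exact norm_add_le _ _
    refine ⟨?_, ?_, ?_, ?_⟩
    · have h3 := hv2 ‖v‖ hn1 hn2
      rwa [div_self hvpos.ne', one_smul] at h3
    · rw [hqin]
      have h3 : etaK * ‖y' + v - y‖ ≤ etaK * (‖y' - y‖ + ‖v‖) :=
        mul_le_mul_of_nonneg_left hqn hη.le
      have h4 : etaK = 1 / 14720 := rfl
      rw [h4] at h3 ⊢
      nlinarith
    · intro h3
      have h4 : y' + v - y = 0 := by rw [h3]; abel
      rw [h4, inner_zero_left] at hqin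
      nlinarith
    · linarith
  have hW₂small : μ (W₂ ∩ ball 0 1) ≤ ENNReal.ofReal ((59783 : ℝ) ^ d * cFour d * V₀) := by
    have h2 := sector_le μ hW₂ (x := y') (Z := A₂) (τ₁ := 59331) (τ₂ := 59332) (by norm_num) (by norm_num)
      (fun v hv h3 h4 => ⟨v, hv, h3, h4, rfl⟩)
    have h3 : (1 : ℝ) ≤ (59332 : ℝ) ^ d - (59331 : ℝ) ^ d := by
      have := pow_add_one_sub_ge (τ := 59331) (by norm_num) hd
      norm_num at this
      linarith
    have h4 : μ (W₂ ∩ ball 0 1) ≤ ENNReal.ofReal ((59332 : ℝ) ^ d - (59331 : ℝ) ^ d) * μ (W₂ ∩ ball 0 1) := by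
      conv_lhs => rw [← one_mul (μ (W₂ ∩ ball 0 1))]
      gcongr
      rw [← ENNReal.ofReal_one]
      exact ENNReal.ofReal_le_ofReal h3
    exact h4.trans (h2.trans hA₂)
  -- the covering
  have hsub : Wc ∩ ball 0 1 ⊆ (shortDirs f 60000 y' s' ∩ ball 0 1) ∪ {w | -w ∈ W₂ ∩ ball (0 : E) 1} := by
    rintro w ⟨hw, hw1⟩
    by_cases hc : -w ∈ W₂
    · exact Or.inr ⟨hc, by simpa using hw1⟩
    · refine Or.inl ⟨?_, hw1⟩
      have hc' : ¬ ∀ τ : ℝ, 59331 ≤ τ → τ < 59332 → f (y' + (τ / ‖-w‖) • -w) < s := by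
        intro hh2
        exact hc ⟨by simpa using hw, hh2⟩
      push Not at hc'
      obtain ⟨τ, h2, h3, h4⟩ := hc'
      rw [norm_neg] at h4
      obtain ⟨hw0, τ₀, h5, h6, h7, h8⟩ := hw
      have hwn : 0 < ‖w‖ := norm_pos_iff.2 hw0
      refine ⟨τ₀, τ / ‖w‖, h5, h6, by positivity, ?_, Or.inr ⟨hfy', ?_, ?_⟩⟩
      · rw [div_mul_cancel₀ _ hwn.ne']; linarith
      · exact hs'.trans (hlowf _ h7 h8)
      · rw [smul_neg, ← sub_eq_add_neg] at h4
        linarith
  have hfinal : ENNReal.ofReal (etaK ^ d * V₀ / 2) ≤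
      μ (shortDirs f 60000 y' s' ∩ ball 0 1) + ENNReal.ofReal (etaK ^ d / 4 * V₀) := by
    calc ENNReal.ofReal (etaK ^ d * V₀ / 2) ≤ μ (Wc ∩ ball 0 1) := hWc_big
      _ ≤ μ ((shortDirs f 60000 y' s' ∩ ball 0 1) ∪ {w | -w ∈ W₂ ∩ ball (0 : E) 1}) := measure_mono hsub
      _ ≤ μ (shortDirs f 60000 y' s' ∩ ball 0 1) + μ {w | -w ∈ W₂ ∩ ball (0 : E) 1} := measure_union_le _ _
      _ ≤ _ := by
          rw [measure_neg_set]
          gcongr
          refine hW₂small.trans (ENNReal.ofReal_le_ofReal ?_)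
          exact mul_le_mul_of_nonneg_right (cFour_pow_le_eta d) hV.le
  have hsplit : etaK ^ d * V₀ / 2 = etaK ^ d / 4 * V₀ + etaK ^ d / 4 * V₀ := by ring
  rw [hsplit, ENNReal.ofReal_add (by positivity) (by positivity)] at hfinal
  exact (ENNReal.add_le_add_iff_right ENNReal.ofReal_ne_top).1 hfinal

/-- Comparison with a large ball touching the point `p`. -/
lemma comp_bound (hA : AvgPair μ f u) {y nst p : E} {s lam β : ℝ}
    (hRB : RegionBound μ f y nst s) (hnst : ‖nst‖ = 1)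
    (hpy : ‖p - y‖ ≤ 41) (hup : u p ≤ lam) (hβ : β ≤ lam) (hs : lam ≤ s) :
    (s - lam) * ((82 : ℝ) ^ finrank ℝ E * volOne μ / 2) -
      (lam - β) * ((205 : ℝ) ^ finrank ℝ E * volOne μ) ≤
      ∫ y' in ball (p + (205 : ℝ) • nst) 205, max (β - f y') 0 ∂μ := by
  classical
  set d := finrank ℝ E with hdd
  set V₀ := volOne μ with hV₀
  have hV : 0 < V₀ := volOne_pos μ
  have hη := etaK_pos
  have hf := hA.cont
  set c₀ := p + (205 : ℝ) • nst with hc₀
  set G := ball c₀ 205 with hG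
  have hGvol : (μ G).toReal = (205 : ℝ) ^ d * V₀ := measure_ball_toReal μ c₀ (by norm_num)
  have hpG : p ∈ closedBall c₀ 205 := by
    rw [mem_closedBall, dist_eq_norm, hc₀]
    have : p - (p + (205 : ℝ) • nst) = - ((205 : ℝ) • nst) := by abel
    rw [this, norm_neg, norm_smul, hnst]
    norm_num
  have havg : ∫ z in G, f z ∂μ ≤ lam * ((205 : ℝ) ^ d * V₀) := by
    have h1 := hA.avg_le c₀ 205 (by norm_num) p hpG
    rw [← hG, hGvol] at h1
    refine h1.trans ?_
    exact mul_le_mul_of_nonneg_right hup (by positivity)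
  -- the high part
  set Bst := ball (y + (164 : ℝ) • nst) 82 with hBst
  let Q : Set E := Bst ∩ {z | s ≤ f z}
  have hQm : MeasurableSet Q :=
    measurableSet_ball.inter (isClosed_le continuous_const hf).measurableSet
  have hQG : Q ⊆ G := by
    rintro z ⟨hz, -⟩
    rw [hG, mem_ball, dist_eq_norm, hc₀]
    have hz' : ‖z - (y + (164 : ℝ) • nst)‖ < 82 := by
      have : dist z (y + (164 : ℝ) • nst) < 82 := hz
      rwa [dist_eq_norm] at this
    have e : z - (p + (205 : ℝ) • nst) = (z - (y + (164 : ℝ) • nst)) + (y - p) + ((-41 : ℝ) • nst) := by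
      have : (205 : ℝ) • nst = (164 : ℝ) • nst + (41 : ℝ) • nst := by
        rw [← add_smul]; norm_num
      rw [this, neg_smul]
      abel
    rw [e]
    have h3 : ‖(-41 : ℝ) • nst‖ = 41 := by
      rw [norm_smul, hnst]; norm_num
    have h4 : ‖y - p‖ = ‖p - y‖ := norm_sub_rev _ _
    calc _ ≤ ‖z - (y + (164 : ℝ) • nst)‖ + ‖y - p‖ + ‖(-41 : ℝ) • nst‖ := norm_add₃_le
      _ < 205 := by rw [h3, h4]; linarith
  have hQvol : (82 : ℝ) ^ d * V₀ / 2 ≤ (μ Q).toReal := by
    have hlow : μ (Bst ∩ {z | f z < s}) ≤ ENNReal.ofReal ((246 : ℝ) ^ d * cFour d * V₀) := by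
      apply hRB 246 (by norm_num) (by norm_num)
      rintro q ⟨hq, hq2⟩
      have hq' : ‖q - (y + (164 : ℝ) • nst)‖ < 82 := by
        have : dist q (y + (164 : ℝ) • nst) < 82 := hq
        rwa [dist_eq_norm] at this
      have e : q - y = (q - (y + (164 : ℝ) • nst)) + (164 : ℝ) • nst := by abel
      have hin : ⟪q - y, nst⟫ = ⟪q - (y + (164 : ℝ) • nst), nst⟫ + 164 := by
        rw [e, inner_add_left, inner_smul_left, real_inner_self_eq_norm_sq, hnst]
        simp
      have hin2 : - 82 ≤ ⟪q - (y + (164 : ℝ) • nst), nst⟫ := by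
        have := abs_real_inner_le_norm (q - (y + (164 : ℝ) • nst)) nst
        rw [hnst, mul_one] at this
        have h3 := (abs_le.1 this).1
        linarith
      have hn : ‖q - y‖ < 246 := by
        rw [e]
        calc _ ≤ ‖q - (y + (164 : ℝ) • nst)‖ + ‖(164 : ℝ) • nst‖ := norm_add_le _ _
          _ < 246 := by
              rw [norm_smul, hnst]
              norm_num
              linarith
      refine ⟨hq2, ?_, ?_, hn⟩
      · rw [hin]
        have h3 : etaK * ‖q - y‖ ≤ etaK * 246 := mul_le_mul_of_nonneg_left hn.le hη.le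
        have h4 : etaK * 246 ≤ 1 := by unfold etaK; norm_num
        linarith
      · intro h3
        have h5 : ⟪q - y, nst⟫ = 0 := by rw [h3, sub_self, inner_zero_left]
        linarith
    have hsplit : Bst ⊆ Q ∪ (Bst ∩ {z | f z < s}) := by
      intro z hz
      by_cases hc : s ≤ f z
      · exact Or.inl ⟨hz, hc⟩
      · exact Or.inr ⟨hz, not_le.1 hc⟩
    have hB : μ Bst = ENNReal.ofReal ((82 : ℝ) ^ d * V₀) := measure_ball_eq μ _ (by norm_num)
    have h1 : ENNReal.ofReal ((82 : ℝ) ^ d * V₀) ≤ μ Q + ENNReal.ofReal ((246 : ℝ) ^ d * cFour d * V₀) := by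
      rw [← hB]
      exact (measure_mono hsplit).trans ((measure_union_le _ _).trans (add_le_add le_rfl hlow))
    have hnum : (246 : ℝ) ^ d * cFour d * V₀ ≤ (82 : ℝ) ^ d * V₀ / 2 := by
      have h3 : (3 : ℝ) ^ d * cFour d ≤ 1 / 8 := cFour_mul_pow_le (by norm_num) (by norm_num) d
      have h4 : (246 : ℝ) ^ d = (82 : ℝ) ^ d * (3 : ℝ) ^ d := by rw [← mul_pow]; norm_num
      rw [h4]
      have h5 : (0 : ℝ) < 82 ^ d * V₀ := by positivity
      nlinarith
    have hQfin : μ Q ≠ ∞ := by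
      apply ne_top_of_le_ne_top (measure_ball_lt_top (μ := μ) (x := c₀) (r := 205)).ne
      exact measure_mono hQG
    have h2 : (82 : ℝ) ^ d * V₀ ≤ (μ Q).toReal + (246 : ℝ) ^ d * cFour d * V₀ := by
      have h3 := ENNReal.toReal_mono (by finiteness) h1
      have hn1 : 0 ≤ (82 : ℝ) ^ d * V₀ := by positivity
      have hn2 : 0 ≤ (246 : ℝ) ^ d * cFour d * V₀ :=
        mul_nonneg (mul_nonneg (by positivity) (cFour_pos d).le) hV.le
      rw [ENNReal.toReal_add hQfin ENNReal.ofReal_ne_top,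
        ENNReal.toReal_ofReal hn1, ENNReal.toReal_ofReal hn2] at h3
      exact h3
    linarith
  -- integrate the pointwise inequality
  have hint1 : IntegrableOn (fun z => Q.indicator (fun _ => s - lam) z + β - max (β - f z) 0) G μ := by
    have h1 : IntegrableOn (Q.indicator (fun _ => s - lam)) G μ := by
      apply IntegrableOn.indicator _ hQm
      exact integrableOn_const (measure_ball_lt_top).ne
    have h2 : IntegrableOn (fun _ : E => β) G μ := integrableOn_const (measure_ball_lt_top).ne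
    have h3 : IntegrableOn (fun z => max (β - f z) 0) G μ :=
      integrableOn_ball_of_continuous ((continuous_const.sub hf).max continuous_const) _ _
    exact (h1.add h2).sub h3
  have hint2 : IntegrableOn f G μ := integrableOn_ball_of_continuous hf _ _
  have hpt : ∀ z ∈ G, Q.indicator (fun _ => s - lam) z + β - max (β - f z) 0 ≤ f z := by
    intro z _
    have hmax1 : β - f z ≤ max (β - f z) 0 := le_max_left _ _
    have hmax2 : 0 ≤ max (β - f z) 0 := le_max_right _ _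
    by_cases hz : z ∈ Q
    · rw [indicator_of_mem hz]
      have := hz.2
      have h3 : s ≤ f z := this
      linarith
    · rw [indicator_of_notMem hz]
      linarith
  have hmono := setIntegral_mono_on hint1 hint2 measurableSet_ball hpt
  have hcomp : ∫ z in G, (Q.indicator (fun _ => s - lam) z + β - max (β - f z) 0) ∂μ =
      (s - lam) * (μ Q).toReal + β * ((205 : ℝ) ^ d * V₀) - ∫ z in G, max (β - f z) 0 ∂μ := by
    have h1 : IntegrableOn (Q.indicator (fun _ => s - lam)) G μ := by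
      apply IntegrableOn.indicator _ hQm
      exact integrableOn_const (measure_ball_lt_top).ne
    have h2 : IntegrableOn (fun _ : E => β) G μ := integrableOn_const (measure_ball_lt_top).ne
    have h3 : IntegrableOn (fun z => max (β - f z) 0) G μ :=
      integrableOn_ball_of_continuous ((continuous_const.sub hf).max continuous_const) _ _
    have h12 : IntegrableOn (fun z => Q.indicator (fun _ => s - lam) z + β) G μ := h1.add h2
    rw [integral_sub h12 h3, integral_add h1 h2, setIntegral_const,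
      setIntegral_indicator hQm, inter_eq_right.2 hQG, setIntegral_const]
    simp only [Measure.real, hGvol, smul_eq_mul]
    ring
  rw [hcomp] at hmono
  have h6 : (s - lam) * ((82 : ℝ) ^ d * V₀ / 2) ≤ (s - lam) * (μ Q).toReal :=
    mul_le_mul_of_nonneg_left hQvol (by linarith)
  nlinarith

end Vale.Agent.Lib.P137

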