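import Vale.Agent.Lib.P137.Concrete


/-! Elementary calculus of the maximal function. -/

namespace Vale.Agent.Lib.P137

open MeasureTheory Set Filter Topology Metric Module
open scoped ENNReal NNReal RealInnerProductSpace Pointwise

set_option linter.unusedSectionVars false
set_option linter.unusedVariables false

variable {E : Type*} [NormedAddCommGroup E] [InnerProductSpace ℝ E] [FiniteDimensional ℝ E]
  [MeasurableSpace E] [BorelSpace E] {μ : Measure E} [μ.IsAddHaarMeasure]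

variable {f g : E → ℝ} {L : ℝ≥0}

/-- The mean of `|f|` over a ball. -/
noncomputable def meanE (μ : Measure E) (f : E → ℝ) (c : E) (r : ℝ) : ℝ≥0∞ :=
  (∫⁻ y in ball c r, ENNReal.ofReal |f y| ∂μ) / μ (ball c r)

lemma meanE_le_maxE {c x : E} {r : ℝ} (hr : 0 < r) (hx : x ∈ ball c r) :
    meanE μ f c r ≤ maxE μ f x :=
  le_iSup_of_le c (le_iSup_of_le r (le_iSup_of_le hr (le_iSup_of_le hx le_rfl)))

lemma maxE_le_of {x : E} {b : ℝ≥0∞} (h : ∀ c r, 0 < r → x ∈ ball c r → meanE μ f c r ≤ b) :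
    maxE μ f x ≤ b :=
  iSup_le fun c => iSup_le fun r => iSup_le fun hr => iSup_le fun hx => h c r hr hx

lemma ball_pos {c : E} {r : ℝ} (hr : 0 < r) : μ (ball c r) ≠ 0 :=
  (measure_ball_pos μ c hr).ne'

lemma ball_fin {c : E} {r : ℝ} : μ (ball c r) ≠ ⊤ := measure_ball_lt_top.ne

lemma lintegral_ball_eq_mean (f : E → ℝ) (c : E) {r : ℝ} (hr : 0 < r) :
    ∫⁻ y in ball c r, ENNReal.ofReal |f y| ∂μ = meanE μ f c r * μ (ball c r) :=
  (ENNReal.div_mul_cancel (ball_pos hr) ball_fin).symm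

lemma meanE_le_add {a b d : E → ℝ} (hb : AEMeasurable (fun y => ENNReal.ofReal |b y|) μ)
    (h : ∀ y, |a y| ≤ |b y| + |d y|) (c : E) (r : ℝ) :
    meanE μ a c r ≤ meanE μ b c r + meanE μ d c r := by
  unfold meanE
  rw [← ENNReal.add_div]
  apply ENNReal.div_le_div_right
  rw [← lintegral_add_left' hb.restrict]
  apply lintegral_mono
  intro y
  beta_reduce
  rw [← ENNReal.ofReal_add (abs_nonneg _) (abs_nonneg _)]
  exact ENNReal.ofReal_le_ofReal (h y)

lemma maxE_le_add {a b d : E → ℝ} (hb : AEMeasurable (fun y => ENNReal.ofReal |b y|) μ)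
    (h : ∀ y, |a y| ≤ |b y| + |d y|) (x : E) :
    maxE μ a x ≤ maxE μ b x + maxE μ d x := by
  apply maxE_le_of
  intro c r hr hx
  exact (meanE_le_add hb h c r).trans (add_le_add (meanE_le_maxE hr hx) (meanE_le_maxE hr hx))

lemma meanE_eq_avgA {f : E → ℝ} {c : E} {r : ℝ} (hint : IntegrableOn (fun y => |f y|) (ball c r) μ)
    (hr : 0 < r) : meanE μ f c r = ENNReal.ofReal (avgA μ (fun x => |f x|) c r) := by
  have hV := volOne_pos μ
  have hm : 0 < (μ (ball c r)).toReal := by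
    rw [measure_ball_toReal μ c hr]
    positivity
  unfold meanE
  rw [← ofReal_integral_eq_lintegral_ofReal hint (ae_of_all _ (fun y => abs_nonneg _)),
    integral_ball_avgA (fun x => |f x|) c hr]
  have e : ENNReal.ofReal (μ (ball c r)).toReal = μ (ball c r) :=
    ENNReal.ofReal_toReal measure_ball_lt_top.ne
  have h2 := ENNReal.ofReal_div_of_pos (x := avgA μ (fun x => |f x|) c r * (μ (ball c r)).toReal) hm
  rw [mul_div_cancel_right₀ _ hm.ne', e] at h2
  exact h2.symm

/-- The supremum property at one point. -/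
def IsMaxAt (μ : Measure E) (a u : E → ℝ) (x : E) : Prop :=
  (∀ c r, 0 < r → x ∈ ball c r → avgA μ a c r ≤ u x) ∧
    (∀ b, (∀ c r, 0 < r → x ∈ ball c r → avgA μ a c r ≤ b) → u x ≤ b)

lemma isMaxAt_maxE (hI : Integrable f μ) {x : E} (hfin : maxE μ f x ≠ ⊤) :
    IsMaxAt μ (fun x => |f x|) (fun x => (maxE μ f x).toReal) x := by
  have hIa : Integrable (fun y => |f y|) μ := hI.abs
  constructor
  · intro c r hr hx
    rw [← ENNReal.ofReal_le_iff_le_toReal hfin, ← meanE_eq_avgA hIa.integrableOn hr]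
    exact meanE_le_maxE hr hx
  · intro b hb
    have hb0 : 0 ≤ b := by
      have h1 := hb x 1 one_pos (mem_ball_self one_pos)
      exact (avgA_nonneg (fun y => abs_nonneg (f y)) x 1).trans h1
    apply ENNReal.toReal_le_of_le_ofReal hb0
    apply maxE_le_of
    intro c r hr hx
    rw [meanE_eq_avgA hIa.integrableOn hr]
    exact ENNReal.ofReal_le_ofReal (hb c r hr hx)

/-- Comparison of the averages on concentric balls. -/
lemma avgA_mono_radius {a : E → ℝ} (ha0 : ∀ x, 0 ≤ a x) (hI : Integrable a μ) (c : E) {r s : ℝ}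
    (hr : 0 < r) (hs : 0 ≤ s) :
    avgA μ a c r * (r / (r + s)) ^ finrank ℝ E ≤ avgA μ a c (r + s) := by
  have hV := volOne_pos μ
  have hrs : 0 < r + s := by linarith
  have h1 : ∫ y in ball c r, a y ∂μ ≤ ∫ y in ball c (r + s), a y ∂μ := by
    apply setIntegral_mono_set hI.integrableOn (ae_of_all _ ha0)
    exact (ball_subset_ball (by linarith)).eventuallyLE
  rw [integral_ball_avgA a c hr, integral_ball_avgA a c hrs, measure_ball_toReal μ c hr,
    measure_ball_toReal μ c hrs] at h1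
  rw [div_pow]
  have hp : 0 < (r + s) ^ finrank ℝ E := by positivity
  have hq : 0 < volOne μ := hV
  rw [mul_div_assoc', div_le_iff₀ hp]
  have h2 : (avgA μ a c r * r ^ finrank ℝ E) * volOne μ ≤ (avgA μ a c (r + s) * (r + s) ^ finrank ℝ E) * volOne μ := by
    calc _ = avgA μ a c r * (r ^ finrank ℝ E * volOne μ) := by ring
      _ ≤ avgA μ a c (r + s) * ((r + s) ^ finrank ℝ E * volOne μ) := h1
      _ = _ := by ring
  exact le_of_mul_le_mul_right h2 hq

/-- A lower bound for the ratio of powers. -/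
lemma ratio_pow_ge {r s r₀ : ℝ} (d : ℕ) (hr₀ : 0 < r₀) (hr : r₀ ≤ r) (hs : 0 ≤ s) :
    1 - d * s / r₀ ≤ (r / (r + s)) ^ d := by
  have hr0 : 0 < r := lt_of_lt_of_le hr₀ hr
  have hrs : 0 < r + s := by linarith
  set x := -(s / (r + s)) with hx
  have h1 : r / (r + s) = 1 + x := by
    rw [hx]; field_simp; ring
  have hx1 : -2 ≤ x := by
    have : s / (r + s) ≤ 1 := by
      rw [div_le_one hrs]; linarith
    linarith
  have h2 := one_add_mul_le_pow hx1 d
  rw [h1]
  refine le_trans ?_ h2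
  have h3 : s / (r + s) ≤ s / r₀ := div_le_div_of_nonneg_left hs hr₀ (by linarith)
  have hd : (0 : ℝ) ≤ d := Nat.cast_nonneg d
  rw [hx]
  have h4 : d * s / r₀ = d * (s / r₀) := by ring
  rw [h4]
  nlinarith

/-- The constant in the Lipschitz estimate at a point with a gap. -/
noncomputable def gapConst (d : ℕ) (V I γ : ℝ) (L : ℝ≥0) : ℝ :=
  (I / ((γ / (8 * (L + 1))) ^ d * V)) * d / (γ / (8 * (L + 1)))

/-- The one sided Lipschitz estimate at a point with a gap. -/
lemma gap_lipschitz {a b u : E → ℝ} (ha0 : ∀ x, 0 ≤ a x) (hI : Integrable a μ) (hb : LipschitzWith L b)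
    {y y' : E} (hy : IsMaxAt μ a u y) (hy' : IsMaxAt μ a u y') {η γ Fy : ℝ} (hγ : 0 < γ)
    (hclose : ∀ c r, 0 < r → y ∈ ball c r → avgA μ a c r ≤ avgA μ b c r + η)
    (hby : b y ≤ Fy + η) (hη : η ≤ γ / 8) (hgap : Fy + γ ≤ u y) :
    u y - u y' ≤ gapConst (finrank ℝ E) (volOne μ) (∫ z, a z ∂μ) γ L * ‖y - y'‖ := by
  have hV := volOne_pos μ
  have hL0 : (0 : ℝ) ≤ L := L.2
  set d := finrank ℝ E with hdd
  set I := ∫ z, a z ∂μ with hIdef
  have hI0 : 0 ≤ I := integral_nonneg ha0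
  set r₀ := γ / (8 * (L + 1)) with hr₀
  have hr₀pos : 0 < r₀ := by positivity
  set s := ‖y - y'‖ with hs
  have hs0 : 0 ≤ s := norm_nonneg _
  set B₁ := I / (r₀ ^ d * volOne μ) with hB₁
  have hB₁0 : 0 ≤ B₁ := by positivity
  have hconst : gapConst d (volOne μ) I γ L = B₁ * d / r₀ := rfl
  rw [hconst]
  rw [sub_le_iff_le_add]
  apply le_of_forall_pos_le_add
  intro δ hδ
  -- a near optimal ball
  set δ' := min δ (γ / 2) with hδ'
  have hδ'pos : 0 < δ' := lt_min hδ (by positivity)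
  obtain ⟨c, r, hr, hyc, hA⟩ : ∃ c r, 0 < r ∧ y ∈ ball c r ∧ u y - δ' < avgA μ a c r := by
    by_contra hc
    push Not at hc
    have := hy.2 (u y - δ') hc
    linarith
  -- the radius is not small
  have hδ'2 : δ' ≤ γ / 2 := min_le_right _ _
  have h1 : avgA μ a c r ≤ Fy + 2 * η + 2 * L * r := by
    have h2 := hclose c r hr hyc
    have h3 := avgA_lip (μ := μ) hb c y r 0
    rw [avgA_zero, sub_zero, abs_of_pos hr] at h3
    have h4 := (abs_le.1 h3).2
    rw [mem_ball, dist_eq_norm, norm_sub_rev] at hyc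
    have h5 : (L : ℝ) * (‖c - y‖ + r) ≤ 2 * L * r := by nlinarith
    linarith
  have hrlow : r₀ ≤ r := by
    rw [hr₀, div_le_iff₀ (by positivity)]
    have h6 : γ / 2 < 2 * η + 2 * L * r := by linarith
    nlinarith
  -- the upper bound for the average
  have hub : avgA μ a c r ≤ B₁ := by
    refine (avgA_le_large ha0 hI c hr).trans ?_
    rw [hB₁]
    apply div_le_div_of_nonneg_left hI0 (by positivity)
    have : r₀ ^ d ≤ r ^ d := pow_le_pow_left₀ hr₀pos.le hrlow d
    exact mul_le_mul_of_nonneg_right this hV.le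
  -- the enlarged ball
  have hy'c : y' ∈ ball c (r + (s + δ')) := by
    rw [mem_ball, dist_eq_norm] at hyc ⊢
    have e : y' - c = (y - c) - (y - y') := by abel
    rw [e]
    calc _ ≤ ‖y - c‖ + ‖y - y'‖ := norm_sub_le _ _
      _ < r + (s + δ') := by linarith
  have hs' : 0 ≤ s + δ' := by positivity
  -- we use the slightly larger ball to keep membership strict, with the radius estimate for `s`
  have hy'c2 : ∀ ε : ℝ, 0 < ε → y' ∈ ball c (r + (s + ε)) := by
    intro ε hε
    rw [mem_ball, dist_eq_norm] at hyc ⊢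
    have e : y' - c = (y - c) - (y - y') := by abel
    rw [e]
    calc _ ≤ ‖y - c‖ + ‖y - y'‖ := norm_sub_le _ _
      _ < r + (s + ε) := by linarith
  have hlow : avgA μ a c r ≤ u y' + B₁ * d * s / r₀ := by
    apply le_of_forall_pos_le_add
    intro ε hε
    obtain ⟨ε₁, hε₁, hε₁'⟩ : ∃ ε₁ : ℝ, 0 < ε₁ ∧ B₁ * d * ε₁ / r₀ ≤ ε := by
      refine ⟨ε * r₀ / (B₁ * d + 1), by positivity, ?_⟩
      have hd0 : (0 : ℝ) ≤ d := Nat.cast_nonneg d
      have hp : 0 ≤ B₁ * d := by positivity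
      rw [div_le_iff₀ hr₀pos, mul_div_assoc', div_le_iff₀ (by positivity)]
      have : 0 < ε * r₀ := by positivity
      nlinarith
    have h2 := (hy'.1 c (r + (s + ε₁)) (by positivity) (hy'c2 ε₁ hε₁))
    have h3 := avgA_mono_radius ha0 hI c hr (by positivity : 0 ≤ s + ε₁)
    have h4 := ratio_pow_ge (r := r) (s := s + ε₁) d hr₀pos hrlow (by positivity)
    have hA0 : 0 ≤ avgA μ a c r := avgA_nonneg ha0 c r
    have h5 : avgA μ a c r * (1 - d * (s + ε₁) / r₀) ≤ avgA μ a c (r + (s + ε₁)) :=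
      (mul_le_mul_of_nonneg_left h4 hA0).trans h3
    have h6 : avgA μ a c r * (d * (s + ε₁) / r₀) ≤ B₁ * (d * (s + ε₁) / r₀) :=
      mul_le_mul_of_nonneg_right hub (by positivity)
    have e1 : B₁ * (d * (s + ε₁) / r₀) = B₁ * d * s / r₀ + B₁ * d * ε₁ / r₀ := by ring
    have e2 : avgA μ a c r * (1 - d * (s + ε₁) / r₀) =
        avgA μ a c r - avgA μ a c r * (d * (s + ε₁) / r₀) := by ring
    rw [e2] at h5
    rw [e1] at h6
    linarith
  have hδ'le : δ' ≤ δ := min_le_left _ _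
  have e : B₁ * d / r₀ * s = B₁ * d * s / r₀ := by ring
  rw [e]
  linarith

end Vale.Agent.Lib.P137



/-! Calculus along lines, and the decay of the maximal function at infinity. -/

namespace Vale.Agent.Lib.P137

open MeasureTheory Set Filter Topology Metric Module
open scoped ENNReal NNReal RealInnerProductSpace Pointwise

set_option linter.unusedSectionVars false
set_option linter.unusedVariables false

variable {E : Type*} [NormedAddCommGroup E] [InnerProductSpace ℝ E] [FiniteDimensional ℝ E]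
  [MeasurableSpace E] [BorelSpace E] {μ : Measure E} [μ.IsAddHaarMeasure]

variable {f g : E → ℝ} {L : ℝ≥0}

/-- Decay of the maximal function at infinity. -/
lemma maxE_small_far (hL : LipschitzWith L f) (hI : Integrable f μ) (hd : 1 ≤ finrank ℝ E)
    {ε : ℝ} (hε : 0 < ε) : ∃ T : ℝ, ∀ x : E, T < ‖x‖ → maxE μ f x ≤ ENNReal.ofReal ε := by
  have hV := volOne_pos μ
  have hL0 : (0 : ℝ) ≤ L := L.2
  have hLa := lipschitz_abs hL
  have hIa : Integrable (fun y => |f y|) μ := hI.abs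
  have ha0 : ∀ y, 0 ≤ |f y| := fun y => abs_nonneg _
  set a : E → ℝ := fun y => |f y| with ha
  set d := finrank ℝ E with hdd
  set I := ∫ y, a y ∂μ with hIdef
  have hI0 : 0 ≤ I := integral_nonneg ha0
  set ρ := min 1 (ε / (6 * (L + 1))) with hρ
  have hρpos : 0 < ρ := lt_min one_pos (by positivity)
  have hρ1 : ρ ≤ 1 := min_le_left _ _
  have hρ2 : 6 * (L + 1) * ρ ≤ ε := by
    have : ρ ≤ ε / (6 * (L + 1)) := min_le_right _ _
    rw [le_div_iff₀ (by positivity)] at this
    linarith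
  set R := max 1 (I / (ε * volOne μ)) + 1 with hR
  have hR1 : 1 < R := by
    have : (1 : ℝ) ≤ max 1 (I / (ε * volOne μ)) := le_max_left _ _
    linarith
  have hR2 : I / (ε * volOne μ) ≤ R := by
    have : I / (ε * volOne μ) ≤ max 1 (I / (ε * volOne μ)) := le_max_right _ _
    linarith
  set ε₂ := (ε / 2) * (ρ ^ d * volOne μ) with hε₂
  have hε₂pos : 0 < ε₂ := by positivity
  obtain ⟨k, hkc, hkl, -, -⟩ := hIa.exists_hasCompactSupport_lintegral_sub_le (μ := μ)
    (ε := ENNReal.ofReal ε₂) (by simpa using hε₂pos)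
  obtain ⟨T₀, hT₀⟩ := hkc.isCompact.isBounded.subset_closedBall (0 : E)
  refine ⟨T₀ + 2 * R + 1, ?_⟩
  intro x hx
  -- balls of medium size
  have hmid : ∀ c r, ρ ≤ r → r ≤ R → x ∈ ball c r → avgA μ a c r ≤ ε / 2 := by
    intro c r hr1 hr2 hxc
    have hrpos : 0 < r := lt_of_lt_of_le hρpos hr1
    have hint : IntegrableOn a (ball c r) μ := hIa.integrableOn
    have h1 : ENNReal.ofReal (∫ z in ball c r, a z ∂μ) ≤ ENNReal.ofReal ε₂ := by
      rw [ofReal_integral_eq_lintegral_ofReal hint (ae_of_all _ ha0)]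
      refine le_trans ?_ hkl
      refine le_trans ?_ (setLIntegral_le_lintegral (ball c r) _)
      apply setLIntegral_mono' measurableSet_ball
      intro z hz
      have hk0 : k z = 0 := by
        apply image_eq_zero_of_notMem_tsupport
        intro hzt
        have h2 := hT₀ hzt
        rw [mem_closedBall_zero_iff] at h2
        rw [mem_ball, dist_eq_norm] at hz hxc
        have e : x = z - (z - c) + (x - c) := by abel
        have h3 : ‖x‖ ≤ ‖z‖ + ‖z - c‖ + ‖x - c‖ := by
          calc ‖x‖ = ‖z - (z - c) + (x - c)‖ := by rw [← e]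
            _ ≤ ‖z - (z - c)‖ + ‖x - c‖ := norm_add_le _ _
            _ ≤ ‖z‖ + ‖z - c‖ + ‖x - c‖ := add_le_add (norm_sub_le _ _) le_rfl
        linarith
      rw [hk0, sub_zero, Real.enorm_eq_ofReal (ha0 z)]
    rw [ENNReal.ofReal_le_ofReal_iff hε₂pos.le, integral_ball_avgA a c hrpos,
      measure_ball_toReal μ c hrpos] at h1
    have h2 : ρ ^ d ≤ r ^ d := pow_le_pow_left₀ hρpos.le hr1 d
    have h3 : ε₂ ≤ (ε / 2) * (r ^ d * volOne μ) := by
      rw [hε₂]
      exact mul_le_mul_of_nonneg_left (mul_le_mul_of_nonneg_right h2 hV.le) (by positivity)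
    have hpos : 0 < r ^ d * volOne μ := by positivity
    exact le_of_mul_le_mul_right (h1.trans h3) hpos
  apply maxE_le_of
  intro c r hr hxc
  rw [meanE_eq_avgA hIa.integrableOn hr]
  apply ENNReal.ofReal_le_ofReal
  by_cases hr1 : R ≤ r
  · refine (avgA_le_large ha0 hIa c hr).trans ?_
    rw [div_le_iff₀ (by positivity)]
    rw [div_le_iff₀ (by positivity)] at hR2
    have h3 : R ≤ r ^ d := by
      have hr1' : 1 ≤ r := by linarith
      calc R ≤ r := hr1
        _ = r ^ 1 := (pow_one r).symm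
        _ ≤ r ^ d := pow_le_pow_right₀ hr1' hd
    calc I ≤ R * (ε * volOne μ) := hR2
      _ ≤ r ^ d * (ε * volOne μ) := mul_le_mul_of_nonneg_right h3 (by positivity)
      _ = ε * (r ^ d * volOne μ) := by ring
  · push Not at hr1
    by_cases hr2 : ρ ≤ r
    · have := hmid c r hr2 hr1.le hxc
      linarith
    · push Not at hr2
      have h1 := hmid x ρ le_rfl (by linarith) (mem_ball_self hρpos)
      have h2 := avgA_lip (μ := μ) hLa x x 0 ρ
      rw [avgA_zero, sub_self, norm_zero, zero_add, zero_sub, abs_neg, abs_of_pos hρpos] at h2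
      have h3 := (abs_le.1 h2).2
      have h4 := avgA_lip (μ := μ) hLa c x r 0
      rw [avgA_zero, sub_zero, abs_of_pos hr] at h4
      have h5 := (abs_le.1 h4).2
      rw [mem_ball, dist_eq_norm, norm_sub_rev] at hxc
      have h6 : (L : ℝ) * (‖c - x‖ + r) ≤ 2 * L * ρ := by nlinarith [norm_nonneg (c - x)]
      have h7 : 3 * (L : ℝ) * ρ ≤ ε / 2 := by nlinarith
      have h8 : a x ≤ ε / 2 + L * ρ := by linarith
      linarith

/-- The derivative along a line is dominated by `btilde`. -/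
lemma line_deriv_le_btilde (f : E → ℝ) (w x : E) (t : ℝ) :
    ‖deriv (fun t : ℝ => f (x + t • w)) t‖ₑ ≤ btilde f w (x + t • w) := by
  by_cases ht : DifferentiableAt ℝ f (x + t • w)
  · have hd : HasDerivAt (fun t : ℝ => f (x + t • w)) (fderiv ℝ f (x + t • w) w) t := by
      have h1 : HasDerivAt (fun t : ℝ => x + t • w) w t := by
        simpa using ((hasDerivAt_id t).smul_const w).const_add x
      exact ht.hasFDerivAt.comp_hasDerivAt t h1
    rw [hd.deriv]
    simp only [btilde]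
    exact le_self_add
  · have h4 : x + t • w ∈ ({y | DifferentiableAt ℝ f y}ᶜ) := ht
    simp only [btilde, indicator_of_mem h4]
    simp

/-- The fundamental theorem of calculus for Lipschitz functions, as an inequality. -/
lemma lipschitz_ftc_le {F : ℝ → ℝ} {K : ℝ≥0} (hF : LipschitzWith K F) {a b : ℝ} (hab : a ≤ b) :
    ENNReal.ofReal |F b - F a| ≤ ∫⁻ t in Ioc a b, ‖deriv F t‖ₑ := by
  have hac : AbsolutelyContinuousOnInterval F a b :=
    LipschitzOnWith.absolutelyContinuousOnInterval (hF.lipschitzOnWith)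
  rw [← hac.integral_deriv_eq_sub, intervalIntegral.integral_of_le hab, ← Real.enorm_eq_ofReal_abs]
  exact enorm_integral_le_lintegral_enorm _

lemma line_diff_le_Ioc (hf : LipschitzWith L f) (w x : E) {a b : ℝ} (hab : a ≤ b) :
    ENNReal.ofReal |f (x + b • w) - f (x + a • w)| ≤ ∫⁻ t in Ioc a b, btilde f w (x + t • w) := by
  refine (lipschitz_ftc_le (lipschitz_line hf x w) hab).trans ?_
  exact lintegral_mono (fun t => line_deriv_le_btilde f w x t)

/-- Integrated difference bound for a Lipschitz function of one variable. -/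
lemma diff_lintegral_le {F : ℝ → ℝ} {K : ℝ≥0} (hF : LipschitzWith K F) {h : ℝ} (hh : 0 < h) :
    ∫⁻ t, ‖F (t + h) - F t‖ₑ ≤ ENNReal.ofReal h * ∫⁻ t, ‖deriv F t‖ₑ := by
  classical
  let φ : ℝ → ℝ≥0∞ := fun t => ‖deriv F t‖ₑ
  have hφ : Measurable φ := (measurable_deriv F).enorm
  let S : Set (ℝ × ℝ) := {p | p.1 < p.2 ∧ p.2 ≤ p.1 + h}
  have hS : MeasurableSet S := by
    apply MeasurableSet.inter
    · exact (isOpen_lt continuous_fst continuous_snd).measurableSet
    · exact (isClosed_le continuous_snd (continuous_fst.add continuous_const)).measurableSet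
  let J : ℝ × ℝ → ℝ≥0∞ := S.indicator (fun p => φ p.2)
  have hJ : Measurable J := (hφ.comp measurable_snd).indicator hS
  have hJ' : Measurable (fun p : ℝ × ℝ => J (p.1, p.2)) := hJ
  have h1 : ∀ t, ‖F (t + h) - F t‖ₑ ≤ ∫⁻ s, J (t, s) := by
    intro t
    have h2 := lipschitz_ftc_le hF (by linarith : t ≤ t + h)
    rw [Real.enorm_eq_ofReal_abs]
    refine h2.trans (le_of_eq ?_)
    rw [← lintegral_indicator measurableSet_Ioc]
    apply lintegral_congr
    intro s
    by_cases hs : s ∈ Ioc t (t + h)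
    · rw [indicator_of_mem hs]
      simp only [J]
      rw [indicator_of_mem (show (t, s) ∈ S from hs)]
    · rw [indicator_of_notMem hs]
      simp only [J]
      rw [indicator_of_notMem (show (t, s) ∉ S from hs)]
  have h2 : ∀ s, ∫⁻ t, J (t, s) = ENNReal.ofReal h * φ s := by
    intro s
    have h3 : ∀ t, J (t, s) = (Ico (s - h) s).indicator (fun _ => φ s) t := by
      intro t
      by_cases ht : t ∈ Ico (s - h) s
      · rw [indicator_of_mem ht]
        have : (t, s) ∈ S := ⟨ht.2, by have := ht.1; simp only; linarith⟩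
        simp only [J]
        rw [indicator_of_mem this]
      · rw [indicator_of_notMem ht]
        have : (t, s) ∉ S := by
          rintro ⟨h4, h5⟩
          apply ht
          simp only at h4 h5
          exact ⟨by linarith, h4⟩
        simp only [J]
        rw [indicator_of_notMem this]
    simp_rw [h3]
    rw [lintegral_indicator measurableSet_Ico, setLIntegral_const, Real.volume_Ico, mul_comm]
    congr 2
    ring
  calc ∫⁻ t, ‖F (t + h) - F t‖ₑ ≤ ∫⁻ t, ∫⁻ s, J (t, s) := lintegral_mono h1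
    _ = ∫⁻ s, ∫⁻ t, J (t, s) := lintegral_lintegral_swap hJ'.aemeasurable
    _ = ∫⁻ s, ENNReal.ofReal h * φ s := by simp_rw [h2]
    _ = ENNReal.ofReal h * ∫⁻ t, ‖deriv F t‖ₑ := lintegral_const_mul _ hφ

/-- A nonnegative Lipschitz function decaying at infinity is bounded by the integral of its
derivative along lines. -/
lemma ofReal_le_lineInt {V : E → ℝ} (hV : LipschitzWith L V) (hV0 : ∀ y, 0 ≤ V y)
    (hfar : ∀ ε : ℝ, 0 < ε → ∃ T : ℝ, ∀ y : E, T < ‖y‖ → V y ≤ ε) {e : E} (he : e ≠ 0) (x : E) (t : ℝ) :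
    ENNReal.ofReal (V (x + t • e)) ≤ ∫⁻ s : ℝ, btilde V e (x + s • e) := by
  apply ENNReal.le_of_forall_pos_le_add
  intro ε' hε' _
  have hε : 0 < (ε' : ℝ) := by exact_mod_cast hε'
  obtain ⟨T, hT⟩ := hfar ε' hε
  have hen : 0 < ‖e‖ := norm_pos_iff.2 he
  -- a far away point of the line
  set τ := max t ((|T| + ‖x‖ + 1) / ‖e‖) with hτ
  have hτ1 : t ≤ τ := le_max_left _ _
  have hτ2 : (|T| + ‖x‖ + 1) / ‖e‖ ≤ τ := le_max_right _ _
  have hτpos : 0 < τ := lt_of_lt_of_le (by positivity) hτ2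
  have hfarpt : T < ‖x + τ • e‖ := by
    rw [div_le_iff₀ hen] at hτ2
    have h1 : ‖τ • e‖ = τ * ‖e‖ := by
      rw [norm_smul, Real.norm_eq_abs, abs_of_pos hτpos]
    have h2 : ‖τ • e‖ ≤ ‖x + τ • e‖ + ‖x‖ := by
      have e1 : τ • e = (x + τ • e) - x := by abel
      calc ‖τ • e‖ = ‖(x + τ • e) - x‖ := by rw [← e1]
        _ ≤ _ := norm_sub_le _ _
    have h3 := le_abs_self T
    linarith
  have h1 := line_diff_le_Ioc hV e x hτ1
  have h2 := hT _ hfarpt
  have h3 : V (x + t • e) ≤ |V (x + τ • e) - V (x + t • e)| + ε' := by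
    have := neg_abs_le (V (x + τ • e) - V (x + t • e))
    have h4 := hV0 (x + τ • e)
    linarith
  calc ENNReal.ofReal (V (x + t • e))
      ≤ ENNReal.ofReal (|V (x + τ • e) - V (x + t • e)| + ε') := ENNReal.ofReal_le_ofReal h3
    _ = ENNReal.ofReal |V (x + τ • e) - V (x + t • e)| + ε' := by
        rw [ENNReal.ofReal_add (abs_nonneg _) hε.le]
        simp
    _ ≤ (∫⁻ s in Ioc t τ, btilde V e (x + s • e)) + ε' := add_le_add h1 le_rfl
    _ ≤ (∫⁻ s : ℝ, btilde V e (x + s • e)) + ε' := add_le_add (setLIntegral_le_lintegral _ _) le_rfl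

end Vale.Agent.Lib.P137



/-! Approximating sequences and the analysis on a good line. -/

namespace Vale.Agent.Lib.P137

open MeasureTheory Set Filter Topology Metric Module
open scoped ENNReal NNReal RealInnerProductSpace Pointwise

set_option linter.unusedSectionVars false
set_option linter.unusedVariables false

variable {E : Type*} [NormedAddCommGroup E] [InnerProductSpace ℝ E] [FiniteDimensional ℝ E]
  [MeasurableSpace E] [BorelSpace E] {μ : Measure E} [μ.IsAddHaarMeasure]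

variable {f : E → ℝ} {G : E → E} {g : ℕ → E → ℝ} {L : ℕ → ℝ≥0}

/-- An approximating sequence of Lipschitz functions. -/
structure ApproxSeq (μ : Measure E) (f : E → ℝ) (G : E → E) (g : ℕ → E → ℝ) (L : ℕ → ℝ≥0) : Prop where
  lip : ∀ j, LipschitzWith (L j) (g j)
  int : ∀ j, Integrable (g j) μ
  diff : ∀ j, Differentiable ℝ (g j)
  close : ∀ j, ∫⁻ x, ‖g j x - f x‖ₑ ∂μ ≤ ENNReal.ofReal ((1 / 2) ^ j)
  grad : ∀ j, ∫⁻ x, ‖gradField (g j) x - G x‖ₑ ∂μ ≤ ENNReal.ofReal ((1 / 2) ^ j)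

theorem exists_approxSeq (hf : Integrable f μ) (hG : Integrable G μ) (hw : IsWeakGrad μ f G) :
    ∃ g L, ApproxSeq μ f G g L := by
  have h : ∀ j : ℕ, ∃ (g : E → ℝ) (L : ℝ≥0), LipschitzWith L g ∧ Integrable g μ ∧ Differentiable ℝ g ∧
      ∫⁻ x, ‖g x - f x‖ₑ ∂μ ≤ ENNReal.ofReal ((1 / 2) ^ j) ∧
      ∫⁻ x, ‖gradField g x - G x‖ₑ ∂μ ≤ ENNReal.ofReal ((1 / 2) ^ j) :=
    fun j => exists_lipschitz_approx hf hG hw (by positivity)
  choose g L h1 h2 h3 h4 h5 using h
  exact ⟨g, L, h1, h2, h3, h4, h5⟩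

/-- Consecutive differences. -/
def hseq (g : ℕ → E → ℝ) (j : ℕ) (x : E) : ℝ := g (j + 1) x - g j x

/-- The real valued maximal function. -/
noncomputable def uOf (μ : Measure E) (a : E → ℝ) (x : E) : ℝ := (maxE μ a x).toReal

/-- The integral of the dominating function along a line. -/
noncomputable def lineInt (a : E → ℝ) (e x : E) : ℝ≥0∞ := ∫⁻ t : ℝ, btilde a e (x + t • e)

/-- The bound on a line. -/
noncomputable def lineB (μ : Measure E) (g : ℕ → E → ℝ) (e x : E) : ℝ≥0∞ :=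
  liminf (fun j => lineInt (uOf μ (g j)) e x) atTop

/-- The function measuring the quality of a line. -/
noncomputable def lineQ (μ : Measure E) (g : ℕ → E → ℝ) (e x : E) : ℝ≥0∞ :=
  lineInt (g 0) e x + (∑' j, lineInt (hseq g j) e x) + (∑' j, lineInt (uOf μ (hseq g j)) e x) +
    lineB μ g e x

lemma ApproxSeq.hseq_lip (h : ApproxSeq μ f G g L) (j : ℕ) :
    LipschitzWith (L (j + 1) + L j) (hseq g j) := by
  apply LipschitzWith.of_dist_le_mul
  intro x y
  have h1 := (h.lip (j + 1)).dist_le_mul x y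
  have h2 := (h.lip j).dist_le_mul x y
  simp only [hseq]
  rw [Real.dist_eq] at h1 h2 ⊢
  have e : g (j + 1) x - g j x - (g (j + 1) y - g j y) = (g (j + 1) x - g (j + 1) y) - (g j x - g j y) := by
    ring
  rw [e]
  refine (abs_sub _ _).trans ?_
  push_cast
  linarith

lemma ApproxSeq.hseq_int (h : ApproxSeq μ f G g L) (j : ℕ) : Integrable (hseq g j) μ :=
  (h.int (j + 1)).sub (h.int j)

section Real

variable {a : E → ℝ} {K : ℝ≥0}

lemma abs_le_uOf (hd : 2 ≤ finrank ℝ E) (ha : LipschitzWith K a) (hI : Integrable a μ) (x : E) :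
    |a x| ≤ uOf μ a x := by
  have hd1 : 1 ≤ finrank ℝ E := by omega
  have : Nontrivial E := Module.nontrivial_of_finrank_pos (R := ℝ) (by omega)
  have hS := superPair_of_isMaxFn (μ := μ) hd1 (fun y => abs_nonneg (a y)) (lipschitz_abs ha) hI.abs
    (isMaxFn_maxE ha hI hd1)
  exact hS.le x

lemma uOf_nonneg (a : E → ℝ) (x : E) : 0 ≤ uOf μ a x := ENNReal.toReal_nonneg

lemma uOf_lip (hd : 2 ≤ finrank ℝ E) (ha : LipschitzWith K a) (hI : Integrable a μ) :
    LipschitzWith K (uOf μ a) := (maxE_bound hd ha hI).2.1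

lemma ofReal_uOf (hd : 2 ≤ finrank ℝ E) (ha : LipschitzWith K a) (hI : Integrable a μ) (x : E) :
    ENNReal.ofReal (uOf μ a x) = maxE μ a x :=
  ENNReal.ofReal_toReal ((maxE_bound hd ha hI).1 x)

/-- The maximal function on a line is bounded by the line integral. -/
lemma maxE_le_lineInt (hd : 2 ≤ finrank ℝ E) (ha : LipschitzWith K a) (hI : Integrable a μ) {e : E}
    (he : e ≠ 0) (x : E) (t : ℝ) : maxE μ a (x + t • e) ≤ lineInt (uOf μ a) e x := by
  have hd1 : 1 ≤ finrank ℝ E := by omega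
  rw [← ofReal_uOf hd ha hI]
  apply ofReal_le_lineInt (uOf_lip hd ha hI) (uOf_nonneg a) _ he
  intro ε hε
  obtain ⟨T, hT⟩ := maxE_small_far ha hI hd1 hε
  refine ⟨T, fun y hy => ?_⟩
  exact ENNReal.toReal_le_of_le_ofReal hε.le (hT y hy)

end Real

/-- A constant can be moved out of a liminf in `ℝ≥0∞`. -/
lemma ennreal_liminf_const_mul {c : ℝ≥0∞} (h0 : c ≠ 0) (h1 : c ≠ ⊤) (u : ℕ → ℝ≥0∞) :
    liminf (fun j => c * u j) atTop = c * liminf u atTop := by
  rw [liminf_eq_iSup_iInf_of_nat, liminf_eq_iSup_iInf_of_nat, ENNReal.mul_iSup]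
  congr 1
  ext n
  rw [ENNReal.mul_iInf_of_ne h0 h1]
  congr 1
  ext i
  by_cases hi : n ≤ i
  · simp [hi]
  · simp [hi, ENNReal.mul_top h0]

section Good

variable (hA : ApproxSeq μ f G g L) (hf : Integrable f μ) (hd : 2 ≤ finrank ℝ E) {e : E} (he : e ≠ 0)
  {x : E} (hQ : lineQ μ g e x < ⊤)

include hQ in
lemma tsum_theta_ne_top : (∑' j, lineInt (uOf μ (hseq g j)) e x) ≠ ⊤ := by
  intro h
  apply hQ.ne
  unfold lineQ
  rw [h]
  simp

include hQ in
lemma tsum_lineInt_ne_top : (∑' j, lineInt (hseq g j) e x) ≠ ⊤ := by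
  intro h
  apply hQ.ne
  unfold lineQ
  rw [h]
  simp

include hQ in
lemma lineInt_zero_ne_top : lineInt (g 0) e x ≠ ⊤ := by
  intro h
  apply hQ.ne
  unfold lineQ
  rw [h]
  simp

include hQ in
lemma lineB_ne_top : lineB μ g e x ≠ ⊤ := by
  intro h
  apply hQ.ne
  unfold lineQ
  rw [h]
  simp

/-- The summable bounds along the line. -/
noncomputable def thetaR (μ : Measure E) (g : ℕ → E → ℝ) (e x : E) (j : ℕ) : ℝ :=
  (lineInt (uOf μ (hseq g j)) e x).toReal

/-- The tails. -/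
noncomputable def tailR (μ : Measure E) (g : ℕ → E → ℝ) (e x : E) (j : ℕ) : ℝ :=
  ∑' i, thetaR μ g e x (i + j)

include hQ in
lemma summable_thetaR : Summable (thetaR μ g e x) :=
  ENNReal.summable_toReal (tsum_theta_ne_top hQ)

include hQ in
lemma theta_ne_top (j : ℕ) : lineInt (uOf μ (hseq g j)) e x ≠ ⊤ :=
  ENNReal.ne_top_of_tsum_ne_top (tsum_theta_ne_top hQ) j

include hQ in
lemma tailR_nonneg (j : ℕ) : 0 ≤ tailR μ g e x j :=
  tsum_nonneg (fun _ => ENNReal.toReal_nonneg)

include hQ in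
lemma tendsto_tailR : Tendsto (tailR μ g e x) atTop (𝓝 0) :=
  tendsto_sum_nat_add (thetaR μ g e x)

include hQ in
lemma sum_theta_le (j N : ℕ) :
    ∑ i ∈ Finset.range N, lineInt (uOf μ (hseq g (i + j))) e x ≤ ENNReal.ofReal (tailR μ g e x j) := by
  have hs := summable_thetaR hQ
  have hs' : Summable (fun i => thetaR μ g e x (i + j)) := (summable_nat_add_iff j).2 hs
  have h1 : ∑ i ∈ Finset.range N, thetaR μ g e x (i + j) ≤ tailR μ g e x j :=
    hs'.sum_le_tsum _ (fun _ _ => ENNReal.toReal_nonneg)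
  calc ∑ i ∈ Finset.range N, lineInt (uOf μ (hseq g (i + j))) e x
      = ∑ i ∈ Finset.range N, ENNReal.ofReal (thetaR μ g e x (i + j)) := by
        apply Finset.sum_congr rfl
        intro i _
        simp only [thetaR]
        rw [ENNReal.ofReal_toReal (theta_ne_top hQ _)]
    _ = ENNReal.ofReal (∑ i ∈ Finset.range N, thetaR μ g e x (i + j)) := by
        rw [ENNReal.ofReal_sum_of_nonneg (f := fun i => thetaR μ g e x (i + j))
          (fun _ _ => ENNReal.toReal_nonneg)]
    _ ≤ _ := ENNReal.ofReal_le_ofReal h1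

include hA hf hd he hQ in
/-- The mean of the difference over a ball meeting the line. -/
lemma mean_diff_le (j : ℕ) (t : ℝ) {c : E} {r : ℝ} (hr : 0 < r) (hc : x + t • e ∈ ball c r) :
    meanE μ (fun z => f z - g j z) c r ≤ ENNReal.ofReal (tailR μ g e x j) := by
  have hμ0 := ball_pos (μ := μ) (c := c) hr
  have hμ1 := ball_fin (μ := μ) (c := c) (r := r)
  unfold meanE
  apply ENNReal.div_le_of_le_mul
  -- telescoping
  have htel : ∀ N : ℕ, ∫⁻ z in ball c r, ENNReal.ofReal |g (N + j) z - g j z| ∂μ ≤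
      (∑ i ∈ Finset.range N, lineInt (uOf μ (hseq g (i + j))) e x) * μ (ball c r) := by
    intro N
    induction N with
    | zero => simp
    | succ N ih =>
      rw [Finset.sum_range_succ, add_mul]
      have hm : AEMeasurable (fun z => ENNReal.ofReal |g (N + j) z - g j z|) μ := by
        have : Continuous (fun z => |g (N + j) z - g j z|) :=
          (((hA.lip _).continuous).sub ((hA.lip _).continuous)).abs
        exact this.measurable.ennreal_ofReal.aemeasurable
      have h1 : ∀ z, ENNReal.ofReal |g (N + 1 + j) z - g j z| ≤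
          ENNReal.ofReal |g (N + j) z - g j z| + ENNReal.ofReal |hseq g (N + j) z| := by
        intro z
        rw [← ENNReal.ofReal_add (abs_nonneg _) (abs_nonneg _)]
        apply ENNReal.ofReal_le_ofReal
        have e1 : g (N + 1 + j) z - g j z = (g (N + j) z - g j z) + hseq g (N + j) z := by
          simp only [hseq]
          have : N + 1 + j = N + j + 1 := by omega
          rw [this]
          ring
        rw [e1]
        exact abs_add_le _ _
      calc ∫⁻ z in ball c r, ENNReal.ofReal |g (N + 1 + j) z - g j z| ∂μ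
          ≤ ∫⁻ z in ball c r, (ENNReal.ofReal |g (N + j) z - g j z| + ENNReal.ofReal |hseq g (N + j) z|) ∂μ :=
            lintegral_mono h1
        _ = ∫⁻ z in ball c r, ENNReal.ofReal |g (N + j) z - g j z| ∂μ +
            ∫⁻ z in ball c r, ENNReal.ofReal |hseq g (N + j) z| ∂μ :=
            lintegral_add_left' hm.restrict _
        _ ≤ _ := by
            refine add_le_add ih ?_
            rw [lintegral_ball_eq_mean _ c hr]
            exact mul_le_mul' ((meanE_le_maxE hr hc).trans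
              (maxE_le_lineInt hd (hA.hseq_lip _) (hA.hseq_int _) he x t)) le_rfl
  -- passing to the limit
  apply ENNReal.le_of_forall_pos_le_add
  intro ε' hε' _
  have hε : (0 : ℝ) < ε' := by exact_mod_cast hε'
  obtain ⟨N, hN⟩ := exists_pow_lt_of_lt_one hε (by norm_num : (1 / 2 : ℝ) < 1)
  have hp : ((1 : ℝ) / 2) ^ (N + j) ≤ ε' := by
    have : ((1 : ℝ) / 2) ^ (N + j) ≤ (1 / 2) ^ N :=
      pow_le_pow_of_le_one (by norm_num) (by norm_num) (by omega)
    linarith
  have hclose := hA.close (N + j)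
  have hmg : AEMeasurable (fun z => ENNReal.ofReal |g (N + j) z - g j z|) μ := by
    have : Continuous (fun z => |g (N + j) z - g j z|) :=
      (((hA.lip _).continuous).sub ((hA.lip _).continuous)).abs
    exact this.measurable.ennreal_ofReal.aemeasurable
  have h2 : ∀ z, ENNReal.ofReal |f z - g j z| ≤
      ENNReal.ofReal |g (N + j) z - g j z| + ‖g (N + j) z - f z‖ₑ := by
    intro z
    rw [Real.enorm_eq_ofReal_abs, ← ENNReal.ofReal_add (abs_nonneg _) (abs_nonneg _)]
    apply ENNReal.ofReal_le_ofReal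
    have e1 : f z - g j z = (g (N + j) z - g j z) - (g (N + j) z - f z) := by ring
    rw [e1]
    exact abs_sub _ _
  calc ∫⁻ z in ball c r, ENNReal.ofReal |f z - g j z| ∂μ
      ≤ ∫⁻ z in ball c r, (ENNReal.ofReal |g (N + j) z - g j z| + ‖g (N + j) z - f z‖ₑ) ∂μ :=
        lintegral_mono h2
    _ = ∫⁻ z in ball c r, ENNReal.ofReal |g (N + j) z - g j z| ∂μ +
        ∫⁻ z in ball c r, ‖g (N + j) z - f z‖ₑ ∂μ := lintegral_add_left' hmg.restrict _
    _ ≤ ENNReal.ofReal (tailR μ g e x j) * μ (ball c r) + ε' := by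
        refine add_le_add ((htel N).trans (mul_le_mul' (sum_theta_le hQ j N) le_rfl)) ?_
        refine (setLIntegral_le_lintegral _ _).trans (hclose.trans ?_)
        have : ((ε' : ℝ≥0) : ℝ≥0∞) = ENNReal.ofReal ε' := by simp
        rw [this]
        exact ENNReal.ofReal_le_ofReal hp

end Good

end Vale.Agent.Lib.P137



/-! The analysis on a good line, continued. -/

namespace Vale.Agent.Lib.P137

open MeasureTheory Set Filter Topology Metric Module
open scoped ENNReal NNReal RealInnerProductSpace Pointwise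

set_option linter.unusedSectionVars false
set_option linter.unusedVariables false

variable {E : Type*} [NormedAddCommGroup E] [InnerProductSpace ℝ E] [FiniteDimensional ℝ E]
  [MeasurableSpace E] [BorelSpace E] {μ : Measure E} [μ.IsAddHaarMeasure]

variable {f : E → ℝ} {G : E → E} {g : ℕ → E → ℝ} {L : ℕ → ℝ≥0}

lemma continuous_of_close {U : ℝ → ℝ} {V : ℕ → ℝ → ℝ} {τ : ℕ → ℝ} (hV : ∀ j, Continuous (V j))
    (hclose : ∀ j t, |U t - V j t| ≤ τ j) (hτ : Tendsto τ atTop (𝓝 0)) : Continuous U := by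
  have hu : TendstoUniformly V U atTop := by
    rw [Metric.tendstoUniformly_iff]
    intro ε hε
    filter_upwards [hτ.eventually (gt_mem_nhds hε)] with j hj t
    rw [Real.dist_eq]
    exact lt_of_le_of_lt (hclose j t) hj
  exact hu.continuous (Eventually.of_forall hV).frequently

section Good

variable (hA : ApproxSeq μ f G g L) (hf : Integrable f μ) (hd : 2 ≤ finrank ℝ E) {e : E} (he : e ≠ 0)
  {x : E} (hQ : lineQ μ g e x < ⊤)

include hA hf hd he hQ

lemma max_close1 (j : ℕ) (t : ℝ) :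
    maxE μ f (x + t • e) ≤ maxE μ (g j) (x + t • e) + ENNReal.ofReal (tailR μ g e x j) := by
  apply maxE_le_of
  intro c r hr hc
  have hb : AEMeasurable (fun y => ENNReal.ofReal |g j y|) μ :=
    (hA.lip j).continuous.abs.measurable.ennreal_ofReal.aemeasurable
  have h1 := meanE_le_add (a := f) (b := g j) (d := fun z => f z - g j z) hb
    (fun y => by
      have e1 : f y = g j y + (f y - g j y) := by ring
      calc |f y| = |g j y + (f y - g j y)| := by rw [← e1]
        _ ≤ _ := abs_add_le _ _) c r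
  exact h1.trans (add_le_add (meanE_le_maxE hr hc) (mean_diff_le hA hf hd he hQ j t hr hc))

lemma max_close2 (j : ℕ) (t : ℝ) :
    maxE μ (g j) (x + t • e) ≤ maxE μ f (x + t • e) + ENNReal.ofReal (tailR μ g e x j) := by
  apply maxE_le_of
  intro c r hr hc
  have hb : AEMeasurable (fun y => ENNReal.ofReal |f y|) μ :=
    hf.abs.aestronglyMeasurable.aemeasurable.ennreal_ofReal
  have h1 := meanE_le_add (a := g j) (b := f) (d := fun z => f z - g j z) hb
    (fun y => by
      have e1 : g j y = f y - (f y - g j y) := by ring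
      calc |g j y| = |f y - (f y - g j y)| := by rw [← e1]
        _ ≤ _ := abs_sub _ _) c r
  exact h1.trans (add_le_add (meanE_le_maxE hr hc) (mean_diff_le hA hf hd he hQ j t hr hc))

lemma maxE_f_ne_top (t : ℝ) : maxE μ f (x + t • e) ≠ ⊤ := by
  have h1 := max_close1 hA hf hd he hQ 0 t
  have h2 := (maxE_bound hd (hA.lip 0) (hA.int 0)).1 (x + t • e)
  exact ne_top_of_le_ne_top (ENNReal.add_ne_top.2 ⟨h2, ENNReal.ofReal_ne_top⟩) h1

lemma U_close (j : ℕ) (t : ℝ) :
    |uOf μ f (x + t • e) - uOf μ (g j) (x + t • e)| ≤ tailR μ g e x j := by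
  have h0 := tailR_nonneg (μ := μ) (g := g) (e := e) (x := x) hQ j
  have hfin1 := maxE_f_ne_top hA hf hd he hQ t
  have hfin2 := (maxE_bound hd (hA.lip j) (hA.int j)).1 (x + t • e)
  have h1 := max_close1 hA hf hd he hQ j t
  have h2 := max_close2 hA hf hd he hQ j t
  simp only [uOf]
  rw [abs_le]
  constructor
  · have : (maxE μ (g j) (x + t • e)).toReal ≤ (maxE μ f (x + t • e)).toReal + tailR μ g e x j := by
      apply ENNReal.toReal_le_of_le_ofReal (by positivity)
      rw [ENNReal.ofReal_add ENNReal.toReal_nonneg h0, ENNReal.ofReal_toReal hfin1]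
      exact h2
    linarith
  · have : (maxE μ f (x + t • e)).toReal ≤ (maxE μ (g j) (x + t • e)).toReal + tailR μ g e x j := by
      apply ENNReal.toReal_le_of_le_ofReal (by positivity)
      rw [ENNReal.ofReal_add ENNReal.toReal_nonneg h0, ENNReal.ofReal_toReal hfin2]
      exact h1
    linarith

lemma U_tendsto (t : ℝ) :
    Tendsto (fun j => uOf μ (g j) (x + t • e)) atTop (𝓝 (uOf μ f (x + t • e))) := by
  rw [tendsto_iff_dist_tendsto_zero]
  apply squeeze_zero (fun j => dist_nonneg) _ (tendsto_tailR hQ)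
  intro j
  rw [Real.dist_eq, abs_sub_comm]
  exact U_close hA hf hd he hQ j t

lemma dist_g_le (t : ℝ) (j : ℕ) :
    dist (g j (x + t • e)) (g j.succ (x + t • e)) ≤ thetaR μ g e x j := by
  rw [Real.dist_eq, abs_sub_comm]
  have h1 := abs_le_uOf (μ := μ) hd (hA.hseq_lip j) (hA.hseq_int j) (x + t • e)
  have h2 : uOf μ (hseq g j) (x + t • e) ≤ thetaR μ g e x j :=
    ENNReal.toReal_mono (theta_ne_top hQ j) (maxE_le_lineInt hd (hA.hseq_lip j) (hA.hseq_int j) he x t)
  exact h1.trans h2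

lemma limit_exists (t : ℝ) : ∃ l : ℝ, Tendsto (fun j => g j (x + t • e)) atTop (𝓝 l) ∧
    ∀ j, |g j (x + t • e) - l| ≤ tailR μ g e x j := by
  have hs := summable_thetaR hQ
  have hc := cauchySeq_of_dist_le_of_summable (thetaR μ g e x) (dist_g_le hA hf hd he hQ t) hs
  obtain ⟨l, hl⟩ := cauchySeq_tendsto_of_complete hc
  refine ⟨l, hl, fun j => ?_⟩
  have h1 := dist_le_tsum_of_dist_le_of_tendsto (thetaR μ g e x) (dist_g_le hA hf hd he hQ t) hs hl j
  rw [Real.dist_eq] at h1
  refine h1.trans (le_of_eq ?_)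
  simp only [tailR]
  congr 1
  ext i
  rw [add_comm]

lemma hclose_mean (j : ℕ) (t : ℝ) {c : E} {r : ℝ} (hr : 0 < r) (hc : x + t • e ∈ ball c r) :
    avgA μ (fun z => |f z|) c r ≤ avgA μ (fun z => |g j z|) c r + tailR μ g e x j := by
  have h0 := tailR_nonneg (μ := μ) (g := g) (e := e) (x := x) hQ j
  have hb : AEMeasurable (fun y => ENNReal.ofReal |g j y|) μ :=
    (hA.lip j).continuous.abs.measurable.ennreal_ofReal.aemeasurable
  have h1 := meanE_le_add (a := f) (b := g j) (d := fun z => f z - g j z) hb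
    (fun y => by
      have e1 : f y = g j y + (f y - g j y) := by ring
      calc |f y| = |g j y + (f y - g j y)| := by rw [← e1]
        _ ≤ _ := abs_add_le _ _) c r
  have h2 := h1.trans (add_le_add le_rfl (mean_diff_le hA hf hd he hQ j t hr hc))
  rw [meanE_eq_avgA hf.abs.integrableOn hr, meanE_eq_avgA (hA.int j).abs.integrableOn hr,
    ← ENNReal.ofReal_add (avgA_nonneg (fun z => abs_nonneg _) c r) h0,
    ENNReal.ofReal_le_ofReal_iff (add_nonneg (avgA_nonneg (fun z => abs_nonneg _) c r) h0)] at h2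
  exact h2

/-- The Lipschitz estimate where there is a gap. -/
lemma gap_lip_line {F : ℝ → ℝ} (hFclose : ∀ j t, |(|g j (x + t • e)|) - F t| ≤ tailR μ g e x j)
    {γ : ℝ} (hγ : 0 < γ) :
    ∃ Λ : ℝ≥0, ∀ t t', γ ≤ uOf μ f (x + t • e) - F t → γ ≤ uOf μ f (x + t' • e) - F t' →
      |uOf μ f (x + t • e) - uOf μ f (x + t' • e)| ≤ Λ * |t - t'| := by
  have hV := volOne_pos μ
  obtain ⟨j₀, hj₀⟩ := ((tendsto_tailR hQ).eventually (gt_mem_nhds (by positivity : 0 < γ / 8))).exists
  have hb := lipschitz_abs (hA.lip j₀)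
  have hI0 : 0 ≤ ∫ z, |f z| ∂μ := integral_nonneg (fun z => abs_nonneg _)
  set C₀ := gapConst (finrank ℝ E) (volOne μ) (∫ z, |f z| ∂μ) γ (L j₀) with hC₀
  have hC₀0 : 0 ≤ C₀ := by
    rw [hC₀]
    unfold gapConst
    have : (0 : ℝ) ≤ L j₀ := (L j₀).2
    positivity
  have hone : ∀ t t', γ ≤ uOf μ f (x + t • e) - F t →
      uOf μ f (x + t • e) - uOf μ f (x + t' • e) ≤ C₀ * ‖e‖ * |t - t'| := by
    intro t t' hg
    have hmax : ∀ s : ℝ, IsMaxAt μ (fun z => |f z|) (uOf μ f) (x + s • e) :=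
      fun s => isMaxAt_maxE hf (maxE_f_ne_top hA hf hd he hQ s)
    have h1 := gap_lipschitz (μ := μ) (a := fun z => |f z|) (b := fun z => |g j₀ z|) (u := uOf μ f)
      (y := x + t • e) (y' := x + t' • e) (η := tailR μ g e x j₀) (Fy := F t)
      (fun z => abs_nonneg _) hf.abs hb (hmax t) (hmax t') hγ
      (fun c r hr hc => hclose_mean hA hf hd he hQ j₀ t hr hc)
      (by
        have := (abs_le.1 (hFclose j₀ t)).2
        linarith)
      hj₀.le (by linarith)
    have e1 : ‖x + t • e - (x + t' • e)‖ = |t - t'| * ‖e‖ := by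
      rw [add_sub_add_left_eq_sub, ← sub_smul, norm_smul, Real.norm_eq_abs]
    rw [e1] at h1
    calc _ ≤ C₀ * (|t - t'| * ‖e‖) := h1
      _ = _ := by ring
  have hK : 0 ≤ C₀ * ‖e‖ := by positivity
  refine ⟨Real.toNNReal (C₀ * ‖e‖), ?_⟩
  intro t t' h1 h2
  rw [Real.coe_toNNReal _ hK, abs_le]
  constructor
  · have := hone t' t h2
    rw [abs_sub_comm t' t] at this
    linarith
  · exact hone t t' h1

/-- The integrated difference bound. -/
lemma U_diff_bound {h : ℝ} (hh : 0 < h) :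
    ∫⁻ t, ‖uOf μ f (x + (t + h) • e) - uOf μ f (x + t • e)‖ₑ ≤ ENNReal.ofReal h * lineB μ g e x := by
  let D : ℕ → ℝ → ℝ≥0∞ := fun j t => ‖uOf μ (g j) (x + (t + h) • e) - uOf μ (g j) (x + t • e)‖ₑ
  have hlin : ∀ j, LipschitzWith (L j * ‖e‖₊) (fun t : ℝ => uOf μ (g j) (x + t • e)) :=
    fun j => lipschitz_line (uOf_lip hd (hA.lip j) (hA.int j)) x e
  have hDm : ∀ j, Measurable (D j) := by
    intro j
    have h1 : Continuous (fun t : ℝ => uOf μ (g j) (x + (t + h) • e) - uOf μ (g j) (x + t • e)) := by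
      have h2 := (hlin j).continuous
      exact (h2.comp (continuous_id.add continuous_const)).sub h2
    exact h1.measurable.enorm
  have hpt : ∀ t, ‖uOf μ f (x + (t + h) • e) - uOf μ f (x + t • e)‖ₑ = liminf (fun j => D j t) atTop := by
    intro t
    have h1 := ((U_tendsto hA hf hd he hQ (t + h)).sub (U_tendsto hA hf hd he hQ t)).enorm
    exact h1.liminf_eq.symm
  have hbound : ∀ j, ∫⁻ t, D j t ≤ ENNReal.ofReal h * lineInt (uOf μ (g j)) e x := by
    intro j
    have h1 := diff_lintegral_le (hlin j) hh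
    exact h1.trans (mul_le_mul' le_rfl (lintegral_line_deriv_le (uOf_lip hd (hA.lip j) (hA.int j)) e x))
  simp_rw [hpt]
  calc ∫⁻ t, liminf (fun j => D j t) atTop ≤ liminf (fun j => ∫⁻ t, D j t) atTop :=
        lintegral_liminf_le hDm
    _ ≤ liminf (fun j => ENNReal.ofReal h * lineInt (uOf μ (g j)) e x) atTop :=
        liminf_le_liminf (Eventually.of_forall hbound)
    _ = ENNReal.ofReal h * lineB μ g e x := by
        rw [ennreal_liminf_const_mul (by simpa using hh) ENNReal.ofReal_ne_top]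
        rfl

lemma U_le_lineB (t : ℝ) : ENNReal.ofReal (uOf μ f (x + t • e)) ≤ lineB μ g e x := by
  have h1 : Tendsto (fun j => ENNReal.ofReal (uOf μ (g j) (x + t • e))) atTop
      (𝓝 (ENNReal.ofReal (uOf μ f (x + t • e)))) :=
    (ENNReal.continuous_ofReal.tendsto _).comp (U_tendsto hA hf hd he hQ t)
  rw [← h1.liminf_eq]
  apply liminf_le_liminf (Eventually.of_forall _)
  intro j
  rw [ofReal_uOf hd (hA.lip j) (hA.int j)]
  exact maxE_le_lineInt hd (hA.lip j) (hA.int j) he x t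

end Good

/-- The dominating function for the limit of the approximating sequence on a line. -/
noncomputable def lineΓ (g : ℕ → E → ℝ) (e x : E) (t : ℝ) : ℝ≥0∞ :=
  btilde (g 0) e (x + t • e) + ∑' j, btilde (hseq g j) e (x + t • e)

lemma measurable_lineΓ (g : ℕ → E → ℝ) (e x : E) : Measurable (lineΓ g e x) := by
  apply Measurable.add
  · exact (measurable_btilde _ _).comp (by fun_prop)
  · apply Measurable.tsum
    intro j
    exact (measurable_btilde _ _).comp (by fun_prop)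

lemma lintegral_lineΓ (g : ℕ → E → ℝ) (e x : E) :
    ∫⁻ t, lineΓ g e x t = lineInt (g 0) e x + ∑' j, lineInt (hseq g j) e x := by
  unfold lineΓ lineInt
  have hm : Measurable (fun t : ℝ => btilde (g 0) e (x + t • e)) :=
    (measurable_btilde _ _).comp (by fun_prop)
  rw [lintegral_add_left hm]
  congr 1
  rw [lintegral_tsum]
  intro j
  have hm' : Measurable (fun t : ℝ => btilde (hseq g j) e (x + t • e)) :=
    (measurable_btilde _ _).comp (by fun_prop)
  exact hm'.aemeasurable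

lemma ApproxSeq.line_g_diff (hA : ApproxSeq μ f G g L) (e x : E) {a b : ℝ} (hab : a ≤ b) (J : ℕ) :
    ENNReal.ofReal |g J (x + b • e) - g J (x + a • e)| ≤ ∫⁻ t in Ioc a b, lineΓ g e x t := by
  have hkey : ∀ J : ℕ, ENNReal.ofReal |g J (x + b • e) - g J (x + a • e)| ≤
      ∫⁻ t in Ioc a b, (btilde (g 0) e (x + t • e) + ∑ i ∈ Finset.range J, btilde (hseq g i) e (x + t • e)) := by
    intro J
    induction J with
    | zero =>
      simp only [Finset.range_zero, Finset.sum_empty, add_zero]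
      exact line_diff_le_Ioc (hA.lip 0) e x hab
    | succ J ih =>
      have h1 := line_diff_le_Ioc (hA.hseq_lip J) e x hab
      have e1 : g (J + 1) (x + b • e) - g (J + 1) (x + a • e) =
          (g J (x + b • e) - g J (x + a • e)) + (hseq g J (x + b • e) - hseq g J (x + a • e)) := by
        simp only [hseq]; ring
      have h2 : ENNReal.ofReal |g (J + 1) (x + b • e) - g (J + 1) (x + a • e)| ≤
          ENNReal.ofReal |g J (x + b • e) - g J (x + a • e)| +
            ENNReal.ofReal |hseq g J (x + b • e) - hseq g J (x + a • e)| := by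
        rw [← ENNReal.ofReal_add (abs_nonneg _) (abs_nonneg _), e1]
        exact ENNReal.ofReal_le_ofReal (abs_add_le _ _)
      refine h2.trans ((add_le_add ih h1).trans (le_of_eq ?_))
      have hm : Measurable (fun t : ℝ => btilde (hseq g J) e (x + t • e)) :=
        (measurable_btilde _ _).comp (by fun_prop)
      rw [← lintegral_add_right _ hm]
      apply lintegral_congr
      intro t
      rw [Finset.sum_range_succ, add_assoc]
  refine (hkey J).trans (lintegral_mono fun t => ?_)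
  simp only [lineΓ]
  exact add_le_add le_rfl (ENNReal.sum_le_tsum _)

section Main

variable (hA : ApproxSeq μ f G g L) (hf : Integrable f μ) (hd : 2 ≤ finrank ℝ E) {e : E} (he : e ≠ 0)
  {x : E} (hQ : lineQ μ g e x < ⊤)

include hA hf hd he hQ in
/-- The structure of the maximal function on a good line. -/
theorem good_line :
    (∀ t : ℝ, maxE μ f (x + t • e) ≠ ⊤) ∧
    (∀ a b, AbsolutelyContinuousOnInterval (fun t : ℝ => uOf μ f (x + t • e)) a b) ∧
    ∫⁻ t : ℝ, ‖deriv (fun t : ℝ => uOf μ f (x + t • e)) t‖ₑ ≤ lineB μ g e x ∧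
    ∀ t : ℝ, ENNReal.ofReal (uOf μ f (x + t • e)) ≤ lineB μ g e x := by
  refine ⟨maxE_f_ne_top hA hf hd he hQ, ?_⟩
  choose 𝔤 h𝔤1 h𝔤2 using limit_exists hA hf hd he hQ
  let F : ℝ → ℝ := fun t => |𝔤 t|
  let U : ℝ → ℝ := fun t => uOf μ f (x + t • e)
  have hFclose : ∀ j t, |(|g j (x + t • e)|) - F t| ≤ tailR μ g e x j := by
    intro j t
    exact (abs_abs_sub_abs_le_abs_sub _ _).trans (h𝔤2 t j)
  have hτ := tendsto_tailR (μ := μ) (g := g) (e := e) (x := x) hQ
  have hlin : ∀ j, LipschitzWith (L j * ‖e‖₊) (fun t : ℝ => g j (x + t • e)) :=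
    fun j => lipschitz_line (hA.lip j) x e
  have hFc : Continuous F := by
    apply continuous_of_close (V := fun j t => |g j (x + t • e)|) (τ := tailR μ g e x)
      (fun j => (hlin j).continuous.abs) _ hτ
    intro j t
    rw [abs_sub_comm]
    exact hFclose j t
  have hUc : Continuous U := by
    apply continuous_of_close (V := fun j t => uOf μ (g j) (x + t • e)) (τ := tailR μ g e x)
      (fun j => (lipschitz_line (uOf_lip hd (hA.lip j) (hA.int j)) x e).continuous) _ hτ
    intro j t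
    exact U_close hA hf hd he hQ j t
  have hle : ∀ t, F t ≤ U t := by
    intro t
    have h1 : Tendsto (fun j => uOf μ f (x + t • e) + 2 * tailR μ g e x j) atTop
        (𝓝 (uOf μ f (x + t • e) + 2 * 0)) := tendsto_const_nhds.add (hτ.const_mul 2)
    rw [mul_zero, add_zero] at h1
    apply ge_of_tendsto h1
    filter_upwards with j
    have h2 := (abs_le.1 (hFclose j t)).1
    have h3 := abs_le_uOf (μ := μ) hd (hA.lip j) (hA.int j) (x + t • e)
    have h4 := (abs_le.1 (U_close hA hf hd he hQ j t)).1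
    linarith
  have hΓ : ∫⁻ t, lineΓ g e x t < ⊤ := by
    rw [lintegral_lineΓ]
    exact ENNReal.add_lt_top.2 ⟨(lineInt_zero_ne_top hQ).lt_top, (tsum_lineInt_ne_top hQ).lt_top⟩
  have hF : ∀ a b, a ≤ b → ENNReal.ofReal |F b - F a| ≤ ∫⁻ t in Ioc a b, lineΓ g e x t := by
    intro a b hab
    have h1 : Tendsto (fun J => ENNReal.ofReal |g J (x + b • e) - g J (x + a • e)|) atTop
        (𝓝 (ENNReal.ofReal |𝔤 b - 𝔤 a|)) :=
      (ENNReal.continuous_ofReal.tendsto _).comp (((h𝔤1 b).sub (h𝔤1 a)).abs)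
    have h2 : ENNReal.ofReal |𝔤 b - 𝔤 a| ≤ ∫⁻ t in Ioc a b, lineΓ g e x t :=
      le_of_tendsto' h1 (fun J => hA.line_g_diff e x hab J)
    exact (ENNReal.ofReal_le_ofReal (abs_abs_sub_abs_le_abs_sub _ _)).trans h2
  have hB : ∀ h : ℝ, 0 < h → ∫⁻ t, ‖U (t + h) - U t‖ₑ ≤ ENNReal.ofReal h * lineB μ g e x :=
    fun h hh => U_diff_bound hA hf hd he hQ hh
  have hmain := ac_of_gap hUc hFc hle (measurable_lineΓ g e x) hΓ hF
    (fun γ hγ => gap_lip_line hA hf hd he hQ hFclose hγ) (lineB_ne_top hQ) hB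
  exact ⟨hmain.1, hmain.2, U_le_lineB hA hf hd he hQ⟩

end Main

end Vale.Agent.Lib.P137



/-! From good lines to global statements. -/

namespace Vale.Agent.Lib.P137

open MeasureTheory Set Filter Topology Metric Module
open scoped ENNReal NNReal RealInnerProductSpace Pointwise

set_option linter.unusedSectionVars false
set_option linter.unusedVariables false

variable {E : Type*} [NormedAddCommGroup E] [InnerProductSpace ℝ E] [FiniteDimensional ℝ E]
  [MeasurableSpace E] [BorelSpace E] {μ : Measure E} [μ.IsAddHaarMeasure]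

variable {f : E → ℝ} {G : E → E} {g : ℕ → E → ℝ} {L : ℕ → ℝ≥0}

lemma lineInt_add_smul (a : E → ℝ) (e x : E) (s : ℝ) : lineInt a e (x + s • e) = lineInt a e x := by
  unfold lineInt
  have h := lintegral_add_left_eq_self (μ := (volume : Measure ℝ)) (fun t : ℝ => btilde a e (x + t • e)) s
  rw [← h]
  apply lintegral_congr
  intro t
  rw [add_smul, add_assoc]

lemma measurable_lineInt (a : E → ℝ) (e : E) : Measurable (lineInt a e) := by
  have h : Measurable (fun r : E × ℝ => btilde a e (r.1 + r.2 • e)) :=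
    (measurable_btilde a e).comp (by fun_prop)
  exact h.lintegral_prod_right'

lemma lineB_add_smul (μ : Measure E) (g : ℕ → E → ℝ) (e x : E) (s : ℝ) :
    lineB μ g e (x + s • e) = lineB μ g e x := by
  unfold lineB
  simp_rw [lineInt_add_smul]

lemma measurable_lineB (μ : Measure E) (g : ℕ → E → ℝ) (e : E) : Measurable (lineB μ g e) :=
  Measurable.liminf (fun j => measurable_lineInt _ e)

lemma lineQ_add_smul (μ : Measure E) (g : ℕ → E → ℝ) (e x : E) (s : ℝ) :
    lineQ μ g e (x + s • e) = lineQ μ g e x := by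
  unfold lineQ
  simp_rw [lineInt_add_smul, lineB_add_smul]

lemma measurable_lineQ (μ : Measure E) (g : ℕ → E → ℝ) (e : E) : Measurable (lineQ μ g e) := by
  unfold lineQ
  apply Measurable.add
  · apply Measurable.add
    · apply Measurable.add (measurable_lineInt _ e)
      exact Measurable.tsum (fun j => measurable_lineInt _ e)
    · exact Measurable.tsum (fun j => measurable_lineInt _ e)
  · exact measurable_lineB μ g e

/-- Integrating along lines. -/
lemma setLIntegral_lineInt_le {Sl : Set E} {e : E}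
    (hSl : ∀ a : E → ℝ≥0∞, Measurable a → ∫⁻ x, a x ∂μ = ∫⁻ x in Sl, (∫⁻ t : ℝ, a (x + t • e)) ∂μ)
    {a : E → ℝ} {K : ℝ≥0} (ha : LipschitzWith K a) :
    ∫⁻ x in Sl, lineInt a e x ∂μ ≤ ‖e‖ₑ * ∫⁻ y, ‖fderiv ℝ a y‖ₑ ∂μ := by
  have h1 := hSl (btilde a e) (measurable_btilde a e)
  unfold lineInt
  rw [← h1]
  exact lintegral_btilde_le μ ha e

lemma ApproxSeq.lintegral_fderiv_le (hA : ApproxSeq μ f G g L) (hG : Integrable G μ) (j : ℕ) :
    ∫⁻ x, ‖fderiv ℝ (g j) x‖ₑ ∂μ ≤ ∫⁻ x, ‖G x‖ₑ ∂μ + ENNReal.ofReal ((1 / 2) ^ j) := by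
  have h1 : ∀ x, ‖fderiv ℝ (g j) x‖ₑ ≤ ‖G x‖ₑ + ‖gradField (g j) x - G x‖ₑ := by
    intro x
    have e1 : ‖fderiv ℝ (g j) x‖ₑ = ‖gradField (g j) x‖ₑ := by
      rw [← ofReal_norm, ← ofReal_norm, norm_gradField]
    rw [e1]
    have e2 : gradField (g j) x = G x + (gradField (g j) x - G x) := by abel
    calc ‖gradField (g j) x‖ₑ = ‖G x + (gradField (g j) x - G x)‖ₑ := by rw [← e2]
      _ ≤ _ := enorm_add_le _ _
  calc ∫⁻ x, ‖fderiv ℝ (g j) x‖ₑ ∂μ
      ≤ ∫⁻ x, (‖G x‖ₑ + ‖gradField (g j) x - G x‖ₑ) ∂μ := lintegral_mono h1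
    _ = ∫⁻ x, ‖G x‖ₑ ∂μ + ∫⁻ x, ‖gradField (g j) x - G x‖ₑ ∂μ :=
        lintegral_add_left' hG.aestronglyMeasurable.enorm _
    _ ≤ _ := add_le_add le_rfl (hA.grad j)

lemma ApproxSeq.lintegral_fderiv_hseq_le (hA : ApproxSeq μ f G g L) (hG : Integrable G μ) (j : ℕ) :
    ∫⁻ x, ‖fderiv ℝ (hseq g j) x‖ₑ ∂μ ≤ ENNReal.ofReal (2 * (1 / 2) ^ j) := by
  have h1 : ∀ x, ‖fderiv ℝ (hseq g j) x‖ₑ ≤
      ‖gradField (g (j + 1)) x - G x‖ₑ + ‖gradField (g j) x - G x‖ₑ := by
    intro x
    have e0 : hseq g j = fun y => g (j + 1) y - g j y := rfl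
    have e1 : fderiv ℝ (hseq g j) x = fderiv ℝ (g (j + 1)) x - fderiv ℝ (g j) x := by
      rw [e0]
      exact fderiv_fun_sub ((hA.diff _) x) ((hA.diff _) x)
    have e2 : ‖fderiv ℝ (hseq g j) x‖ = ‖gradField (g (j + 1)) x - gradField (g j) x‖ := by
      rw [e1]
      simp only [gradField]
      rw [← map_sub, LinearIsometryEquiv.norm_map]
    rw [← ofReal_norm, e2, ofReal_norm]
    have e3 : gradField (g (j + 1)) x - gradField (g j) x =
        (gradField (g (j + 1)) x - G x) - (gradField (g j) x - G x) := by abel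
    rw [e3]
    exact enorm_sub_le
  have hm : Measurable (fun x => ‖gradField (g (j + 1)) x - G x‖ₑ + ‖gradField (g j) x - G x‖ₑ) ∨ True :=
    Or.inr trivial
  have hm1 : AEMeasurable (fun x => ‖gradField (g (j + 1)) x - G x‖ₑ) μ :=
    (((measurable_gradField _).aestronglyMeasurable).sub hG.aestronglyMeasurable).enorm
  calc ∫⁻ x, ‖fderiv ℝ (hseq g j) x‖ₑ ∂μ
      ≤ ∫⁻ x, (‖gradField (g (j + 1)) x - G x‖ₑ + ‖gradField (g j) x - G x‖ₑ) ∂μ := lintegral_mono h1
    _ = ∫⁻ x, ‖gradField (g (j + 1)) x - G x‖ₑ ∂μ + ∫⁻ x, ‖gradField (g j) x - G x‖ₑ ∂μ :=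
        lintegral_add_left' hm1 _
    _ ≤ ENNReal.ofReal ((1 / 2) ^ (j + 1)) + ENNReal.ofReal ((1 / 2) ^ j) :=
        add_le_add (hA.grad _) (hA.grad _)
    _ ≤ ENNReal.ofReal (2 * (1 / 2) ^ j) := by
        rw [← ENNReal.ofReal_add (by positivity) (by positivity)]
        apply ENNReal.ofReal_le_ofReal
        have : ((1 : ℝ) / 2) ^ (j + 1) ≤ (1 / 2) ^ j :=
          pow_le_pow_of_le_one (by norm_num) (by norm_num) (by omega)
        linarith

lemma tsum_two_pow_ne_top : ∑' j : ℕ, ENNReal.ofReal (2 * (1 / 2 : ℝ) ^ j) ≠ ⊤ := by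
  have hs : Summable (fun j : ℕ => 2 * (1 / 2 : ℝ) ^ j) := summable_geometric_two.mul_left 2
  rw [← ENNReal.ofReal_tsum_of_nonneg (fun j => by positivity) hs]
  exact ENNReal.ofReal_ne_top

section Bounds

variable (hA : ApproxSeq μ f G g L) (hG : Integrable G μ) (hd : 2 ≤ finrank ℝ E) {e : E} {Sl : Set E}
  (hSl : ∀ a : E → ℝ≥0∞, Measurable a → ∫⁻ x, a x ∂μ = ∫⁻ x in Sl, (∫⁻ t : ℝ, a (x + t • e)) ∂μ)

include hA hG hd hSl

lemma setLIntegral_lineB_le :
    ∫⁻ x in Sl, lineB μ g e x ∂μ ≤ ‖e‖ₑ * (absConst μ * ∫⁻ x, ‖G x‖ₑ ∂μ) := by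
  unfold lineB
  refine (lintegral_liminf_le (fun j => measurable_lineInt _ e)).trans ?_
  have hb : ∀ j, ∫⁻ x in Sl, lineInt (uOf μ (g j)) e x ∂μ ≤
      ‖e‖ₑ * (absConst μ * (∫⁻ x, ‖G x‖ₑ ∂μ + ENNReal.ofReal ((1 / 2) ^ j))) := by
    intro j
    refine (setLIntegral_lineInt_le hSl (uOf_lip hd (hA.lip j) (hA.int j))).trans ?_
    refine mul_le_mul' le_rfl ?_
    exact (maxE_bound hd (hA.lip j) (hA.int j)).2.2.trans
      (mul_le_mul' le_rfl (hA.lintegral_fderiv_le hG j))
  refine (liminf_le_liminf (Eventually.of_forall hb)).trans (le_of_eq ?_)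
  have hT : Tendsto (fun j : ℕ => ‖e‖ₑ * (absConst μ * (∫⁻ x, ‖G x‖ₑ ∂μ + ENNReal.ofReal ((1 / 2) ^ j))))
      atTop (𝓝 (‖e‖ₑ * (absConst μ * (∫⁻ x, ‖G x‖ₑ ∂μ + 0)))) := by
    apply ENNReal.Tendsto.const_mul _ (Or.inr enorm_ne_top)
    apply ENNReal.Tendsto.const_mul _ (Or.inr (absConst_ne_top hd))
    apply Tendsto.add tendsto_const_nhds
    have h1 : Tendsto (fun j : ℕ => ((1 : ℝ) / 2) ^ j) atTop (𝓝 0) :=
      tendsto_pow_atTop_nhds_zero_of_lt_one (by norm_num) (by norm_num)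
    have h2 : Tendsto (fun j : ℕ => ENNReal.ofReal (((1 : ℝ) / 2) ^ j)) atTop (𝓝 (ENNReal.ofReal 0)) :=
      (ENNReal.continuous_ofReal.tendsto 0).comp h1
    rwa [ENNReal.ofReal_zero] at h2
  rw [hT.liminf_eq, add_zero]

lemma setLIntegral_lineQ_ne_top :
    ∫⁻ x in Sl, lineQ μ g e x ∂μ ≠ ⊤ := by
  have hIG : ∫⁻ x, ‖G x‖ₑ ∂μ ≠ ⊤ := hG.2.ne
  have hC := absConst_ne_top (μ := μ) hd
  have he' : ‖e‖ₑ ≠ ⊤ := enorm_ne_top
  unfold lineQ
  have hm1 : Measurable (lineInt (g 0) e) := measurable_lineInt _ e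
  have hm2 : Measurable (fun x => ∑' j, lineInt (hseq g j) e x) :=
    Measurable.tsum (fun j => measurable_lineInt _ e)
  have hm3 : Measurable (fun x => ∑' j, lineInt (uOf μ (hseq g j)) e x) :=
    Measurable.tsum (fun j => measurable_lineInt _ e)
  have hm12 : Measurable (fun x => lineInt (g 0) e x + ∑' j, lineInt (hseq g j) e x) := hm1.add hm2
  have hm123 : Measurable (fun x => lineInt (g 0) e x + (∑' j, lineInt (hseq g j) e x) +
      ∑' j, lineInt (uOf μ (hseq g j)) e x) := hm12.add hm3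
  rw [lintegral_add_left hm123, lintegral_add_left hm12, lintegral_add_left hm1]
  refine ENNReal.add_ne_top.2 ⟨ENNReal.add_ne_top.2 ⟨ENNReal.add_ne_top.2 ⟨?_, ?_⟩, ?_⟩, ?_⟩
  · refine ne_top_of_le_ne_top ?_ (setLIntegral_lineInt_le hSl (hA.lip 0))
    refine ENNReal.mul_ne_top he' ?_
    exact ne_top_of_le_ne_top (ENNReal.add_ne_top.2 ⟨hIG, ENNReal.ofReal_ne_top⟩) (hA.lintegral_fderiv_le hG 0)
  · rw [lintegral_tsum (fun j => (measurable_lineInt _ e).aemeasurable)]
    have hb : ∀ j, ∫⁻ x in Sl, lineInt (hseq g j) e x ∂μ ≤ ‖e‖ₑ * ENNReal.ofReal (2 * (1 / 2) ^ j) :=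
      fun j => (setLIntegral_lineInt_le hSl (hA.hseq_lip j)).trans
        (mul_le_mul' le_rfl (hA.lintegral_fderiv_hseq_le hG j))
    refine ne_top_of_le_ne_top ?_ (ENNReal.tsum_le_tsum hb)
    rw [ENNReal.tsum_mul_left]
    exact ENNReal.mul_ne_top he' tsum_two_pow_ne_top
  · rw [lintegral_tsum (fun j => (measurable_lineInt _ e).aemeasurable)]
    have hb : ∀ j, ∫⁻ x in Sl, lineInt (uOf μ (hseq g j)) e x ∂μ ≤
        ‖e‖ₑ * (absConst μ * ENNReal.ofReal (2 * (1 / 2) ^ j)) := by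
      intro j
      refine (setLIntegral_lineInt_le hSl (uOf_lip hd (hA.hseq_lip j) (hA.hseq_int j))).trans ?_
      refine mul_le_mul' le_rfl ?_
      exact (maxE_bound hd (hA.hseq_lip j) (hA.hseq_int j)).2.2.trans
        (mul_le_mul' le_rfl (hA.lintegral_fderiv_hseq_le hG j))
    refine ne_top_of_le_ne_top ?_ (ENNReal.tsum_le_tsum hb)
    rw [ENNReal.tsum_mul_left, ENNReal.tsum_mul_left]
    exact ENNReal.mul_ne_top he' (ENNReal.mul_ne_top hC tsum_two_pow_ne_top)
  · refine ne_top_of_le_ne_top ?_ (setLIntegral_lineB_le hA hG hd hSl)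
    exact ENNReal.mul_ne_top he' (ENNReal.mul_ne_top hC hIG)

/-- Almost every line is good. -/
lemma ae_lineQ_lt_top : ∀ᵐ x ∂μ, lineQ μ g e x < ⊤ := by
  classical
  have hm := measurable_lineQ μ g e
  have hfin := setLIntegral_lineQ_ne_top hA hG hd hSl
  have hae : ∀ᵐ x ∂(μ.restrict Sl), lineQ μ g e x < ⊤ := ae_lt_top hm hfin
  let N : Set E := {x | lineQ μ g e x = ⊤}
  have hN : MeasurableSet N := hm (measurableSet_singleton ⊤)
  have h0 : μ N = 0 := by
    rw [← lintegral_indicator_one hN, hSl _ (measurable_one.indicator hN)]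
    apply lintegral_eq_zero_of_ae_eq_zero
    filter_upwards [hae] with x hx
    have : ∀ t : ℝ, N.indicator (1 : E → ℝ≥0∞) (x + t • e) = 0 := by
      intro t
      apply indicator_of_notMem
      show ¬ lineQ μ g e (x + t • e) = ⊤
      rw [lineQ_add_smul]
      exact hx.ne
    simp [this]
  rw [ae_iff]
  refine measure_mono_null ?_ h0
  intro x hx
  simpa [N] using hx

end Bounds

end Vale.Agent.Lib.P137



/-! The weak gradient of the maximal function: directional statements. -/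

namespace Vale.Agent.Lib.P137

open MeasureTheory Set Filter Topology Metric Module
open scoped ENNReal NNReal RealInnerProductSpace Pointwise

set_option linter.unusedSectionVars false
set_option linter.unusedVariables false

variable {E : Type*} [NormedAddCommGroup E] [InnerProductSpace ℝ E] [FiniteDimensional ℝ E]
  [MeasurableSpace E] [BorelSpace E] {μ : Measure E} [μ.IsAddHaarMeasure]

variable {f : E → ℝ} {G : E → E} {g : ℕ → E → ℝ} {L : ℕ → ℝ≥0}

lemma measurable_maxE (μ : Measure E) (f : E → ℝ) : Measurable (maxE μ f) := by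
  apply measurable_of_Ioi
  intro b
  apply IsOpen.measurableSet
  rw [isOpen_iff_mem_nhds]
  intro x hx
  simp only [mem_preimage, mem_Ioi] at hx
  unfold maxE at hx
  simp only [lt_iSup_iff] at hx
  obtain ⟨c, r, hr, hxc, hb⟩ := hx
  filter_upwards [isOpen_ball.mem_nhds hxc] with y hy
  show b < maxE μ f y
  unfold maxE
  simp only [lt_iSup_iff]
  exact ⟨c, r, hr, hy, hb⟩

lemma measurable_uOf (μ : Measure E) (f : E → ℝ) : Measurable (uOf μ f) :=
  (measurable_maxE μ f).ennreal_toReal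

/-- A directional derivative along lines, defined everywhere. -/
noncomputable def Hdir (μ : Measure E) (f : E → ℝ) (e x : E) : ℝ :=
  limsup (fun n : ℕ => ((n : ℝ) + 1) * (uOf μ f (x + (1 / ((n : ℝ) + 1)) • e) - uOf μ f x)) atTop

lemma measurable_Hdir (μ : Measure E) (f : E → ℝ) (e : E) : Measurable (Hdir μ f e) := by
  apply Measurable.limsup
  intro n
  have h0 := measurable_uOf μ f
  have h1 : Measurable (fun x : E => x + (1 / ((n : ℝ) + 1)) • e) := by fun_prop
  have h2 : Measurable (fun x : E => uOf μ f (x + (1 / ((n : ℝ) + 1)) • e)) := h0.comp h1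
  exact (h2.sub h0).const_mul _

lemma Hdir_eq_deriv {x e : E} {t : ℝ}
    (h : DifferentiableAt ℝ (fun t : ℝ => uOf μ f (x + t • e)) t) :
    Hdir μ f e (x + t • e) = deriv (fun t : ℝ => uOf μ f (x + t • e)) t := by
  have h1 := tendsto_diff_quot h
  unfold Hdir
  have e1 : ∀ n : ℕ, ((n : ℝ) + 1) * (uOf μ f (x + t • e + (1 / ((n : ℝ) + 1)) • e) -
      uOf μ f (x + t • e)) = ((n : ℝ) + 1) * (uOf μ f (x + (t + 1 / ((n : ℝ) + 1)) • e) -
      uOf μ f (x + t • e)) := by
    intro n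
    rw [add_smul, add_assoc]
  simp_rw [e1]
  exact h1.limsup_eq

lemma ae_differentiable_of_ac {U : ℝ → ℝ} (h : ∀ a b, AbsolutelyContinuousOnInterval U a b) :
    ∀ᵐ t, DifferentiableAt ℝ U t := by
  have h1 : ∀ n : ℕ, ∀ᵐ t, t ∈ uIcc (-(n : ℝ)) n → DifferentiableAt ℝ U t :=
    fun n => (h _ _).ae_differentiableAt
  filter_upwards [ae_all_iff.2 h1] with t ht
  obtain ⟨n, hn⟩ := exists_nat_ge |t|
  apply ht n
  have hn0 : (0 : ℝ) ≤ n := Nat.cast_nonneg n
  rw [uIcc_of_le (by linarith)]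
  exact abs_le.1 hn

/-- Integration by parts on the line. -/
lemma line_ibp {U ψ : ℝ → ℝ} (hU : ∀ a b, AbsolutelyContinuousOnInterval U a b)
    (hψ : ContDiff ℝ 1 ψ) (hψc : HasCompactSupport ψ) :
    ∫ t, U t * deriv ψ t = - ∫ t, deriv U t * ψ t := by
  obtain ⟨R, hR⟩ := hψc.isCompact.isBounded.subset_closedBall (0 : ℝ)
  set T := |R| + 1 with hT
  have hTpos : 0 < T := by positivity
  have hout : ∀ t, T ≤ |t| → t ∉ tsupport ψ := by
    intro t ht hmem
    have h1 := hR hmem
    rw [mem_closedBall, Real.dist_eq, sub_zero] at h1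
    have h2 := le_abs_self R
    linarith
  have hψAC : AbsolutelyContinuousOnInterval ψ (-T) T :=
    (hψ.contDiffOn).absolutelyContinuousOnInterval
  have h := (hU (-T) T).integral_mul_deriv_eq_deriv_mul hψAC
  have h1 : ψ T = 0 := image_eq_zero_of_notMem_tsupport (hout T (by rw [abs_of_pos hTpos]))
  have h2 : ψ (-T) = 0 := image_eq_zero_of_notMem_tsupport (hout (-T) (by
    rw [abs_neg, abs_of_pos hTpos]))
  rw [h1, h2, mul_zero, mul_zero, sub_zero, zero_sub] at h
  have hin : ∀ t, t ∉ Ioc (-T) T → T ≤ |t| := by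
    intro t ht
    by_contra hcon
    push Not at hcon
    have h3 := abs_lt.1 hcon
    exact ht ⟨h3.1, h3.2.le⟩
  have e1 : ∫ t, U t * deriv ψ t = ∫ t in (-T)..T, U t * deriv ψ t := by
    symm
    apply intervalIntegral.integral_eq_integral_of_support_subset
    intro t ht
    by_contra hcon
    apply ht
    have h3 : t ∉ tsupport ψ := hout t (hin t hcon)
    have h4 : deriv ψ t = 0 := by
      by_contra h5
      exact h3 (support_deriv_subset h5)
    simp [h4]
  have e2 : ∫ t, deriv U t * ψ t = ∫ t in (-T)..T, deriv U t * ψ t := by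
    symm
    apply intervalIntegral.integral_eq_integral_of_support_subset
    intro t ht
    by_contra hcon
    apply ht
    have h3 : t ∉ tsupport ψ := hout t (hin t hcon)
    have h4 : ψ t = 0 := image_eq_zero_of_notMem_tsupport h3
    simp [h4]
  rw [e1, e2, h]

/-- The test function restricted to a line. -/
lemma hasDerivAt_line {φ : E → ℝ} (hφ : Differentiable ℝ φ) (x e : E) (t : ℝ) :
    HasDerivAt (fun t : ℝ => φ (x + t • e)) (fderiv ℝ φ (x + t • e) e) t := by
  have h1 : HasDerivAt (fun t : ℝ => x + t • e) e t := by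
    have h2 : HasDerivAt (fun t : ℝ => t • e) ((1 : ℝ) • e) t := (hasDerivAt_id t).smul_const e
    rw [one_smul] at h2
    exact h2.const_add x
  exact ((hφ (x + t • e)).hasFDerivAt).comp_hasDerivAt t h1

lemma line_contDiff {φ : E → ℝ} (hφ : ContDiff ℝ 1 φ) (x e : E) :
    ContDiff ℝ 1 (fun t : ℝ => φ (x + t • e)) :=
  hφ.comp (contDiff_const.add (contDiff_id.smul contDiff_const))

lemma line_compact {φ : E → ℝ} (hφc : HasCompactSupport φ) (x : E) {e : E} (he : e ≠ 0) :
    HasCompactSupport (fun t : ℝ => φ (x + t • e)) := by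
  obtain ⟨R, hR⟩ := hφc.isCompact.isBounded.subset_closedBall (0 : E)
  have hn : 0 < ‖e‖ := norm_pos_iff.2 he
  apply HasCompactSupport.intro (isCompact_Icc (a := -((R + ‖x‖) / ‖e‖)) (b := (R + ‖x‖) / ‖e‖))
  intro t ht
  apply image_eq_zero_of_notMem_tsupport
  intro hmem
  have h1 := hR hmem
  rw [mem_closedBall, dist_zero_right] at h1
  apply ht
  have h2 : ‖t • e‖ ≤ ‖x + t • e‖ + ‖x‖ := by
    have h3 : t • e = (x + t • e) - x := by abel
    calc ‖t • e‖ = ‖(x + t • e) - x‖ := by rw [← h3]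
      _ ≤ _ := norm_sub_le _ _
  rw [norm_smul, Real.norm_eq_abs] at h2
  have h4 : |t| ≤ (R + ‖x‖) / ‖e‖ := by
    rw [le_div_iff₀ hn]
    linarith
  exact abs_le.1 h4

/-- The volume of the part of a line in a ball. -/
lemma volume_line_ball_le (x : E) {e : E} (he : e ≠ 0) (R : ℝ) :
    volume {t : ℝ | x + t • e ∈ ball (0 : E) R} ≤ ENNReal.ofReal (2 * R / ‖e‖) := by
  have hn : 0 < ‖e‖ := norm_pos_iff.2 he
  refine (Real.volume_le_diam _).trans ?_
  apply Metric.ediam_le
  intro t ht s hs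
  simp only [mem_ofPred_eq, mem_ball, dist_zero_right] at ht hs
  rw [edist_dist, Real.dist_eq]
  apply ENNReal.ofReal_le_ofReal
  rw [le_div_iff₀ hn]
  have h1 : (t - s) • e = (x + t • e) - (x + s • e) := by
    rw [sub_smul]; abel
  have h2 : ‖(t - s) • e‖ ≤ ‖x + t • e‖ + ‖x + s • e‖ := by
    rw [h1]; exact norm_sub_le _ _
  rw [norm_smul, Real.norm_eq_abs] at h2
  linarith

section Dir

variable (hA : ApproxSeq μ f G g L) (hf : Integrable f μ) (hG : Integrable G μ)
  (hd : 2 ≤ finrank ℝ E) {e : E} (he : e ≠ 0) {Sl : Set E}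
  (hSl : ∀ a : E → ℝ≥0∞, Measurable a → ∫⁻ x, a x ∂μ = ∫⁻ x in Sl, (∫⁻ t : ℝ, a (x + t • e)) ∂μ)

include hA hf hG hd he hSl

lemma lintegral_Hdir_le :
    ∫⁻ x, ‖Hdir μ f e x‖ₑ ∂μ ≤ ‖e‖ₑ * (absConst μ * ∫⁻ x, ‖G x‖ₑ ∂μ) := by
  have hm : Measurable (fun x => ‖Hdir μ f e x‖ₑ) := (measurable_Hdir μ f e).enorm
  rw [hSl _ hm]
  refine le_trans ?_ (setLIntegral_lineB_le hA hG hd hSl)
  apply lintegral_mono_ae
  filter_upwards [ae_restrict_of_ae (ae_lineQ_lt_top hA hG hd hSl)] with x hx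
  obtain ⟨-, hAC, hB, -⟩ := good_line hA hf hd he hx
  refine le_trans (le_of_eq ?_) hB
  apply lintegral_congr_ae
  filter_upwards [ae_differentiable_of_ac hAC] with t ht
  rw [Hdir_eq_deriv ht]

lemma ae_maxE_and_le : ∀ᵐ x ∂μ, maxE μ f x ≠ ⊤ ∧ ENNReal.ofReal (uOf μ f x) ≤ lineB μ g e x := by
  filter_upwards [ae_lineQ_lt_top hA hG hd hSl] with x hx
  obtain ⟨h1, -, -, h2⟩ := good_line hA hf hd he hx
  have h3 := h1 0
  have h4 := h2 0
  simp only [zero_smul, add_zero] at h3 h4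
  exact ⟨h3, h4⟩

lemma setLIntegral_ball_lineB_le (R : ℝ) :
    ∫⁻ y in ball (0 : E) R, lineB μ g e y ∂μ ≤
      ENNReal.ofReal (2 * R / ‖e‖) * ∫⁻ x in Sl, lineB μ g e x ∂μ := by
  have hm : Measurable ((ball (0 : E) R).indicator (lineB μ g e)) :=
    (measurable_lineB μ g e).indicator measurableSet_ball
  rw [← lintegral_indicator measurableSet_ball, hSl _ hm,
    ← lintegral_const_mul _ (measurable_lineB μ g e)]
  apply lintegral_mono
  intro x
  have hset : MeasurableSet {t : ℝ | x + t • e ∈ ball (0 : E) R} := by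
    have h1 : Measurable (fun t : ℝ => x + t • e) := by fun_prop
    exact h1 measurableSet_ball
  have h1 : ∀ t : ℝ, (ball (0 : E) R).indicator (lineB μ g e) (x + t • e) =
      {t : ℝ | x + t • e ∈ ball (0 : E) R}.indicator (fun _ => lineB μ g e x) t := by
    intro t
    by_cases h : x + t • e ∈ ball (0 : E) R
    · rw [indicator_of_mem h, indicator_of_mem (show t ∈ {t : ℝ | x + t • e ∈ ball (0 : E) R} from h),
        lineB_add_smul]
    · rw [indicator_of_notMem h,
        indicator_of_notMem (show t ∉ {t : ℝ | x + t • e ∈ ball (0 : E) R} from h)]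
  simp_rw [h1]
  rw [lintegral_indicator_const hset, mul_comm]
  exact mul_le_mul' (volume_line_ball_le x he R) le_rfl

lemma locallyIntegrable_uOf : LocallyIntegrable (uOf μ f) μ := by
  rw [locallyIntegrable_iff]
  intro K hK
  obtain ⟨R, hR⟩ := hK.isBounded.subset_ball (0 : E)
  refine ⟨(measurable_uOf μ f).aestronglyMeasurable, ?_⟩
  have h1 : ∫⁻ x in K, ‖uOf μ f x‖ₑ ∂μ ≤ ∫⁻ x in ball (0 : E) R, ‖uOf μ f x‖ₑ ∂μ :=
    lintegral_mono_set hR
  have h2 : ∫⁻ x in ball (0 : E) R, ‖uOf μ f x‖ₑ ∂μ ≤ ∫⁻ x in ball (0 : E) R, lineB μ g e x ∂μ := by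
    apply lintegral_mono_ae
    filter_upwards [ae_restrict_of_ae (ae_maxE_and_le hA hf hG hd he hSl)] with x hx
    have h0 : 0 ≤ uOf μ f x := ENNReal.toReal_nonneg
    rw [Real.enorm_eq_ofReal h0]
    exact hx.2
  have h3 := setLIntegral_ball_lineB_le hA hf hG hd he hSl R
  have h4 := setLIntegral_lineB_le hA hG hd hSl
  have hfin : ‖e‖ₑ * (absConst μ * ∫⁻ x, ‖G x‖ₑ ∂μ) ≠ ⊤ :=
    ENNReal.mul_ne_top enorm_ne_top (ENNReal.mul_ne_top (absConst_ne_top hd) hG.2.ne)
  have h5 : ENNReal.ofReal (2 * R / ‖e‖) * ∫⁻ x in Sl, lineB μ g e x ∂μ ≠ ⊤ :=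
    ENNReal.mul_ne_top ENNReal.ofReal_ne_top (ne_top_of_le_ne_top hfin h4)
  exact lt_of_le_of_lt (h1.trans (h2.trans h3)) h5.lt_top

end Dir

section Slab

variable {e : E} {Sl : Set E}
  (hSl : ∀ a : E → ℝ≥0∞, Measurable a → ∫⁻ x, a x ∂μ = ∫⁻ x in Sl, (∫⁻ t : ℝ, a (x + t • e)) ∂μ)

include hSl

lemma map_slab :
    Measure.map (fun p : E × ℝ => p.1 + p.2 • e) ((μ.restrict Sl).prod (volume : Measure ℝ)) = μ := by
  have hΦ : Measurable (fun p : E × ℝ => p.1 + p.2 • e) := by fun_prop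
  ext s hs
  rw [Measure.map_apply hΦ hs, Measure.prod_apply (hΦ hs)]
  rw [← lintegral_indicator_one hs, hSl _ (measurable_one.indicator hs)]
  apply lintegral_congr
  intro x
  have h0 : MeasurableSet (Prod.mk x ⁻¹' ((fun p : E × ℝ => p.1 + p.2 • e) ⁻¹' s)) :=
    measurable_prodMk_left (hΦ hs)
  rw [← lintegral_indicator_one h0]
  apply lintegral_congr
  intro t
  by_cases h : x + t • e ∈ s
  · rw [indicator_of_mem h, indicator_of_mem (show t ∈ Prod.mk x ⁻¹' ((fun p : E × ℝ => p.1 + p.2 • e) ⁻¹' s) from h)]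
    rfl
  · rw [indicator_of_notMem h, indicator_of_notMem (show t ∉ Prod.mk x ⁻¹' ((fun p : E × ℝ => p.1 + p.2 • e) ⁻¹' s) from h)]

lemma integral_slab {a : E → ℝ} (ha : Integrable a μ) (hm : Measurable a) :
    ∫ x, a x ∂μ = ∫ x in Sl, (∫ t : ℝ, a (x + t • e)) ∂μ := by
  have hΦ : Measurable (fun p : E × ℝ => p.1 + p.2 • e) := by fun_prop
  have hmap := map_slab hSl
  have hI : Integrable (fun p : E × ℝ => a (p.1 + p.2 • e)) ((μ.restrict Sl).prod volume) := by
    have h1 : Integrable a (Measure.map (fun p : E × ℝ => p.1 + p.2 • e)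
        ((μ.restrict Sl).prod (volume : Measure ℝ))) := by rwa [hmap]
    exact h1.comp_measurable hΦ
  conv_lhs => rw [← hmap]
  rw [integral_map hΦ.aemeasurable hm.aestronglyMeasurable, integral_prod _ hI]

end Slab

section Weak

variable (hA : ApproxSeq μ f G g L) (hf : Integrable f μ) (hG : Integrable G μ)
  (hd : 2 ≤ finrank ℝ E) {e : E} (he : e ≠ 0) {Sl : Set E}
  (hSl : ∀ a : E → ℝ≥0∞, Measurable a → ∫⁻ x, a x ∂μ = ∫⁻ x in Sl, (∫⁻ t : ℝ, a (x + t • e)) ∂μ)

include hA hf hG hd he hSl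

theorem weak_dir {φ : E → ℝ} (hφ : ContDiff ℝ ((⊤ : ℕ∞) : WithTop ℕ∞) φ)
    (hφc : HasCompactSupport φ) (hloc : LocallyIntegrable (uOf μ f) μ)
    (hH : Integrable (Hdir μ f e) μ) :
    ∫ x, uOf μ f x * fderiv ℝ φ x e ∂μ = - ∫ x, Hdir μ f e x * φ x ∂μ := by
  have hφ1 : ContDiff ℝ 1 φ := hφ.of_le (by exact_mod_cast le_top)
  have hφd : Differentiable ℝ φ := hφ1.differentiable (by norm_num)
  have hcont1 : Continuous (fun x => fderiv ℝ φ x e) :=
    (hφ1.continuous_fderiv (by norm_num)).clm_apply continuous_const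
  have hcs1 : HasCompactSupport (fun x => fderiv ℝ φ x e) := hφc.fderiv_apply ℝ e
  have hI1 : Integrable (fun x => uOf μ f x * fderiv ℝ φ x e) μ := by
    have h1 := hloc.integrable_smul_right_of_hasCompactSupport hcont1 hcs1
    simpa [smul_eq_mul, mul_comm] using h1
  have hφb : ∃ C, ∀ x, ‖φ x‖ ≤ C := hφc.exists_bound_of_continuous hφ.continuous
  obtain ⟨C, hC⟩ := hφb
  have hI2 : Integrable (fun x => Hdir μ f e x * φ x) μ :=
    hH.mul_bdd (c := C) hφ.continuous.aestronglyMeasurable (Eventually.of_forall hC)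
  have hm1 : Measurable (fun x => uOf μ f x * fderiv ℝ φ x e) :=
    (measurable_uOf μ f).mul hcont1.measurable
  have hm2 : Measurable (fun x => Hdir μ f e x * φ x) :=
    (measurable_Hdir μ f e).mul hφ.continuous.measurable
  rw [integral_slab hSl hI1 hm1, integral_slab hSl hI2 hm2, ← integral_neg]
  apply integral_congr_ae
  filter_upwards [ae_restrict_of_ae (ae_lineQ_lt_top hA hG hd hSl)] with x hx
  obtain ⟨-, hAC, -, -⟩ := good_line hA hf hd he hx
  have hD : ∀ t, deriv (fun t : ℝ => φ (x + t • e)) t = fderiv ℝ φ (x + t • e) e :=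
    fun t => (hasDerivAt_line hφd x e t).deriv
  have hibp := line_ibp hAC (line_contDiff hφ1 x e) (line_compact hφc x he)
  simp_rw [hD] at hibp
  rw [hibp]
  congr 1
  apply integral_congr_ae
  filter_upwards [ae_differentiable_of_ac hAC] with t ht
  rw [Hdir_eq_deriv ht]

end Weak

end Vale.Agent.Lib.P137



/-! The weak gradient of the maximal function. -/

namespace Vale.Agent.Lib.P137

open MeasureTheory Set Filter Topology Metric Module
open scoped ENNReal NNReal RealInnerProductSpace Pointwise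

set_option linter.unusedSectionVars false
set_option linter.unusedVariables false

variable {E : Type*} [NormedAddCommGroup E] [InnerProductSpace ℝ E] [FiniteDimensional ℝ E]
  [MeasurableSpace E] [BorelSpace E] {μ : Measure E} [μ.IsAddHaarMeasure]

variable {f : E → ℝ} {G : E → E}

lemma integrable_mul_dir {u : E → ℝ} (hu : LocallyIntegrable u μ) {φ : E → ℝ}
    (hφ1 : ContDiff ℝ 1 φ) (hφc : HasCompactSupport φ) (e : E) :
    Integrable (fun x => u x * fderiv ℝ φ x e) μ := by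
  have hcont1 : Continuous (fun x => fderiv ℝ φ x e) :=
    (hφ1.continuous_fderiv (by norm_num)).clm_apply continuous_const
  have hcs1 : HasCompactSupport (fun x => fderiv ℝ φ x e) := hφc.fderiv_apply ℝ e
  have h1 := hu.integrable_smul_right_of_hasCompactSupport hcont1 hcs1
  simpa [smul_eq_mul, mul_comm] using h1

lemma integrable_mul_test {H : E → ℝ} (hH : Integrable H μ) {φ : E → ℝ}
    (hφ : Continuous φ) (hφc : HasCompactSupport φ) : Integrable (fun x => H x * φ x) μ := by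
  obtain ⟨C, hC⟩ : ∃ C, ∀ x, ‖φ x‖ ≤ C := hφc.exists_bound_of_continuous hφ
  exact hH.mul_bdd (c := C) hφ.aestronglyMeasurable (Eventually.of_forall hC)

/-- The candidate weak gradient. -/
noncomputable def fullGrad (μ : Measure E) (f : E → ℝ) (x : E) : E :=
  ∑ i, Hdir μ f (stdOrthonormalBasis ℝ E i) x • stdOrthonormalBasis ℝ E i

/-- The main theorem, for a general Haar measure. -/
theorem sobolev_main (hd : 2 ≤ finrank ℝ E) (hf : Integrable f μ) (hG : Integrable G μ)
    (hw : IsWeakGrad μ f G) :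
    (∀ᵐ x ∂μ, maxE μ f x ≠ ⊤) ∧ LocallyIntegrable (uOf μ f) μ ∧
    ∃ H : E → E, Integrable H μ ∧ IsWeakGrad μ (uOf μ f) H ∧
      ∫⁻ x, ‖H x‖ₑ ∂μ ≤ (finrank ℝ E : ℝ≥0∞) * absConst μ * ∫⁻ x, ‖G x‖ₑ ∂μ := by
  classical
  have hnt : Nontrivial E := Module.nontrivial_of_finrank_pos (R := ℝ) (by omega)
  obtain ⟨g, L, hA⟩ := exists_approxSeq hf hG hw
  set b := stdOrthonormalBasis ℝ E with hb
  have hbne : ∀ i, b i ≠ 0 := fun i => b.orthonormal.ne_zero i
  have hbn : ∀ i, ‖b i‖ = 1 := fun i => b.orthonormal.norm_eq_one i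
  have hbnorm : ∀ i, ‖b i‖ₑ = 1 := by
    intro i
    rw [← ofReal_norm, hbn i, ENNReal.ofReal_one]
  choose Sl hSlm hSl using fun i => exists_slab μ (hbne i)
  have hpos : 0 < finrank ℝ E := by omega
  let i₀ : Fin (finrank ℝ E) := ⟨0, hpos⟩
  have hae := ae_maxE_and_le hA hf hG hd (hbne i₀) (hSl i₀)
  have hloc := locallyIntegrable_uOf hA hf hG hd (hbne i₀) (hSl i₀)
  have hHle : ∀ i, ∫⁻ x, ‖Hdir μ f (b i) x‖ₑ ∂μ ≤ absConst μ * ∫⁻ x, ‖G x‖ₑ ∂μ := by
    intro i
    have h := lintegral_Hdir_le hA hf hG hd (hbne i) (hSl i)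
    rwa [hbnorm, one_mul] at h
  have hfin : absConst μ * ∫⁻ x, ‖G x‖ₑ ∂μ < ⊤ :=
    (ENNReal.mul_ne_top (absConst_ne_top hd) hG.2.ne).lt_top
  have hHint : ∀ i, Integrable (Hdir μ f (b i)) μ :=
    fun i => ⟨(measurable_Hdir μ f (b i)).aestronglyMeasurable, (hHle i).trans_lt hfin⟩
  refine ⟨hae.mono (fun x hx => hx.1), hloc, fullGrad μ f, ?_, ?_, ?_⟩
  · have h1 : Integrable (fun x => ∑ i, Hdir μ f (b i) x • b i) μ :=
      integrable_finsetSum _ (fun i _ => (hHint i).smul_const _)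
    exact h1
  · intro φ hφ hφc w
    have hφ1 : ContDiff ℝ 1 φ := hφ.of_le (by exact_mod_cast le_top)
    have h1 : ∀ x, uOf μ f x * fderiv ℝ φ x w =
        ∑ i, ⟪b i, w⟫ * (uOf μ f x * fderiv ℝ φ x (b i)) := by
      intro x
      have h3 : fderiv ℝ φ x w = ∑ i, ⟪b i, w⟫ * fderiv ℝ φ x (b i) := by
        conv_lhs => rw [← b.sum_repr' w]
        rw [map_sum]
        simp only [map_smul, smul_eq_mul]
      rw [h3, Finset.mul_sum]
      refine Finset.sum_congr rfl (fun i _ => ?_)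
      ring
    have h2 : ∀ x, ⟪fullGrad μ f x, w⟫ * φ x = ∑ i, ⟪b i, w⟫ * (Hdir μ f (b i) x * φ x) := by
      intro x
      have h3 : ⟪fullGrad μ f x, w⟫ = ∑ i, Hdir μ f (b i) x * ⟪b i, w⟫ := by
        unfold fullGrad
        rw [sum_inner]
        refine Finset.sum_congr rfl (fun i _ => ?_)
        rw [real_inner_smul_left]
      rw [h3, Finset.sum_mul]
      refine Finset.sum_congr rfl (fun i _ => ?_)
      ring
    simp_rw [h1, h2]
    rw [integral_finsetSum _ (fun i _ => (integrable_mul_dir hloc hφ1 hφc (b i)).const_mul _),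
      integral_finsetSum _ (fun i _ => (integrable_mul_test (hHint i) hφ.continuous hφc).const_mul _),
      ← Finset.sum_neg_distrib]
    refine Finset.sum_congr rfl (fun i _ => ?_)
    rw [integral_const_mul, integral_const_mul,
      weak_dir hA hf hG hd (hbne i) (hSl i) hφ hφc hloc (hHint i)]
    ring
  · have h1 : ∀ x, ‖fullGrad μ f x‖ₑ ≤ ∑ i, ‖Hdir μ f (b i) x‖ₑ := by
      intro x
      unfold fullGrad
      refine (enorm_sum_le _ _).trans (le_of_eq ?_)
      refine Finset.sum_congr rfl (fun i _ => ?_)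
      rw [enorm_smul, hbnorm, mul_one]
    calc ∫⁻ x, ‖fullGrad μ f x‖ₑ ∂μ ≤ ∫⁻ x, ∑ i, ‖Hdir μ f (b i) x‖ₑ ∂μ := lintegral_mono h1
      _ = ∑ i, ∫⁻ x, ‖Hdir μ f (b i) x‖ₑ ∂μ :=
          lintegral_finsetSum _ (fun i _ => (measurable_Hdir μ f (b i)).enorm)
      _ ≤ ∑ i : Fin (finrank ℝ E), (absConst μ * ∫⁻ x, ‖G x‖ₑ ∂μ) :=
          Finset.sum_le_sum (fun i _ => hHle i)
      _ = _ := by
          rw [Finset.sum_const, Finset.card_univ, Fintype.card_fin, nsmul_eq_mul, mul_assoc]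

end Vale.Agent.Lib.P137

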